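import Mathlib
import Crest.Prelude.Def_AsymptoticConvexity
import Crest.Prelude.Def_Diamond

/-! General tools on closed finite-codimensional subspaces, a criterion excluding asymptotically
uniformly convex renormings, and consequences of a midpoint inequality. -/

set_option autoImplicit false

namespace Crest.Agent.H8.AUC

open Crest.AnalysisR Filter Topology

/-- The record attached to a Banach space. -/
abbrev RB (X : Type) [NormedAddCommGroup X] [NormedSpace ℝ X] [CompleteSpace X] : RealBanach :=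
  ⟨X, inferInstance, inferInstance, inferInstance⟩

variable {X : Type} [NormedAddCommGroup X] [NormedSpace ℝ X]

/-- Closed subspaces of finite codimension. -/
def Cof (F : Set X) : Prop :=
  ∃ S : Submodule ℝ X, (S : Set X) = F ∧ IsClosed F ∧ FiniteDimensional ℝ (X ⧸ S)

theorem Cof.smul_mem {F : Set X} (hF : Cof F) {y : X} (hy : y ∈ F) (c : ℝ) : c • y ∈ F := by
  obtain ⟨S, rfl, -, -⟩ := hF
  exact S.smul_mem c hy

theorem cof_ker {V : Type*} [NormedAddCommGroup V] [NormedSpace ℝ V] [FiniteDimensional ℝ V]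
    (T : X →L[ℝ] V) : Cof {x | T x = 0} := by
  refine ⟨LinearMap.ker (T : X →ₗ[ℝ] V), rfl, isClosed_eq T.continuous continuous_const, ?_⟩
  exact LinearEquiv.finiteDimensional (LinearMap.quotKerEquivRange (T : X →ₗ[ℝ] V)).symm

theorem cof_forall {ι : Type*} [Finite ι] (φ : ι → X →L[ℝ] ℝ) : Cof {x | ∀ i, φ i x = 0} := by
  cases nonempty_fintype ι
  have := cof_ker (ContinuousLinearMap.pi φ)
  convert this using 3 with x
  simp [funext_iff]

theorem Cof.data {F : Set X} (hF : Cof F) : ∃ (m : ℕ) (T : X →L[ℝ] EuclideanSpace ℝ (Fin m))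
    (C : ℝ), 0 < C ∧ ∀ x η, C * ‖T x‖ < η → ∃ y ∈ F, ‖x - y‖ < η := by
  obtain ⟨S, rfl, hc, hfd⟩ := hF
  have : IsClosed (S : Set X) := hc
  let e := toEuclidean (E := X ⧸ S)
  let q : X →L[ℝ] X ⧸ S := S.mkQ.mkContinuous 1 fun x => by
    simpa using Submodule.Quotient.norm_mk_le S x
  refine ⟨_, e.toContinuousLinearMap.comp q, ‖e.symm.toContinuousLinearMap‖ + 1, by positivity, ?_⟩
  intro x η h
  have h1 : ‖q x‖ ≤ ‖e.symm.toContinuousLinearMap‖ * ‖e (q x)‖ := by
    simpa using e.symm.toContinuousLinearMap.le_opNorm (e (q x))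
  have h2 : ‖q x‖ < η := by
    have : ‖(e.toContinuousLinearMap.comp q) x‖ = ‖e (q x)‖ := rfl
    rw [this] at h
    nlinarith [norm_nonneg (e (q x))]
  obtain ⟨m, hm, hm'⟩ := Submodule.Quotient.norm_mk_lt (q x) (sub_pos.2 h2)
  refine ⟨x - m, ?_, by simpa using hm'⟩
  have : (Submodule.Quotient.mk x : X ⧸ S) = Submodule.Quotient.mk m := hm.symm
  exact (Submodule.Quotient.eq S).1 this

/-- A sequence whose finite sums have square-root growth comes close to every `F`. -/
theorem near_of_sqrt (z : ℕ → X) (K : ℝ) (hz : ∀ A : Finset ℕ, ‖∑ n ∈ A, z n‖ ≤ K * √(A.card))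
    {F : Set X} (hF : Cof F) {η : ℝ} (hη : 0 < η) : ∃ n, ∃ y ∈ F, ‖z n - y‖ < η := by
  obtain ⟨m, T, C, hC, h⟩ := hF.data
  by_contra hcon
  set γ := η / C with hγ
  have hγ0 : 0 < γ := by positivity
  have h1 : ∀ n, γ ≤ ‖T (z n)‖ := by
    intro n
    by_contra h2
    refine hcon ⟨n, h _ _ ?_⟩
    rw [not_le, hγ, lt_div_iff₀ hC] at h2
    linarith
  have hK : 0 ≤ K := by
    have := hz {0}
    simp only [Finset.sum_singleton, Finset.card_singleton, Nat.cast_one, Real.sqrt_one,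
      mul_one] at this
    exact (norm_nonneg _).trans this
  have h2 : ∀ n, T (z n) ∈ Metric.closedBall (0 : EuclideanSpace ℝ (Fin m)) (‖T‖ * K) := by
    intro n
    have := hz {n}
    simp only [Finset.sum_singleton, Finset.card_singleton, Nat.cast_one, Real.sqrt_one,
      mul_one] at this
    rw [mem_closedBall_zero_iff]
    exact (T.le_opNorm _).trans (by gcongr)
  obtain ⟨a, -, φ, hφ, hlim⟩ := tendsto_subseq_of_bounded Metric.isBounded_closedBall h2
  have ha : γ ≤ ‖a‖ := ge_of_tendsto' hlim.norm fun n => h1 _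
  obtain ⟨N, hN⟩ := (Metric.tendsto_atTop.1 hlim) (γ / 2) (by positivity)
  obtain ⟨k, hk⟩ := exists_nat_gt ((2 * ‖T‖ * K / γ) ^ 2)
  have hk0 : (0 : ℝ) < k := lt_of_le_of_lt (sq_nonneg _) hk
  have hinj : Function.Injective fun i => φ (N + i) := fun i j hij => by
    simpa using hφ.injective hij
  have h3 := hz ((Finset.range k).map ⟨_, hinj⟩)
  rw [Finset.sum_map, Finset.card_map, Finset.card_range] at h3
  simp only [Function.Embedding.coeFn_mk] at h3
  have h4 : ‖∑ i ∈ Finset.range k, (T (z (φ (N + i))) - a)‖ ≤ k * (γ / 2) := by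
    refine (norm_sum_le _ _).trans ?_
    calc _ ≤ ∑ i ∈ Finset.range k, γ / 2 := Finset.sum_le_sum fun i _ => by
          have := hN (N + i) (Nat.le_add_right _ _)
          rw [dist_eq_norm] at this
          exact this.le
      _ = _ := by simp
  rw [Finset.sum_sub_distrib, ← map_sum, Finset.sum_const, Finset.card_range,
    ← Nat.cast_smul_eq_nsmul ℝ] at h4
  have h5 : ‖(k : ℝ) • a‖ ≤ ‖T (∑ i ∈ Finset.range k, z (φ (N + i)))‖ + k * (γ / 2) := by
    have := norm_sub_norm_le ((k : ℝ) • a) (T (∑ i ∈ Finset.range k, z (φ (N + i))))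
    rw [norm_sub_rev] at this
    linarith
  rw [norm_smul, Real.norm_natCast] at h5
  have h6 : ‖T (∑ i ∈ Finset.range k, z (φ (N + i)))‖ ≤ ‖T‖ * (K * √k) :=
    (T.le_opNorm _).trans (by gcongr)
  have h7 : 2 * ‖T‖ * K / γ < √k := Real.lt_sqrt_of_sq_lt hk
  rw [div_lt_iff₀ hγ0] at h7
  have h8 : √k * √k = k := Real.mul_self_sqrt hk0.le
  have h9 : 0 < √k := Real.sqrt_pos.2 hk0
  have h10 : k * γ ≤ k * ‖a‖ := by gcongr
  nlinarith [mul_lt_mul_of_pos_right h7 h9]

/-- In a bounded sequence two terms are close modulo `F`. -/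
theorem diff_near (w : ℕ → X) (K : ℝ) (hw : ∀ n, ‖w n‖ ≤ K) {F : Set X} (hF : Cof F) {η : ℝ}
    (hη : 0 < η) : ∃ i l, i ≠ l ∧ ∃ y ∈ F, ‖w i - w l - y‖ < η := by
  obtain ⟨m, T, C, hC, h⟩ := hF.data
  have h2 : ∀ n, T (w n) ∈ Metric.closedBall (0 : EuclideanSpace ℝ (Fin m)) (‖T‖ * K) := by
    intro n
    rw [mem_closedBall_zero_iff]
    exact (T.le_opNorm _).trans (by gcongr; exact hw n)
  obtain ⟨a, -, φ, hφ, hlim⟩ := tendsto_subseq_of_bounded Metric.isBounded_closedBall h2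
  obtain ⟨N, hN⟩ := Metric.cauchySeq_iff.1 hlim.cauchySeq (η / C) (by positivity)
  refine ⟨φ N, φ (N + 1), (hφ (Nat.lt_succ_self N)).ne, h _ _ ?_⟩
  have := hN N le_rfl (N + 1) (Nat.le_succ N)
  rw [dist_eq_norm, lt_div_iff₀ hC] at this
  simp only [Function.comp] at this
  rw [map_sub]
  linarith

variable [CompleteSpace X]

/-- Bounded trees with weakly null, separated steps exclude an equivalent AUC norm. -/
theorem noAUC (δ M : ℝ) (hδ : 0 < δ) (A : ℕ → Set X) (hne : ∀ k, ∃ x ∈ A k, δ ≤ ‖x‖)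
    (hb : ∀ k, ∀ x ∈ A k, ‖x‖ ≤ M)
    (hstep : ∀ k, ∀ x ∈ A (k + 1), ∀ F : Set X, Cof F → ∀ η, 0 < η →
      ∃ x' ∈ A k, δ ≤ ‖x' - x‖ ∧ ∃ y ∈ F, ‖x' - x - y‖ < η)
    (N : X → ℝ) (hN : (RB X).IsEquivNorm N) : ¬ (RB X).IsAUC N := by
  intro hA
  obtain ⟨hadd, hsm, a, b, ha, hab⟩ :
    (∀ x y : X, N (x + y) ≤ N x + N y) ∧ (∀ (a : ℝ) (x : X), N (a • x) = abs a * N x) ∧
      ∃ a b : ℝ, 0 < a ∧ ∀ x : X, a * ‖x‖ ≤ N x ∧ N x ≤ b * ‖x‖ := hN
  obtain ⟨x0, hx0, hx0'⟩ := hne 0
  have hM : 0 < M := lt_of_lt_of_le hδ (hx0'.trans (hb _ _ hx0))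
  have hb0 : 0 < b := by
    have h1 := (hab x0).1.trans (hab x0).2
    have h2 : 0 < ‖x0‖ := lt_of_lt_of_le hδ hx0'
    by_contra h
    nlinarith
  have hneg : ∀ x, N (-x) = N x := fun x => by simpa using hsm (-1) x
  set t0 := a * δ / (2 * b * M) with ht0
  have ht0p : 0 < t0 := by positivity
  obtain ⟨c, hc, hA'⟩ : ∃ c : ℝ, 0 < c ∧ ∀ x : X, N x = 1 → ∃ F : Set X, Cof F ∧
    ∀ y ∈ F, N y = 1 → c ≤ N (x + t0 • y) - 1 := hA t0 ht0p
  set ρ0 := a * δ with hρ0
  have hρ0p : 0 < ρ0 := by positivity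
  have key : ∀ k, ∀ x ∈ A k, ρ0 ≤ N x → N x + k * (c * ρ0 / 2) ≤ b * M := by
    intro k
    induction k with
    | zero =>
      intro x hx _
      have := (hab x).2
      have := mul_le_mul_of_nonneg_left (hb _ _ hx) hb0.le
      simp only [Nat.cast_zero, zero_mul, add_zero]
      linarith
    | succ k ih =>
      intro x hx hρ
      set ρ := N x with hρdef
      have hρp : 0 < ρ := lt_of_lt_of_le hρ0p hρ
      have hρM : ρ ≤ b * M := (hab x).2.trans (mul_le_mul_of_nonneg_left (hb _ _ hx) hb0.le)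
      obtain ⟨F, hF, hF'⟩ := hA' (ρ⁻¹ • x) (by
        rw [hsm, abs_of_pos (inv_pos.2 hρp), inv_mul_cancel₀ hρp.ne'])
      obtain ⟨x', hx', hδ', y, hy, hxy⟩ := hstep k x hx F hF (min (δ / 2) (c * ρ0 / (2 * b)))
        (by positivity)
      have hy1 : δ / 2 ≤ ‖y‖ := by
        have := norm_sub_norm_le (x' - x) y
        have := min_le_left (δ / 2) (c * ρ0 / (2 * b))
        linarith
      set σ := N y with hσ
      have hσ1 : a * δ / 2 ≤ σ := by
        have := (hab y).1
        nlinarith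
      have hσp : 0 < σ := lt_of_lt_of_le (by positivity) hσ1
      have h1 := hF' (σ⁻¹ • y) (hF.smul_mem hy _) (by
        rw [hsm, abs_of_pos (inv_pos.2 hσp), inv_mul_cancel₀ hσp.ne'])
      -- `θ = t0 ρ / σ ≤ 1`
      set θ := t0 * ρ / σ with hθ
      have hθ0 : 0 ≤ θ := by positivity
      have hθ1 : θ ≤ 1 := by
        rw [hθ, div_le_one hσp]
        calc t0 * ρ ≤ t0 * (b * M) := by gcongr
          _ = a * δ / 2 := by rw [ht0, ← hρ0]; field_simp
          _ ≤ σ := hσ1
      have e1 : ρ⁻¹ • x + t0 • σ⁻¹ • y = ρ⁻¹ • ((1 - θ) • x + θ • (x + y)) := by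
        rw [hθ]
        match_scalars
        · ring
        · field_simp
      rw [e1, hsm, abs_of_pos (inv_pos.2 hρp)] at h1
      have h2 := hadd ((1 - θ) • x) (θ • (x + y))
      rw [hsm, hsm, abs_of_nonneg hθ0, abs_of_nonneg (sub_nonneg.2 hθ1)] at h2
      have h3 : ρ * (1 + c) ≤ (1 - θ) * ρ + θ * N (x + y) := by
        have : ρ * (1 + c) ≤ ρ * (ρ⁻¹ * N ((1 - θ) • x + θ • (x + y))) := by
          gcongr
          linarith
        rw [← mul_assoc, mul_inv_cancel₀ hρp.ne', one_mul] at this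
        linarith
      have h4 : ρ + c * ρ ≤ N (x + y) := by
        by_contra h
        have h5 : N (x + y) - ρ < c * ρ := by linarith
        have h6 : θ * (N (x + y) - ρ) ≤ θ * (c * ρ) := by gcongr
        have h7 : θ * (c * ρ) ≤ 1 * (c * ρ) := by gcongr
        rcases hθ0.eq_or_lt with h8 | h8
        · rw [← h8] at h3
          nlinarith [mul_pos hc hρp]
        · have := mul_lt_mul_of_pos_left h5 h8
          nlinarith
      have h5 : N (x + y) ≤ N x' + c * ρ0 / 2 := by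
        have := hadd x' (-(x' - x - y))
        rw [hneg, show x' + -(x' - x - y) = x + y by abel] at this
        have h6 := (hab (x' - x - y)).2
        have h7 : b * ‖x' - x - y‖ ≤ b * (c * ρ0 / (2 * b)) := by
          gcongr
          exact (hxy.trans_le (min_le_right _ _)).le
        have h8 : b * (c * ρ0 / (2 * b)) = c * ρ0 / 2 := by field_simp
        linarith
      have h6 : c * ρ0 ≤ c * ρ := by gcongr
      have h7 := ih x' hx' (by nlinarith [mul_pos hc hρ0p])
      push_cast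
      linarith
  obtain ⟨k, hk⟩ := exists_nat_gt (b * M / (c * ρ0 / 2))
  obtain ⟨x, hx, hx'⟩ := hne k
  have h1 : ρ0 ≤ N x := le_trans (by rw [hρ0]; gcongr) (hab x).1
  have h2 := key k x hx h1
  rw [div_lt_iff₀ (by positivity)] at hk
  linarith

theorem isEquivNorm_norm : (RB X).IsEquivNorm (fun x : X => ‖x‖) :=
  ⟨fun x y => norm_add_le x y, fun a (x : X) => (norm_smul a x).trans (by rw [Real.norm_eq_abs]),
    1, 1, one_pos, fun x => by simp⟩

theorem not_finiteDimensional (h : ∀ N : X → ℝ, (RB X).IsEquivNorm N → ¬ (RB X).IsAUC N) :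
    ¬ FiniteDimensional ℝ X := by
  intro hfd
  refine h _ isEquivNorm_norm fun t _ => ⟨1, one_pos, fun x _ => ⟨_,
    cof_ker (ContinuousLinearMap.id ℝ X), fun y hy h1 => ?_⟩⟩
  have : y = 0 := hy
  subst this
  simp at h1

omit [CompleteSpace X] in
/-- The midpoint inequality on a closed finite-codimensional subspace. -/
def MP (X : Type) [NormedAddCommGroup X] [NormedSpace ℝ X] : Prop :=
  ∀ (x : X) (η : ℝ), 0 < η → ∃ F : Set X, Cof F ∧
    ∀ y ∈ F, √(4 * ‖x‖ ^ 2 + ‖y‖ ^ 2) ≤ ‖x + y‖ + ‖x - y‖ + η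

theorem sqrt_lip (a a' b : ℝ) (ha : 0 ≤ a) (e : ℝ) (he : 0 ≤ e) (h : a ≤ a' + e) :
    √(4 * a ^ 2 + b ^ 2) ≤ √(4 * a' ^ 2 + b ^ 2) + 2 * e := by
  have h1 : 2 * a' ≤ √(4 * a' ^ 2 + b ^ 2) := Real.le_sqrt_of_sq_le (by nlinarith)
  have h2 : √(4 * a' ^ 2 + b ^ 2) ^ 2 = 4 * a' ^ 2 + b ^ 2 := Real.sq_sqrt (by positivity)
  rw [Real.sqrt_le_iff]
  refine ⟨by positivity, ?_⟩
  have h3 : a ^ 2 ≤ (a' + e) ^ 2 := by gcongr
  nlinarith

omit [CompleteSpace X] in
theorem mp_of_dense (h : ∀ (x : X) (η : ℝ), 0 < η → ∃ x0, ‖x - x0‖ < η ∧ ∃ F : Set X, Cof F ∧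
    ∀ y ∈ F, 4 * ‖x0‖ ^ 2 + ‖y‖ ^ 2 ≤ (‖x0 + y‖ + ‖x0 - y‖) ^ 2) : MP X := by
  intro x η hη
  obtain ⟨x0, hx0, F, hF, hF'⟩ := h x (η / 4) (by positivity)
  refine ⟨F, hF, fun y hy => ?_⟩
  have h1 := sqrt_lip ‖x‖ ‖x0‖ ‖y‖ (norm_nonneg _) (η / 4) (by positivity) (by
    have := norm_sub_norm_le x x0
    linarith)
  have h2 : √(4 * ‖x0‖ ^ 2 + ‖y‖ ^ 2) ≤ ‖x0 + y‖ + ‖x0 - y‖ :=
    Real.sqrt_le_iff.2 ⟨by positivity, hF' y hy⟩
  have h3 : ‖x0 + y‖ ≤ ‖x + y‖ + ‖x - x0‖ := by
    have := norm_sub_le (x + y) (x - x0)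
    rwa [show x + y - (x - x0) = x0 + y by abel] at this
  have h4 : ‖x0 - y‖ ≤ ‖x - y‖ + ‖x - x0‖ := by
    have := norm_sub_le (x - y) (x - x0)
    rwa [show x - y - (x - x0) = x0 - y by abel] at this
  linarith

theorem MP.midpoint (h : MP X) (t : ℝ) (c : ℝ) (hc : c ≤ √(1 + t ^ 2 / 4) - 1) :
    (RB X).MidpointModulusGE (RB X).norm t c := by
  intro x hx η hη
  obtain ⟨F, hF, hF'⟩ := h x η hη
  refine ⟨F, hF, fun y hy h1 => ?_⟩
  have h2 := hF' (t • y) (hF.smul_mem hy t)
  have hx' : ‖x‖ = 1 := hx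
  have h1' : ‖y‖ = 1 := h1
  rw [norm_smul, hx', h1', mul_one, Real.norm_eq_abs, sq_abs,
    show 4 * (1 : ℝ) ^ 2 + t ^ 2 = 2 ^ 2 * (1 + t ^ 2 / 4) by ring,
    Real.sqrt_mul (by norm_num), Real.sqrt_sq (by norm_num)] at h2
  change c - η ≤ (‖x + t • y‖ + ‖x - t • y‖) / 2 - 1
  linarith

theorem MP.maxMidpoint (h : MP X) (t : ℝ) :
    (RB X).MaxMidpointModulusGE (RB X).norm t (√(1 + t ^ 2 / 4) - 1) := by
  intro x hx η hη
  obtain ⟨F, hF, hF'⟩ := h.midpoint t _ le_rfl x hx η hη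
  refine ⟨F, hF, fun y hy h1 => ?_⟩
  have h2 := hF' y hy h1
  have h3 := le_max_left ((RB X).norm (x + t • y)) ((RB X).norm (x - t • y))
  have h4 := le_max_right ((RB X).norm (x + t • y)) ((RB X).norm (x - t • y))
  linarith

section diamond

theorem src_ne_tgt : ∀ (k : ℕ) (e : DiamondEdge k), diamondSrc k e ≠ diamondTgt k e
  | 0, _ => by simp [diamondSrc, diamondTgt]
  | k + 1, (e, i, b) => by cases b <;> simp [diamondSrc, diamondTgt]

theorem adj_edge (k : ℕ) (e : DiamondEdge k) :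
    (diamondGraph k).Adj (diamondSrc k e) (diamondTgt k e) := by
  rw [diamondGraph, SimpleGraph.fromRel_adj]
  exact ⟨src_ne_tgt k e, Or.inl ⟨e, rfl, rfl⟩⟩

theorem adj_iff {k : ℕ} {u v : DiamondVertex k} (h : (diamondGraph k).Adj u v) :
    ∃ e, (diamondSrc k e = u ∧ diamondTgt k e = v) ∨ (diamondSrc k e = v ∧ diamondTgt k e = u) := by
  rw [diamondGraph, SimpleGraph.fromRel_adj] at h
  rcases h.2 with ⟨e, he⟩ | ⟨e, he⟩
  · exact ⟨e, Or.inl he⟩
  · exact ⟨e, Or.inr he⟩

theorem diamond_conn : ∀ (k : ℕ) (u v : DiamondVertex k), (diamondGraph k).Reachable u v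
  | 0, u, v => by
    have h := (adj_edge 0 ()).reachable
    change (diamondGraph 0).Reachable false true at h
    cases u <;> cases v
    exacts [.refl _, h, h.symm, .refl _]
  | k + 1, u, v => by
    have h1 : ∀ (e : DiamondEdge k) (i : ℕ),
        (diamondGraph (k + 1)).Reachable (Sum.inl (diamondSrc k e)) (Sum.inr (e, i)) :=
      fun e i => (adj_edge (k + 1) (e, i, false)).reachable
    have h2 : ∀ (e : DiamondEdge k) (i : ℕ),
        (diamondGraph (k + 1)).Reachable (Sum.inr (e, i)) (Sum.inl (diamondTgt k e)) :=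
      fun e i => (adj_edge (k + 1) (e, i, true)).reachable
    have h3 : ∀ a b : DiamondVertex k,
        (diamondGraph (k + 1)).Reachable (Sum.inl a) (Sum.inl b) := by
      intro a b
      obtain ⟨p⟩ := diamond_conn k a b
      induction p with
      | nil => exact .refl _
      | cons hadj _ ih =>
        refine SimpleGraph.Reachable.trans ?_ ih
        obtain ⟨e, ⟨rfl, rfl⟩ | ⟨rfl, rfl⟩⟩ := adj_iff hadj
        · exact (h1 e 0).trans (h2 e 0)
        · exact ((h1 e 0).trans (h2 e 0)).symm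
    rcases u with a | ⟨e, i⟩ <;> rcases v with b | ⟨e', i'⟩
    · exact h3 a b
    · exact (h3 a _).trans (h1 e' i')
    · exact (h2 e i).trans (h3 _ b)
    · exact (h2 e i).trans ((h3 _ _).trans (h1 e' i'))

theorem le_dist_of_lip {k : ℕ} (φ : DiamondVertex k → ℕ)
    (h : ∀ e, φ (diamondSrc k e) ≤ φ (diamondTgt k e) + 1 ∧
      φ (diamondTgt k e) ≤ φ (diamondSrc k e) + 1) (u v : DiamondVertex k) :
    φ v ≤ φ u + diamondDist k u v := by
  obtain ⟨p, hp⟩ := (diamond_conn k u v).exists_walk_length_eq_dist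
  rw [diamondDist, ← hp]
  clear hp
  induction p with
  | nil => simp
  | cons hadj p ih =>
    rw [SimpleGraph.Walk.length_cons]
    obtain ⟨e, ⟨rfl, rfl⟩ | ⟨rfl, rfl⟩⟩ := adj_iff hadj
    · have := (h e).2
      omega
    · have := (h e).1
      omega

theorem dist_edge (k : ℕ) (e : DiamondEdge k) :
    diamondDist k (diamondSrc k e) (diamondTgt k e) = 1 :=
  SimpleGraph.dist_eq_one_iff_adj.2 (adj_edge k e)

theorem dist_inl (k : ℕ) (u v : DiamondVertex k) :
    2 * diamondDist k u v ≤ diamondDist (k + 1) (Sum.inl u) (Sum.inl v) := by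
  have hc : (diamondGraph k).Connected := by
    have : Nonempty (DiamondVertex k) := ⟨u⟩
    exact ⟨diamond_conn k⟩
  have := le_dist_of_lip (k := k + 1) (Sum.elim (fun w => 2 * diamondDist k u w)
    (fun p => diamondDist k u (diamondSrc k p.1) + diamondDist k u (diamondTgt k p.1)))
    (by
      rintro ⟨e, i, b⟩
      have h1 : diamondDist k u (diamondTgt k e) ≤ diamondDist k u (diamondSrc k e) +
          diamondDist k (diamondSrc k e) (diamondTgt k e) := hc.dist_triangle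
      have h2 : diamondDist k u (diamondSrc k e) ≤ diamondDist k u (diamondTgt k e) +
          diamondDist k (diamondTgt k e) (diamondSrc k e) := hc.dist_triangle
      have h3 : diamondDist k (diamondTgt k e) (diamondSrc k e) =
          diamondDist k (diamondSrc k e) (diamondTgt k e) := SimpleGraph.dist_comm
      rw [h3] at h2
      rw [dist_edge] at h1 h2
      cases b <;> simp only [diamondSrc, diamondTgt, cond_true, cond_false, Sum.elim_inl,
        Sum.elim_inr] <;> omega) (Sum.inl u) (Sum.inl v)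
  simpa [diamondDist] using this

theorem dist_mid (k : ℕ) (e : DiamondEdge k) (i l : ℕ) (h : i ≠ l) :
    2 ≤ diamondDist (k + 1) (Sum.inr (e, i)) (Sum.inr (e, l)) := by
  have := le_dist_of_lip (k := k + 1) (Sum.elim (fun _ => 1)
    (fun p => if p.2 = i then 0 else 2))
    (by
      rintro ⟨e, j, b⟩
      cases b <;> simp only [diamondSrc, diamondTgt, cond_true, cond_false, Sum.elim_inl,
        Sum.elim_inr] <;> split_ifs <;> omega) (Sum.inr (e, i)) (Sum.inr (e, l))
  simpa [h.symm] using this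

omit [CompleteSpace X] in
theorem MP.diamond_aux (h : MP X) : ∀ (k : ℕ) (f : DiamondVertex k → X) (s L2 : ℝ), 0 < s →
    (∀ u v, s * (diamondDist k u v : ℝ) ≤ ‖f u - f v‖) →
    (∀ e, ‖f (diamondSrc k e) - f (diamondTgt k e)‖ ^ 2 ≤ L2) → s ^ 2 * (1 + k / 4) ≤ L2
  | 0, f, s, L2, hs, h1, h2 => by
    have h3 := h1 (diamondSrc 0 ()) (diamondTgt 0 ())
    rw [dist_edge] at h3
    have h4 := h2 ()
    simp only [Nat.cast_one, mul_one] at h3
    simp only [Nat.cast_zero, zero_div, add_zero, mul_one]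
    exact le_trans (by gcongr) h4
  | k + 1, f, s, L2, hs, h1, h2 => by
    have ih := MP.diamond_aux h k (fun u => f (Sum.inl u)) (2 * s) (4 * L2 - s ^ 2) (by positivity)
      (fun u v => le_trans (by
        have : ((2 * diamondDist k u v : ℕ) : ℝ) ≤ diamondDist (k + 1) (Sum.inl u) (Sum.inl v) := by
          exact_mod_cast dist_inl k u v
        push_cast at this
        nlinarith) (h1 (Sum.inl u) (Sum.inl v)))
      (by
        intro e
        set a := f (Sum.inl (diamondSrc k e))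
        set b := f (Sum.inl (diamondTgt k e))
        have hL : 0 ≤ L2 := (sq_nonneg _).trans (h2 (e, 0, false))
        set L := √L2
        have hLL : L ^ 2 = L2 := Real.sq_sqrt hL
        have ha : ∀ i, ‖a - f (Sum.inr (e, i))‖ ≤ L := fun i =>
          Real.le_sqrt_of_sq_le (h2 (e, i, false))
        have hb : ∀ i, ‖f (Sum.inr (e, i)) - b‖ ≤ L := fun i =>
          Real.le_sqrt_of_sq_le (h2 (e, i, true))
        have key : ∀ η : ℝ, 0 < η → √(4 * ‖a - b‖ ^ 2 + (2 * s) ^ 2) ≤ 4 * L + η := by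
          intro η hη
          obtain ⟨F, hF, hF'⟩ := h (a - b) (η / 4) (by positivity)
          obtain ⟨i, l, hil, y, hy, hy'⟩ := diff_near (fun i => a - f (Sum.inr (e, i))) L ha hF
            (η := η / 4) (by positivity)
          have h3 := hF' y hy
          set w := a - f (Sum.inr (e, i)) - (a - f (Sum.inr (e, l))) with hw
          have h4 : 2 * s ≤ ‖w‖ := by
            have h5 := h1 (Sum.inr (e, l)) (Sum.inr (e, i))
            have h6 : ((2 : ℕ) : ℝ) ≤ diamondDist (k + 1) (Sum.inr (e, l)) (Sum.inr (e, i)) := by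
              exact_mod_cast dist_mid k e l i hil.symm
            rw [show w = f (Sum.inr (e, l)) - f (Sum.inr (e, i)) by rw [hw]; abel]
            push_cast at h6
            nlinarith
          have h5 : ‖a - b + y‖ ≤ 2 * L + η / 4 := by
            have : a - b + y = (a - f (Sum.inr (e, i))) + (f (Sum.inr (e, l)) - b) - (w - y) := by
              rw [hw]; abel
            rw [this]
            have := norm_sub_le ((a - f (Sum.inr (e, i))) + (f (Sum.inr (e, l)) - b)) (w - y)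
            have := norm_add_le (a - f (Sum.inr (e, i))) (f (Sum.inr (e, l)) - b)
            linarith [ha i, hb l]
          have h6 : ‖a - b - y‖ ≤ 2 * L + η / 4 := by
            have : a - b - y = (a - f (Sum.inr (e, l))) + (f (Sum.inr (e, i)) - b) + (w - y) := by
              rw [hw]; abel
            rw [this]
            have := norm_add_le ((a - f (Sum.inr (e, l))) + (f (Sum.inr (e, i)) - b)) (w - y)
            have := norm_add_le (a - f (Sum.inr (e, l))) (f (Sum.inr (e, i)) - b)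
            linarith [ha l, hb i]
          have h7 : 2 * s ≤ ‖y‖ + η / 4 := by
            have := norm_sub_norm_le w y
            linarith
          have h8 := sqrt_lip s (‖y‖ / 2) (2 * ‖a - b‖) hs.le (η / 8)
            (by positivity) (by linarith)
          rw [show 4 * s ^ 2 + (2 * ‖a - b‖) ^ 2 = 4 * ‖a - b‖ ^ 2 + (2 * s) ^ 2 by ring,
            show 4 * (‖y‖ / 2) ^ 2 + (2 * ‖a - b‖) ^ 2 = 4 * ‖a - b‖ ^ 2 + ‖y‖ ^ 2 by ring] at h8
          linarith
        have h3 : √(4 * ‖a - b‖ ^ 2 + (2 * s) ^ 2) ≤ 4 * L := le_of_forall_pos_le_add key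
        rw [Real.sqrt_le_iff] at h3
        nlinarith [h3.2])
    push_cast
    nlinarith

theorem MP.diamond (h : MP X) (k : ℕ) (f : DiamondVertex k → X) (D : ℝ)
    (hf : (RB X).HasDistortionLE k f D) : 1 + (k : ℝ) / 4 ≤ D ^ 2 := by
  obtain ⟨s, hs, hf⟩ : ∃ s : ℝ, 0 < s ∧ ∀ u v : DiamondVertex k,
    s * (diamondDist k u v : ℝ) ≤ ‖f u - f v‖ ∧
      ‖f u - f v‖ ≤ D * s * (diamondDist k u v : ℝ) := hf
  have := h.diamond_aux k f s ((D * s) ^ 2) hs (fun u v => (hf u v).1) (fun e => by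
    have h1 := (hf (diamondSrc k e) (diamondTgt k e)).2
    rw [dist_edge, Nat.cast_one, mul_one] at h1
    gcongr)
  have h2 : 0 < s ^ 2 := by positivity
  nlinarith

end diamond

end Crest.Agent.H8.AUC
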