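import Crest.Agent.H8.AUCBasic
import Crest.Prelude.Def_DaugavetL1

/-! Daugavet spaces and subspaces of `L¹` whose unit ball is totally bounded in measure. -/

set_option autoImplicit false

namespace Crest.Agent.H8.AUC

open Crest.AnalysisR Crest.AnalysisR.L1Subspace Filter Topology MeasureTheory

variable {X : Type} [NormedAddCommGroup X] [NormedSpace ℝ X]

theorem daug_slice (hD : HasDaugavetProperty X) (u : X) (hu : 1 ≤ ‖u‖) (ψ : X →L[ℝ] ℝ) (ε : ℝ)
    (hε : 0 < ε) : ∃ z, ‖z‖ ≤ 1 ∧ ‖ψ‖ - 1 ≤ ψ z ∧ ‖u‖ + 1 - ε ≤ ‖u + z‖ := by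
  have hu0 : 0 < ‖u‖ := by linarith
  by_cases hψ : ψ = 0
  · refine ⟨‖u‖⁻¹ • u, ?_, by simp [hψ], ?_⟩
    · rw [norm_smul, norm_inv, norm_norm, inv_mul_cancel₀ hu0.ne']
    · rw [show u + ‖u‖⁻¹ • u = (1 + ‖u‖⁻¹) • u by rw [add_smul, one_smul], norm_smul,
        Real.norm_of_nonneg (by positivity), add_mul, inv_mul_cancel₀ hu0.ne']
      linarith
  have hψ0 : 0 < ‖ψ‖ := norm_pos_iff.2 hψ
  set φ : X →L[ℝ] ℝ := ‖ψ‖⁻¹ • ψ with hφ
  have hφ1 : ‖φ‖ = 1 := by
    rw [hφ, norm_smul, norm_inv, norm_norm, inv_mul_cancel₀ hψ0.ne']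
  set γ := min (ε / 2) ‖ψ‖⁻¹ with hγ
  have hγ0 : 0 < γ := by positivity
  have h1 := hD φ u
  rw [ContinuousLinearMap.norm_smulRight_apply, hφ1, one_mul] at h1
  obtain ⟨z0, hz0, hz0'⟩ := (ContinuousLinearMap.id ℝ X + φ.smulRight u).exists_lt_apply_of_lt_opNorm
    (r := 1 + ‖u‖ - γ) (by rw [h1]; linarith)
  have key : ∀ z : X, ‖z‖ ≤ 1 → 0 ≤ φ z → 1 + ‖u‖ - γ < ‖z + φ z • u‖ →
      ‖ψ‖ - 1 ≤ ψ z ∧ ‖u‖ + 1 - ε ≤ ‖u + z‖ := by
    intro z hz h0 h
    have h2 : φ z ≤ 1 := by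
      have := φ.le_opNorm z
      rw [hφ1, one_mul, Real.norm_eq_abs] at this
      exact (le_abs_self _).trans (this.trans hz)
    have h3 : ‖z + φ z • u‖ ≤ 1 + φ z * ‖u‖ := by
      have := norm_add_le z (φ z • u)
      rw [norm_smul, Real.norm_of_nonneg h0] at this
      linarith
    have h4 : ‖z + φ z • u‖ ≤ ‖u + z‖ + (1 - φ z) * ‖u‖ := by
      have := norm_sub_le (u + z) ((1 - φ z) • u)
      rw [norm_smul, Real.norm_of_nonneg (sub_nonneg.2 h2),
        show u + z - (1 - φ z) • u = z + φ z • u by rw [sub_smul, one_smul]; abel] at this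
      exact this
    have h5 : 1 - φ z < γ := by nlinarith
    refine ⟨?_, by have := min_le_left (ε / 2) ‖ψ‖⁻¹; nlinarith⟩
    have h6 : ψ z = ‖ψ‖ * φ z := by
      rw [hφ, smul_apply, smul_eq_mul, mul_inv_cancel_left₀ hψ0.ne']
    have h7 : ‖ψ‖ * γ ≤ 1 := by
      calc ‖ψ‖ * γ ≤ ‖ψ‖ * ‖ψ‖⁻¹ := by gcongr; exact min_le_right _ _
        _ = 1 := mul_inv_cancel₀ hψ0.ne'
    rw [h6]
    nlinarith
  simp only [add_apply, ContinuousLinearMap.id_apply,
    ContinuousLinearMap.smulRight_apply] at hz0'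
  rcases le_total 0 (φ z0) with h | h
  · exact ⟨z0, hz0.le, key z0 hz0.le h hz0'⟩
  · refine ⟨-z0, by simpa using hz0.le, key (-z0) (by simpa using hz0.le) (by simpa using h) ?_⟩
    rwa [map_neg, neg_smul, ← neg_add, norm_neg]

theorem daug_far (hD : HasDaugavetProperty X) (x : X) (hx : ‖x‖ = 1) {F : Set X} (hF : Cof F)
    (η : ℝ) (hη : 0 < η) (hη1 : η ≤ 1) :
    ∃ z, ‖z‖ ≤ 1 ∧ 2 - η ≤ ‖z - x‖ ∧ ∃ y ∈ F, ‖z - x - y‖ < η := by
  obtain ⟨m, T, C, hC, h⟩ := hF.data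
  set K := 2 + 4 * ‖T‖ ^ 2 with hK
  have hK0 : 0 < K := by positivity
  obtain ⟨n, hn⟩ := exists_nat_gt (max 1 (K * C ^ 2 / η ^ 2))
  have hn1 : (1 : ℝ) < n := (le_max_left _ _).trans_lt hn
  have hn2 : K * C ^ 2 / η ^ 2 < n := (le_max_right _ _).trans_lt hn
  have hn0 : (0 : ℝ) < n := by linarith
  have key : ∀ i : ℕ, ∃ w : X, ‖w‖ ≤ i ∧ n + i * (1 - η) ≤ ‖w - (n : ℝ) • x‖ ∧
      ‖T (w - (i : ℝ) • x)‖ ^ 2 ≤ i * K := by
    intro i
    induction i with
    | zero => exact ⟨0, by simp, by simp [norm_smul, hx], by simp⟩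
    | succ i ih =>
      obtain ⟨w, hw1, hw2, hw3⟩ := ih
      set s := T (w - (i : ℝ) • x) with hs
      have hi : (0 : ℝ) ≤ i * (1 - η) := mul_nonneg (Nat.cast_nonneg _) (by linarith)
      obtain ⟨z, hz1, hz2, hz3⟩ := daug_slice hD (w - (n : ℝ) • x) (by linarith)
        (-((innerSL ℝ s).comp T)) η hη
      refine ⟨w + z, ?_, ?_, ?_⟩
      · have := norm_add_le w z
        push_cast
        linarith
      · rw [show w + z - (n : ℝ) • x = w - (n : ℝ) • x + z by abel]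
        push_cast
        linarith
      · have e : T (w + z - ((i + 1 : ℕ) : ℝ) • x) = s + T (z - x) := by
          rw [hs, ← map_add]
          congr 1
          push_cast
          rw [add_smul, one_smul]
          abel
        rw [e, norm_add_sq_real]
        have h1 := (-((innerSL ℝ s).comp T)).le_opNorm x
        rw [hx, mul_one, Real.norm_eq_abs] at h1
        have h2 := (le_abs_self _).trans h1
        simp only [neg_apply, ContinuousLinearMap.comp_apply,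
          innerSL_apply_apply] at h2 hz2
        have h3 : inner ℝ s (T (z - x)) ≤ 1 := by
          rw [map_sub, inner_sub_right]
          linarith
        have h4 : ‖T (z - x)‖ ≤ ‖T‖ * 2 := by
          refine (T.le_opNorm _).trans ?_
          gcongr
          have := norm_sub_le z x
          linarith
        have h5 : ‖T (z - x)‖ ^ 2 ≤ (‖T‖ * 2) ^ 2 := by gcongr
        push_cast
        nlinarith
  obtain ⟨w, hw1, hw2, hw3⟩ := key n
  have e : (n : ℝ)⁻¹ • w - x = (n : ℝ)⁻¹ • (w - (n : ℝ) • x) := by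
    rw [smul_sub, smul_smul, inv_mul_cancel₀ hn0.ne', one_smul]
  refine ⟨(n : ℝ)⁻¹ • w, ?_, ?_, h _ _ ?_⟩
  · rw [norm_smul, norm_inv, Real.norm_natCast, inv_mul_le_iff₀ hn0, mul_one]
    exact hw1
  · rw [e, norm_smul, norm_inv, Real.norm_natCast, le_inv_mul_iff₀ hn0]
    linarith
  · rw [e, map_smul, norm_smul, norm_inv, Real.norm_natCast]
    refine lt_of_pow_lt_pow_left₀ 2 hη.le ?_
    rw [div_lt_iff₀ (by positivity)] at hn2
    calc (C * ((n : ℝ)⁻¹ * ‖T (w - (n : ℝ) • x)‖)) ^ 2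
        = C ^ 2 * ((n : ℝ)⁻¹) ^ 2 * ‖T (w - (n : ℝ) • x)‖ ^ 2 := by ring
      _ ≤ C ^ 2 * ((n : ℝ)⁻¹) ^ 2 * (n * K) := by gcongr
      _ = (K * C ^ 2) / n := by field_simp
      _ < η ^ 2 := by rw [div_lt_iff₀ hn0]; linarith

theorem daug_dir (hD : HasDaugavetProperty X) (x : X) (hx : ‖x‖ = 1) {F : Set X} (hF : Cof F)
    (t : ℝ) (ht : 0 < t) (η : ℝ) (hη : 0 < η) :
    ∃ y ∈ F, ‖y‖ = 1 ∧ ‖x + t • y‖ ≤ max 1 (t - 1) + η := by
  set ε := min (1 / 2) (η / (2 * t)) with hε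
  have hε0 : 0 < ε := by positivity
  have hε1 : ε ≤ 1 / 2 := min_le_left _ _
  have hε2 : 2 * t * ε ≤ η := by
    have : ε ≤ η / (2 * t) := min_le_right _ _
    rwa [le_div_iff₀' (by positivity)] at this
  obtain ⟨z, hz1, hz2, y, hy, hy'⟩ := daug_far hD x hx hF ε hε0 (by linarith)
  have h1 : 2 - 2 * ε ≤ ‖y‖ := by
    have := norm_sub_norm_le (z - x) y
    linarith
  have h2 : ‖y‖ ≤ 2 + ε := by
    have := norm_sub_norm_le y (z - x)
    rw [norm_sub_rev y] at this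
    have := norm_sub_le z x
    linarith
  have hy0 : 0 < ‖y‖ := by linarith
  refine ⟨‖y‖⁻¹ • y, hF.smul_mem hy _, ?_, ?_⟩
  · rw [norm_smul, norm_inv, norm_norm, inv_mul_cancel₀ hy0.ne']
  have h3 : ‖‖y‖⁻¹ • y - (1 / 2 : ℝ) • y‖ ≤ ε := by
    rw [← sub_smul, norm_smul, Real.norm_eq_abs, ← abs_of_pos hy0, ← abs_mul, abs_of_pos hy0,
      sub_mul, inv_mul_cancel₀ hy0.ne', abs_le]
    constructor <;> linarith
  have e : x + t • ‖y‖⁻¹ • y = ((1 - t / 2) • x + (t / 2) • z) +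
      (t • (‖y‖⁻¹ • y - (1 / 2 : ℝ) • y) - (t / 2) • (z - x - y)) := by
    module
  have h4 : ‖(1 - t / 2) • x + (t / 2) • z‖ ≤ max 1 (t - 1) := by
    refine (norm_add_le _ _).trans ?_
    rw [norm_smul, norm_smul, hx, mul_one, Real.norm_eq_abs, Real.norm_of_nonneg (by positivity)]
    have : t / 2 * ‖z‖ ≤ t / 2 := by nlinarith
    rcases le_total t 2 with h | h
    · rw [abs_of_nonneg (by linarith)]
      have := le_max_left 1 (t - 1)
      linarith
    · rw [abs_of_nonpos (by linarith)]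
      have := le_max_right 1 (t - 1)
      linarith
  have h5 : ‖t • (‖y‖⁻¹ • y - (1 / 2 : ℝ) • y) - (t / 2) • (z - x - y)‖ ≤ t * ε + t / 2 * ε := by
    refine (norm_sub_le _ _).trans ?_
    rw [norm_smul t, norm_smul (t / 2), Real.norm_of_nonneg ht.le,
      Real.norm_of_nonneg (by positivity)]
    gcongr
  rw [e]
  refine (norm_add_le _ _).trans ?_
  nlinarith

theorem daug_noAUC [CompleteSpace X] (hD : HasDaugavetProperty X)
    (hinf : ¬ FiniteDimensional ℝ X) (N : X → ℝ) (hN : (RB X).IsEquivNorm N) :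
    ¬ (RB X).IsAUC N := by
  have : Nontrivial X := by
    by_contra h
    rw [not_nontrivial_iff_subsingleton] at h
    exact hinf inferInstance
  obtain ⟨x0, hx0⟩ := exists_norm_eq X zero_le_one
  refine noAUC 1 1 one_pos (fun _ => {x | ‖x‖ = 1}) (fun _ => ⟨x0, hx0, hx0.ge⟩)
    (fun _ x hx => le_of_eq hx) (fun _ x hx F hF η hη => ?_) N hN
  have hx : ‖x‖ = 1 := hx
  obtain ⟨y, hy, hy1, hy2⟩ := daug_dir hD x hx hF 2 two_pos (min 1 (η / 2)) (by positivity)
  have h1 : 1 ≤ ‖x + (2 : ℝ) • y‖ := by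
    have := norm_sub_norm_le ((2 : ℝ) • y) (-x)
    rw [norm_neg, norm_smul, hy1, hx, sub_neg_eq_add, add_comm] at this
    norm_num at this ⊢
    linarith
  have h0 : 0 < ‖x + (2 : ℝ) • y‖ := by linarith
  have h2 : ‖‖x + (2 : ℝ) • y‖⁻¹ • (x + (2 : ℝ) • y) - x - (2 : ℝ) • y‖ ≤ min 1 (η / 2) := by
    rw [sub_sub, show ‖x + (2 : ℝ) • y‖⁻¹ • (x + (2 : ℝ) • y) - (x + (2 : ℝ) • y) =
      (‖x + (2 : ℝ) • y‖⁻¹ - 1) • (x + (2 : ℝ) • y) by rw [sub_smul, one_smul], norm_smul,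
      Real.norm_eq_abs, ← abs_of_pos h0, ← abs_mul, abs_of_pos h0, sub_mul,
      inv_mul_cancel₀ h0.ne', abs_le]
    rw [show max (1 : ℝ) (2 - 1) = 1 by norm_num] at hy2
    have := le_min zero_le_one (by positivity : 0 ≤ η / 2)
    constructor <;> linarith
  refine ⟨‖x + (2 : ℝ) • y‖⁻¹ • (x + (2 : ℝ) • y), ?_, ?_, (2 : ℝ) • y, hF.smul_mem hy _, ?_⟩
  · change ‖_‖ = 1
    rw [norm_smul, norm_inv, norm_norm, inv_mul_cancel₀ h0.ne']
  · have := norm_sub_norm_le ((2 : ℝ) • y) (‖x + (2 : ℝ) • y‖⁻¹ • (x + (2 : ℝ) • y) - x)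
    rw [norm_sub_rev ((2 : ℝ) • y), norm_smul, hy1, Real.norm_of_nonneg zero_le_two] at this
    have := min_le_left 1 (η / 2)
    linarith
  · have := min_le_right 1 (η / 2)
    linarith

section L1

variable {Ω : Type} [MeasurableSpace Ω] {P : Measure Ω}

/-- The sign of a function. -/
noncomputable def sgn (g : Ω → ℝ) (z : Ω) : ℝ := if 0 ≤ g z then 1 else -1

omit [MeasurableSpace Ω] in
theorem abs_sgn (g : Ω → ℝ) (z : Ω) : |sgn g z| = 1 := by
  unfold sgn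
  split_ifs <;> simp

theorem integrable_sgn_mul (g y : Lp ℝ 1 P) : Integrable (fun z => sgn g z * y z) P := by
  refine (L1.integrable_coeFn y).bdd_mul (c := 1) ?_ (ae_of_all _ fun z => ?_)
  · refine (Measurable.ite ?_ measurable_const measurable_const).aestronglyMeasurable
    exact measurableSet_le measurable_const (Lp.stronglyMeasurable g).measurable
  · rw [Real.norm_eq_abs, abs_sgn]

/-- Integration against the sign of `g`. -/
noncomputable def sgnFun (g : Lp ℝ 1 P) : Lp ℝ 1 P →L[ℝ] ℝ :=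
  LinearMap.mkContinuous
    { toFun := fun y => ∫ z, sgn g z * y z ∂P
      map_add' := fun y y' => by
        rw [← integral_add (integrable_sgn_mul g y) (integrable_sgn_mul g y')]
        refine integral_congr_ae ?_
        filter_upwards [Lp.coeFn_add y y'] with z hz
        rw [hz, Pi.add_apply, mul_add]
      map_smul' := fun c y => by
        rw [RingHom.id_apply, ← integral_smul]
        refine integral_congr_ae ?_
        filter_upwards [Lp.coeFn_smul c y] with z hz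
        rw [hz, Pi.smul_apply, smul_eq_mul, smul_eq_mul]
        ring } 1 fun y => by
    rw [one_mul, L1.norm_eq_integral_norm]
    refine (norm_integral_le_integral_norm _).trans (le_of_eq ?_)
    simp only [norm_mul, Real.norm_eq_abs, abs_sgn, one_mul]

theorem l1_lower [IsProbabilityMeasure P] (E : Submodule ℝ (Lp ℝ 1 P))
    (htb : UnitBallTotallyBoundedInMeasure P E) (x : E) (hx : ‖x‖ = 1) (t : ℝ) (ht : 0 < t)
    (η : ℝ) (hη : 0 < η) : ∃ F : Set E, Cof F ∧ ∀ y ∈ F, ‖y‖ = 1 →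
      t / 2 - η ≤ (‖x + t • y‖ + ‖x - t • y‖) / 2 - 1 := by
  have hxi := L1.integrable_coeFn (x : Lp ℝ 1 P)
  obtain ⟨δ, hδ, hδ'⟩ := exists_pos_setLIntegral_lt_of_measure_lt (μ := P)
    (f := fun z => ‖(x : Lp ℝ 1 P) z‖ₑ) hxi.2.ne (ε := ENNReal.ofReal (η / 2)) (by simpa using hη)
  obtain ⟨a0, ha0, ha0'⟩ : ∃ a0 : ℝ, 0 < a0 ∧ ENNReal.ofReal a0 ≤ δ := by
    obtain ⟨r, hr, hr'⟩ := ENNReal.lt_iff_exists_nnreal_btwn.1 hδ
    exact ⟨r, by exact_mod_cast hr, by simpa using hr'.le⟩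
  obtain ⟨s, -, hs⟩ := htb (min a0 (η / (2 * t))) (by positivity)
  refine ⟨_, cof_forall (fun g : s => (sgnFun (g : Lp ℝ 1 P)).comp E.subtypeL), ?_⟩
  intro y hy hy1
  obtain ⟨g, hg, hg'⟩ := hs y y.2 (le_of_eq hy1)
  have h0 : ∫ z, sgn g z * (y : Lp ℝ 1 P) z ∂P = 0 := hy ⟨g, hg⟩
  have hne : {a : ℝ | 0 < a ∧ P {z | a < abs (((y : Lp ℝ 1 P) : Ω → ℝ) z - (g : Ω → ℝ) z)} <
      ENNReal.ofReal a}.Nonempty := ⟨2, two_pos, lt_of_le_of_lt prob_le_one (by simp)⟩
  obtain ⟨a, ⟨ha, haP⟩, ha'⟩ := exists_lt_of_csInf_lt hne hg'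
  set S := {z | a < |(y : Lp ℝ 1 P) z - g z|} with hS
  have hSm : MeasurableSet S := measurableSet_lt measurable_const
    ((Lp.stronglyMeasurable _).measurable.sub (Lp.stronglyMeasurable _).measurable).abs
  have h1 : ∫ z in S, ‖(x : Lp ℝ 1 P) z‖ ∂P ≤ η / 2 := by
    have := hδ' S (haP.trans_le ((ENNReal.ofReal_le_ofReal
      (ha'.le.trans (min_le_left _ _))).trans ha0'))
    rw [← ofReal_integral_norm_eq_lintegral_enorm hxi.integrableOn] at this
    exact ((ENNReal.ofReal_lt_ofReal_iff (by positivity)).1 this).le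
  have h2 : t * a ≤ η / 2 := by
    have := ha'.le.trans (min_le_right _ _)
    rw [le_div_iff₀ (by positivity)] at this
    linarith
  have hyi := L1.integrable_coeFn (y : Lp ℝ 1 P)
  have hx' : ∫ z, ‖(x : Lp ℝ 1 P) z‖ ∂P = 1 := by rw [← L1.norm_eq_integral_norm]; exact hx
  have hy' : ∫ z, ‖(y : Lp ℝ 1 P) z‖ ∂P = 1 := by rw [← L1.norm_eq_integral_norm]; exact hy1
  have e1 : ‖x + t • y‖ + ‖x - t • y‖ = ∫ z, (‖((x : Lp ℝ 1 P) + t • (y : Lp ℝ 1 P)) z‖ +
      ‖((x : Lp ℝ 1 P) - t • (y : Lp ℝ 1 P)) z‖) ∂P := by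
    rw [integral_add (L1.integrable_coeFn _).norm (L1.integrable_coeFn _).norm,
      ← L1.norm_eq_integral_norm, ← L1.norm_eq_integral_norm]
    rfl
  have i1 : Integrable (fun z => 2 * (‖(x : Lp ℝ 1 P) z‖ -
      S.indicator (fun z => ‖(x : Lp ℝ 1 P) z‖) z)) P :=
    (hxi.norm.sub (hxi.norm.indicator hSm)).const_mul 2
  have i2 : Integrable (fun z => t * (‖(y : Lp ℝ 1 P) z‖ - sgn g z * (y : Lp ℝ 1 P) z - 2 * a)) P :=
    ((hyi.norm.sub (integrable_sgn_mul g y)).sub (integrable_const _)).const_mul t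
  have e2 : ∫ z, (2 * (‖(x : Lp ℝ 1 P) z‖ - S.indicator (fun z => ‖(x : Lp ℝ 1 P) z‖) z) +
      t * (‖(y : Lp ℝ 1 P) z‖ - sgn g z * (y : Lp ℝ 1 P) z - 2 * a)) ∂P =
      2 * (1 - ∫ z in S, ‖(x : Lp ℝ 1 P) z‖ ∂P) + t * (1 - 2 * a) := by
    rw [integral_add i1 i2, integral_const_mul, integral_const_mul,
      integral_sub hxi.norm (hxi.norm.indicator hSm), integral_indicator hSm,
      integral_sub (f := fun z => ‖(y : Lp ℝ 1 P) z‖ - sgn g z * (y : Lp ℝ 1 P) z)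
        (hyi.norm.sub (integrable_sgn_mul g y)) (integrable_const _),
      integral_sub hyi.norm (integrable_sgn_mul g y), hx', hy', h0]
    simp
  have h3 : 2 * (1 - ∫ z in S, ‖(x : Lp ℝ 1 P) z‖ ∂P) + t * (1 - 2 * a) ≤
      ‖x + t • y‖ + ‖x - t • y‖ := by
    rw [e1, ← e2]
    refine integral_mono_ae (i1.add i2)
      ((L1.integrable_coeFn _).norm.add (L1.integrable_coeFn _).norm) ?_
    filter_upwards [Lp.coeFn_add (x : Lp ℝ 1 P) (t • (y : Lp ℝ 1 P)),
      Lp.coeFn_sub (x : Lp ℝ 1 P) (t • (y : Lp ℝ 1 P)), Lp.coeFn_smul t (y : Lp ℝ 1 P)]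
      with z hz1 hz2 hz3
    rw [hz1, hz2, Pi.add_apply, Pi.sub_apply, hz3, Pi.smul_apply, smul_eq_mul]
    simp only [Real.norm_eq_abs]
    set p := (x : Lp ℝ 1 P) z
    set q := (y : Lp ℝ 1 P) z
    by_cases hz : z ∈ S
    · rw [Set.indicator_of_mem hz]
      have h4 : -|q| ≤ sgn g z * q := by
        have := neg_abs_le (sgn g z * q)
        rwa [abs_mul, abs_sgn, one_mul] at this
      have h5 : 2 * (t * |q|) ≤ |p + t * q| + |p - t * q| := by
        have := abs_sub (p + t * q) (p - t * q)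
        rw [show p + t * q - (p - t * q) = 2 * (t * q) by ring, abs_mul, abs_mul, abs_of_pos ht,
          abs_two] at this
        exact this
      nlinarith [mul_pos ht ha]
    · rw [Set.indicator_of_notMem hz]
      have h4 : |q - g z| ≤ a := not_lt.1 hz
      have h5 : |q| - sgn g z * q - 2 * a ≤ 0 := by
        rw [abs_le] at h4
        unfold sgn
        split_ifs with h <;> rcases abs_cases q with h' | h' <;> linarith
      have h6 : 2 * |p| ≤ |p + t * q| + |p - t * q| := by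
        have := abs_add_le (p + t * q) (p - t * q)
        rw [show p + t * q + (p - t * q) = 2 * p by ring, abs_mul, abs_two] at this
        exact this
      nlinarith
  nlinarith

end L1

end Crest.Agent.H8.AUC
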