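import Crest.Agent.H8.AUCBasic
import Crest.Prelude.Def_TreeProducts

/-! Path products of independent multipliers in `L¹`. -/

set_option autoImplicit false

namespace Crest.Agent.H8.AUC

open Crest.AnalysisR Crest.AnalysisR.TreeProduct Filter Topology MeasureTheory ProbabilityTheory

/-- The non-root vertices on the root path. -/
def anc : List ℕ → Finset (List ℕ)
  | [] => ∅
  | a :: v => insert (a :: v) (anc v)

theorem length_le_of_mem_anc : ∀ (v u : List ℕ), u ∈ anc v → u.length ≤ v.length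
  | [], u, h => by simp [anc] at h
  | a :: v, u, h => by
    rcases Finset.mem_insert.1 h with rfl | h
    · exact le_rfl
    · exact (length_le_of_mem_anc v u h).trans (by simp)

theorem cons_notMem_anc (a : ℕ) (v : List ℕ) : a :: v ∉ anc v := fun h => by
  simpa using length_le_of_mem_anc _ _ h

variable {Ω : Type} [MeasurableSpace Ω]

omit [MeasurableSpace Ω] in
theorem pathProduct_eq (W : List ℕ → Ω → ℝ) : ∀ (v : List ℕ) (z : Ω),
    pathProduct W v z = ∏ u ∈ anc v, W u z
  | [], z => by simp [pathProduct, anc]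
  | a :: v, z => by
    rw [anc, Finset.prod_insert (cons_notMem_anc a v), ← pathProduct_eq W v z, mul_comm]
    rfl

variable {ν : Measure ℝ} {μ : Measure Ω} {W : List ℕ → Ω → ℝ}

theorem measurable_pathProduct (hW : IsRealization ν μ W) (v : List ℕ) :
    Measurable (pathProduct W v) := by
  rw [show pathProduct W v = fun z => ∏ u ∈ anc v, W u z from funext (pathProduct_eq W v)]
  exact Finset.measurable_prod _ fun u _ => hW.1 u

theorem indep_children (hW : IsRealization ν μ W) (v : List ℕ) (A : Finset ℕ) :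
    IndepFun (pathProduct W v) (fun z => ∑ n ∈ A, W (n :: v) z) μ := by
  have hinj : Function.Injective fun n : ℕ => n :: v := fun a b h => (List.cons.inj h).1
  have h := hW.2.1.indepFun_finset (anc v) (A.map ⟨_, hinj⟩) (by
    rw [Finset.disjoint_right]
    intro u hu
    obtain ⟨n, -, rfl⟩ := Finset.mem_map.1 hu
    exact cons_notMem_anc n v) hW.1
  have h2 := h.comp (φ := fun g => ∏ i, g i) (ψ := fun g => ∑ i, g i) (by fun_prop) (by fun_prop)
  convert h2 using 1
  · funext z
    rw [pathProduct_eq]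
    exact (Finset.prod_coe_sort (anc v) (fun u => W u z)).symm
  · funext z
    have := Finset.sum_coe_sort (A.map ⟨_, hinj⟩) (fun u => W u z)
    rw [Finset.sum_map] at this
    exact this.symm

variable [IsProbabilityMeasure ν] [IsProbabilityMeasure μ]

omit [IsProbabilityMeasure μ] in
theorem memLp_W (hm2 : Integrable (fun x : ℝ => x ^ 2) ν) (hW : IsRealization ν μ W) (a : ℕ)
    (v : List ℕ) : MemLp (W (a :: v)) 2 μ := by
  have h : MemLp (fun x : ℝ => x) 2 ν :=
    (memLp_two_iff_integrable_sq measurable_id.aestronglyMeasurable).2 hm2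
  rw [← hW.2.2 (a :: v) (by simp)] at h
  exact h.comp_of_map (hW.1 _).aemeasurable

omit [IsProbabilityMeasure μ] [IsProbabilityMeasure ν] in
theorem integral_W (hW : IsRealization ν μ W) (a : ℕ) (v : List ℕ) (g : ℝ → ℝ)
    (hg : Measurable g) : ∫ z, g (W (a :: v) z) ∂μ = ∫ x, g x ∂ν := by
  rw [← hW.2.2 (a :: v) (by simp), integral_map (hW.1 _).aemeasurable hg.aestronglyMeasurable]

omit [IsProbabilityMeasure μ] in
theorem W_pos (hpos : ν (Set.Ioi 0) = 1) (hW : IsRealization ν μ W) (a : ℕ) (v : List ℕ) :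
    ∀ᵐ z ∂μ, 0 < W (a :: v) z := by
  have h : ∀ᵐ x ∂ν, x ∈ Set.Ioi (0 : ℝ) := by
    rw [ae_iff]
    exact (prob_compl_eq_zero_iff measurableSet_Ioi).2 hpos
  rw [← hW.2.2 (a :: v) (by simp)] at h
  exact ae_of_ae_map (hW.1 _).aemeasurable h

theorem path_facts (hpos : ν (Set.Ioi 0) = 1) (hmean : ∫ x, x ∂ν = 1)
    (hm2 : Integrable (fun x : ℝ => x ^ 2) ν) (hW : IsRealization ν μ W) : ∀ v : List ℕ,
    Integrable (pathProduct W v) μ ∧ ∫ z, |pathProduct W v z| ∂μ = 1
  | [] => ⟨integrable_const _, by simp [pathProduct]⟩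
  | a :: v => by
    obtain ⟨h1, h2⟩ := path_facts hpos hmean hm2 hW v
    have hi : IndepFun (pathProduct W v) (W (a :: v)) μ := by
      simpa using indep_children hW v {a}
    refine ⟨hi.integrable_mul h1 ((memLp_W hm2 hW a v).integrable one_le_two), ?_⟩
    have hi2 := hi.comp (φ := fun x => |x|) (ψ := fun x => |x|) (by fun_prop) (by fun_prop)
    have := hi2.integral_fun_mul_eq_mul_integral
      (measurable_pathProduct hW v).abs.aestronglyMeasurable (hW.1 _).abs.aestronglyMeasurable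
    simp only [Function.comp] at this
    simp only [pathProduct, abs_mul]
    rw [this, h2, one_mul, ← hmean, ← integral_W hW a v (fun x => x) measurable_id]
    refine integral_congr_ae ?_
    filter_upwards [W_pos hpos hW a v] with z hz
    exact abs_of_pos hz

theorem children_sum (hpos : ν (Set.Ioi 0) = 1) (hmean : ∫ x, x ∂ν = 1)
    (hm2 : Integrable (fun x : ℝ => x ^ 2) ν) (hW : IsRealization ν μ W) (v : List ℕ)
    (A : Finset ℕ) :
    ∫ z, |∑ n ∈ A, (pathProduct W (n :: v) z - pathProduct W v z)| ∂μ =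
      ∫ z, |∑ n ∈ A, W (n :: v) z - A.card| ∂μ := by
  have hi2 := (indep_children hW v A).comp (φ := fun x : ℝ => |x|) (ψ := fun x : ℝ => |x - A.card|)
    (by fun_prop) (by fun_prop)
  have := hi2.integral_fun_mul_eq_mul_integral
    (measurable_pathProduct hW v).abs.aestronglyMeasurable
    ((Finset.measurable_sum _ fun n _ => hW.1 _).sub_const _).abs.aestronglyMeasurable
  simp only [Function.comp] at this
  rw [(path_facts hpos hmean hm2 hW v).2, one_mul] at this
  rw [← this]
  congr 1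
  funext z
  simp only [pathProduct]
  rw [← abs_mul, Finset.sum_sub_distrib, Finset.sum_const, nsmul_eq_mul, ← Finset.mul_sum]
  congr 1
  ring

theorem children_bound (hmean : ∫ x, x ∂ν = 1)
    (hm2 : Integrable (fun x : ℝ => x ^ 2) ν) (hW : IsRealization ν μ W) (v : List ℕ)
    (A : Finset ℕ) :
    ∫ z, |∑ n ∈ A, W (n :: v) z - A.card| ∂μ ≤ √(∫ x, x ^ 2 ∂ν) * √(A.card) := by
  have hL : MemLp (∑ n ∈ A, W (n :: v)) 2 μ := memLp_finsetSum' _ fun n _ => memLp_W hm2 hW n v
  have h1 := IndepFun.variance_sum (μ := μ) (X := fun n => W (n :: v)) (s := A)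
    (fun n _ => memLp_W hm2 hW n v)
    (fun a _ b _ hab => hW.2.1.indepFun (fun h => hab (List.cons.inj h).1))
  have h2 : ∑ n ∈ A, variance (W (n :: v)) μ ≤ (∫ x, x ^ 2 ∂ν) * A.card := by
    rw [mul_comm, ← nsmul_eq_mul, ← Finset.sum_const]
    refine Finset.sum_le_sum fun n _ => ?_
    rw [← integral_W hW n v (fun x => x ^ 2) (by fun_prop)]
    exact variance_le_expectation_sq (hW.1 _).aestronglyMeasurable
  have h3 : ∫ z, (∑ n ∈ A, W (n :: v)) z ∂μ = A.card := by
    simp only [Finset.sum_apply]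
    rw [integral_finsetSum _ fun n _ => (memLp_W hm2 hW n v).integrable one_le_two]
    have : ∀ n, ∫ z, W (n :: v) z ∂μ = 1 := fun n => by
      rw [← hmean, ← integral_W hW n v (fun x => x) measurable_id]
    simp [this]
  rw [variance_eq_integral hL.aemeasurable, h3] at h1
  have hL2 : MemLp (fun z => |(∑ n ∈ A, W (n :: v)) z - A.card|) 2 μ :=
    (hL.sub (memLp_const _)).abs
  have h4 := variance_nonneg (fun z => |(∑ n ∈ A, W (n :: v)) z - A.card|) μ
  rw [variance_eq_sub hL2] at h4
  simp only [Pi.pow_apply, sq_abs] at h4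
  rw [← Real.sqrt_mul (integral_nonneg fun x => sq_nonneg x)]
  refine Real.le_sqrt_of_sq_le ?_
  simp only [Finset.sum_apply] at h1 h4
  linarith

theorem delta_pos (hnc : ∀ c : ℝ, ν ≠ Measure.dirac c)
    (hm2 : Integrable (fun x : ℝ => x ^ 2) ν) : 0 < ∫ x, |x - 1| ∂ν := by
  have h : MemLp (fun x : ℝ => x) 2 ν :=
    (memLp_two_iff_integrable_sq measurable_id.aestronglyMeasurable).2 hm2
  have hi : Integrable (fun x : ℝ => |x - 1|) ν :=
    ((h.integrable one_le_two).sub (integrable_const _)).abs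
  refine lt_of_le_of_ne (integral_nonneg fun x => abs_nonneg _) fun h0 => hnc 1 ?_
  have h1 := (integral_eq_zero_iff_of_nonneg (fun x => abs_nonneg _) hi).1 h0.symm
  have h2 : (id : ℝ → ℝ) =ᵐ[ν] fun _ => 1 := by
    filter_upwards [h1] with x hx
    simpa [sub_eq_zero] using hx
  rw [← Measure.map_id (μ := ν), Measure.map_congr h2, Measure.map_const]
  simp

theorem prod_noAUC (hpos : ν (Set.Ioi 0) = 1) (hnc : ∀ c : ℝ, ν ≠ Measure.dirac c)
    (hmean : ∫ x, x ∂ν = 1) (hm2 : Integrable (fun x : ℝ => x ^ 2) ν) (hW : IsRealization ν μ W)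
    [CompleteSpace (productSpan μ W)] (N : productSpan μ W → ℝ)
    (hN : (RB (productSpan μ W)).IsEquivNorm N) : ¬ (RB (productSpan μ W)).IsAUC N := by
  have hf := path_facts hpos hmean hm2 hW
  let x : List ℕ → productSpan μ W := fun v => ⟨(hf v).1.toL1 _,
    Submodule.le_topologicalClosure _ (Submodule.subset_span ⟨v, (hf v).1.coeFn_toL1⟩)⟩
  have hx : ∀ v, ‖x v‖ = 1 := by
    intro v
    rw [← (hf v).2]
    exact L1.norm_of_fun_eq_integral_norm (hf v).1
  have hsum : ∀ v (A : Finset ℕ), ‖∑ n ∈ A, (x (n :: v) - x v)‖ =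
      ∫ z, |∑ n ∈ A, W (n :: v) z - A.card| ∂μ := by
    intro v A
    rw [← children_sum hpos hmean hm2 hW, ← Submodule.norm_coe, L1.norm_eq_integral_norm]
    refine integral_congr_ae ?_
    have h1 : ∀ᵐ z ∂μ, ∀ u, ((hf u).1.toL1 _) z = pathProduct W u z :=
      ae_all_iff.2 fun u => (hf u).1.coeFn_toL1
    have h2 : ∀ᵐ z ∂μ, ∀ n, ((hf (n :: v)).1.toL1 _ - (hf v).1.toL1 _) z =
        ((hf (n :: v)).1.toL1 _) z - ((hf v).1.toL1 _) z :=
      ae_all_iff.2 fun n => Lp.coeFn_sub _ _
    filter_upwards [h1, h2, Lp.coeFn_finsetSum A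
      (fun n => (hf (n :: v)).1.toL1 _ - (hf v).1.toL1 _)] with z hz1 hz2 hz3
    simp only [Finset.sum_apply, hz1, hz2] at hz3
    rw [Real.norm_eq_abs, ← hz3]
    simp [x]
  have hδ := delta_pos hnc hm2
  refine noAUC (min 1 (∫ x, |x - 1| ∂ν)) 1 (by positivity) (fun _ => Set.range x)
    (fun _ => ⟨x [], ⟨_, rfl⟩, (min_le_left _ _).trans (hx _).ge⟩) ?_ ?_ N hN
  · rintro _ _ ⟨v, rfl⟩
    exact (hx v).le
  · rintro _ _ ⟨v, rfl⟩ F hF η hη
    obtain ⟨n, y, hy, hy'⟩ := near_of_sqrt (fun n => x (n :: v) - x v) _ (fun A => by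
      rw [hsum]
      exact children_bound hmean hm2 hW v A) hF hη
    refine ⟨x (n :: v), ⟨_, rfl⟩, (min_le_right _ _).trans ?_, y, hy, hy'⟩
    have := hsum v {n}
    simp only [Finset.sum_singleton, Finset.card_singleton, Nat.cast_one] at this
    rw [this, integral_W hW n v (fun x => |x - 1|) (by fun_prop)]

end Crest.Agent.H8.AUC
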