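import Crest.Agent.H8.AUCTree

/-! The `ℓ²`-sum of the global models on trees of finite height. -/

set_option autoImplicit false

namespace Crest.Agent.H8.AUC

open Crest.AnalysisR Crest.AnalysisR.TreePotential Filter Topology

/-- Reflexivity. -/
def Refl (X : Type) [NormedAddCommGroup X] [NormedSpace ℝ X] : Prop :=
  Function.Surjective (NormedSpace.inclusionInDoubleDual ℝ X)

theorem refl_of_hilbert {H X : Type} [NormedAddCommGroup H] [InnerProductSpace ℝ H]
    [CompleteSpace H] [NormedAddCommGroup X] [NormedSpace ℝ X] (e : H ≃L[ℝ] X) : Refl X := by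
  intro Φ
  let L : H →L[ℝ] X →L[ℝ] ℝ :=
    ((ContinuousLinearMap.compL ℝ X H ℝ).flip e.symm.toContinuousLinearMap).comp (innerSL ℝ)
  have hL : ∀ h x, L h x = inner ℝ h (e.symm x) := fun _ _ => rfl
  refine ⟨e ((InnerProductSpace.toDual ℝ H).symm (Φ.comp L)), ?_⟩
  ext φ
  set h := (InnerProductSpace.toDual ℝ H).symm (φ.comp e.toContinuousLinearMap) with hh
  have h1 : L h = φ := by
    ext x
    rw [hL, hh, InnerProductSpace.toDual_symm_apply]
    simp
  rw [NormedSpace.dual_def, ← h1, hL, e.symm_apply_apply, real_inner_comm,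
    InnerProductSpace.toDual_symm_apply]
  rfl

section lp

variable {ι : Type} {E : ι → Type} [∀ n, NormedAddCommGroup (E n)]

theorem hasSum_sq (f : lp E 2) : HasSum (fun n => ‖f n‖ ^ 2) (‖f‖ ^ 2) := by
  simpa using lp.hasSum_norm (p := 2) (by norm_num) f

theorem sum_sq_le (f : lp E 2) (s : Finset ι) : ∑ n ∈ s, ‖f n‖ ^ 2 ≤ ‖f‖ ^ 2 :=
  sum_le_hasSum s (fun _ _ => sq_nonneg _) (hasSum_sq f)

theorem sum_mul_le (a : ι → ℝ) (f : lp E 2) (s : Finset ι) :
    ∑ n ∈ s, a n * ‖f n‖ ≤ √(∑ n ∈ s, a n ^ 2) * ‖f‖ := by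
  refine (Real.sum_mul_le_sqrt_mul_sqrt s _ _).trans ?_
  gcongr
  exact Real.sqrt_le_iff.2 ⟨norm_nonneg _, sum_sq_le f s⟩

variable [∀ n, NormedSpace ℝ (E n)]

theorem dual_sum_bound (ψ : ∀ n, E n →L[ℝ] ℝ) (s : Finset ι) :
    ‖∑ n ∈ s, (ψ n).comp (lp.evalCLM ℝ E 2 n)‖ ≤ √(∑ n ∈ s, ‖ψ n‖ ^ 2) := by
  refine ContinuousLinearMap.opNorm_le_bound _ (Real.sqrt_nonneg _) fun z => ?_
  rw [sum_apply]
  refine (norm_sum_le _ _).trans (le_trans (Finset.sum_le_sum fun n _ => ?_) (sum_mul_le _ z s))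
  exact (ψ n).le_opNorm (z n)

theorem le_sq_of_le_mul_sqrt {S K : ℝ} (hS : 0 ≤ S) (h : S ≤ K * √S) : S ≤ K ^ 2 := by
  have h1 : √S * √S = S := Real.mul_self_sqrt hS
  nlinarith [sq_nonneg (K - √S), Real.sqrt_nonneg S, sq_nonneg (K + √S)]

theorem refl_lp [DecidableEq ι] (h : ∀ n, Refl (E n)) : Refl (lp E 2) := by
  intro Φ
  choose x hx using fun n => h n (Φ.comp
    ((ContinuousLinearMap.compL ℝ (lp E 2) (E n) ℝ).flip (lp.evalCLM ℝ E 2 n)))
  have hx' : ∀ n (φ : E n →L[ℝ] ℝ), Φ (φ.comp (lp.evalCLM ℝ E 2 n)) = φ (x n) :=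
    fun n φ => (congrArg (fun Ψ => Ψ φ) (hx n)).symm
  have hb : ∀ s : Finset ι, ∑ n ∈ s, ‖x n‖ ^ 2 ≤ ‖Φ‖ ^ 2 := by
    intro s
    choose g hg hg' using fun n => exists_dual_vector'' ℝ (x n)
    have h1 := dual_sum_bound (fun n => ‖x n‖ • g n) s
    have h2 := Φ.le_opNorm (∑ n ∈ s, (‖x n‖ • g n).comp (lp.evalCLM ℝ E 2 n))
    rw [map_sum] at h2
    simp only [hx', smul_apply, hg', smul_eq_mul, RCLike.ofReal_real_eq_id, id_eq, ← sq] at h2
    refine le_sq_of_le_mul_sqrt (by positivity) ((le_abs_self _).trans (h2.trans ?_))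
    gcongr
    refine h1.trans (Real.sqrt_le_sqrt (Finset.sum_le_sum fun n _ => ?_))
    rw [norm_smul, norm_norm]
    gcongr
    exact mul_le_of_le_one_right (norm_nonneg _) (hg n)
  let X : lp E 2 := ⟨x, memℓp_gen' (C := ‖Φ‖ ^ 2) (by simpa using hb)⟩
  refine ⟨X, ?_⟩
  ext φ
  let ψ : ∀ n, E n →L[ℝ] ℝ := fun n => φ.comp (lp.singleContinuousLinearMap ℝ E 2 n)
  have hψ : ∀ s : Finset ι, ∑ n ∈ s, ‖ψ n‖ ^ 2 ≤ (2 * ‖φ‖) ^ 2 := by
    intro s
    have : ∀ n, ∃ z : E n, ‖z‖ ≤ ‖ψ n‖ ∧ ‖ψ n‖ ^ 2 ≤ 2 * ψ n z := by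
      intro n
      rcases (norm_nonneg (ψ n)).eq_or_lt with h0 | h0
      · exact ⟨0, by simp, by simp [← h0]⟩
      obtain ⟨z, hz, hz'⟩ := (ψ n).exists_lt_apply_of_lt_opNorm (half_lt_self h0)
      rw [Real.norm_eq_abs] at hz'
      rcases le_total 0 (ψ n z) with h1 | h1
      · refine ⟨‖ψ n‖ • z, ?_, ?_⟩
        · rw [norm_smul, norm_norm]
          exact mul_le_of_le_one_right (norm_nonneg _) hz.le
        · rw [abs_of_nonneg h1] at hz'
          rw [map_smul, smul_eq_mul]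
          nlinarith
      · refine ⟨-(‖ψ n‖ • z), ?_, ?_⟩
        · rw [norm_neg, norm_smul, norm_norm]
          exact mul_le_of_le_one_right (norm_nonneg _) hz.le
        · rw [abs_of_nonpos h1] at hz'
          rw [map_neg, map_smul, smul_eq_mul]
          nlinarith
    choose z hz hz' using this
    have h1 : ‖∑ n ∈ s, lp.single 2 n (z n)‖ ^ 2 = ∑ n ∈ s, ‖z n‖ ^ 2 := by
      simpa using lp.norm_sum_single (p := 2) (by norm_num) z s
    have h2 : ‖∑ n ∈ s, lp.single 2 n (z n)‖ ≤ √(∑ n ∈ s, ‖ψ n‖ ^ 2) := by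
      refine Real.le_sqrt_of_sq_le ?_
      rw [h1]
      exact Finset.sum_le_sum fun n _ => by gcongr; exact hz n
    have h3 := φ.le_opNorm (∑ n ∈ s, lp.single 2 n (z n))
    rw [map_sum] at h3
    refine le_sq_of_le_mul_sqrt (by positivity) ?_
    calc _ ≤ ∑ n ∈ s, 2 * ψ n (z n) := Finset.sum_le_sum fun n _ => hz' n
      _ = 2 * ∑ n ∈ s, φ (lp.single 2 n (z n)) := by rw [Finset.mul_sum]; rfl
      _ ≤ 2 * (‖φ‖ * √(∑ n ∈ s, ‖ψ n‖ ^ 2)) := by
          gcongr
          exact (le_abs_self _).trans (h3.trans (by gcongr))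
      _ = _ := by ring
  have hsum : Summable fun n => ‖ψ n‖ ^ 2 := summable_of_sum_le (fun _ => sq_nonneg _) hψ
  have hsum2 : Summable fun n => (ψ n).comp (lp.evalCLM ℝ E 2 n) := by
    rw [summable_iff_vanishing_norm] at hsum ⊢
    intro ε hε
    obtain ⟨s, hs⟩ := hsum (ε ^ 2) (by positivity)
    refine ⟨s, fun t ht => (dual_sum_bound ψ t).trans_lt ?_⟩
    rw [Real.sqrt_lt' hε]
    exact (le_abs_self _).trans_lt (hs t ht)
  have key : ∀ z : lp E 2, HasSum (fun n => ψ n (z n)) (φ z) := fun z =>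
    (lp.hasSum_single (by norm_num) z).mapL φ
  have hφ : ∑' n, (ψ n).comp (lp.evalCLM ℝ E 2 n) = φ := by
    ext1 z
    exact (hsum2.hasSum.mapL (ContinuousLinearMap.apply ℝ ℝ z)).unique (key z)
  have h1 := hsum2.hasSum.mapL Φ
  rw [hφ] at h1
  simp only [hx'] at h1
  exact (key X).unique h1

theorem separable_lp [DecidableEq ι] [Countable ι] [∀ n, TopologicalSpace.SeparableSpace (E n)] :
    TopologicalSpace.SeparableSpace (lp E 2) := by
  have h1 : TopologicalSpace.IsSeparable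
      (⋃ n, Set.range (lp.singleContinuousLinearMap ℝ E 2 n)) :=
    .iUnion fun n => TopologicalSpace.isSeparable_range (ContinuousLinearMap.continuous _)
  rw [← TopologicalSpace.isSeparable_univ_iff]
  refine (h1.span (R := ℝ)).closure.mono fun z _ => ?_
  refine mem_closure_of_tendsto (lp.hasSum_single (by norm_num) z) (Eventually.of_forall fun s => ?_)
  exact Submodule.sum_mem _ fun n _ => Submodule.subset_span (Set.mem_iUnion.2 ⟨n, z n, rfl⟩)

/-- The midpoint inequality on a dense set of centres. -/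
def MPd (X : Type) [NormedAddCommGroup X] [NormedSpace ℝ X] : Prop :=
  ∀ (x : X) (η : ℝ), 0 < η → ∃ x0, ‖x - x0‖ < η ∧ ∃ T : Set (X →L[ℝ] ℝ), T.Finite ∧
    ∀ y, (∀ φ ∈ T, φ y = 0) → 4 * ‖x0‖ ^ 2 + ‖y‖ ^ 2 ≤ (‖x0 + y‖ + ‖x0 - y‖) ^ 2

theorem MPd.mp {X : Type} [NormedAddCommGroup X] [NormedSpace ℝ X] (h : MPd X) : MP X := by
  refine mp_of_dense fun x η hη => ?_
  obtain ⟨x0, hx0, T, hT, hT'⟩ := h x η hη
  have := hT.to_subtype
  exact ⟨x0, hx0, _, cof_forall (fun φ : T => φ.1), fun y hy => hT' y fun φ hφ => hy ⟨φ, hφ⟩⟩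

theorem mpd_lp [DecidableEq ι] (h : ∀ n, MPd (E n)) : MPd (lp E 2) := by
  intro x η hη
  obtain ⟨s, hs⟩ := (Metric.tendsto_nhds.1 (lp.hasSum_single (by norm_num) x) (η / 2)
    (by positivity)).exists
  choose x0 hx0 T hT hT' using fun n => h n (x n) (η / (2 * (s.card + 1))) (by positivity)
  refine ⟨∑ n ∈ s, lp.single 2 n (x0 n), ?_,
    ⋃ n ∈ s, (fun φ => φ.comp (lp.evalCLM ℝ E 2 n)) '' T n,
    s.finite_toSet.biUnion fun n _ => (hT n).image _, fun y hy => ?_⟩
  · rw [dist_comm, dist_eq_norm] at hs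
    have h1 : ‖∑ n ∈ s, lp.single 2 n (x n) - ∑ n ∈ s, lp.single 2 n (x0 n)‖ ≤ η / 2 := by
      rw [← Finset.sum_sub_distrib]
      refine (norm_sum_le _ _).trans ?_
      calc _ ≤ ∑ n ∈ s, η / (2 * (s.card + 1)) := Finset.sum_le_sum fun n _ => by
            rw [← lp.single_sub, lp.norm_single (by norm_num)]
            exact (hx0 n).le
        _ ≤ η / 2 := by
            rw [Finset.sum_const, nsmul_eq_mul, mul_div_assoc', div_le_div_iff₀ (by positivity)
              (by positivity)]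
            nlinarith
    have h2 := norm_add_le (x - ∑ n ∈ s, lp.single 2 n (x n))
      (∑ n ∈ s, lp.single 2 n (x n) - ∑ n ∈ s, lp.single 2 n (x0 n))
    rw [sub_add_sub_cancel] at h2
    linarith
  · set X : lp E 2 := ∑ n ∈ s, lp.single 2 n (x0 n) with hX
    have hXn : ∀ n, X n = if n ∈ s then x0 n else 0 := by
      intro n
      simp only [hX, lp.coeFn_sum, lp.coeFn_single, Finset.sum_apply, Finset.sum_pi_single]
    have h1 : ∀ n, 4 * ‖X n‖ ^ 2 + ‖y n‖ ^ 2 ≤ (‖(X + y) n‖ + ‖(X - y) n‖) ^ 2 := by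
      intro n
      rw [lp.coeFn_add, lp.coeFn_sub, Pi.add_apply, Pi.sub_apply, hXn]
      split_ifs with hn
      · exact hT' n _ fun φ hφ => hy _ (Set.mem_biUnion hn ⟨φ, hφ, rfl⟩)
      · simp only [norm_zero, zero_add, zero_sub, norm_neg]
        nlinarith [sq_nonneg ‖y n‖]
    refine hasSum_le_of_sum_le (((hasSum_sq X).mul_left 4).add (hasSum_sq y)) fun t => ?_
    refine (Finset.sum_le_sum fun n _ => h1 n).trans ?_
    simp only [add_sq, Finset.sum_add_distrib, mul_assoc, ← Finset.mul_sum]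
    have h2 := sum_sq_le (X + y) t
    have h3 := sum_sq_le (X - y) t
    have h4 := sum_mul_le (fun n => ‖(X + y) n‖) (X - y) t
    have h5 : √(∑ n ∈ t, ‖(X + y) n‖ ^ 2) * ‖X - y‖ ≤ ‖X + y‖ * ‖X - y‖ := by
      gcongr
      exact Real.sqrt_le_iff.2 ⟨norm_nonneg _, h2⟩
    linarith

end lp

/-- The Hilbert space over the tree of height `n`. -/
abbrev Hn (n : ℕ) := lp (fun _ : {s : List ℕ // s.length ≤ n} => ℝ) 2

theorem test_sum (n : ℕ) (f : PotentialTest .global) (A : Finset {s : List ℕ // s.length ≤ n}) :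
    ∑ s ∈ A, ‖f.1 s.1‖ ^ 2 ≤ 1 := by
  have := f.2.2 (A.map (Function.Embedding.subtype _))
  rw [Finset.sum_map] at this
  simpa using this

/-- A test restricted to height `n`. -/
noncomputable def tau (n : ℕ) (f : PotentialTest .global) : Hn n :=
  ⟨fun s => f.1 s.1, memℓp_gen' (C := 1) (by simpa using test_sum n f)⟩

theorem norm_tau (n : ℕ) (f : PotentialTest .global) : ‖tau n f‖ ≤ 1 := by
  have := hasSum_le_of_sum_le (hasSum_sq (tau n f)) (test_sum n f)
  nlinarith [norm_nonneg (tau n f)]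

theorem inner_tau (n : ℕ) (f : PotentialTest .global) (x : Hn n) : ‖inner ℝ (tau n f) x‖ ≤ ‖x‖ :=
  (norm_inner_le_norm _ _).trans (mul_le_of_le_one_left (norm_nonneg _) (norm_tau n f))

/-- The embedding of the Hilbert space in the global model. -/
noncomputable def Jn (n : ℕ) : Hn n →L[ℝ] Big .global :=
  LinearMap.mkContinuous
    { toFun := fun x => ⟨fun f => inner ℝ (tau n f) x, memℓp_infty ⟨‖x‖, by
        rintro _ ⟨f, rfl⟩
        exact inner_tau n f x⟩⟩
      map_add' := fun x y => lp.ext (funext fun f => inner_add_right _ _ _)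
      map_smul' := fun c x => lp.ext (funext fun f => inner_smul_right _ _ _) } 1 fun x => by
    rw [one_mul]
    exact lp.norm_le_of_forall_le (norm_nonneg _) fun f => inner_tau n f x

theorem Jn_apply (n : ℕ) (x : Hn n) (f : PotentialTest .global) :
    Jn n x f = inner ℝ (tau n f) x := rfl

theorem Jn_single (n : ℕ) (s : {s : List ℕ // s.length ≤ n}) (c : ℝ) :
    Jn n (lp.single 2 s c) = c • coordVector .global s.1 := by
  refine lp.ext (funext fun f => ?_)
  rw [Jn_apply, lp.inner_single_right]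
  rfl

theorem Jn_lower (n : ℕ) (x : Hn n) : ‖x‖ ≤ (n + 1) * ‖Jn n x‖ := by
  rcases (norm_nonneg x).eq_or_lt with h0 | h0
  · rw [← h0]
    positivity
  set c : ℝ := ((n + 1) * ‖x‖)⁻¹ with hc
  have hc0 : 0 < c := by positivity
  have hc1 : (n + 1) * (c * ‖x‖) = 1 := by rw [hc]; field_simp
  let f : List ℕ → ℝ := fun s => if h : s.length ≤ n then c * x ⟨s, h⟩ else 0
  have hf : ∀ s, |f s| ≤ c * ‖x‖ := by
    intro s
    simp only [f]
    split_ifs with h
    · rw [abs_mul, abs_of_pos hc0]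
      gcongr
      exact lp.norm_apply_le_norm (by norm_num) x ⟨s, h⟩
    · rw [abs_zero]
      positivity
  have hp : ∀ s, |pathPotential f s| ≤ ((min s.length n : ℕ) + 1) * (c * ‖x‖) := by
    intro s
    induction s with
    | nil => simpa [pathPotential] using hf []
    | cons a v ih =>
      rw [pathPotential]
      by_cases h : (a :: v).length ≤ n
      · have h' : v.length + 1 ≤ n := h
        rw [min_eq_left (by omega)] at ih
        rw [min_eq_left h, List.length_cons]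
        have := abs_add_le (pathPotential f v) (f (a :: v))
        have := hf (a :: v)
        push_cast
        linarith
      · have h' : ¬ v.length + 1 ≤ n := h
        rw [min_eq_right (by omega)] at ih
        rw [min_eq_right (not_le.1 h).le, show f (a :: v) = 0 from dif_neg h, add_zero]
        exact ih
  have hcx : c * ‖x‖ ≤ 1 := by
    have : 0 < c * ‖x‖ := by positivity
    nlinarith [Nat.cast_nonneg (α := ℝ) n]
  have ht : IsTest .global f := by
    refine ⟨fun s => (hp s).trans ?_, fun A => ?_⟩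
    · refine le_of_le_of_eq ?_ hc1
      gcongr
      exact min_le_right _ _
    · have h1 : ∑ u ∈ A, f u ^ 2 = ∑ u ∈ A.subtype (fun s => s.length ≤ n), f u.1 ^ 2 := by
        rw [Finset.sum_subtype_eq_sum_filter (f := fun u => f u ^ 2), Finset.sum_filter]
        refine Finset.sum_congr rfl fun u _ => ?_
        split_ifs with h
        · rfl
        · simp [f, h]
      have h2 : ∀ u : {s : List ℕ // s.length ≤ n}, f u.1 ^ 2 = c ^ 2 * ‖x u‖ ^ 2 := by
        intro u
        simp [f, u.2, mul_pow]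
      rw [h1]
      simp only [h2, ← Finset.mul_sum]
      calc _ ≤ c ^ 2 * ‖x‖ ^ 2 := by gcongr; exact sum_sq_le x _
        _ = (c * ‖x‖) ^ 2 := by ring
        _ ≤ 1 ^ 2 := by gcongr
        _ = 1 := one_pow 2
  have h1 : tau n ⟨f, ht⟩ = c • x := lp.ext (funext fun u => dif_pos u.2)
  have h2 := le_norm (Jn n x) ⟨f, ht⟩
  rw [Jn_apply, h1, inner_smul_left, real_inner_self_eq_norm_sq] at h2
  simp only [conj_trivial] at h2
  calc ‖x‖ = (n + 1) * (c * ‖x‖) * ‖x‖ := by rw [hc1, one_mul]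
    _ = (n + 1) * (c * ‖x‖ ^ 2) := by ring
    _ ≤ _ := by gcongr

theorem Jn_anti (n : ℕ) : AntilipschitzWith (n + 1) (Jn n) :=
  AddMonoidHomClass.antilipschitz_of_bound _ fun x => by simpa using Jn_lower n x

/-- The global model on the tree of height `n`. -/
noncomputable def En (n : ℕ) : Submodule ℝ (Big .global) := (Jn n).range

theorem En_closed (n : ℕ) : IsClosed (En n : Set (Big .global)) :=
  (Jn_anti n).isClosed_range (Jn n).uniformContinuous

instance (n : ℕ) : CompleteSpace (En n) := (En_closed n).completeSpace_coe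

theorem En_refl (n : ℕ) : Refl (En n) :=
  refl_of_hilbert (ContinuousLinearMap.equivRange (Jn_anti n).injective (En_closed n))

theorem En_hasSum (n : ℕ) (x : Hn n) :
    HasSum (fun s => x s • coordVector .global s.1) (Jn n x) := by
  simpa only [Jn_single] using (lp.hasSum_single (by norm_num) x).mapL (Jn n)

theorem En_le (n : ℕ) : En n ≤ modelSpace .global := by
  rintro _ ⟨x, rfl⟩
  refine mem_closure_of_tendsto (En_hasSum n x) (Eventually.of_forall fun s => ?_)
  exact Submodule.sum_mem _ fun u _ => Submodule.smul_mem _ _ (Submodule.subset_span ⟨_, rfl⟩)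

theorem coord_mem_En {n : ℕ} {s : List ℕ} (h : s.length ≤ n) : coordVector .global s ∈ En n :=
  ⟨lp.single 2 ⟨s, h⟩ 1, by simpa using Jn_single n ⟨s, h⟩ 1⟩

theorem pv_mem_En {n : ℕ} : ∀ {s : List ℕ}, s.length ≤ n → pv .global s ∈ En n
  | [], h => coord_mem_En h
  | _ :: _, h => (En n).add_mem (pv_mem_En ((Nat.le_succ _).trans h)) (coord_mem_En h)

instance (n : ℕ) : TopologicalSpace.SeparableSpace (En n) :=
  (((Set.countable_range (coordVector .global)).isSeparable.span (R := ℝ)).closure.mono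
    (En_le n)).separableSpace

theorem En_mpd (n : ℕ) : MPd (En n) := by
  rintro ⟨_, x, rfl⟩ η hη
  obtain ⟨A, hA⟩ := (Metric.tendsto_nhds.1 (En_hasSum n x) η hη).exists
  let c : List ℕ → ℝ := fun s => if h : s.length ≤ n then x ⟨s, h⟩ else 0
  have e : ∑ s ∈ A, x s • coordVector .global s.1 =
      ∑ s ∈ A.map (Function.Embedding.subtype _), c s • coordVector .global s := by
    rw [Finset.sum_map]
    exact Finset.sum_congr rfl fun s _ => by simp [c, s.2]
  obtain ⟨T, hT⟩ := glue_ineq .global (A.map (Function.Embedding.subtype _)) c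
  rw [← e] at hT
  refine ⟨⟨_, Submodule.sum_mem _ fun s (_ : s ∈ A) => Submodule.smul_mem _ (x s)
    (coord_mem_En s.2)⟩, by rwa [dist_comm, dist_eq_norm] at hA,
    (fun u => (lp.evalCLM ℝ (fun _ : PotentialTest .global => ℝ) ⊤ (dl .global u)).comp
      (En n).subtypeL) '' T, T.finite_toSet.image _, fun y hy => ?_⟩
  exact hT y (En_le n y.2) fun u hu => hy _ ⟨u, hu, rfl⟩

/-- The space. -/
noncomputable abbrev ES := lp (fun n : ℕ => En n) 2

theorem ES_noAUC (N : ES → ℝ) (hN : (RB ES).IsEquivNorm N) : ¬ (RB ES).IsAUC N := by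
  refine noAUC 1 1 one_pos (fun k => {x | ∃ (n : ℕ) (s : List ℕ) (h : s.length + k ≤ n),
    x = lp.single 2 n ⟨pv .global s, pv_mem_En ((Nat.le_add_right _ _).trans h)⟩})
    (fun k => ⟨_, ⟨1 + k, [0], le_rfl, rfl⟩, ?_⟩) ?_ ?_ N hN
  · rw [lp.norm_single (by norm_num)]
    exact one_le_norm_pv _
  · rintro _ _ ⟨n, s, h, rfl⟩
    rw [lp.norm_single (by norm_num)]
    exact norm_pv_le _ s
  · rintro k _ ⟨n, s, h, rfl⟩ F hF η hη
    have h1 : ∀ a : ℕ, (a :: s).length + k ≤ n := fun a => by rw [List.length_cons]; omega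
    let z : ℕ → En n := fun a => ⟨coordVector .global (a :: s),
      coord_mem_En ((Nat.le_add_right _ _).trans (h1 a))⟩
    obtain ⟨a, y, hy, hy'⟩ := near_of_sqrt
      (fun a => lp.singleContinuousLinearMap ℝ (fun n : ℕ => En n) 2 n (z a)) 1 (fun A => by
        rw [← map_sum, lp.singleContinuousLinearMap_apply, lp.norm_single (by norm_num),
          ← Submodule.norm_coe, Submodule.coe_sum]
        exact norm_sum_children _ s A) hF hη
    have e : (lp.single 2 n ⟨pv .global (a :: s), pv_mem_En ((Nat.le_add_right _ _).trans (h1 a))⟩ -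
        lp.single 2 n ⟨pv .global s, pv_mem_En ((Nat.le_add_right _ _).trans h)⟩ : ES) =
        lp.single 2 n (z a) := by
      rw [← lp.single_sub]
      congr 1
      apply Subtype.ext
      simp [z, pv]
    refine ⟨_, ⟨n, a :: s, h1 a, rfl⟩, ?_, y, hy, ?_⟩
    · rw [e, lp.norm_single (by norm_num)]
      exact one_le_norm_coord _ a s
    · rw [e]
      exact hy'

end Crest.Agent.H8.AUC
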