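import Crest.Agent.H8.AUCBasic
import Crest.Prelude.Def_TreePotentials

/-! The four bounded-potential models on the countably branching tree. -/

set_option autoImplicit false

namespace Crest.Agent.H8.AUC

open Crest.AnalysisR Crest.AnalysisR.TreePotential Filter Topology

/-- The ambient space of bounded functions on the tests. -/
abbrev Big (m : PotentialModel) := lp (fun _ : PotentialTest m => ℝ) ⊤

/-- The family with prescribed potential. -/
def ofPot (Φ : List ℕ → ℝ) : List ℕ → ℝ
  | [] => Φ []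
  | a :: v => Φ (a :: v) - Φ v

theorem pot_ofPot (Φ : List ℕ → ℝ) : ∀ s, pathPotential (ofPot Φ) s = Φ s
  | [] => rfl
  | a :: v => by rw [pathPotential, pot_ofPot Φ v, ofPot]; ring

/-- The last ancestor in `T`. -/
def base (T : Finset (List ℕ)) : List ℕ → List ℕ
  | [] => []
  | a :: v => if a :: v ∈ T then a :: v else base T v

theorem base_of_mem {T : Finset (List ℕ)} : ∀ {s}, s ∈ T → base T s = s
  | [], _ => rfl
  | _ :: _, h => if_pos h

/-- The glued potential. -/
noncomputable def gluePot (T : Finset (List ℕ)) (α β : ℝ) (F G : List ℕ → ℝ) (s : List ℕ) : ℝ :=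
  α * F (base T s) + (β * (G s - G (base T s)) -
    α * F (base T s) * |β * (G s - G (base T s))|) / 2

/-- The glued family. -/
noncomputable def glue (T : Finset (List ℕ)) (α β : ℝ) (f g : List ℕ → ℝ) : List ℕ → ℝ :=
  ofPot (gluePot T α β (pathPotential f) (pathPotential g))

/-- Initial finite subtrees. -/
def Initial (T : Finset (List ℕ)) : Prop := [] ∈ T ∧ ∀ a v, a :: v ∈ T → v ∈ T

theorem exists_initial (A : Finset (List ℕ)) : ∃ T, A ⊆ T ∧ Initial T := by
  refine ⟨insert [] (A.biUnion fun s => s.tails.toFinset), fun s hs => ?_,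
    Finset.mem_insert_self _ _, fun a v h => ?_⟩
  · simp only [Finset.mem_insert, Finset.mem_biUnion, List.mem_toFinset, List.mem_tails]
    exact Or.inr ⟨s, hs, List.suffix_refl s⟩
  · simp only [Finset.mem_insert, Finset.mem_biUnion, List.mem_toFinset, List.mem_tails,
      reduceCtorEq, false_or] at h ⊢
    obtain ⟨s, hs, h⟩ := h
    exact Or.inr ⟨s, hs, (List.suffix_cons a v).trans h⟩

theorem glue_mem {T : Finset (List ℕ)} (hT : Initial T) (α β : ℝ) (f g : List ℕ → ℝ) :
    ∀ {s}, s ∈ T → glue T α β f g s = α * f s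
  | [], _ => by simp [glue, ofPot, gluePot, base, pathPotential]
  | a :: v, h => by
    simp only [glue, ofPot, gluePot, base_of_mem h, base_of_mem (hT.2 a v h), pathPotential]
    simp
    ring

theorem glue_sub {T : Finset (List ℕ)} (hT : Initial T) (α β : ℝ) (f g : List ℕ → ℝ) :
    ∀ {s}, s ∉ T → glue T α β f g s - glue T α (-β) f g s = β * g s
  | [], h => absurd hT.1 h
  | a :: v, h => by
    simp only [glue, ofPot, gluePot, base, if_neg h, pathPotential, neg_mul, abs_neg]
    ring

theorem glue_abs {T : Finset (List ℕ)} (hT : Initial T) {α : ℝ} (hα : |α| ≤ 1) (β : ℝ)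
    {f : List ℕ → ℝ} (hf : ∀ s, |pathPotential f s| ≤ 1) (g : List ℕ → ℝ) :
    ∀ {s}, s ∉ T → |glue T α β f g s| ≤ |β * g s|
  | [], h => absurd hT.1 h
  | a :: v, h => by
    simp only [glue, ofPot, gluePot, base, if_neg h, pathPotential]
    set c := α * pathPotential f (base T v)
    have hc : |c| ≤ 1 := by
      rw [abs_mul]
      exact mul_le_one₀ hα (abs_nonneg _) (hf _)
    set D := β * (pathPotential g v + g (a :: v) - pathPotential g (base T v))
    set D' := β * (pathPotential g v - pathPotential g (base T v))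
    have e : β * g (a :: v) = D - D' := by simp only [D, D']; ring
    rw [e, show c + (D - c * |D|) / 2 - (c + (D' - c * |D'|) / 2) =
      ((D - D') - c * (|D| - |D'|)) / 2 by ring, abs_div, abs_two]
    have h1 := abs_sub (D - D') (c * (|D| - |D'|))
    have h2 : |c * (|D| - |D'|)| ≤ 1 * |D - D'| := by
      rw [abs_mul]
      exact mul_le_mul hc (abs_abs_sub_abs_le_abs_sub D D') (abs_nonneg _) zero_le_one
    linarith

theorem extra_of_sq {m : PotentialModel} {α β : ℝ} (hαβ : α ^ 2 + β ^ 2 ≤ 1)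
    {f g h : List ℕ → ℝ} (hf : ExtraCondition m f) (hg : ExtraCondition m g)
    (hh : ∀ s, h s ^ 2 ≤ α ^ 2 * f s ^ 2 + β ^ 2 * g s ^ 2) : ExtraCondition m h := by
  have key : ∀ {ι : Type} (A : Finset ι) (u : ι → List ℕ), ∑ n ∈ A, f (u n) ^ 2 ≤ 1 →
      ∑ n ∈ A, g (u n) ^ 2 ≤ 1 → ∑ n ∈ A, h (u n) ^ 2 ≤ 1 := by
    intro ι A u h1 h2
    refine (Finset.sum_le_sum fun n _ => hh (u n)).trans ?_
    rw [Finset.sum_add_distrib, ← Finset.mul_sum, ← Finset.mul_sum]
    nlinarith [sq_nonneg α, sq_nonneg β]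
  cases m with
  | rootlessSibling =>
    refine ⟨?_, fun r A => key A _ (hf.2 r A) (hg.2 r A)⟩
    have := hh []
    rw [hf.1, hg.1] at this
    nlinarith [sq_nonneg (h [])]
  | rootedSibling => exact fun r A => key A _ (hf r A) (hg r A)
  | antichain =>
    refine ⟨(hf.1.union hg.1).subset fun s hs => ?_, fun A hA => key A id (hf.2 A hA) (hg.2 A hA)⟩
    by_contra hcon
    simp only [Set.mem_union, Function.mem_support, not_or, not_not] at hcon hs
    have := hh s
    rw [hcon.1, hcon.2] at this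
    exact hs (by nlinarith [sq_nonneg (h s)])
  | global => exact fun A => key A id (hf A) (hg A)

theorem glue_test {m : PotentialModel} {T : Finset (List ℕ)} (hT : Initial T) {α β : ℝ}
    (hαβ : α ^ 2 + β ^ 2 ≤ 1) {f g : List ℕ → ℝ} (hf : IsTest m f) (hg : IsTest m g) :
    IsTest m (glue T α β f g) := by
  have hα : |α| ≤ 1 := by rw [← sq_le_one_iff_abs_le_one]; nlinarith [sq_nonneg β]
  have hβ : |β| ≤ 1 := by rw [← sq_le_one_iff_abs_le_one]; nlinarith [sq_nonneg α]
  refine ⟨fun s => ?_, extra_of_sq hαβ hf.2 hg.2 fun s => ?_⟩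
  · rw [glue, pot_ofPot, gluePot]
    set c := α * pathPotential f (base T s)
    have hc : |c| ≤ 1 := by
      rw [abs_mul]
      exact mul_le_one₀ hα (abs_nonneg _) (hf.1 _)
    set D := β * (pathPotential g s - pathPotential g (base T s))
    have hD : |D| ≤ 2 := by
      rw [abs_mul]
      have := abs_sub (pathPotential g s) (pathPotential g (base T s))
      have h1 := hg.1 s
      have h2 := hg.1 (base T s)
      nlinarith [abs_nonneg β, abs_nonneg (pathPotential g s - pathPotential g (base T s))]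
    rw [abs_le] at hc ⊢
    have h1 := le_abs_self D
    have h2 := neg_abs_le D
    constructor <;> nlinarith
  · by_cases hs : s ∈ T
    · rw [glue_mem hT _ _ _ _ hs, mul_pow]
      nlinarith [mul_nonneg (sq_nonneg β) (sq_nonneg (g s))]
    · have := sq_le_sq.2 (glue_abs hT hα β hf.1 g hs)
      rw [mul_pow] at this
      nlinarith [mul_nonneg (sq_nonneg α) (sq_nonneg (f s))]

theorem pot_single (u : List ℕ) : ∀ s, pathPotential (Pi.single u (1 : ℝ)) s =
    if u <:+ s then 1 else 0
  | [] => by simp [pathPotential, Pi.single_apply, eq_comm]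
  | a :: v => by
    rw [pathPotential, pot_single u v, Pi.single_apply]
    by_cases h : a :: v = u
    · subst h
      have : ¬ a :: v <:+ v := fun h => by simpa using h.length_le
      simp [this]
    · simp [h, List.suffix_cons_iff, Ne.symm h]

theorem sum_single_sq {ι : Type} (A : Finset ι) (w : ι → List ℕ) (hw : Function.Injective w)
    (u : List ℕ) : ∑ n ∈ A, (Pi.single u (1 : ℝ) : List ℕ → ℝ) (w n) ^ 2 ≤ 1 := by
  rw [← Finset.sum_image (f := fun s => (Pi.single u (1 : ℝ) : List ℕ → ℝ) s ^ 2)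
    (fun a _ b _ h => hw h)]
  simp only [Pi.single_apply, ite_pow, one_pow, ne_eq, OfNat.ofNat_ne_zero, not_false_eq_true,
    zero_pow, Finset.sum_ite_eq']
  split_ifs <;> norm_num

theorem single_test (m : PotentialModel) (u : List ℕ) (h : u ≠ [] ∨ m ≠ .rootlessSibling) :
    IsTest m (Pi.single u 1) := by
  have hc : ∀ r : List ℕ, Function.Injective fun n : ℕ => n :: r :=
    fun r a b h => (List.cons.inj h).1
  refine ⟨fun s => by rw [pot_single]; split_ifs <;> norm_num, ?_⟩
  cases m with
  | rootlessSibling =>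
    refine ⟨?_, fun r A => sum_single_sq A _ (hc r) u⟩
    rcases h with h | h
    · simp [Ne.symm h]
    · exact absurd rfl h
  | rootedSibling => exact fun r A => sum_single_sq A _ (hc r) u
  | antichain =>
    exact ⟨(Set.finite_singleton u).subset Pi.support_single_subset,
      fun A _ => sum_single_sq A id Function.injective_id u⟩
  | global => exact fun A => sum_single_sq A id Function.injective_id u

theorem zero_test (m : PotentialModel) : IsTest m 0 := by
  refine ⟨fun s => ?_, ?_⟩
  · have : pathPotential 0 s = 0 := by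
      induction s with
      | nil => rfl
      | cons a v ih => simp [pathPotential, ih]
    simp [this]
  · cases m <;> simp [ExtraCondition]

open Classical in
/-- The test reading off a coordinate. -/
noncomputable def dl (m : PotentialModel) (u : List ℕ) : PotentialTest m :=
  if h : IsTest m (Pi.single u 1) then ⟨_, h⟩ else ⟨0, zero_test m⟩

theorem mul_dl {m : PotentialModel} (g : PotentialTest m) (u s : List ℕ) :
    g.1 u * (dl m u).1 s = if s = u then g.1 u else 0 := by
  unfold dl
  split_ifs with h h' h'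
  · simp [h']
  · simp [h']
  · have h1 : ¬ (u ≠ [] ∨ m ≠ .rootlessSibling) := fun h2 => h (single_test m u h2)
    simp only [not_or, not_not] at h1
    obtain ⟨rfl, rfl⟩ := h1
    simp [g.2.2.1]
  · simp

theorem sq_of_lin (p q R : ℝ) (h : ∀ α β : ℝ, α ^ 2 + β ^ 2 ≤ 1 → α * p + β * q ≤ R) :
    p ^ 2 + q ^ 2 ≤ R ^ 2 := by
  set r := √(p ^ 2 + q ^ 2)
  have hr : r ^ 2 = p ^ 2 + q ^ 2 := Real.sq_sqrt (by positivity)
  have hr0 : 0 ≤ r := Real.sqrt_nonneg _
  rcases hr0.eq_or_lt with h0 | h0
  · rw [← hr, ← h0]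
    nlinarith [sq_nonneg R]
  · have := h (p / r) (q / r) (by
      rw [div_pow, div_pow, ← add_div, ← hr, div_self (by positivity)])
    have e : p / r * p + q / r * q = r := by
      field_simp
      linarith
    rw [e] at this
    rw [← hr]
    gcongr

theorem norm_sq_le {m : PotentialModel} (x : Big m) (C : ℝ) (h : ∀ f, x f ^ 2 ≤ C) :
    ‖x‖ ^ 2 ≤ C := by
  have hC : 0 ≤ C := (sq_nonneg _).trans (h ⟨0, zero_test m⟩)
  have : ‖x‖ ≤ √C := lp.norm_le_of_forall_le (Real.sqrt_nonneg _) fun f =>
    Real.abs_le_sqrt (h f)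
  calc ‖x‖ ^ 2 ≤ √C ^ 2 := by gcongr
    _ = C := Real.sq_sqrt hC

theorem le_norm {m : PotentialModel} (x : Big m) (f : PotentialTest m) : x f ≤ ‖x‖ :=
  (le_abs_self _).trans (lp.norm_apply_le_norm ENNReal.top_ne_zero x f)

theorem vanish {m : PotentialModel} (Λ : Big m →L[ℝ] ℝ) (h : ∀ s, Λ (coordVector m s) = 0)
    {y : Big m} (hy : y ∈ modelSpace m) : Λ y = 0 := by
  have : modelSpace m ≤ LinearMap.ker (Λ : Big m →ₗ[ℝ] ℝ) :=
    Submodule.topologicalClosure_minimal _ (Submodule.span_le.2 (by
      rintro _ ⟨s, rfl⟩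
      exact h s)) (isClosed_eq Λ.continuous continuous_const)
  exact this hy

theorem sum_coord_apply {m : PotentialModel} (A : Finset (List ℕ)) (c : List ℕ → ℝ)
    (f : PotentialTest m) : (∑ s ∈ A, c s • coordVector m s) f = ∑ s ∈ A, c s * f.1 s := by
  rw [lp.coeFn_sum, Finset.sum_apply]
  rfl

/-- The gluing inequality. -/
theorem glue_ineq (m : PotentialModel) (A : Finset (List ℕ)) (c : List ℕ → ℝ) :
    ∃ T : Finset (List ℕ), ∀ y ∈ modelSpace m, (∀ u ∈ T, y (dl m u) = 0) →
      4 * ‖∑ s ∈ A, c s • coordVector m s‖ ^ 2 + ‖y‖ ^ 2 ≤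
        (‖∑ s ∈ A, c s • coordVector m s + y‖ + ‖∑ s ∈ A, c s • coordVector m s - y‖) ^ 2 := by
  obtain ⟨T, hAT, hT⟩ := exists_initial A
  refine ⟨T, fun y hy hy0 => ?_⟩
  set x := ∑ s ∈ A, c s • coordVector m s with hx
  set R := ‖x + y‖ + ‖x - y‖ with hR
  have key : ∀ f g : PotentialTest m, (2 * x f) ^ 2 + y g ^ 2 ≤ R ^ 2 := by
    intro f g
    refine sq_of_lin _ _ _ fun α β hαβ => ?_
    let hp : PotentialTest m := ⟨_, glue_test hT hαβ f.2 g.2⟩
    let hm : PotentialTest m := ⟨_, glue_test (α := α) (β := -β) hT (by rwa [neg_sq]) f.2 g.2⟩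
    have h1 : x hp = α * x f := by
      rw [hx, sum_coord_apply, sum_coord_apply, Finset.mul_sum]
      refine Finset.sum_congr rfl fun s hs => ?_
      rw [show hp.1 s = α * f.1 s from glue_mem hT _ _ _ _ (hAT hs)]
      ring
    have h2 : x hm = α * x f := by
      rw [hx, sum_coord_apply, sum_coord_apply, Finset.mul_sum]
      refine Finset.sum_congr rfl fun s hs => ?_
      rw [show hm.1 s = α * f.1 s from glue_mem hT _ _ _ _ (hAT hs)]
      ring
    let ev : PotentialTest m → Big m →L[ℝ] ℝ := lp.evalCLM ℝ (fun _ : PotentialTest m => ℝ) ⊤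
    have hev : ∀ f (z : Big m), ev f z = z f := fun _ _ => rfl
    have h3 := vanish (ev hp - ev hm - β • ev g + β • ∑ u ∈ T, g.1 u • ev (dl m u)) (by
      intro s
      simp only [add_apply, sub_apply, smul_apply, sum_apply, hev,
        smul_eq_mul]
      change hp.1 s - hm.1 s - β * g.1 s + β * ∑ u ∈ T, g.1 u * (dl m u).1 s = 0
      simp only [mul_dl, Finset.sum_ite_eq]
      split_ifs with hs
      · rw [show hp.1 s = α * f.1 s from glue_mem hT _ _ _ _ hs,
          show hm.1 s = α * f.1 s from glue_mem hT _ _ _ _ hs]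
        ring
      · rw [show hp.1 s - hm.1 s = β * g.1 s from glue_sub hT _ _ _ _ hs]
        ring) hy
    simp only [add_apply, sub_apply, smul_apply, sum_apply, hev,
      smul_eq_mul] at h3
    rw [Finset.sum_eq_zero (fun u hu => by rw [hy0 u hu, mul_zero])] at h3
    have h4 := le_norm (x + y) hp
    have h5 := le_norm (x - y) hm
    rw [lp.coeFn_add, Pi.add_apply] at h4
    rw [lp.coeFn_sub, Pi.sub_apply] at h5
    linarith
  have h1 : ∀ g, y g ^ 2 ≤ R ^ 2 - 4 * ‖x‖ ^ 2 := by
    intro g
    have := norm_sq_le x ((R ^ 2 - y g ^ 2) / 4) fun f => by linarith [key f g]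
    linarith
  linarith [norm_sq_le y _ h1]

theorem children_sq {m : PotentialModel} (f : PotentialTest m) (r : List ℕ) (A : Finset ℕ) :
    ∑ n ∈ A, f.1 (n :: r) ^ 2 ≤ 1 := by
  have hc : Function.Injective fun n : ℕ => n :: r := fun a b h => (List.cons.inj h).1
  obtain ⟨f, -, hf⟩ := f
  cases m with
  | rootlessSibling => exact hf.2 r A
  | rootedSibling => exact hf r A
  | antichain =>
    have := hf.2 (A.map ⟨_, hc⟩) (by
      intro u hu v hv huv h
      obtain ⟨a, -, rfl⟩ := Finset.mem_map.1 hu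
      obtain ⟨b, -, rfl⟩ := Finset.mem_map.1 hv
      exact huv (h.eq_of_length rfl))
    rwa [Finset.sum_map] at this
  | global =>
    have := hf (A.map ⟨_, hc⟩)
    rwa [Finset.sum_map] at this

theorem norm_sum_children (m : PotentialModel) (r : List ℕ) (A : Finset ℕ) :
    ‖∑ n ∈ A, coordVector m (n :: r)‖ ≤ 1 * √(A.card) := by
  rw [one_mul]
  refine Real.le_sqrt_of_sq_le (norm_sq_le _ _ fun f => ?_)
  rw [lp.coeFn_sum, Finset.sum_apply]
  refine sq_sum_le_card_mul_sum_sq.trans ?_
  have := children_sq f r A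
  change (A.card : ℝ) * ∑ n ∈ A, f.1 (n :: r) ^ 2 ≤ _
  nlinarith [Nat.cast_nonneg (α := ℝ) A.card]

theorem one_le_norm_coord (m : PotentialModel) (a : ℕ) (r : List ℕ) :
    1 ≤ ‖coordVector m (a :: r)‖ := by
  have := le_norm (coordVector m (a :: r)) ⟨_, single_test m (a :: r) (Or.inl (by simp))⟩
  change (Pi.single (a :: r) (1 : ℝ) : List ℕ → ℝ) (a :: r) ≤ _ at this
  simpa using this

/-- The path vectors. -/
noncomputable def pv (m : PotentialModel) : List ℕ → Big m
  | [] => coordVector m []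
  | a :: v => pv m v + coordVector m (a :: v)

theorem pv_apply (m : PotentialModel) (f : PotentialTest m) :
    ∀ s, pv m s f = pathPotential f.1 s
  | [] => rfl
  | a :: v => by
    rw [pv, lp.coeFn_add, Pi.add_apply, pv_apply m f v]
    rfl

theorem norm_pv_le (m : PotentialModel) (s : List ℕ) : ‖pv m s‖ ≤ 1 :=
  lp.norm_le_of_forall_le zero_le_one fun f => by
    rw [pv_apply]
    exact f.2.1 s

theorem one_le_norm_pv (m : PotentialModel) : 1 ≤ ‖pv m [0]‖ := by
  have := le_norm (pv m [0]) ⟨_, single_test m [0] (Or.inl (by simp))⟩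
  rw [pv_apply, pot_single] at this
  simpa using this

theorem coord_mem (m : PotentialModel) (s : List ℕ) : coordVector m s ∈ modelSpace m :=
  Submodule.le_topologicalClosure _ (Submodule.subset_span ⟨s, rfl⟩)

theorem pv_mem (m : PotentialModel) : ∀ s, pv m s ∈ modelSpace m
  | [] => coord_mem m []
  | _ :: v => (modelSpace m).add_mem (pv_mem m v) (coord_mem m _)

instance (m : PotentialModel) : CompleteSpace (modelSpace m) :=
  (Submodule.isClosed_topologicalClosure _).completeSpace_coe

theorem model_noAUC (m : PotentialModel) (N : modelSpace m → ℝ)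
    (hN : (RB (modelSpace m)).IsEquivNorm N) : ¬ (RB (modelSpace m)).IsAUC N := by
  let x : List ℕ → modelSpace m := fun s => ⟨pv m s, pv_mem m s⟩
  have hd : ∀ a v, x (a :: v) - x v = ⟨coordVector m (a :: v), coord_mem m _⟩ := by
    intro a v
    apply Subtype.ext
    simp [x, pv]
  refine noAUC 1 1 one_pos (fun _ => Set.range x)
    (fun _ => ⟨x [0], ⟨_, rfl⟩, one_le_norm_pv m⟩) ?_ ?_ N hN
  · rintro _ _ ⟨v, rfl⟩
    exact norm_pv_le m v
  · rintro _ _ ⟨v, rfl⟩ F hF η hη
    obtain ⟨n, y, hy, hy'⟩ := near_of_sqrt (fun n => x (n :: v) - x v) 1 (fun A => by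
      simp only [hd]
      rw [← Submodule.norm_coe, Submodule.coe_sum]
      exact norm_sum_children m v A) hF hη
    refine ⟨x (n :: v), ⟨_, rfl⟩, ?_, y, hy, hy'⟩
    rw [hd]
    exact one_le_norm_coord m n v

theorem model_mp (m : PotentialModel) : MP (modelSpace m) := by
  refine mp_of_dense fun x η hη => ?_
  obtain ⟨x0, hx0, hx0'⟩ := Metric.mem_closure_iff.1 x.2 η hη
  obtain ⟨c, rfl⟩ := Finsupp.mem_span_range_iff_exists_finsupp.1 hx0
  obtain ⟨T, hT⟩ := glue_ineq m c.support c
  refine ⟨⟨_, Submodule.le_topologicalClosure _ hx0⟩, by rwa [dist_eq_norm] at hx0', _,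
    cof_forall (fun u : T => (lp.evalCLM ℝ (fun _ : PotentialTest m => ℝ) ⊤ (dl m u)).comp
      (modelSpace m).subtypeL), fun y hy => ?_⟩
  exact hT y y.2 fun u hu => hy ⟨u, hu⟩

theorem model_separable (m : PotentialModel) : TopologicalSpace.SeparableSpace (modelSpace m) :=
  ((Set.countable_range (coordVector m)).isSeparable.span (R := ℝ)).closure.separableSpace

end Crest.Agent.H8.AUC
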