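import Crest.Agent.Lead.P3I
/-!
Row 40, piece P3: a four-cycle of adjacent colours is impossible.
-/
set_option autoImplicit false
namespace Crest.Agent.H8.P3
open MeasureTheory Metric Set Filter Topology
open Crest.Agent.H2.Gm Crest.Agent.Lead.P3

theorem dens_shift {S T : Set ℝ} {a : ℝ} (c : ℝ) (h : Dens S a) (hT : ∀ᵐ s : ℝ, s ∈ S → s + c ∈ T) :
    Dens T (a + c) := fun γ hγ => by
  filter_upwards [h γ hγ] with r hr
  refine le_trans ?_ hr
  rw [← measure_preimage_add_right volume c]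
  refine measure_mono_ae ?_
  filter_upwards [hT] with s hs h'
  exact ⟨⟨by linarith [h'.1.1], by linarith [h'.1.2]⟩, fun h2 => h'.2 (hs h2)⟩

theorem dens_mono {S T : Set ℝ} {a : ℝ} (h : Dens S a) (hT : ∀ᵐ s : ℝ, s ∈ S → s ∈ T) :
    Dens T a := by
  simpa using dens_shift 0 h (by simpa using hT)

theorem acc_shift {S T : Set ℝ} {a : ℝ} (c : ℝ) (h : Acc S a) (hT : ∀ᵐ s : ℝ, s ∈ S → s + c ∈ T) :
    Acc T (a + c) := fun η hη => by
  obtain ⟨b, h1, h2⟩ := h η hη
  exact ⟨b + c, by simpa using h1, dens_shift c h2 hT⟩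

theorem dens_pos {S : Set ℝ} {a : ℝ} (h : Dens S a) {η : ℝ} (hη : 0 < η) :
    volume (S ∩ Ioo (a - η) (a + η)) ≠ 0 := fun h0 => by
  obtain ⟨r, h1, h2⟩ := ((h 1 one_pos).and (Ioo_mem_nhdsGT hη)).exists
  have : volume (Icc (a - r) (a + r)) ≤ volume (Icc (a - r) (a + r) \ S) := by
    refine measure_mono_ae ?_
    filter_upwards [measure_eq_zero_iff_ae_notMem.1 h0] with s hs h'
    exact ⟨h', fun h3 => hs ⟨h3, by linarith [h'.1, h2.2], by linarith [h'.2, h2.2]⟩⟩
  have := this.trans h1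
  rw [Real.volume_Icc, ENNReal.ofReal_le_ofReal_iff (by linarith [h2.1])] at this
  linarith [h2.1]

theorem exists_of_ne_zero {S : Set ℝ} (h : volume S ≠ 0) {P : ℝ → Prop} (hP : ∀ᵐ s : ℝ, P s) :
    ∃ s ∈ S, P s := by
  by_contra hc
  refine h (measure_eq_zero_iff_ae_notMem.2 ?_)
  filter_upwards [hP] with s hs h' using hc ⟨s, h', hs⟩

theorem acc_ne (hB : BasicStmt) {S : Set ℝ} (hS : MeasurableSet S) {s : ℝ} (h : Acc S s) (a : ℝ)
    {η : ℝ} (hη : 0 < η) : ∃ b, b ≠ a ∧ |b - s| < η ∧ Dens S b := by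
  obtain ⟨c, h1, h2⟩ := h (η / 2) (by positivity)
  obtain ⟨b, hb, h3, h4⟩ := exists_of_ne_zero (dens_pos h2 (η := η / 2) (by positivity))
    ((hB.1 S hS).and (measure_eq_zero_iff_ae_notMem.1 (measure_singleton a)))
  rw [abs_lt] at h1
  exact ⟨b, h4, abs_lt.2 ⟨by linarith [hb.2.1], by linarith [hb.2.2]⟩, h3 hb.1⟩

theorem isClosed_acc (S : Set ℝ) : IsClosed {s | Acc S s} := by
  refine isClosed_of_closure_subset fun s hs η hη => ?_
  obtain ⟨t, ht, h1⟩ := Metric.mem_closure_iff.1 hs (η / 2) (by positivity)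
  obtain ⟨a, h2, h3⟩ := ht (η / 2) (by positivity)
  rw [Real.dist_eq, abs_lt] at h1
  rw [abs_lt] at h2
  exact ⟨a, abs_lt.2 ⟨by linarith, by linarith⟩, h3⟩

theorem exists_acc (hB : BasicStmt) {ι : Type} [Finite ι] (W : ℝ → ι)
    (hW : ∀ w, MeasurableSet {s | W s = w}) (s : ℝ) : ∃ w, Acc {s | W s = w} s := by
  by_contra hc
  simp only [not_exists, Lead.P3.Acc, not_forall] at hc
  choose η hη h using hc
  have := Fintype.ofFinite ι
  have : Nonempty ι := ⟨W 0⟩
  obtain ⟨w0, -, hw0⟩ := Finset.exists_min_image Finset.univ η Finset.univ_nonempty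
  obtain ⟨a, ha, h1⟩ := exists_of_ne_zero (S := Ioo (s - η w0) (s + η w0))
    (by simp [hη w0]) (ae_all_iff.2 fun w => hB.1 _ (hW w))
  have := hw0 (W a) (Finset.mem_univ _)
  exact h (W a) a ⟨abs_lt.2 ⟨by linarith [ha.1], by linarith [ha.2]⟩, h1 _ rfl⟩

theorem e_sub (s t : ℝ) : ‖e s - e t‖ ≤ |s - t| := by
  have : e s - e t = e t * (Complex.exp ((s - t : ℝ) * Complex.I) - 1) := by
    simp only [e]; rw [mul_sub, ← Complex.exp_add]; push_cast; ring_nf
  rw [this, norm_mul, e, Complex.norm_exp_ofReal_mul_I, one_mul, mul_comm]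
  exact Real.norm_exp_I_mul_ofReal_sub_one_le

theorem e_add_pi (s : ℝ) : e (s + Real.pi) = -e s := by
  simp only [e]; push_cast; rw [add_mul, Complex.exp_add, Complex.exp_pi_mul_I]; ring

/-- compatibility of two words -/
def Cp (w v : Fin 6 → Fin 3) : Prop :=
  ∀ k, ¬ (w k = 1 ∧ v (k + 3) = 2) ∧ ¬ (w k = 2 ∧ v (k + 3) = 1) ∧ ¬ (w k = 1 ∧ v (k + 1) = 1) ∧
    ¬ (w k = 2 ∧ v (k + 1) = 2)

/-- valid words -/
def Vl (w : Fin 6 → Fin 3) : Prop := (∀ k, w k ≠ w (k + 1)) ∧ Cp w w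

instance (w v : Fin 6 → Fin 3) : Decidable (Cp w v) := by unfold Cp; infer_instance
instance (w : Fin 6 → Fin 3) : Decidable (Vl w) := by unfold Vl; infer_instance

/-- the class of a word -/
def cl (w : Fin 6 → Fin 3) : ℕ :=
  if (w 0 = 0 ∧ w 2 = 0) ∨ (w 0 = 0 ∧ w 4 = 0) ∨ (w 2 = 0 ∧ w 4 = 0) then 0
  else if (w 1 = 0 ∧ w 3 = 0) ∨ (w 1 = 0 ∧ w 5 = 0) ∨ (w 3 = 0 ∧ w 5 = 0) then 1
  else if w 0 = 0 then 2 else if w 1 = 0 then 3 else 4

theorem cl_aux : ∀ a b c d e f : Fin 3, Vl ![a, b, c, d, e, f] →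
    cl ![b, c, d, e, f, a] ≠ cl ![a, b, c, d, e, f] ∧ ∀ a' b' c' d' e' f' : Fin 3,
      Vl ![a', b', c', d', e', f'] → Cp ![a, b, c, d, e, f] ![a', b', c', d', e', f'] →
      Cp ![a', b', c', d', e', f'] ![a, b, c, d, e, f] →
      cl ![a, b, c, d, e, f] = cl ![a', b', c', d', e', f'] := by decide +kernel

theorem eta6 (w : Fin 6 → Fin 3) : w = ![w 0, w 1, w 2, w 3, w 4, w 5] := by
  funext k; fin_cases k <;> rfl

theorem cl_shift {w : Fin 6 → Fin 3} (h : Vl w) : cl (fun k => w (k + 1)) ≠ cl w := by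
  have := (cl_aux _ _ _ _ _ _ (eta6 w ▸ h)).1
  rwa [← eta6 w, show ![w 1, w 2, w 3, w 4, w 5, w 0] = fun k => w (k + 1) by
    funext k; fin_cases k <;> rfl] at this

theorem cl_eq {w v : Fin 6 → Fin 3} (h : Vl w) (h' : Vl v) (h1 : Cp w v) (h2 : Cp v w) :
    cl w = cl v := by
  have := (cl_aux _ _ _ _ _ _ (eta6 w ▸ h)).2 _ _ _ _ _ _ (eta6 v ▸ h')
  rw [← eta6 w, ← eta6 v] at this
  exact this h1 h2

theorem words (hB : BasicStmt) (lam : ℝ → Fin 3) (hm : Measurable lam)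
    (hp : ∀ s, lam (s + 2 * Real.pi) = lam s) (h2 : ∀ᵐ s : ℝ, lam s ≠ lam (s + Real.pi / 3))
    (h4 : ∀ s, ¬ (Acc {s | lam s = 1} s ∧ Acc {s | lam s = 2} (s + Real.pi)))
    (hJ1 : ∀ s, ¬ (Acc {s | lam s = 1} s ∧ Acc {s | lam s = 1} (s + Real.pi / 3)))
    (hJ2 : ∀ s, ¬ (Acc {s | lam s = 2} s ∧ Acc {s | lam s = 2} (s + Real.pi / 3))) : False := by
  let W : ℝ → Fin 6 → Fin 3 := fun s k => lam (s + (k : ℕ) * (Real.pi / 3))
  have hW : ∀ (s : ℝ) (k j : Fin 6), W s (k + j) = lam (s + (k : ℕ) * (Real.pi / 3) +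
      (j : ℕ) * (Real.pi / 3)) := fun s k j => by
    by_cases h : k.val + j.val < 6
    · simp only [W, Fin.val_add, Nat.mod_eq_of_lt h]; congr 1; push_cast; ring
    · have : (k.val + j.val) % 6 + 6 = k.val + j.val := by omega
      have h' : (((k.val + j.val) % 6 : ℕ) : ℝ) = k.val + j.val - 6 := by
        have := congrArg (Nat.cast : ℕ → ℝ) this
        push_cast at this ⊢; linarith
      simp only [W, Fin.val_add]
      rw [← hp, h']; congr 1; ring
  have hWm : ∀ w, MeasurableSet {s | W s = w} := fun w => by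
    have : Measurable W := measurable_pi_lambda _ fun k => hm.comp (measurable_add_const _)
    exact this (measurableSet_singleton w)
  have a0 : ∀ {w s} (k : Fin 6), Acc {s | W s = w} s →
      Acc {s | lam s = w k} (s + (k : ℕ) * (Real.pi / 3)) := fun k h =>
    acc_shift _ h (ae_of_all _ fun t ht => congrFun ht k)
  have a1 : ∀ {w s} (k j : Fin 6), Acc {s | W s = w} s →
      Acc {s | lam s = w (k + j)} (s + (k : ℕ) * (Real.pi / 3) + (j : ℕ) * (Real.pi / 3)) :=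
    fun k j h => by
      rw [add_assoc]
      exact acc_shift _ h (ae_of_all _ fun t ht => by
        show lam _ = _
        rw [← add_assoc, ← hW, show W t = _ from ht])
  have e3 : (((3 : Fin 6) : ℕ) : ℝ) * (Real.pi / 3) = Real.pi := by
    show ((3 : ℕ) : ℝ) * _ = _; push_cast; ring
  have e1 : (((1 : Fin 6) : ℕ) : ℝ) * (Real.pi / 3) = Real.pi / 3 := by
    show ((1 : ℕ) : ℝ) * _ = _; push_cast; ring
  have cp : ∀ {w v s}, Acc {s | W s = w} s → Acc {s | W s = v} s → Cp w v := fun hw hv k => by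
    have b0 := a0 k hw
    have b1 := a1 k 1 hv
    have b3 := a1 k 3 hv
    rw [e1] at b1; rw [e3] at b3
    refine ⟨fun h => h4 _ ⟨h.1 ▸ b0, h.2 ▸ b3⟩, fun h => h4 _ ⟨h.2 ▸ b3, ?_⟩,
      fun h => hJ1 _ ⟨h.1 ▸ b0, h.2 ▸ b1⟩, fun h => hJ2 _ ⟨h.1 ▸ b0, h.2 ▸ b1⟩⟩
    rw [add_assoc _ Real.pi, ← two_mul]
    exact acc_shift _ b0 (ae_of_all _ fun t ht => (hp t).trans (ht.trans h.1))
  have vl : ∀ {w s}, Acc {s | W s = w} s → Vl w := fun {w s} hw => by
    refine ⟨fun k => ?_, cp hw hw⟩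
    obtain ⟨a, -, ha⟩ := hw 1 one_pos
    obtain ⟨t, ht, h3⟩ := exists_of_ne_zero (dens_pos ha one_pos)
      ((measurePreserving_add_right volume ((k : ℕ) * (Real.pi / 3))).quasiMeasurePreserving.ae h2)
    rw [← show W t = w from ht.1, hW, e1]
    exact h3
  obtain ⟨w0, hw0⟩ := exists_acc hB W hWm 0
  have c1 : IsClosed (⋃ w, ⋃ _ : cl w = cl w0, {s | Acc {s | W s = w} s}) :=
    isClosed_iUnion_of_finite fun w => isClosed_iUnion_of_finite fun _ => isClosed_acc _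
  have c2 : IsClosed (⋃ w, ⋃ _ : cl w ≠ cl w0, {s | Acc {s | W s = w} s}) :=
    isClosed_iUnion_of_finite fun w => isClosed_iUnion_of_finite fun _ => isClosed_acc _
  obtain ⟨s, -, h1, h1'⟩ := isPreconnected_closed_iff.1 isPreconnected_univ _ _ c1 c2
    (fun s _ => by
      obtain ⟨w, hw⟩ := exists_acc hB W hWm s
      by_cases h : cl w = cl w0
      · exact Or.inl (mem_iUnion₂.2 ⟨w, h, hw⟩)
      · exact Or.inr (mem_iUnion₂.2 ⟨w, h, hw⟩))
    ⟨0, trivial, mem_iUnion₂.2 ⟨w0, rfl, hw0⟩⟩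
    ⟨0 + Real.pi / 3, trivial, mem_iUnion₂.2 ⟨_, cl_shift (vl hw0),
      acc_shift _ hw0 (ae_of_all _ fun t ht => funext fun k => by
        rw [← show W t = w0 from ht, hW, e1]
        exact congrArg lam (by ring))⟩⟩
  obtain ⟨w, e, hw⟩ := mem_iUnion₂.1 h1
  obtain ⟨v, e', hv⟩ := mem_iUnion₂.1 h1'
  exact e' ((cl_eq (vl hv) (vl hw) (cp hv hw) (cp hw hv)).trans e)

theorem five : ∀ a b c d f j : Fin 5, [a, b, c, d, f].Nodup →
    j = a ∨ j = b ∨ j = c ∨ j = d ∨ j = f := by decide +kernel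

theorem sub3 : ∀ a b c d f : Fin 5, [a, b, c, d, f].Nodup →
    [a, c, f].Nodup ∧ [b, d, f].Nodup := by decide +kernel

theorem c4Stmt (hB : BasicStmt) (hL : LabStmt) (hT : ThinStmt) (hR : TransStmt) (hJ : JStmt)
    (hE : ExStmt) : C4Stmt := by
  classical
  intro C x a b c d f hn hf h1 h2 h3 h4
  obtain ⟨P⟩ := hL C x
  let lam : ℝ → Fin 3 := fun s => if s ∈ P.S f then 0 else if s ∈ P.S a ∧ s ∈ P.S c then 1 else 2
  have hm : Measurable lam := Measurable.ite (P.meas f) measurable_const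
    (Measurable.ite ((P.meas a).inter (P.meas c)) measurable_const measurable_const)
  have l0 : ∀ s, lam s = 0 → s ∈ P.S f := fun s hs => by
    simp only [lam] at hs; split_ifs at hs with h h' <;> first | exact h | cases hs
  have l1 : ∀ s, lam s = 1 → s ∈ P.S a ∧ s ∈ P.S c := fun s hs => by
    simp only [lam] at hs; split_ifs at hs with h h' <;> first | exact h' | cases hs
  have l2 : ∀ᵐ s : ℝ, lam s = 2 → s ∈ P.S b ∧ s ∈ P.S d := by
    filter_upwards [P.L1 _ h1, P.L1 _ h2, P.L1 _ h3, P.L1 _ h4] with s ⟨j1, n1, m1⟩ ⟨j2, n2, m2⟩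
      ⟨j3, n3, m3⟩ ⟨j4, n4, m4⟩ hs
    simp only [lam] at hs
    split_ifs at hs with h h'
    · cases hs
    · cases hs
    simp only [Finset.mem_insert, Finset.mem_singleton, not_or] at n1 n2 n3 n4
    have q1 : s ∈ P.S c ∨ s ∈ P.S d := by
      rcases five a b c d f j1 hn with rfl | rfl | rfl | rfl | rfl <;> tauto
    have q2 : s ∈ P.S a ∨ s ∈ P.S d := by
      rcases five a b c d f j2 hn with rfl | rfl | rfl | rfl | rfl <;> tauto
    have q3 : s ∈ P.S a ∨ s ∈ P.S b := by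
      rcases five a b c d f j3 hn with rfl | rfl | rfl | rfl | rfl <;> tauto
    have q4 : s ∈ P.S b ∨ s ∈ P.S c := by
      rcases five a b c d f j4 hn with rfl | rfl | rfl | rfl | rfl <;> tauto
    tauto
  have tri : ∀ s, lam s = 0 ∨ lam s = 1 ∨ lam s = 2 := fun s => by
    generalize lam s = z; revert z; decide
  have n1 : volume {s | lam s = 1} ≠ 0 := fun h0 => hE C x P b d f (sub3 _ _ _ _ _ hn).2 (by
    filter_upwards [measure_eq_zero_iff_ae_notMem.1 h0, l2] with s hs hs2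
    rcases tri s with h | h | h
    exacts [Or.inl (l0 s h), absurd h hs, Or.inr (hs2 h)])
  have n2 : volume {s | lam s = 2} ≠ 0 := fun h0 => hE C x P a c f (sub3 _ _ _ _ _ hn).1 (by
    filter_upwards [measure_eq_zero_iff_ae_notMem.1 h0] with s hs
    rcases tri s with h | h | h
    exacts [Or.inl (l0 s h), Or.inr (l1 s h), absurd h hs])
  have pair : ∀ p q, Dens {s | lam s = 1} p → Dens {s | lam s = 2} q → Real.sin (p - q) ≠ 0 →
      ∀ j, j ≠ f → D0 (C.A j) (x + (e p + e q)) := fun p q hp hq hs j hj => by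
    have hs' : Real.sin (q - p) ≠ 0 := by rwa [← neg_sub, Real.sin_neg, neg_ne_zero]
    rcases five a b c d f j hn with rfl | rfl | rfl | rfl | rfl
    · rw [← add_assoc]
      exact hT C x P _ p q (dens_mono hp (ae_of_all _ fun s h => (l1 s h).1)) hs
    · rw [add_comm (e p), ← add_assoc]
      exact hT C x P _ q p (dens_mono hq (l2.mono fun s h h' => (h h').1)) hs'
    · rw [← add_assoc]
      exact hT C x P _ p q (dens_mono hp (ae_of_all _ fun s h => (l1 s h).2)) hs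
    · rw [add_comm (e p), ← add_assoc]
      exact hT C x P _ q p (dens_mono hq (l2.mono fun s h h' => (h h').2)) hs'
    · exact absurd rfl hj
  have two : ∀ y z : ℂ, ‖y - z‖ = 1 → (∀ j, j ≠ f → D0 (C.A j) (x + y)) →
      (∀ j, j ≠ f → D0 (C.A j) (x + z)) → False := fun y z hd hy hz => by
    obtain ⟨col, c1, c2⟩ := hR C Bool (fun v => if v then x + y else x + z) (fun _ j => j ≠ f)
      (by rintro (_ | _) j hj; exacts [hz j hj, hy j hj])
    exact c2 true false (by simpa [dist_eq_norm] using hd)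
      ((not_not.1 (c1 true)).trans (not_not.1 (c1 false)).symm)
  refine words hB lam hm (fun s => by simp only [lam, P.per]) ?_ ?_ ?_ ?_
  · filter_upwards [P.L2 f, P.L2 a, P.L2 b, l2,
      (measurePreserving_add_right volume (Real.pi / 3)).quasiMeasurePreserving.ae l2]
      with s q1 q2 q3 q4 q5 h
    rcases tri s with h' | h' | h'
    · exact q1 ⟨l0 _ h', l0 _ (h ▸ h')⟩
    · exact q2 ⟨(l1 _ h').1, (l1 _ (h ▸ h')).1⟩
    · exact q3 ⟨(q4 h').1, (q5 (h ▸ h')).1⟩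
  · rintro s ⟨q1, q2⟩
    obtain ⟨r, hr, H⟩ := Metric.isOpen_iff.1 isClosed_closure.isOpen_compl x hf
    obtain ⟨p, p1, p2⟩ := q1 (min r 1 / 2) (by positivity)
    obtain ⟨q, q0, q3, q4⟩ := acc_ne hB (hm (measurableSet_singleton 2)) q2 (p + Real.pi)
      (η := min r 1 / 2) (by positivity)
    have hd : |p - (q - Real.pi)| < min r 1 := by
      rw [abs_lt] at p1 q3 ⊢; constructor <;> linarith
    have hs : Real.sin (p - q) ≠ 0 := by
      rw [show p - q = p - (q - Real.pi) - Real.pi by ring, Real.sin_sub_pi, neg_ne_zero]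
      intro h0
      have h5 := abs_lt.1 (hd.trans_le (min_le_right _ _))
      have := (Real.sin_eq_zero_iff_of_lt_of_lt (by linarith [Real.pi_gt_three])
        (by linarith [Real.pi_gt_three])).1 h0
      exact q0 (by linarith)
    have hy : x + (e p + e q) ∈ ball x r := by
      rw [mem_ball, dist_eq_norm, add_sub_cancel_left, show q = q - Real.pi + Real.pi by ring,
        e_add_pi, ← sub_eq_add_neg]
      exact (e_sub _ _).trans_lt (hd.trans_le (min_le_left _ _))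
    obtain ⟨col, c1, -⟩ := hR C Unit (fun _ => x + (e p + e q)) (fun _ _ => True) fun _ j _ => by
      by_cases hj : j = f
      · rw [hj]; exact D0.of_notMem (H hy)
      · exact pair p q p2 q4 hs j hj
    exact c1 () trivial
  · rintro s ⟨q1, q2⟩
    obtain ⟨p, q, t, t', d1, d2, d3, d4, s1, s2, hd⟩ :=
      hJ _ _ _ s (hm (measurableSet_singleton 2)) n2 q1 q2
    exact two _ _ hd (pair _ _ d1 d3 s1) (pair _ _ d2 d4 s2)
  · rintro s ⟨q1, q2⟩
    obtain ⟨p, q, t, t', d1, d2, d3, d4, s1, s2, hd⟩ :=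
      hJ _ _ _ s (hm (measurableSet_singleton 1)) n1 q1 q2
    rw [add_comm (e p), add_comm (e q)] at hd
    exact two _ _ hd (pair _ _ d3 d1 (by rwa [← neg_sub, Real.sin_neg, neg_ne_zero]))
      (pair _ _ d4 d2 (by rwa [← neg_sub, Real.sin_neg, neg_ne_zero]))

end Crest.Agent.H8.P3
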