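import Crest.Agent.H8.P3C4

/-! Row 40, P3: most circles and lines consist of good points. -/

set_option autoImplicit false

namespace Crest.Agent.H8.P3
open MeasureTheory Metric Set Filter Topology
open Crest.Agent.H2.Gm Crest.Agent.Lead.P3

theorem vol_ball (y : ℂ) {ρ : ℝ} (hρ : 0 ≤ ρ) :
    volume (ball y ρ) = ENNReal.ofReal (Real.pi * ρ ^ 2) := by
  rw [Complex.volume_ball, ENNReal.ofReal_mul Real.pi_pos.le, ENNReal.ofReal_pow hρ, mul_comm]
  congr 1
  rw [← NNReal.coe_real_pi, ENNReal.ofReal_coe_nnreal]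

theorem avg_ball {J : ℂ → ENNReal} (hJ : Measurable J) {ρ : ℝ} (hρ : 0 ≤ ρ) :
    Measurable (fun y => ∫⁻ u in ball y ρ, J u) ∧
      ∫⁻ y, ∫⁻ u in ball y ρ, J u = ENNReal.ofReal (Real.pi * ρ ^ 2) * ∫⁻ u, J u := by
  have hS : MeasurableSet {p : ℂ × ℂ | dist p.2 p.1 < ρ} :=
    (isOpen_lt (by fun_prop) continuous_const).measurableSet
  have hF : Measurable fun p : ℂ × ℂ =>
      indicator {p : ℂ × ℂ | dist p.2 p.1 < ρ} (fun p => J p.2) p :=
    (hJ.comp measurable_snd).indicator hS
  have e1 : ∀ y, ∫⁻ u in ball y ρ, J u =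
      ∫⁻ u, indicator {p : ℂ × ℂ | dist p.2 p.1 < ρ} (fun p => J p.2) (y, u) := fun y => by
    rw [← lintegral_indicator measurableSet_ball]
    rfl
  simp only [e1]
  refine ⟨hF.lintegral_prod_right', ?_⟩
  rw [lintegral_lintegral_swap (f := fun y u =>
    indicator {p : ℂ × ℂ | dist p.2 p.1 < ρ} (fun p => J p.2) (y, u)) hF.aemeasurable,
    ← lintegral_const_mul _ hJ]
  refine lintegral_congr fun u => ?_
  have : (fun y => indicator {p : ℂ × ℂ | dist p.2 p.1 < ρ} (fun p => J p.2) (y, u)) =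
      indicator (ball u ρ) (fun _ => J u) := by
    funext y
    simp only [indicator, mem_ofPred_eq, mem_ball, dist_comm]
  rw [this, lintegral_indicator_const measurableSet_ball, vol_ball u hρ, mul_comm]

theorem circ_le (S : Set ℂ) (u : ℂ) : circ S u ≤ ENNReal.ofReal (2 * Real.pi) := by
  refine le_trans (measure_mono fun t ht => ht.1) ?_
  simp

theorem circ_ne (S : Set ℂ) (u : ℂ) : circ S u ≠ ⊤ :=
  ne_top_of_le_ne_top ENNReal.ofReal_ne_top (circ_le S u)

theorem norm_e' (t : ℝ) : ‖e t‖ = 1 := Complex.norm_exp_ofReal_mul_I t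

theorem markov {α : Type} [MeasurableSpace α] (μ : Measure α) {f : α → ENNReal}
    (hf : Measurable f) {a b : ℝ} (ha : 0 < a) (h : ∫⁻ x, f x ∂μ ≤ ENNReal.ofReal (a * b)) :
    μ {x | ENNReal.ofReal a ≤ f x} ≤ ENNReal.ofReal b := by
  have h1 := (mul_meas_ge_le_lintegral hf (ENNReal.ofReal a)).trans h
  rw [ENNReal.ofReal_mul ha.le] at h1
  exact (ENNReal.mul_le_mul_iff_right (by simpa using ha) ENNReal.ofReal_ne_top).1 h1

/-- the exceptional set for one colour -/
theorem exc_one (hB : BasicStmt) (hH : HalfStmt) (C : Col) (i : Fin 5) {R c κ δ : ℝ} (M : ℝ)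
    (hR : 1 ≤ R) (hc : 0 < c) (hκ : 0 < κ) (hδ : 0 < δ) :
    ∀ᶠ ε : ℝ in 𝓝[>] 0, ∃ Z : Set ℂ, MeasurableSet Z ∧ volume Z ≤ ENNReal.ofReal (δ * ε) ∧
      ∀ y, ‖y‖ ≤ M → ENNReal.ofReal (c * ε ^ 2) ≤ volume (C.A i ∩ ball y (R * ε)) →
        ENNReal.ofReal (κ * ε ^ 2) < ∫⁻ u in ball y (R * ε), circ (C.A i) u → ball y ε ⊆ Z := by
  have hpi := Real.pi_pos
  have hR0 : 0 < R := by linarith
  set B := C.A i ∩ ball 0 (M + 3) with hBdef
  have hBm : MeasurableSet B := (C.meas i).inter measurableSet_ball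
  set l : ℝ := κ / (2 * Real.pi * R ^ 2) with hl
  have hl0 : 0 < l := by positivity
  set c' : ℝ := c * l * κ / 2 with hc'
  have hc0 : 0 < c' := by positivity
  obtain ⟨r, hr, H⟩ := hH B hBm (isBounded_ball.subset inter_subset_right)
    (c' * δ / (32 * Real.pi ^ 2 * R ^ 5)) (by positivity)
  filter_upwards [Ioo_mem_nhdsGT (show (0 : ℝ) < min r 1 / (2 * R) by positivity)] with ε hε
  have hε0 := hε.1
  have hε1 : 2 * R * ε < min r 1 := by
    have := hε.2
    rwa [lt_div_iff₀ (by positivity), mul_comm] at this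
  have hε2 := hε1.trans_le (min_le_left _ _)
  have hε3 := hε1.trans_le (min_le_right _ _)
  have hΦ : Measurable fun u => (circ B u).toReal := (hB.2.2.2.1 B hBm).ennreal_toReal
  have hD : Measurable fun p : ℂ × ℂ =>
      ENNReal.ofReal (((circ B (p.1 + p.2)).toReal - (circ B p.1).toReal) ^ 2) :=
    (((hΦ.comp (measurable_fst.add measurable_snd)).sub (hΦ.comp measurable_fst)).pow_const
      2).ennreal_ofReal
  set J : ℂ → ENNReal := fun u => ∫⁻ h in ball (0 : ℂ) (2 * R * ε),
    ENNReal.ofReal (((circ B (u + h)).toReal - (circ B u).toReal) ^ 2) with hJdef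
  have hJ : Measurable J := hD.lintegral_prod_right'
  have hJ1 : ∫⁻ u, J u ≤ ENNReal.ofReal (c' * δ / (32 * Real.pi ^ 2 * R ^ 5) * (2 * R * ε)) *
      ENNReal.ofReal (Real.pi * (2 * R * ε) ^ 2) := by
    rw [hJdef, lintegral_lintegral_swap (f := fun u h =>
      ENNReal.ofReal (((circ B (u + h)).toReal - (circ B u).toReal) ^ 2)) hD.aemeasurable,
      ← vol_ball 0 (by positivity), ← setLIntegral_const]
    refine setLIntegral_mono measurable_const fun h hh => ?_
    have hh' : ‖h‖ < 2 * R * ε := by simpa using hh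
    refine (H h (hh'.trans hε2)).trans (ENNReal.ofReal_le_ofReal ?_)
    gcongr
  obtain ⟨hI, hI1⟩ := avg_ball hJ (ρ := 2 * R * ε) (by positivity)
  refine ⟨{y | ENNReal.ofReal (c' * ε ^ 4) ≤ ∫⁻ u in ball y (2 * R * ε), J u},
    measurableSet_le measurable_const hI, markov _ hI (by positivity) ?_, ?_⟩
  · rw [hI1]
    refine (mul_le_mul_right hJ1 _).trans (le_of_eq ?_)
    rw [← ENNReal.ofReal_mul (by positivity), ← ENNReal.ofReal_mul (by positivity)]
    congr 1
    field_simp
    ring
  intro y hy h1 h2 y' hy'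
  have hsub : ball y (R * ε) ⊆ ball y' (2 * R * ε) := fun u hu => by
    rw [mem_ball] at *
    have := dist_triangle u y y'
    rw [dist_comm y y'] at this
    nlinarith
  have hcirc : ∀ u ∈ ball y (R * ε), circ (C.A i) u = circ B u := fun u hu => by
    unfold circ
    congr 1
    ext t
    refine and_congr_right fun _ => ⟨fun h => ⟨h, ?_⟩, fun h => h.1⟩
    have a1 : ‖u - y‖ < R * ε := by simpa [dist_eq_norm] using hu
    have a2 := norm_add_le (u - y) y
    have a3 := norm_add_le u (e t)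
    rw [sub_add_cancel] at a2
    rw [norm_e'] at a3
    rw [mem_ball_zero_iff]
    change ‖u + e t‖ < _
    nlinarith
  have hzero : ∀ u ∈ C.A i, circ B u = 0 := fun u hu => by
    unfold circ
    have : {t : ℝ | t ∈ Ioc 0 (2 * Real.pi) ∧ u + Complex.exp (t * Complex.I) ∈ B} = ∅ := by
      ext t
      refine ⟨fun h => C.proper i _ h.2.1 _ hu ?_, fun h => h.elim⟩
      rw [dist_eq_norm, add_sub_cancel_left]
      exact norm_e' t
    rw [this, measure_empty]
  have hJ2 : ∀ u ∈ ball y (R * ε),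
      ENNReal.ofReal ((circ B u).toReal ^ 2) * ENNReal.ofReal (c * ε ^ 2) ≤ J u := fun u hu => by
    have hm : MeasurableSet ((fun h => u + h) ⁻¹' (C.A i ∩ ball y (R * ε))) :=
      (measurable_const_add u) ((C.meas i).inter measurableSet_ball)
    calc _ ≤ ENNReal.ofReal ((circ B u).toReal ^ 2) *
          volume ((fun h => u + h) ⁻¹' (C.A i ∩ ball y (R * ε))) := by
          rw [measure_preimage_add]; exact mul_le_mul_right h1 _
      _ = ∫⁻ h in (fun h => u + h) ⁻¹' (C.A i ∩ ball y (R * ε)),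
          ENNReal.ofReal (((circ B (u + h)).toReal - (circ B u).toReal) ^ 2) := by
          rw [← setLIntegral_const]
          refine setLIntegral_congr_fun hm fun h hh => ?_
          simp only [hzero _ hh.1]
          simp
      _ ≤ J u := by
          refine lintegral_mono_set fun h hh => ?_
          have a1 : dist (u + h) y < R * ε := hh.2
          have a2 : dist u y < R * ε := hu
          have a3 := dist_triangle_right (u + h) u y
          rw [dist_eq_norm, add_sub_cancel_left] at a3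
          rw [mem_ball_zero_iff]
          linarith
  have hsq : Measurable fun u => ENNReal.ofReal ((circ B u).toReal ^ 2) :=
    (hΦ.pow_const 2).ennreal_ofReal
  have h3 : ENNReal.ofReal (l * (κ * ε ^ 2 / 2)) ≤
      ∫⁻ u in ball y (R * ε), ENNReal.ofReal ((circ B u).toReal ^ 2) := by
    by_contra hlt
    refine absurd h2 (not_lt.2 ?_)
    calc _ ≤ ∫⁻ u in ball y (R * ε),
          (ENNReal.ofReal l + ENNReal.ofReal l⁻¹ * ENNReal.ofReal ((circ B u).toReal ^ 2)) := by
          refine setLIntegral_mono (measurable_const.add (hsq.const_mul _)) fun u hu => ?_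
          rw [hcirc u hu, ← ENNReal.ofReal_mul (by positivity),
            ← ENNReal.ofReal_add hl0.le (by positivity)]
          refine (ENNReal.ofReal_toReal (circ_ne B u)).symm.le.trans
            (ENNReal.ofReal_le_ofReal ?_)
          set x := (circ B u).toReal
          have : l * x ≤ l * (l + l⁻¹ * x ^ 2) := by
            rw [mul_add, ← mul_assoc l, mul_inv_cancel₀ hl0.ne']
            nlinarith [sq_nonneg (l - x), sq_nonneg x, sq_nonneg l]
          exact le_of_mul_le_mul_left this hl0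
      _ = ENNReal.ofReal l * ENNReal.ofReal (Real.pi * (R * ε) ^ 2) + ENNReal.ofReal l⁻¹ *
          ∫⁻ u in ball y (R * ε), ENNReal.ofReal ((circ B u).toReal ^ 2) := by
          rw [lintegral_add_left measurable_const, setLIntegral_const, lintegral_const_mul _ hsq,
            vol_ball y (by positivity)]
      _ ≤ ENNReal.ofReal l * ENNReal.ofReal (Real.pi * (R * ε) ^ 2) + ENNReal.ofReal l⁻¹ *
          ENNReal.ofReal (l * (κ * ε ^ 2 / 2)) := by
          gcongr
          exact (not_le.1 hlt).le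
      _ = _ := by
          rw [← ENNReal.ofReal_mul hl0.le, ← ENNReal.ofReal_mul (by positivity),
            ← ENNReal.ofReal_add (by positivity) (by positivity)]
          congr 1
          rw [← mul_assoc l⁻¹, inv_mul_cancel₀ hl0.ne', hl]
          field_simp
          ring
  rw [mem_ofPred_eq]
  calc ENNReal.ofReal (c' * ε ^ 4)
      = ENNReal.ofReal (l * (κ * ε ^ 2 / 2)) * ENNReal.ofReal (c * ε ^ 2) := by
        rw [← ENNReal.ofReal_mul (by positivity), hc']
        congr 1
        ring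
    _ ≤ (∫⁻ u in ball y (R * ε), ENNReal.ofReal ((circ B u).toReal ^ 2)) *
        ENNReal.ofReal (c * ε ^ 2) := mul_le_mul_left h3 _
    _ ≤ ∫⁻ u in ball y (R * ε), J u := by
        rw [← lintegral_mul_const _ hsq]
        exact setLIntegral_mono hJ hJ2
    _ ≤ _ := lintegral_mono_set hsub

theorem exc (hB : BasicStmt) (hH : HalfStmt) (C : Col) {R c κ δ : ℝ} (M : ℝ)
    (hR : 1 ≤ R) (hc : 0 < c) (hκ : 0 < κ) (hδ : 0 < δ) :
    ∀ᶠ ε : ℝ in 𝓝[>] 0, ∃ Z : Set ℂ, MeasurableSet Z ∧ volume Z ≤ ENNReal.ofReal (δ * ε) ∧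
      ∀ y, ‖y‖ ≤ M → ¬ Good C R c κ ε y → ball y ε ⊆ Z := by
  filter_upwards [eventually_all.2 fun i => exc_one hB hH C i (δ := δ / 5) M hR hc hκ
    (by positivity), self_mem_nhdsWithin] with ε h hε
  have hε0 : 0 < ε := hε
  choose Z h1 h2 h3 using h
  refine ⟨⋃ i, Z i, MeasurableSet.iUnion h1, ?_, fun y hy hg => ?_⟩
  · refine (measure_iUnion_fintype_le _ _).trans ((Finset.sum_le_sum fun i _ => h2 i).trans ?_)
    rw [← ENNReal.ofReal_sum_of_nonneg fun _ _ => by positivity]
    refine ENNReal.ofReal_le_ofReal (le_of_eq ?_)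
    simp
    ring
  · simp only [Good, not_forall, not_le] at hg
    obtain ⟨i, a1, a2⟩ := hg
    exact (h3 i y hy a1 a2).trans (subset_iUnion _ i)

theorem goodStmt (hB : BasicStmt) (hH : HalfStmt) : GoodStmt := by
  intro C R c κ γ M hR hc hκ hγ
  have hpi := Real.pi_pos
  have hpi3 := Real.pi_gt_three
  filter_upwards [exc hB hH C (δ := γ / (2 * Real.pi)) M hR hc hκ (by positivity),
    Ioo_mem_nhdsGT one_pos] with ε ⟨Z, hZ, h1, h2⟩ hε
  have hε0 := hε.1
  have h1' : volume Z ≤ ENNReal.ofReal (ε * γ) := h1.trans (ENNReal.ofReal_le_ofReal (by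
    rw [mul_comm]
    gcongr
    exact div_le_self hγ.le (by linarith)))
  set Z' := Complex.measurableEquivRealProd.symm ⁻¹' Z with hZ'
  have hZm : MeasurableSet Z' := Complex.measurableEquivRealProd.symm.measurable hZ
  have hZv : (volume : Measure ℝ).prod volume Z' = volume Z :=
    (Complex.volume_preserving_equiv_real_prod.symm _).measure_preimage hZ.nullMeasurableSet
  have hmem : ∀ a b : ℝ, (a + b * Complex.I : ℂ) ∈ Z → (a, b) ∈ Z' := fun a b h => by
    rw [hZ', mem_preimage]
    convert h using 1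
    apply Complex.ext <;> simp
  refine ⟨?_, ?_, ?_⟩
  · refine le_trans (measure_mono ?_) (markov volume (hB.2.2.2.1 Z hZ) hε0 ?_)
    · rintro w ⟨t, a1, a2⟩
      rw [mem_ofPred_eq]
      rw [← hB.2.2.2.2.1 Z w (t - ε / 2) hZ]
      refine le_trans (le_of_eq ?_) (measure_mono (s := Icc (t - ε / 2) (t + ε / 2))
        fun s hs => ⟨⟨hs.1, by linarith [hs.2, hε.2]⟩, h2 _ a1 a2 ?_⟩)
      · simp
      · rw [mem_ball, dist_eq_norm, add_sub_add_left_eq_sub]
        exact (e_sub s t).trans_lt (abs_lt.2 ⟨by linarith [hs.1], by linarith [hs.2]⟩)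
    · rw [hB.2.2.2.2.2.1 Z hZ]
      refine (mul_le_mul_right h1 _).trans (le_of_eq ?_)
      rw [← ENNReal.ofReal_mul (by positivity)]
      congr 1
      field_simp
  · refine le_trans (measure_mono ?_)
      (markov volume (measurable_measure_prodMk_left (ν := volume) hZm) hε0 ?_)
    · rintro a ⟨b, a1, a2⟩
      rw [mem_ofPred_eq]
      refine le_trans (le_of_eq ?_) (measure_mono (s := Icc (b - ε / 2) (b + ε / 2))
        fun s hs => hmem _ _ (h2 _ a1 a2 ?_))
      · simp
      · rw [mem_ball, dist_eq_norm, add_sub_add_left_eq_sub, ← sub_mul, norm_mul,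
          Complex.norm_I, mul_one, ← Complex.ofReal_sub, Complex.norm_real, Real.norm_eq_abs]
        exact abs_lt.2 ⟨by linarith [hs.1], by linarith [hs.2]⟩
    · rw [← Measure.prod_apply hZm, hZv]
      exact h1'
  · refine le_trans (measure_mono ?_)
      (markov volume (measurable_measure_prodMk_right (μ := volume) hZm) hε0 ?_)
    · rintro b ⟨a, a1, a2⟩
      rw [mem_ofPred_eq]
      refine le_trans (le_of_eq ?_) (measure_mono (s := Icc (a - ε / 2) (a + ε / 2))
        fun s hs => hmem _ _ (h2 _ a1 a2 ?_))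
      · simp
      · rw [mem_ball, dist_eq_norm, add_sub_add_right_eq_sub,
          ← Complex.ofReal_sub, Complex.norm_real, Real.norm_eq_abs]
        exact abs_lt.2 ⟨by linarith [hs.1], by linarith [hs.2]⟩
    · rw [← Measure.prod_apply_symm hZm, hZv]
      exact h1'

end Crest.Agent.H8.P3
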