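import Crest.Agent.H8.PPTGood

/-! The nineteen bilinear forms have no common zero on pairs of nonzero complex vectors; the
unpacked integer identities. -/

set_option autoImplicit false

namespace Crest.Agent.H8.PPT

theorem ev_eq {κ : Type*} [Field κ] (B n : ℕ) : ∀ (W : ℕ) (u : ℕ → κ),
    ev B n W u = ∑ i : Fin n, ((W / B ^ i.val % B : ℕ) : κ) * u i.val := by
  induction n with
  | zero => intro W u; simp [ev]
  | succ n ih =>
    intro W u
    rw [ev, ih, Fin.sum_univ_succ]
    simp only [Fin.val_zero, pow_zero, Nat.div_one, Fin.val_succ, Nat.div_div_eq_div_mul, pow_succ']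

theorem bnd_of (B D n : ℕ) : ∀ W : ℕ, (∀ i < n, W / B ^ i % B < D) → bnd B n D W := by
  induction n with
  | zero => intro W _; trivial
  | succ n ih =>
    intro W h
    refine ⟨by simpa using h 0 (by omega), ih _ fun i hi => ?_⟩
    have := h (i + 1) (by omega)
    rwa [Nat.div_div_eq_div_mul, ← pow_succ']

theorem length_le_countP_add {α : Type*} (P Q : α → Bool) (l : List α)
    (h : ∀ x ∈ l, P x = true ∨ Q x = true) : l.length ≤ l.countP P + l.countP Q := by
  induction l with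
  | nil => simp
  | cons a l ih =>
    have h1 := ih fun x hx => h x (List.mem_cons_of_mem _ hx)
    have h2 := h a List.mem_cons_self
    simp only [List.length_cons, List.countP_cons]
    rcases h2 with h2 | h2 <;> simp only [h2, if_true] <;> omega

theorem mem_Ws {w : ℕ} (hw : w ∈ Ws) : ∃ s : Fin 19, Ws.getD s.val 0 = w := by
  obtain ⟨i, hi, rfl⟩ := List.mem_iff_getElem.1 hw
  refine ⟨⟨i, by rw [← Ws_length]; exact hi⟩, ?_⟩
  simp [List.getD_eq_getElem?_getD, hi]

theorem core_mod (κ : Type) [Field κ] [CharP κ 588779] (u v : Fin 10 → κ)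
    (h : ∀ s, ∑ a, ∑ b, (Kz s a b : κ) * u a * v b = 0) : u = 0 ∨ v = 0 := by
  classical
  by_contra hcon
  push Not at hcon
  obtain ⟨hu, hv⟩ := hcon
  let ext : (Fin 10 → κ) → ℕ → κ := fun x i => if hi : i < 10 then x ⟨i, hi⟩ else 0
  have hext : ∀ x : Fin 10 → κ, x ≠ 0 → ∃ i ≤ 9, ext x i ≠ 0 := by
    intro x hx
    obtain ⟨i, hi⟩ := Function.ne_iff.1 hx
    exact ⟨i.val, by omega, by simpa [ext] using hi⟩
  have hev : ∀ (x : Fin 10 → κ) (s : Fin 19),
      ev BB 10 (Ws.getD s.val 0) (ext x) = ∑ a, (digit s a : κ) * x a := by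
    intro x s
    rw [ev_eq]
    refine Finset.sum_congr rfl fun a _ => ?_
    simp [ext, digit]
  have hb : ∀ w ∈ Ws, bnd BB (9 + 1) 588779 w := by
    intro w hw
    obtain ⟨s, rfl⟩ := mem_Ws hw
    exact bnd_of _ _ _ _ fun i hi => chk_digit s ⟨i, hi⟩
  have hcount : ∀ x : Fin 10 → κ, x ≠ 0 →
      Ws.countP (fun w => decide (ev BB (9 + 1) w (ext x) = 0)) ≤ 9 := fun x hx =>
    good_sound (κ := κ) (p := 588779) (B := BB) (by norm_num) (by norm_num [BB]) 9 588779 19 Ws
      (by norm_num [BB]) hb Ws_length.symm chk_good _ (hext x hx)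
  have hK : ∀ s a b, (Kz s a b : κ) = (digit s a : κ) * digit s b := by
    intro s a b
    have h1 := Int.dvd_of_emod_eq_zero (chk_cong s a b)
    have h2 := (CharP.intCast_eq_zero_iff κ 588779 _).2 (by exact_mod_cast h1)
    push_cast at h2
    exact sub_eq_zero.1 h2
  have := length_le_countP_add (fun w => decide (ev BB (9 + 1) w (ext u) = 0))
    (fun w => decide (ev BB (9 + 1) w (ext v) = 0)) Ws (by
      intro w hw
      obtain ⟨s, rfl⟩ := mem_Ws hw
      simp only [decide_eq_true_eq]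
      rw [hev, hev, ← mul_eq_zero, ← h s, Finset.sum_mul_sum]
      refine Finset.sum_congr rfl fun a _ => Finset.sum_congr rfl fun b _ => ?_
      rw [hK]; ring)
  have h1 := hcount u hu
  have h2 := hcount v hv
  rw [Ws_length] at this
  omega

theorem core (u v : Fin 10 → ℂ) (h : ∀ s, ∑ a, ∑ b, (Kz s a b : ℂ) * u a * v b = 0) :
    u = 0 ∨ v = 0 :=
  reduce_mod_prime (p := 588779) (by norm_num) Kz core_mod u v h

theorem kernel_id (a b : Fin 15) (s : Fin 19) :
    ∑ m, ∑ n, Kz s m n * ∑ k, Wz b n k * Vz a k m = 0 := by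
  have := unpack (ι := Fin 15 × Fin 15 × Fin 19)
    (fun x => 19 * x.1.val + 285 * x.2.1.val + x.2.2.val)
    (by
      rintro ⟨a, b, s⟩ ⟨a', b', s'⟩ h
      simp only at h
      simp only [Prod.mk.injEq, Fin.ext_iff]
      omega)
    (fun x => ∑ m, ∑ n, Kz x.2.2 m n * ∑ k, Wz x.2.1 n k * Vz x.1 k m) (2 ^ 100)
    (by
      rintro ⟨a, b, s⟩
      refine lt_of_le_of_lt (abs_sum_le _ _ fun m => abs_sum_le _ _ fun n =>
        abs_mul_le (chk_K _ _ _) (abs_sum_le _ _ fun k =>
          abs_mul_le (chk_W _ _ _) (chk_V _ _ _))) ?_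
      norm_num)
    (by
      rw [← chk_kernel]
      simp only [pw_eq, Fintype.sum_prod_type, Finset.sum_mul, Finset.mul_sum, pow_add]
      symm
      -- reorder the six sums
      calc _ = ∑ x : Fin 10 × Fin 10 × Fin 10 × Fin 19 × Fin 15 × Fin 15,
            Vz x.2.2.2.2.2 x.1 x.2.1 * ((2 : ℤ) ^ 100) ^ (19 * x.2.2.2.2.2.val) *
              (Wz x.2.2.2.2.1 x.2.2.1 x.1 * ((2 : ℤ) ^ 100) ^ (285 * x.2.2.2.2.1.val) *
                (Kz x.2.2.2.1 x.2.1 x.2.2.1 * ((2 : ℤ) ^ 100) ^ x.2.2.2.1.val)) := by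
            simp only [Fintype.sum_prod_type]
        _ = ∑ x : Fin 15 × Fin 15 × Fin 19 × Fin 10 × Fin 10 × Fin 10,
            Kz x.2.2.1 x.2.2.2.1 x.2.2.2.2.1 *
              (Wz x.2.1 x.2.2.2.2.1 x.2.2.2.2.2 * Vz x.1 x.2.2.2.2.2 x.2.2.2.1) *
              (((2 : ℤ) ^ 100) ^ (19 * x.1.val) * ((2 : ℤ) ^ 100) ^ (285 * x.2.1.val) *
                ((2 : ℤ) ^ 100) ^ x.2.2.1.val) := by
            refine Fintype.sum_equiv
              ⟨fun x => (x.2.2.2.2.2, x.2.2.2.2.1, x.2.2.2.1, x.2.1, x.2.2.1, x.1),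
               fun x => (x.2.2.2.2.2, x.2.2.2.1, x.2.2.2.2.1, x.2.2.1, x.2.1, x.1),
               fun _ => rfl, fun _ => rfl⟩ _ _ fun x => ?_
            simp only [Equiv.coe_fn_mk]
            ring
        _ = _ := by simp only [Fintype.sum_prod_type])
  exact this (a, b, s)

theorem symm_id (i j k l : Fin 10) :
    ∑ a, (cz a : ℤ) * (Vz a k i * Vz a l j) = ∑ a, (cz a : ℤ) * (Vz a l i * Vz a k j) := by
  have := unpack (ι := Fin 10 × Fin 10 × Fin 10 × Fin 10)
    (fun x => x.1.val + 100 * x.2.1.val + (10 * x.2.2.1.val + 1000 * x.2.2.2.val))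
    (by
      rintro ⟨a, b, c, d⟩ ⟨a', b', c', d'⟩ h
      simp only at h
      simp only [Prod.mk.injEq, Fin.ext_iff]
      omega)
    (fun x => ∑ a, (cz a : ℤ) * (Vz a x.1 x.2.1 * Vz a x.2.2.1 x.2.2.2 -
      Vz a x.2.2.1 x.2.1 * Vz a x.1 x.2.2.2)) (2 ^ 100)
    (by
      rintro ⟨k, i, l, j⟩
      refine lt_of_le_of_lt (abs_sum_le _ _ fun a => abs_mul_le (chk_c _)
        (le_trans (abs_sub _ _) (add_le_add (abs_mul_le (chk_V _ _ _) (chk_V _ _ _))
          (abs_mul_le (chk_V _ _ _) (chk_V _ _ _))))) ?_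
      norm_num)
    (by
      rw [← chk_symm]
      simp only [Finset.sum_mul]
      rw [Finset.sum_comm]
      refine Finset.sum_congr rfl fun a _ => ?_
      simp only [mul_assoc ((cz a : ℕ) : ℤ), ← Finset.mul_sum]
      congr 1
      simp only [sub_mul, Finset.sum_sub_distrib]
      congr 1
      · rw [← Fintype.sum_prod_type', ← Fintype.sum_prod_type']
        simp only [Finset.mul_sum]
        rw [← Fintype.sum_prod_type']
        refine Fintype.sum_equiv
          ⟨fun x => ((x.1, x.2.1), (x.2.2.1, x.2.2.2)), fun x => (x.1.1, x.1.2, x.2.1, x.2.2),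
            fun _ => rfl, fun _ => rfl⟩ _ _ fun x => ?_
        simp only [Equiv.coe_fn_mk, pw_eq, pow_add]
        ring
      · rw [← Fintype.sum_prod_type', ← Fintype.sum_prod_type']
        simp only [Finset.mul_sum]
        rw [← Fintype.sum_prod_type']
        refine Fintype.sum_equiv
          ⟨fun x => ((x.2.2.1, x.2.1), (x.1, x.2.2.2)), fun x => (x.2.1, x.1.2, x.1.1, x.2.2),
            fun _ => rfl, fun _ => rfl⟩ _ _ fun x => ?_
        simp only [Equiv.coe_fn_mk, pw_eq, pow_add]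
        ring)
  have h := this (k, i, l, j)
  simp only [mul_sub, Finset.sum_sub_distrib] at h
  exact sub_eq_zero.1 h

end Crest.Agent.H8.PPT
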