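import Crest.Agent.H8.PPTKraus
import Crest.Agent.H8.PPTCore

/-! The two PPT maps on `10 × 10` matrices, their composition, and the channel on `21` levels. -/

set_option autoImplicit false

namespace Crest.Agent.H8.PPT

open Crest.Quantum Matrix
open scoped ComplexOrder Kronecker

section general

variable {d e f ι κ : Type*} [Fintype d] [Fintype e] [Fintype f] [Fintype ι] [Fintype κ]

omit [Fintype e] in
theorem kraus_apply (c : ι → ℝ) (V : ι → Matrix e d ℂ) (X : Matrix d d ℂ) (k l : e) :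
    kraus c V X k l = ∑ i, ∑ j, (∑ a, (c a : ℂ) * (V a k i * star (V a l j))) * X i j := by
  simp only [kraus, Matrix.sum_apply, Matrix.smul_apply, Matrix.mul_apply,
    Matrix.conjTranspose_apply, smul_eq_mul, Finset.sum_mul, Finset.mul_sum]
  rw [Finset.sum_comm]
  symm
  rw [Finset.sum_comm]
  refine Finset.sum_congr rfl fun j _ => ?_
  rw [Finset.sum_comm]
  refine Finset.sum_congr rfl fun a _ => Finset.sum_congr rfl fun i _ => by ring

omit [Fintype e] in
theorem kraus_symm (c : ι → ℝ) (V : ι → Matrix e d ℂ)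
    (h : ∀ i j k l, ∑ a, (c a : ℂ) * (V a k i * star (V a l j)) =
      ∑ a, (c a : ℂ) * (V a l i * star (V a k j))) (X : Matrix d d ℂ) :
    (kraus c V X)ᵀ = kraus c V X := by
  ext k l
  rw [Matrix.transpose_apply, kraus_apply, kraus_apply]
  simp only [h _ _ l k]

omit [Fintype f] in
theorem kraus_comp (c : ι → ℝ) (V : ι → Matrix e d ℂ) (c' : κ → ℝ) (W : κ → Matrix f e ℂ)
    (X : Matrix d d ℂ) :
    kraus c' W (kraus c V X) =
      kraus (fun p : κ × ι => c' p.1 * c p.2) (fun p => W p.1 * V p.2) X := by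
  simp only [kraus, Fintype.sum_prod_type, Matrix.mul_sum, Matrix.sum_mul, Finset.smul_sum,
    Matrix.mul_smul, Matrix.smul_mul, smul_smul, Matrix.conjTranspose_mul, Matrix.mul_assoc,
    Complex.ofReal_mul]

omit [Fintype e] in
theorem choi_kraus [DecidableEq d] (c : ι → ℝ) (V : ι → Matrix e d ℂ) (p q : d × e) :
    choiMatrix (kraus c V) p q = ∑ a, (c a : ℂ) * (V a p.2 p.1 * star (V a q.2 q.1)) := by
  simp only [choiMatrix, Matrix.of_apply, kraus_apply, Matrix.single_apply, mul_ite, mul_one,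
    mul_zero, ite_and]
  simp only [Finset.sum_ite_irrel, Finset.sum_const_zero, Finset.sum_ite_eq, Finset.mem_univ,
    if_true]

end general

/-- Kraus operators of the first map. -/
def Vc (a : Fin 15) : Matrix (Fin 10) (Fin 10) ℂ := Matrix.of fun k m => (Vz a k m : ℂ)

/-- Kraus operators of the second map. -/
def Wc (b : Fin 15) : Matrix (Fin 10) (Fin 10) ℂ := Matrix.of fun n k => (Wz b n k : ℂ)

/-- The weights. -/
def cr (a : Fin 15) : ℝ := (cz a : ℝ)

theorem cr_nonneg (a : Fin 15) : 0 ≤ cr a := Nat.cast_nonneg _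

theorem Vc_symm (i j k l : Fin 10) : ∑ a, (cr a : ℂ) * (Vc a k i * star (Vc a l j)) =
    ∑ a, (cr a : ℂ) * (Vc a l i * star (Vc a k j)) := by
  have := congrArg (Int.cast : ℤ → ℂ) (symm_id i j k l)
  simpa [cr, Vc] using this

theorem Wc_symm (i j k l : Fin 10) : ∑ a, (cr a : ℂ) * (Wc a k i * star (Wc a l j)) =
    ∑ a, (cr a : ℂ) * (Wc a l i * star (Wc a k j)) := by
  have := congrArg (fun z : ℤ => ((sg i * sg j * z : ℤ) : ℂ)) (symm_id k l (pk i) (pk j))
  simp only [Int.cast_mul, Int.cast_sum, Int.cast_natCast, Finset.mul_sum] at this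
  simp only [cr, Wc, Wz, Matrix.of_apply, Complex.ofReal_natCast, Int.cast_mul, star_mul',
    star_intCast]
  calc _ = _ := Finset.sum_congr rfl fun a _ => by ring
    _ = _ := this
    _ = _ := Finset.sum_congr rfl fun a _ => by ring

/-- The Choi matrix of the composition. -/
noncomputable def Ch : Matrix (Fin 10 × Fin 10) (Fin 10 × Fin 10) ℂ :=
  choiMatrix (kraus cr Wc ∘ kraus cr Vc)

theorem Ch_apply (p q : Fin 10 × Fin 10) : Ch p q = ∑ x : Fin 15 × Fin 15,
    ((cr x.1 * cr x.2 : ℝ) : ℂ) * ((Wc x.1 * Vc x.2) p.2 p.1 * star ((Wc x.1 * Vc x.2) q.2 q.1)) := by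
  have : kraus cr Wc ∘ kraus cr Vc =
      kraus (fun p : Fin 15 × Fin 15 => cr p.1 * cr p.2) (fun p => Wc p.1 * Vc p.2) :=
    funext fun X => kraus_comp _ _ _ _ X
  rw [Ch, this, choi_kraus]

theorem WV_apply (b a : Fin 15) (n m : Fin 10) :
    (Wc b * Vc a) n m = ((∑ k, Wz b n k * Vz a k m : ℤ) : ℂ) := by
  simp [Wc, Vc, Matrix.mul_apply]

theorem Ch_ann (s : Fin 19) (q : Fin 10 × Fin 10) :
    ∑ p : Fin 10 × Fin 10, (Kz s p.1 p.2 : ℂ) * Ch p q = 0 := by
  simp only [Ch_apply, Finset.mul_sum]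
  rw [Finset.sum_comm]
  refine Finset.sum_eq_zero fun x _ => ?_
  have h := congrArg (Int.cast : ℤ → ℂ) (kernel_id x.2 x.1 s)
  simp only [Int.cast_sum, Int.cast_zero, Int.cast_mul] at h
  calc _ = ((cr x.1 * cr x.2 : ℝ) : ℂ) * star ((Wc x.1 * Vc x.2) q.2 q.1) *
      ∑ p : Fin 10 × Fin 10, (Kz s p.1 p.2 : ℂ) * (Wc x.1 * Vc x.2) p.2 p.1 := by
        rw [Finset.mul_sum]
        exact Finset.sum_congr rfl fun p _ => by ring
    _ = 0 := by
        rw [Fintype.sum_prod_type]
        simp only [WV_apply, Int.cast_sum, Int.cast_mul]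
        rw [h, mul_zero]

theorem Ch_ne : Ch ≠ 0 := by
  intro h
  have h0 := congrFun (congrFun h (0, 0)) (0, 0)
  rw [Ch_apply, Matrix.zero_apply] at h0
  have h1 := (Finset.sum_eq_zero_iff_of_nonneg (fun x _ => mul_nonneg
    (by exact_mod_cast mul_nonneg (cr_nonneg _) (cr_nonneg _))
    (mul_star_self_nonneg _))).1 h0 (0, 9) (Finset.mem_univ _)
  simp only [WV_apply, star_intCast, mul_eq_zero, or_self, Complex.ofReal_eq_zero, cr,
    Nat.cast_eq_zero, Int.cast_eq_zero] at h1
  have := chk_ne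
  have := chk_cpos
  omega

theorem Ch_range (u v : Fin 10 → ℂ) (h : ∃ w, Ch.mulVec w = fun p => u p.1 * v p.2) :
    u = 0 ∨ v = 0 := by
  obtain ⟨w, hw⟩ := h
  refine core u v fun s => ?_
  calc _ = ∑ p : Fin 10 × Fin 10, (Kz s p.1 p.2 : ℂ) * (Ch.mulVec w) p := by
        rw [hw, Fintype.sum_prod_type]
        simp only [mul_assoc]
    _ = ∑ q, (∑ p : Fin 10 × Fin 10, (Kz s p.1 p.2 : ℂ) * Ch p q) * w q := by
        simp only [Matrix.mulVec, dotProduct, Finset.mul_sum, Finset.sum_mul, mul_assoc]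
        rw [Finset.sum_comm]
    _ = 0 := by simp only [Ch_ann, zero_mul, Finset.sum_const_zero]

theorem Ch_not_sep (ε : ℂ) (hε : ε ≠ 0) : ¬ IsSeparable (ε • Ch) := by
  intro h
  have := sep_eq_zero (fun s m n => (Kz s m n : ℝ))
    (fun u v h => core u v (by simpa using h)) _ h (fun s q => by
      have := Ch_ann s q
      simp only [Complex.ofReal_intCast, Matrix.smul_apply, smul_eq_mul]
      calc _ = ε * ∑ p : Fin 10 × Fin 10, (Kz s p.1 p.2 : ℂ) * Ch p q := by
            rw [Finset.mul_sum]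
            exact Finset.sum_congr rfl fun p _ => by ring
        _ = 0 := by rw [this, mul_zero])
  exact Ch_ne ((smul_eq_zero.1 this).resolve_left hε)

theorem ppt1 : IsPPT (kraus cr Vc) :=
  ppt_of_symm (kraus_cp _ cr_nonneg _) (kraus_symm _ _ Vc_symm)

theorem ppt2 : IsPPT (kraus cr Wc) :=
  ppt_of_symm (kraus_cp _ cr_nonneg _) (kraus_symm _ _ Wc_symm)

/-- Compression criterion for the failure of entanglement breaking. -/
theorem not_eb {D : Type*} [Fintype D] [DecidableEq D] (j : Fin 10 → D)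
    (hj : Function.Injective j) (Ψ : Matrix D D ℂ → Matrix D D ℂ) (ε : ℂ) (hε : ε ≠ 0)
    (h : ∀ X, (Ψ X).submatrix j j = ε • kraus cr Wc (kraus cr Vc (X.submatrix j j))) :
    ¬ IsEntanglementBreaking Ψ := by
  intro hE
  set ω : Fin 10 × D → ℂ := fun p => if j p.1 = p.2 then 1 else 0 with hω
  obtain ⟨r, A, B, hA, hB, hM⟩ := hE 10 (vecMulVec ω (star ω)) (posSemidef_vecMulVec_self_star ω)
  refine Ch_not_sep ε hε ⟨r, A, fun i => (B i).submatrix j j, hA, fun i => (hB i).submatrix j, ?_⟩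
  ext ⟨s, m⟩ ⟨t, n⟩
  have h1 := congrFun (congrFun hM (s, j m)) (t, j n)
  have h2 := congrFun (congrFun (h (block (vecMulVec ω (star ω)) s t)) m) n
  have h3 : (block (vecMulVec ω (star ω)) s t).submatrix j j = Matrix.single s t 1 := by
    ext x y
    simp only [block, hω, Matrix.submatrix_apply, Matrix.of_apply, vecMulVec_apply, Pi.star_apply,
      hj.eq_iff, Matrix.single_apply, ite_and]
    split_ifs <;> simp
  rw [h3] at h2
  simp only [blockwise, Matrix.of_apply] at h1
  rw [Matrix.submatrix_apply, h1] at h2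
  simp only [Matrix.sum_apply, Matrix.kroneckerMap_apply, Matrix.submatrix_apply] at h2 ⊢
  rw [h2]
  rfl

open scoped MatrixOrder Matrix.Norms.L2Operator in
theorem exists_eps {n : Type*} [Fintype n] [DecidableEq n] (A : Matrix n n ℂ)
    (hA : A.IsHermitian) : ∃ ε : ℝ, 0 < ε ∧ (1 - (ε : ℂ) • A).PosSemidef := by
  have h := IsSelfAdjoint.le_algebraMap_norm_self (A := Matrix n n ℂ) (a := A) hA
  rw [Matrix.le_iff] at h
  refine ⟨(‖A‖ + 1)⁻¹, by positivity, ?_⟩
  have h2 : (1 - (((‖A‖ + 1)⁻¹ : ℝ) : ℂ) • A) =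
      (((‖A‖ + 1)⁻¹ : ℝ) : ℂ) • ((algebraMap ℝ (Matrix n n ℂ) ‖A‖ - A) + 1) := by
    have : ((‖A‖ : ℂ) + 1) ≠ 0 := by exact_mod_cast (by positivity : (‖A‖ + 1) ≠ 0)
    ext i j
    by_cases hij : i = j
    · subst hij
      simp [Algebra.algebraMap_eq_smul_one]
      field_simp
      ring
    · simp [Algebra.algebraMap_eq_smul_one, hij]
  rw [h2]
  refine (h.add Matrix.PosSemidef.one).smul ?_
  have : 0 ≤ (‖A‖ + 1)⁻¹ := by positivity
  exact_mod_cast this

/-- A Kraus map can be scaled and completed to a channel by a term supported at one level. -/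
theorem complete_channel {D ι : Type*} [Fintype D] [DecidableEq D] [Fintype ι] (c : ι → ℝ)
    (hc : ∀ a, 0 ≤ c a) (U : ι → Matrix D D ℂ) (hs : ∀ X, (kraus c U X)ᵀ = kraus c U X) (t : D) :
    ∃ (ε : ℝ) (τ : Matrix D D ℂ → ℂ), 0 < ε ∧
      IsChannel (fun X => (ε : ℂ) • kraus c U X + τ X • Matrix.single t t (1 : ℂ)) ∧
      IsPPT (fun X => (ε : ℂ) • kraus c U X + τ X • Matrix.single t t (1 : ℂ)) := by
  set A : Matrix D D ℂ := ∑ a, (c a : ℂ) • ((U a)ᴴ * U a) with hAdef
  have hA : A.IsHermitian := by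
    have : A.PosSemidef := Matrix.posSemidef_sum _ fun a _ =>
      (Matrix.posSemidef_conjTranspose_mul_self _).smul (by exact_mod_cast hc a)
    exact this.isHermitian
  obtain ⟨ε, hε, hR⟩ := exists_eps A hA
  obtain ⟨m, v, hv⟩ := Matrix.posSemidef_iff_eq_sum_vecMulVec.1 hR
  have htr : ∀ X, (kraus c U X).trace = (A * X).trace := by
    intro X
    simp only [kraus, hAdef, Matrix.trace_sum, Matrix.trace_smul, Matrix.sum_mul, Matrix.smul_mul]
    refine Finset.sum_congr rfl fun a _ => ?_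
    rw [Matrix.trace_mul_comm, Matrix.mul_assoc]
  set τ : Matrix D D ℂ → ℂ := fun X => ((1 - (ε : ℂ) • A) * X).trace with hτ
  have e1 : ∀ X, (ε : ℂ) • kraus c U X = kraus (fun a => ε * c a) U X := by
    intro X
    simp only [kraus, Finset.smul_sum, smul_smul, Complex.ofReal_mul]
  have e2 : ∀ X, τ X • Matrix.single t t (1 : ℂ) =
      kraus (fun _ => 1) (fun r => vecMulVec (Pi.single t 1) (star (v r))) X := by
    intro X
    ext k l
    rw [kraus_apply]
    simp only [hτ, hv, Matrix.smul_apply, Matrix.single_apply, Matrix.trace, Matrix.diag,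
      Matrix.mul_apply, Matrix.sum_apply, vecMulVec_apply, Pi.star_apply, Pi.single_apply,
      smul_eq_mul, Complex.ofReal_one, one_mul, star_mul', star_star]
    by_cases hk : k = t
    · by_cases hl : l = t
      · subst hk hl
        simp only [and_self, if_true, mul_one, one_mul, star_one]
        rw [Finset.sum_comm]
        refine Finset.sum_congr rfl fun i _ => Finset.sum_congr rfl fun j _ => ?_
        congr 1
        exact Finset.sum_congr rfl fun r _ => mul_comm _ _
      · simp [hl, Ne.symm hl]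
    · simp [hk, Ne.symm hk]
  have hcp : IsCompletelyPositive
      (fun X => (ε : ℂ) • kraus c U X + τ X • Matrix.single t t (1 : ℂ)) := by
    simp only [e1, e2]
    exact cp_add (kraus_cp _ (fun a => mul_nonneg hε.le (hc a)) _)
      (kraus_cp _ (fun _ => zero_le_one) _)
  refine ⟨ε, τ, hε, ⟨?_, hcp, ?_⟩, ppt_of_symm hcp ?_⟩
  · simp only [e1, e2]
    constructor
    · intro X Y
      rw [(kraus_linear _ _).map_add, (kraus_linear _ _).map_add]
      abel
    · intro z X
      rw [(kraus_linear _ _).map_smul, (kraus_linear _ _).map_smul, smul_add]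
  · intro X
    simp only [Matrix.trace_add, Matrix.trace_smul, htr, hτ, Matrix.trace_single_eq_same,
      Matrix.sub_mul, Matrix.one_mul, Matrix.smul_mul, Matrix.trace_sub, smul_eq_mul]
    ring
  · intro X
    rw [Matrix.transpose_add, Matrix.transpose_smul, Matrix.transpose_smul, hs,
      Matrix.transpose_single]

/-- The isometry attached to an embedding of index sets. -/
def emb {D d : Type*} [DecidableEq D] (j : d → D) : Matrix D d ℂ :=
  Matrix.of fun x m => if x = j m then 1 else 0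

theorem emb_compress {D d : Type*} [Fintype D] [DecidableEq D] (i j : d → D)
    (X : Matrix D D ℂ) : (emb i)ᴴ * X * emb j = X.submatrix i j := by
  ext a b
  simp [emb, Matrix.mul_apply, Matrix.conjTranspose_apply, apply_ite star]

theorem emb_transpose {D d : Type*} [DecidableEq D] (i : d → D) : (emb i)ᴴ = (emb i)ᵀ := by
  ext a b
  simp [emb, Matrix.conjTranspose_apply, apply_ite star]

theorem kraus_conj {D d ι : Type*} [Fintype D] [Fintype d] [Fintype ι] (c : ι → ℝ)
    (V : ι → Matrix d d ℂ) (P Q : Matrix D d ℂ) (X : Matrix D D ℂ) :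
    kraus c (fun a => P * V a * Qᴴ) X = P * kraus c V (Qᴴ * X * Q) * Pᴴ := by
  simp only [kraus, Matrix.mul_sum, Matrix.sum_mul, Matrix.mul_smul, Matrix.smul_mul,
    Matrix.conjTranspose_mul, Matrix.conjTranspose_conjTranspose, Matrix.mul_assoc]

theorem exists_channel {D : Type*} [Fintype D] [DecidableEq D] (i j : Fin 10 → D) (t : D)
    (hi : Function.Injective i) (hj : Function.Injective j) (hij : ∀ a b, i a ≠ j b)
    (hit : ∀ a, t ≠ i a) (hjt : ∀ a, t ≠ j a) :
    ∃ Θ : Matrix D D ℂ → Matrix D D ℂ,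
      IsChannel Θ ∧ IsPPT Θ ∧ ¬ IsEntanglementBreaking (Θ ∘ Θ) := by
  set U : Fin 15 ⊕ Fin 15 → Matrix D D ℂ :=
    Sum.elim (fun a => emb j * Vc a * (emb i)ᴴ) (fun b => emb i * Wc b * (emb j)ᴴ) with hU
  have hk : ∀ X, kraus (Sum.elim cr cr) U X =
      emb j * kraus cr Vc (X.submatrix i i) * (emb j)ᴴ +
        emb i * kraus cr Wc (X.submatrix j j) * (emb i)ᴴ := by
    intro X
    rw [← emb_compress, ← emb_compress, ← kraus_conj, ← kraus_conj]
    simp only [kraus, hU, Fintype.sum_sum_type, Sum.elim_inl, Sum.elim_inr]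
  have hii : (emb i)ᴴ * emb i = 1 := by
    have := emb_compress i i 1
    rw [Matrix.mul_one] at this
    rw [this, Matrix.submatrix_one _ hi]
  have hjj : (emb j)ᴴ * emb j = 1 := by
    have := emb_compress j j 1
    rw [Matrix.mul_one] at this
    rw [this, Matrix.submatrix_one _ hj]
  have hij' : (emb i)ᴴ * emb j = 0 := by
    have := emb_compress i j 1
    rw [Matrix.mul_one] at this
    rw [this]
    ext a b
    simp [Matrix.one_apply, hij]
  have hji' : (emb j)ᴴ * emb i = 0 := by
    have := congrArg Matrix.conjTranspose hij'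
    simpa using this
  obtain ⟨ε, τ, hε, h1, h2⟩ := complete_channel (Sum.elim cr cr)
    (by rintro (a | a) <;> exact cr_nonneg a) U (by
      intro X
      rw [hk]
      simp only [emb_transpose, Matrix.transpose_add, Matrix.transpose_mul,
        Matrix.transpose_transpose, kraus_symm _ _ Vc_symm, kraus_symm _ _ Wc_symm,
        Matrix.mul_assoc]) t
  refine ⟨_, h1, h2, not_eb i hi _ ((ε : ℂ) * ε) (by exact_mod_cast (mul_pos hε hε).ne') ?_⟩
  have a1 : ∀ Y : Matrix D D ℂ, ((ε : ℂ) • kraus (Sum.elim cr cr) U Y +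
      τ Y • Matrix.single t t (1 : ℂ)).submatrix i i = (ε : ℂ) • kraus cr Wc (Y.submatrix j j) := by
    intro Y
    have z : (Matrix.single t t (1 : ℂ)).submatrix i i = 0 := by
      ext a b
      simp [Matrix.single_apply, hit]
    rw [Matrix.submatrix_add, Matrix.submatrix_smul, Matrix.submatrix_smul]
    simp only [Pi.add_apply, Pi.smul_apply, z, smul_zero, add_zero]
    rw [hk, ← emb_compress i i (_ + _)]
    simp only [Matrix.mul_add, Matrix.add_mul, ← Matrix.mul_assoc, hii, hij', Matrix.zero_mul,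
      Matrix.one_mul, zero_add]
    rw [Matrix.mul_assoc, hii, Matrix.mul_one]
  have a2 : ∀ Y : Matrix D D ℂ, ((ε : ℂ) • kraus (Sum.elim cr cr) U Y +
      τ Y • Matrix.single t t (1 : ℂ)).submatrix j j = (ε : ℂ) • kraus cr Vc (Y.submatrix i i) := by
    intro Y
    have z : (Matrix.single t t (1 : ℂ)).submatrix j j = 0 := by
      ext a b
      simp [Matrix.single_apply, hjt]
    rw [Matrix.submatrix_add, Matrix.submatrix_smul, Matrix.submatrix_smul]
    simp only [Pi.add_apply, Pi.smul_apply, z, smul_zero, add_zero]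
    rw [hk, ← emb_compress j j (_ + _)]
    simp only [Matrix.mul_add, Matrix.add_mul, ← Matrix.mul_assoc, hjj, hji', Matrix.zero_mul,
      Matrix.one_mul, add_zero]
    rw [Matrix.mul_assoc, hjj, Matrix.mul_one]
  intro X
  simp only [Function.comp]
  rw [a1, a2, (kraus_linear _ _).map_smul, smul_smul]

end Crest.Agent.H8.PPT
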