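import Crest.Agent.H8.PPTData

/-! The general-position check modulo `588779`. -/

set_option autoImplicit false

namespace Crest.Agent.H8.PPT

theorem chk_good : good 588779
    115792089237316195423570985008687907853269984665640564039457584007913129639936 9 19 Ws = true := by
  decide +kernel

end Crest.Agent.H8.PPT
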