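import Mathlib
import Crest.Prelude.Def_QState
import Crest.Prelude.Def_QChannel
import Crest.Prelude.Def_Entanglement

/-! Weighted Kraus maps: linearity, complete positivity, and a criterion for the failure of
entanglement breaking through annihilating bilinear forms. -/

set_option autoImplicit false

namespace Crest.Agent.H8.PPT

open Crest.Quantum Matrix
open scoped ComplexOrder Kronecker

variable {d e ι : Type*} [Fintype d] [Fintype e] [DecidableEq d] [DecidableEq e] [Fintype ι]

/-- The map `X ↦ ∑ c_α V_α X V_αᴴ`. -/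
noncomputable def kraus (c : ι → ℝ) (V : ι → Matrix e d ℂ) (X : Matrix d d ℂ) : Matrix e e ℂ :=
  ∑ a, (c a : ℂ) • (V a * X * (V a)ᴴ)

omit [DecidableEq d] [DecidableEq e] [Fintype e] in
theorem kraus_linear (c : ι → ℝ) (V : ι → Matrix e d ℂ) : IsLinearMap ℂ (kraus c V) := by
  constructor
  · intro X Y
    simp only [kraus, Matrix.mul_add, Matrix.add_mul, smul_add, Finset.sum_add_distrib]
  · intro t X
    simp only [kraus, Matrix.mul_smul, Matrix.smul_mul, Finset.smul_sum]
    refine Finset.sum_congr rfl fun a _ => ?_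
    rw [smul_comm]

omit [DecidableEq d] [DecidableEq e] [Fintype e] in
theorem blockwise_conj {k : Type*} [Fintype k] [DecidableEq k] (V : Matrix e d ℂ)
    (M : Matrix (k × d) (k × d) ℂ) :
    blockwise (k := k) (fun X => V * X * Vᴴ) M =
      ((1 : Matrix k k ℂ) ⊗ₖ V) * M * ((1 : Matrix k k ℂ) ⊗ₖ V)ᴴ := by
  ext ⟨s, i⟩ ⟨t, j⟩
  simp only [blockwise, block, Matrix.of_apply, Matrix.mul_apply, Matrix.conjTranspose_apply,
    Matrix.kroneckerMap_apply, Fintype.sum_prod_type, Matrix.one_apply, ite_mul, one_mul, zero_mul,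
    star_mul', apply_ite star, star_one, star_zero, mul_ite, mul_zero]
  simp only [Finset.sum_ite_irrel, Finset.sum_const_zero, Finset.sum_ite_eq, Finset.mem_univ,
    if_true]

omit [DecidableEq d] [DecidableEq e] in
theorem kraus_cp (c : ι → ℝ) (hc : ∀ a, 0 ≤ c a) (V : ι → Matrix e d ℂ) :
    IsCompletelyPositive (kraus c V) := by
  intro k M hM
  have : blockwise (k := Fin k) (kraus c V) M =
      ∑ a, (c a : ℂ) • (((1 : Matrix (Fin k) (Fin k) ℂ) ⊗ₖ V a) * M *
        ((1 : Matrix (Fin k) (Fin k) ℂ) ⊗ₖ V a)ᴴ) := by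
    simp only [← blockwise_conj]
    ext ⟨s, i⟩ ⟨t, j⟩
    simp only [blockwise, kraus, Matrix.of_apply, Matrix.sum_apply, Matrix.smul_apply]
  rw [this]
  refine Matrix.posSemidef_sum _ fun a _ => ?_
  refine (hM.mul_mul_conjTranspose_same _).smul ?_
  exact_mod_cast hc a

omit [DecidableEq d] [DecidableEq e] in
theorem cp_add {Φ Ψ : Matrix d d ℂ → Matrix e e ℂ} (h1 : IsCompletelyPositive Φ)
    (h2 : IsCompletelyPositive Ψ) : IsCompletelyPositive fun X => Φ X + Ψ X := by
  intro k M hM
  have : blockwise (k := Fin k) (fun X => Φ X + Ψ X) M =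
      blockwise (k := Fin k) Φ M + blockwise (k := Fin k) Ψ M := by
    ext p q
    simp [blockwise]
  rw [this]
  exact (h1 k M hM).add (h2 k M hM)

omit [DecidableEq d] [DecidableEq e] in
theorem ppt_of_symm {Φ : Matrix d d ℂ → Matrix e e ℂ} (h : IsCompletelyPositive Φ)
    (hs : ∀ X, (Φ X)ᵀ = Φ X) : IsPPT Φ := by
  refine ⟨h, ?_⟩
  have : (fun M => (Φ M)ᵀ) = Φ := funext hs
  rw [this]
  exact h

/-- If real bilinear forms `K s` annihilate a separable matrix `N` and have no common zero on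
pairs of nonzero vectors, then `N = 0`. -/
theorem sep_eq_zero {k σ : Type*} [Fintype k] [DecidableEq k] (K : σ → k → d → ℝ)
    (core : ∀ (u : k → ℂ) (v : d → ℂ), (∀ s, ∑ m, ∑ n, (K s m n : ℂ) * u m * v n = 0) →
      u = 0 ∨ v = 0)
    (N : Matrix (k × d) (k × d) ℂ) (hN : IsSeparable N)
    (hK : ∀ s q, ∑ p : k × d, (K s p.1 p.2 : ℂ) * N p q = 0) : N = 0 := by
  obtain ⟨r, A, B, hA, hB, rfl⟩ := hN
  have hpsd : ∀ i, (A i ⊗ₖ B i).PosSemidef := fun i => (hA i).kronecker (hB i)
  have key : ∀ s i, (A i ⊗ₖ B i) *ᵥ (fun p : k × d => (K s p.1 p.2 : ℂ)) = 0 := by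
    intro s i
    set x : k × d → ℂ := fun p => (K s p.1 p.2 : ℂ) with hx
    have hsx : star x = x := by
      ext p; simp [hx]
    have h0 : star x ⬝ᵥ ((∑ i, A i ⊗ₖ B i) *ᵥ x) = 0 := by
      rw [hsx, Matrix.dotProduct_mulVec]
      have : x ᵥ* (∑ i, A i ⊗ₖ B i) = 0 := by
        ext q
        simpa [Matrix.vecMul, dotProduct, hx] using hK s q
      rw [this, zero_dotProduct]
    rw [Matrix.sum_mulVec, dotProduct_sum] at h0
    have h1 := (Finset.sum_eq_zero_iff_of_nonneg
      (fun i _ => (hpsd i).dotProduct_mulVec_nonneg x)).1 h0 i (Finset.mem_univ _)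
    exact ((hpsd i).dotProduct_mulVec_zero_iff x).1 h1
  refine Finset.sum_eq_zero fun i _ => ?_
  ext ⟨a, b⟩ ⟨a', b'⟩
  have h := core (fun m => A i a m) (fun n => B i b n) (fun s => by
    have := congrFun (key s i) (a, b)
    simp only [Matrix.mulVec, dotProduct, Fintype.sum_prod_type, Matrix.kroneckerMap_apply,
      Pi.zero_apply] at this
    rw [← this]
    refine Finset.sum_congr rfl fun m _ => Finset.sum_congr rfl fun n _ => by ring)
  rcases h with h | h
  · have := congrFun h a'
    simp only [Pi.zero_apply] at this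
    simp [this]
  · have := congrFun h b'
    simp only [Pi.zero_apply] at this
    simp [this]

end Crest.Agent.H8.PPT
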