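import Mathlib

/-! A verified checker for the statement "every nonzero vector is annihilated by at most `n` of
the given linear forms on `κ^(n+1)`", `κ` a field of prime characteristic `p`.  Linear forms are
packed into one natural number in base `B`. -/

set_option autoImplicit false

namespace Crest.Agent.H8.PPT

/-- Evaluate `k x` after forcing `x` to a numeral. -/
noncomputable def force (x : ℕ) (k : ℕ → Bool) : Bool :=
  Nat.rec (motive := fun _ => Bool) (k 0) (fun n _ => k (Nat.succ n)) x

theorem force_eq (x : ℕ) (k : ℕ → Bool) : force x k = k x := by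
  cases x <;> rfl

/-- One elimination step. -/
def elimStep (p B hv tv w : ℕ) : ℕ :=
  Nat.add (Nat.mul hv (Nat.div w B)) (Nat.mul (Nat.sub p (Nat.mod (Nat.mod w B) p)) tv)

noncomputable def mapAcc (p B hv tv : ℕ) (ws : List ℕ) : List ℕ → (List ℕ → Bool) → Bool :=
  List.rec (motive := fun _ => List ℕ → (List ℕ → Bool) → Bool)
    (fun acc k => k acc)
    (fun w _ ih acc k =>
      Nat.rec (motive := fun _ => Bool) (ih (0 :: acc) k) (fun n _ => ih (Nat.succ n :: acc) k)
        (Nat.add (Nat.mul hv (Nat.div w B)) (Nat.mul (Nat.sub p (Nat.mod (Nat.mod w B) p)) tv))) ws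

theorem mapAcc_eq (p B hv tv : ℕ) (ws acc : List ℕ) (k : List ℕ → Bool) :
    mapAcc p B hv tv ws acc k = k ((ws.map (elimStep p B hv tv)).reverse ++ acc) := by
  induction ws generalizing acc with
  | nil => rfl
  | cons w ws ih =>
    have h : mapAcc p B hv tv (w :: ws) acc k =
        mapAcc p B hv tv ws (elimStep p B hv tv w :: acc) k := by
      show Nat.rec (motive := fun _ => Bool) (mapAcc p B hv tv ws (0 :: acc) k)
        (fun n _ => mapAcc p B hv tv ws (Nat.succ n :: acc) k) (elimStep p B hv tv w) = _
      cases elimStep p B hv tv w <;> rfl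
    rw [h, ih]
    simp

noncomputable def goodAux (p B n : ℕ) (rec : ℕ → List ℕ → Bool) (vs : List ℕ) : ℕ → Bool :=
  List.rec (motive := fun _ => ℕ → Bool)
    (fun _ => true)
    (fun v rest ih len =>
      Bool.rec (motive := fun _ => Bool)
        (force (Nat.mod (Nat.mod v B) p) fun hv =>
          force (Nat.div v B) fun tv =>
          force (Nat.pred len) fun l =>
          Bool.rec (motive := fun _ => Bool) false
            (Bool.rec (motive := fun _ => Bool) false (ih l) (mapAcc p B hv tv rest [] (rec l)))
            (Nat.blt 0 hv))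
        true (Nat.ble len n)) vs

theorem goodAux_cons (p B n : ℕ) (rec : ℕ → List ℕ → Bool) (v : ℕ) (rest : List ℕ) (len : ℕ)
    (h : goodAux p B n rec (v :: rest) len = true) :
    len ≤ n ∨ (0 < v % B % p ∧ goodAux p B n rec rest (len - 1) = true ∧
      rec (len - 1) (rest.map (elimStep p B (v % B % p) (v / B))).reverse = true) := by
  change Bool.rec (motive := fun _ => Bool)
        (force (Nat.mod (Nat.mod v B) p) fun hv =>
          force (Nat.div v B) fun tv =>
          force (Nat.pred len) fun l =>
          Bool.rec (motive := fun _ => Bool) false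
            (Bool.rec (motive := fun _ => Bool) false (goodAux p B n rec rest l)
              (mapAcc p B hv tv rest [] (rec l)))
            (Nat.blt 0 hv))
        true (Nat.ble len n) = true at h
  by_cases hl : len ≤ n
  · exact Or.inl hl
  · right
    have h1 : Nat.ble len n = false := by
      cases hb : Nat.ble len n
      · rfl
      · exact absurd (Nat.le_of_ble_eq_true hb) hl
    rw [h1] at h
    simp only [force_eq, mapAcc_eq, List.append_nil] at h
    change Bool.rec (motive := fun _ => Bool) false
            (Bool.rec (motive := fun _ => Bool) false (goodAux p B n rec rest (len - 1))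
              (rec (len - 1) (rest.map (elimStep p B (v % B % p) (v / B))).reverse))
            (Nat.blt 0 (v % B % p)) = true at h
    cases hb : Nat.blt 0 (v % B % p)
    · rw [hb] at h; cases h
    · rw [hb] at h
      refine ⟨by simpa [Nat.blt_eq] using hb, ?_⟩
      cases hc : rec (len - 1) (rest.map (elimStep p B (v % B % p) (v / B))).reverse
      · rw [hc] at h; cases h
      · rw [hc] at h; exact ⟨h, rfl⟩

noncomputable def lastLevel (p B : ℕ) (vs : List ℕ) : Bool :=
  List.rec (motive := fun _ => Bool) true
    (fun v _ ih => Nat.rec (motive := fun _ => Bool) false (fun _ _ => ih)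
      (Nat.mod (Nat.mod v B) p)) vs

theorem lastLevel_spec (p B : ℕ) (vs : List ℕ) (h : lastLevel p B vs = true) :
    ∀ v ∈ vs, v % B % p ≠ 0 := by
  induction vs with
  | nil => simp
  | cons v vs ih =>
    change Nat.rec (motive := fun _ => Bool) false (fun _ _ => lastLevel p B vs)
      (v % B % p) = true at h
    cases hv : v % B % p with
    | zero => rw [hv] at h; cases h
    | succ m =>
      rw [hv] at h
      intro w hw
      rcases List.mem_cons.1 hw with rfl | hw
      · omega
      · exact ih h w hw

noncomputable def good (p B n : ℕ) : ℕ → List ℕ → Bool :=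
  Nat.rec (motive := fun _ => ℕ → List ℕ → Bool) (fun _ vs => lastLevel p B vs)
    (fun n ih len vs => goodAux p B (Nat.succ n) ih vs len) n

/-- The linear form in `n` variables whose coefficients are the base-`B` digits of `W`. -/
def ev {κ : Type*} [Field κ] (B : ℕ) : ℕ → ℕ → (ℕ → κ) → κ
  | 0, _, _ => 0
  | n + 1, W, u => ((W % B : ℕ) : κ) * u 0 + ev B n (W / B) (fun i => u (i + 1))

/-- The first `n` digits of `W` are below `D`. -/
def bnd (B : ℕ) : ℕ → ℕ → ℕ → Prop
  | 0, _, _ => True
  | n + 1, D, W => W % B < D ∧ bnd B n D (W / B)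

theorem comb {κ : Type*} [Field κ] {p B D : ℕ} (hp : 0 < p) (hD : 2 * p * D ≤ B) (hB : 0 < B)
    {c1 c2 : ℕ} (h1 : c1 ≤ p) (h2 : c2 ≤ p) (n : ℕ) :
    ∀ (W1 W2 : ℕ) (u : ℕ → κ), bnd B n D W1 → bnd B n D W2 →
      bnd B n (2 * p * D) (c1 * W1 + c2 * W2) ∧
        ev B n (c1 * W1 + c2 * W2) u = c1 * ev B n W1 u + c2 * ev B n W2 u := by
  induction n with
  | zero => intro W1 W2 u _ _; simp [bnd, ev]
  | succ n ih =>
    intro W1 W2 u b1 b2
    obtain ⟨b1, b1'⟩ := b1
    obtain ⟨b2, b2'⟩ := b2
    have hlt : c1 * (W1 % B) + c2 * (W2 % B) < 2 * p * D := by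
      have e1 : c1 * (W1 % B) ≤ p * (W1 % B) := Nat.mul_le_mul_right _ h1
      have e2 : c2 * (W2 % B) ≤ p * (W2 % B) := Nat.mul_le_mul_right _ h2
      have e3 : p * (W1 % B) < p * D := Nat.mul_lt_mul_of_pos_left b1 hp
      have e4 : p * (W2 % B) < p * D := Nat.mul_lt_mul_of_pos_left b2 hp
      nlinarith
    have hsplit : c1 * W1 + c2 * W2 =
        (c1 * (W1 % B) + c2 * (W2 % B)) + B * (c1 * (W1 / B) + c2 * (W2 / B)) := by
      conv_lhs => rw [← Nat.mod_add_div W1 B, ← Nat.mod_add_div W2 B]
      ring
    have hmod : (c1 * W1 + c2 * W2) % B = c1 * (W1 % B) + c2 * (W2 % B) := by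
      rw [hsplit, Nat.add_mul_mod_self_left, Nat.mod_eq_of_lt (by omega)]
    have hdiv : (c1 * W1 + c2 * W2) / B = c1 * (W1 / B) + c2 * (W2 / B) := by
      rw [hsplit, Nat.add_mul_div_left _ _ hB, Nat.div_eq_of_lt (by omega), zero_add]
    obtain ⟨i1, i2⟩ := ih (W1 / B) (W2 / B) (fun i => u (i + 1)) b1' b2'
    refine ⟨⟨by rw [hmod]; exact hlt, by rw [hdiv]; exact i1⟩, ?_⟩
    simp only [ev, hmod, hdiv, i2]
    push_cast
    ring

theorem ev_zero {κ : Type*} [Field κ] (B n : ℕ) :
    ∀ (W : ℕ) (u : ℕ → κ), (∀ i < n, u i = 0) → ev B n W u = 0 := by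
  induction n with
  | zero => intro W u _; rfl
  | succ n ih =>
    intro W u hu
    simp only [ev]
    rw [hu 0 (by omega), ih _ _ (fun i hi => hu (i + 1) (by omega))]
    simp

open Classical in
theorem good_sound {κ : Type*} [Field κ] {p B : ℕ} [CharP κ p] (hp : 0 < p) (hB : 0 < B) (n : ℕ) :
    ∀ (D len : ℕ) (vs : List ℕ), (2 * p) ^ n * D ≤ B → (∀ v ∈ vs, bnd B (n + 1) D v) →
      len = vs.length → good p B n len vs = true → ∀ u : ℕ → κ, (∃ i ≤ n, u i ≠ 0) →
      vs.countP (fun v => decide (ev B (n + 1) v u = 0)) ≤ n := by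
  have hcast : ∀ m : ℕ, ((m % p : ℕ) : κ) = m := by
    intro m
    conv_rhs => rw [← Nat.mod_add_div m p]
    push_cast
    rw [CharP.cast_eq_zero κ p]
    simp
  have hne : ∀ m : ℕ, m % p ≠ 0 → (m : κ) ≠ 0 := by
    intro m hm h
    rw [CharP.cast_eq_zero_iff κ p] at h
    exact hm (Nat.mod_eq_zero_of_dvd h)
  induction n with
  | zero =>
    intro D len vs _ _ _ hg u hu
    have h := lastLevel_spec p B vs hg
    obtain ⟨i, hi, hu⟩ := hu
    obtain rfl : i = 0 := by omega
    rw [Nat.le_zero, List.countP_eq_zero]
    intro v hv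
    simp only [ev, add_zero, decide_eq_true_eq]
    exact mul_ne_zero (hne _ (h v hv)) hu
  | succ n ihn =>
    intro D len vs hD hb hlen hg u hu
    change goodAux p B (n + 1) (good p B n) vs len = true at hg
    induction vs generalizing len with
    | nil => simp
    | cons v rest ih =>
      rcases goodAux_cons _ _ _ _ _ _ _ hg with hl | ⟨hv, hrest, hrec⟩
      · exact le_trans List.countP_le_length (by omega)
      have hlen' : len - 1 = rest.length := by simp at hlen; omega
      have hb' : ∀ w ∈ rest, bnd B (n + 1 + 1) D w := fun w hw => hb w (List.mem_cons_of_mem _ hw)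
      by_cases hz : ev B (n + 1 + 1) v u = 0
      · have hD' : 2 * p * D ≤ B := by
          refine le_trans ?_ hD
          refine Nat.mul_le_mul_right _ ?_
          rw [pow_succ]
          exact Nat.le_mul_of_pos_left _ (by positivity)
        have hvb := hb v List.mem_cons_self
        have hv0 : ((v % B : ℕ) : κ) ≠ 0 := hne _ (by omega)
        have hu' : ∃ i ≤ n, (fun i => u (i + 1)) i ≠ 0 := by
          by_contra hcon
          push Not at hcon
          have e0 : ev B (n + 1) (v / B) (fun i => u (i + 1)) = 0 :=
            ev_zero _ _ _ _ (fun i hi => hcon i (by omega))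
          have e1 : u 0 = 0 := by
            rw [ev, e0, add_zero] at hz
            exact (mul_eq_zero.1 hz).resolve_left hv0
          obtain ⟨i, hi, hui⟩ := hu
          cases i with
          | zero => exact hui e1
          | succ i => exact hui (hcon i (by omega))
        have hstep : ∀ w ∈ rest, bnd B (n + 1) (2 * p * D) (elimStep p B (v % B % p) (v / B) w) ∧
            ev B (n + 1) (elimStep p B (v % B % p) (v / B) w) (fun i => u (i + 1)) =
              ((v % B % p : ℕ) : κ) * ev B (n + 1) (w / B) (fun i => u (i + 1)) +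
                ((p - w % B % p : ℕ) : κ) * ev B (n + 1) (v / B) (fun i => u (i + 1)) := by
          intro w hw
          exact comb hp hD' hB (le_of_lt (Nat.mod_lt _ hp)) (Nat.sub_le _ _) (n + 1) _ _ _
            (hb' w hw).2 hvb.2
        have hcount := ihn (2 * p * D) (len - 1) _ (by rw [← mul_assoc, ← pow_succ]; exact hD)
          (by
            intro x hx
            rw [List.mem_reverse, List.mem_map] at hx
            obtain ⟨w, hw, rfl⟩ := hx
            exact (hstep w hw).1)
          (by simp [hlen']) hrec _ hu'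
        rw [List.countP_reverse, List.countP_map] at hcount
        have hle : rest.countP (fun w => decide (ev B (n + 1 + 1) w u = 0)) ≤ n := by
          refine le_trans (List.countP_mono_left ?_) hcount
          intro w hw hwz
          simp only [decide_eq_true_eq, Function.comp] at hwz ⊢
          rw [(hstep w hw).2, Nat.cast_sub (le_of_lt (Nat.mod_lt _ hp)), hcast, hcast,
            CharP.cast_eq_zero κ p]
          rw [ev] at hwz hz
          linear_combination ((v % B : ℕ) : κ) * hwz - ((w % B : ℕ) : κ) * hz
        rw [List.countP_cons]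
        split_ifs <;> omega
      · rw [List.countP_cons]
        have := ih (len - 1) hb' hlen' hrest
        simp only [decide_eq_true_eq, hz, if_false]
        omega

end Crest.Agent.H8.PPT
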