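import Mathlib

/-! Reduction modulo a prime through a valuation subring of `ℂ`, and unpacking of packed
integer identities. -/

set_option autoImplicit false

namespace Crest.Agent.H8.PPT

theorem exists_scale {n : Type*} [Fintype n] (O : ValuationSubring ℂ) (u : n → ℂ) (hu : u ≠ 0) :
    ∃ i, u i ≠ 0 ∧ ∀ j, u j / u i ∈ O := by
  obtain ⟨j0, hj0⟩ := Function.ne_iff.1 hu
  obtain ⟨i, -, hi⟩ := Finset.exists_max_image Finset.univ (fun j => O.valuation (u j))
    ⟨j0, Finset.mem_univ _⟩
  have hj0' : u j0 ≠ 0 := hj0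
  have hi0 : u i ≠ 0 := by
    intro h
    have := hi j0 (Finset.mem_univ _)
    rw [h, map_zero, le_zero_iff, map_eq_zero] at this
    exact hj0' this
  refine ⟨i, hi0, fun j => ?_⟩
  rw [← O.valuation_le_one_iff, map_div₀]
  exact div_le_one_of_le₀ (hi j (Finset.mem_univ _)) zero_le

theorem reduce_mod_prime {p : ℕ} (hp : p.Prime) {σ n : Type} [Fintype n] (K : σ → n → n → ℤ)
    (h : ∀ (κ : Type) [Field κ] [CharP κ p] (u v : n → κ),
      (∀ s, ∑ a, ∑ b, (K s a b : κ) * u a * v b = 0) → u = 0 ∨ v = 0)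
    (u v : n → ℂ) (huv : ∀ s, ∑ a, ∑ b, (K s a b : ℂ) * u a * v b = 0) : u = 0 ∨ v = 0 := by
  by_contra hcon
  push Not at hcon
  obtain ⟨hu, hv⟩ := hcon
  have hI : Ideal.span {((p : ℕ) : (⊥ : Subring ℂ))} ≠ ⊤ := by
    intro hI
    have h1 : (1 : (⊥ : Subring ℂ)) ∈ Ideal.span {((p : ℕ) : (⊥ : Subring ℂ))} := by
      rw [hI]; trivial
    obtain ⟨⟨a, ha⟩, hab⟩ := Ideal.mem_span_singleton'.1 h1
    obtain ⟨z, rfl⟩ := Subring.mem_bot.1 ha
    have h2 : ((z : ℂ)) * p = 1 := by simpa using congrArg Subtype.val hab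
    have h3 : z * p = 1 := by exact_mod_cast h2
    have h4 : (p : ℤ) ∣ 1 := Dvd.intro_left _ h3
    have h5 : p ∣ 1 := by exact_mod_cast h4
    exact hp.one_lt.ne' (Nat.dvd_one.1 h5)
  obtain ⟨O, -, hO⟩ := Ideal.image_subset_nonunits_valuationSubring _ hI
  have hpO : ((p : ℕ) : ℂ) ∈ O.nonunits :=
    hO ⟨p, Ideal.mem_span_singleton_self _, by simp⟩
  have hpm : ((p : ℕ) : O) ∈ IsLocalRing.maximalIdeal O := by
    rw [← ValuationSubring.coe_mem_nonunits_iff]
    simpa using hpO
  have hp0 : ((p : ℕ) : IsLocalRing.ResidueField O) = 0 := by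
    rw [← map_natCast (IsLocalRing.residue O), IsLocalRing.residue_eq_zero_iff]
    exact hpm
  haveI : Fact p.Prime := ⟨hp⟩
  haveI : CharP (IsLocalRing.ResidueField O) p := (CharP.charP_iff_prime_eq_zero hp).2 hp0
  obtain ⟨i, hi, hi'⟩ := exists_scale O u hu
  obtain ⟨j, hj, hj'⟩ := exists_scale O v hv
  have := h (IsLocalRing.ResidueField O) (fun a => IsLocalRing.residue O ⟨u a / u i, hi' a⟩)
    (fun b => IsLocalRing.residue O ⟨v b / v j, hj' b⟩) (fun s => by
      have e : (∑ a, ∑ b, (K s a b : O) * ⟨u a / u i, hi' a⟩ * ⟨v b / v j, hj' b⟩ : O) = 0 := by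
        apply Subtype.ext
        have : ∑ a, ∑ b, (K s a b : ℂ) * (u a / u i) * (v b / v j) =
            (∑ a, ∑ b, (K s a b : ℂ) * u a * v b) / (u i * v j) := by
          simp only [Finset.sum_div]
          refine Finset.sum_congr rfl fun a _ => Finset.sum_congr rfl fun b _ => ?_
          field_simp
        rw [huv s, zero_div] at this
        simpa using this
      have e2 := congrArg (IsLocalRing.residue O) e
      simpa only [map_sum, map_mul, map_intCast, map_zero] using e2)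
  rcases this with h0 | h0
  · have := congrFun h0 i
    simp only [div_self hi, Pi.zero_apply] at this
    exact one_ne_zero ((map_one (IsLocalRing.residue O)).symm.trans this)
  · have := congrFun h0 j
    simp only [div_self hj, Pi.zero_apply] at this
    exact one_ne_zero ((map_one (IsLocalRing.residue O)).symm.trans this)

theorem unpack {ι : Type*} [Fintype ι] (e : ι → ℕ) (he : Function.Injective e) (z : ι → ℤ)
    (B : ℤ) (hz : ∀ i, |z i| < B) (h : ∑ i, z i * B ^ e i = 0) : ∀ i, z i = 0 := by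
  classical
  by_contra hcon
  push Not at hcon
  obtain ⟨i0, hi0⟩ := hcon
  obtain ⟨i, hi, hmin⟩ := Finset.exists_min_image (Finset.univ.filter fun i => z i ≠ 0) e
    ⟨i0, by simpa using hi0⟩
  have hi' : z i ≠ 0 := by simpa using hi
  have hB : 0 < B := lt_of_le_of_lt (abs_nonneg _) (hz i)
  have hdvd : B ^ (e i + 1) ∣ z i * B ^ e i := by
    have e1 : z i * B ^ e i = -∑ j ∈ Finset.univ.erase i, z j * B ^ e j := by
      rw [← Finset.add_sum_erase _ _ (Finset.mem_univ i)] at h
      linarith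
    rw [e1, dvd_neg]
    refine Finset.dvd_sum fun j hj => ?_
    by_cases hzj : z j = 0
    · simp [hzj]
    · have h1 := hmin j (by simpa using hzj)
      have h2 : e i ≠ e j := fun hh => (Finset.mem_erase.1 hj).1 (he hh).symm
      exact Dvd.dvd.mul_left (pow_dvd_pow _ (by omega)) _
  rw [pow_succ, mul_comm (z i)] at hdvd
  have := (mul_dvd_mul_iff_left (pow_pos hB _).ne').1 hdvd
  exact hi' (Int.eq_zero_of_abs_lt_dvd this (hz i))

theorem abs_sum_le {ι : Type*} [Fintype ι] (f : ι → ℤ) (C : ℤ) (h : ∀ i, |f i| ≤ C) :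
    |∑ i, f i| ≤ Fintype.card ι * C := by
  refine le_trans (Finset.abs_sum_le_sum_abs _ _) ?_
  have := Finset.sum_le_card_nsmul Finset.univ (fun i => |f i|) C (fun i _ => h i)
  simpa using this

theorem abs_mul_le {a b A B : ℤ} (ha : |a| ≤ A) (hb : |b| ≤ B) : |a * b| ≤ A * B := by
  rw [abs_mul]
  exact mul_le_mul ha hb (abs_nonneg _) (le_trans (abs_nonneg _) ha)

end Crest.Agent.H8.PPT
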