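import Crest.Agent.H8.RyCov

set_option autoImplicit false
set_option linter.unusedSectionVars false

namespace Crest.Agent.H8.Ry
open Finset

variable {F : Type} [Field F] [Fintype F] [DecidableEq F] {s κ : ℕ}

namespace Dat
variable {c : Dat F s κ} (h : c.Ok)
include h

lemma Ok.two_cov {σ : Option F × Fin s} (hσ : σ ∈ c.Act) {a b : Fin 4} (hab : a ≠ b)
    {d : Option F} (e : c.lab (c.P σ a) d = c.lab (c.P σ b) d) :
    (d = σ.1 ∧ par a = par b) ∨ c.lab (c.P σ a) d = none := by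
  by_cases hd : d = σ.1
  · subst hd
    rw [h.lab_self hσ, h.lab_self hσ] at e
    exact Or.inl ⟨rfl, by simpa using e⟩
  refine Or.inr ?_
  rcases k : c.lab (c.P σ a) d with _ | ⟨x, _ | β⟩
  · rfl
  · have k1 := h.lab_ord hσ k
    have k2 := h.lab_ord hσ (e.symm.trans k)
    have := two_pts (l := (d, x)) (l' := c.L σ) hd k1.2 (h.on hσ a) k2.2 (h.on hσ b)
    exact absurd (h.P_inj hσ hσ this).2 hab
  · exact absurd (congrArg Prod.fst (h.lab_grp hσ k).1).symm hd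

omit h in
lemma par02 : ∀ a b : Fin 4, (a = 0 ∨ a = 0 + 2) → (b = 1 ∨ b = 1 + 2) → a ≠ b ∧ par a ≠ par b := by
  decide

lemma Ok.aff_core (y : F × F) (hy : ∀ σ ∈ c.Act, ∀ a, y ≠ c.P σ a)
    (X : Finset (Option F × Option (F × Option Bool)))
    (hX : X.card + 1 ≤ (c.Act.filter fun σ => On y (c.L σ)).card)
    (hc : ∀ σ ∈ c.Act, On y (c.L σ) → ∀ a, (∃ ξ ∈ X, c.lab (c.P σ a) ξ.1 = ξ.2) ∨
      ∃ j, j ≠ σ.1 ∧ inM c.ω j y ∧ inM c.ω j (c.P σ a)) : False := by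
  classical
  set T := c.Act.filter fun σ => On y (c.L σ) with hT
  have hv : ∀ σ ∈ T, Val c.G (Sum.inr y) c.ω σ (c.gd σ) := fun σ hσ =>
    h.val (mem_filter.1 hσ).1 (mem_filter.1 hσ).2 fun a e =>
      hy σ (mem_filter.1 hσ).1 a (Sum.inr_injective e)
  have hb := few_bad h.hG c.rk T hv 3 le_rfl (h.no3 y)
  set Φ := T.filter fun σ => ¬ Bad (Sum.inr y) c.ω c.gd (T.filter fun τ => c.rk τ < c.rk σ) σ
    with hΦ
  have k1 := Finset.card_filter_add_card_filter_not (s := T)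
    (fun σ => Bad (Sum.inr y) c.ω c.gd (T.filter fun τ => c.rk τ < c.rk σ) σ)
  rw [← hΦ] at k1
  have hΦX : ∀ σ ∈ Φ, ∀ a, ∃ ξ ∈ X, c.lab (c.P σ a) ξ.1 = ξ.2 := by
    intro σ hσ a
    obtain ⟨m1, m2⟩ := mem_filter.1 hσ
    refine (hc σ (mem_filter.1 m1).1 (mem_filter.1 m1).2 a).resolve_right ?_
    rintro ⟨j, j1, j2, j3⟩
    exact m2 (Or.inl ⟨a, j, j1, j3, Or.inl ⟨y, rfl, j2⟩⟩)
  have hΦA : Φ ⊆ c.Act := (filter_subset _ _).trans (filter_subset _ _)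
  have hΦn : ∀ σ ∈ Φ, ¬ Bad (Sum.inr y) c.ω c.gd (Φ.filter fun τ => c.rk τ < c.rk σ) σ :=
    fun σ hσ e => (mem_filter.1 hσ).2 (e.mono (filter_subset_filter _ (filter_subset _ _)))
  have k2 := h.count hΦA hΦn X hΦX
  have hopp : ∀ σ ∈ T, ∀ a, ∃ b, (b = a ∨ b = a + 2) ∧ ∃ ξ ∈ X, c.lab (c.P σ b) ξ.1 = ξ.2 := by
    intro σ hσ a
    obtain ⟨m1, m2⟩ := mem_filter.1 hσ
    rcases hc σ m1 m2 a with e | ⟨j, j1, j2, j3⟩
    · exact ⟨a, Or.inl rfl, e⟩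
    rcases hc σ m1 m2 (a + 2) with e | ⟨j', j4, j5, j6⟩
    · exact ⟨a + 2, Or.inr rfl, e⟩
    obtain rfl := h.one_class m1 m2 (hy σ m1) j1 j4 j2 j5 j3 j6
    exact (h.no_opp m1 j1 j3 j6).elim
  have hLne : ∀ σ ∈ T, ∀ τ ∈ T, σ ≠ τ → c.L σ ≠ c.L τ := fun σ hσ τ hτ n e =>
    n (h.L_inj (mem_filter.1 hσ).1 (mem_filter.1 hτ).1 e)
  obtain ⟨σ', hσ'⟩ : T.Nonempty := card_pos.1 (by omega)
  obtain ⟨_, _, ξ0, hξ0, _⟩ := hopp σ' hσ' 0
  have k3 : 0 < X.card := card_pos.2 ⟨ξ0, hξ0⟩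
  by_cases k4 : X.card ≤ 1
  · have hall : ∀ ξ ∈ X, ξ = ξ0 := fun ξ hξ => Finset.card_le_one.1 k4 ξ hξ ξ0 hξ0
    have hn : ∀ σ ∈ T, ξ0.2 = none ∧ ∃ b, inM c.ω ξ0.1 (c.P σ b) := by
      intro σ hσ
      obtain ⟨a, ha, ξ, hξ, e⟩ := hopp σ hσ 0
      obtain ⟨b, hb, ξ', hξ', e'⟩ := hopp σ hσ 1
      rw [hall ξ hξ] at e
      rw [hall ξ' hξ'] at e'
      obtain ⟨n1, n2⟩ := par02 a b ha hb
      have := (h.two_cov (mem_filter.1 hσ).1 n1 (e.trans e'.symm)).resolve_left fun k => n2 k.2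
      exact ⟨e.symm.trans this, a, (h.lab_none (mem_filter.1 hσ).1 this).2⟩
    obtain ⟨σ1, h1, σ2, h2, n⟩ := Finset.one_lt_card.1 (show 1 < T.card by omega)
    obtain ⟨m1, m2⟩ := mem_filter.1 h1
    obtain ⟨m3, m4⟩ := mem_filter.1 h2
    have hcov : ∀ σ ∈ T, ∀ a, (ξ0.1 ≠ σ.1 ∧ inM c.ω ξ0.1 (c.P σ a)) ∨
        ∃ j, j ≠ σ.1 ∧ inM c.ω j y ∧ inM c.ω j (c.P σ a) := by
      intro σ hσ a
      refine (hc σ (mem_filter.1 hσ).1 (mem_filter.1 hσ).2 a).imp ?_ id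
      rintro ⟨ξ, hξ, e⟩
      rw [hall ξ hξ, (hn σ hσ).1] at e
      exact h.lab_none (mem_filter.1 hσ).1 e
    refine h.no3 y (no_T2 h.hG (hv σ1 h1) (hv σ2 h2) (hLne σ1 h1 σ2 h2 n) ?_ ξ0.1 (hn σ1 h1).2
      fun a => ?_)
    · rcases hcov σ1 h1 0 with e | ⟨j, j1, j2, j3⟩
      · rcases hcov σ1 h1 (0 + 2) with e' | ⟨j, j1, j2, j3⟩
        · exact (h.no_opp m1 e.1 e.2 e'.2).elim
        · exact ⟨_, j, j1, j3, j2⟩
      · exact ⟨_, j, j1, j3, j2⟩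
    · rcases hcov σ2 h2 a with e | ⟨j, j1, j2, j3⟩
      · exact ⟨_, e.1, e.2, Or.inl rfl⟩
      · exact ⟨j, j1, j3, Or.inr j2⟩
  have k5 : X.card = 2 := by omega
  obtain ⟨σ0, h0⟩ : Φ.Nonempty := card_pos.1 (by omega)
  have h0T := (mem_filter.1 h0).1
  have h0A := hΦA h0
  obtain ⟨σ1, h1, σ2, h2, n⟩ := Finset.one_lt_card.1 (show 1 < (T.erase σ0).card by
    rw [card_erase_of_mem h0T]; omega)
  have key : ∀ ξ ∈ X, ∀ σ ∈ T.erase σ0, ∀ a, c.lab (c.P σ a) ξ.1 = ξ.2 →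
      ξ.1 ≠ σ.1 ∧ inM c.ω ξ.1 (c.P σ a) ∧ ∃ b, inM c.ω ξ.1 (c.P σ0 b) := by
    intro ξ hξ σ hσ a e
    obtain ⟨n0, hσT⟩ := mem_erase.1 hσ
    obtain ⟨ξ', hξ'⟩ := Finset.card_eq_one.1 (show (X.erase ξ).card = 1 by
      rw [card_erase_of_mem hξ]; omega)
    have f1 := h.fiber (z := Sum.inr y) (Φ := {σ0}) (by simpa using h0A) (fun τ hτ e => by
      rw [mem_singleton.1 hτ] at e
      exact hΦn σ0 h0 (e.mono (filter_subset_filter _ (by simpa using h0)))) ξ'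
    have f2 : 1 < (univ.filter fun b => c.lab (c.P σ0 b) ξ.1 = ξ.2).card := by
      have f3 : (univ.filter fun b => ¬ c.lab (c.P σ0 b) ξ.1 = ξ.2).card ≤ 2 := by
        refine le_trans (Finset.card_le_card_of_injOn (fun b => (σ0, b)) (fun b hb => ?_)
          fun a _ b _ e => congrArg Prod.snd e) f1
        obtain ⟨η, hη, e⟩ := hΦX σ0 h0 b
        have : η ∈ X.erase ξ := mem_erase.2 ⟨fun k => (mem_filter.1 hb).2 (k ▸ e), hη⟩
        rw [hξ', mem_singleton] at this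
        exact mem_filter.2 ⟨by simp, this ▸ e⟩
      have f4 := Finset.card_filter_add_card_filter_not (s := (univ : Finset (Fin 4)))
        (fun b => c.lab (c.P σ0 b) ξ.1 = ξ.2)
      rw [card_univ, Fintype.card_fin] at f4
      omega
    obtain ⟨b, hb, b', hb', nb⟩ := Finset.one_lt_card.1 f2
    have e1 := (mem_filter.1 hb).2
    have e2 := (mem_filter.1 hb').2
    rcases h.two_cov h0A nb (e1.trans e2.symm) with k | k
    · exfalso
      rw [k.1, h.lab_self h0A] at e1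
      rw [k.1, ← e1] at e
      exact n0 (h.L_inj (mem_filter.1 hσT).1 h0A (h.lab_grp (mem_filter.1 hσT).1 e).1)
    · have k' := h.lab_none (mem_filter.1 hσT).1 (e.trans (e1.symm.trans k))
      exact ⟨k'.1, k'.2, b, (h.lab_none h0A k).2⟩
  have pick : ∀ d : Option F, ∃ X1, (∃ b, inM c.ω X1 (c.P σ0 b)) ∧
      ((∃ b, inM c.ω d (c.P σ0 b)) → d = X1) := by
    intro d
    by_cases e : ∃ b, inM c.ω d (c.P σ0 b)
    · exact ⟨d, e, fun _ => rfl⟩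
    · exact ⟨(c.gd σ0).1 0, ⟨0, false, _, (hv σ0 h0T).on_sl 0 false⟩, fun k => absurd k e⟩
  obtain ⟨ξ1, ξ2, _, rfl⟩ := Finset.card_eq_two.1 k5
  obtain ⟨X1, x1, y1⟩ := pick ξ1.1
  obtain ⟨X2, x2, y2⟩ := pick ξ2.1
  obtain ⟨n1, h1T⟩ := mem_erase.1 h1
  obtain ⟨n2, h2T⟩ := mem_erase.1 h2
  refine h.no3 y (no_T3 h.hG (hv σ0 h0T) (hv σ1 h1T) (hv σ2 h2T) (hLne σ0 h0T σ2 h2T n2.symm) n1 n
    X1 X2 x1 x2 (fun a => ?_) ?_)
  · rcases hc σ2 (mem_filter.1 h2T).1 (mem_filter.1 h2T).2 a with ⟨ξ, hξ, e⟩ | ⟨j, j1, j2, j3⟩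
    · obtain ⟨e1, e2, e3⟩ := key ξ hξ σ2 h2 a e
      refine ⟨ξ.1, e1, e2, ?_⟩
      rcases mem_insert.1 hξ with rfl | k
      · exact Or.inl (y1 e3)
      · rw [mem_singleton.1 k] at e3 ⊢
        exact Or.inr (Or.inl (y2 e3))
    · exact ⟨j, j1, j3, Or.inr (Or.inr j2)⟩
  · rcases hc σ1 (mem_filter.1 h1T).1 (mem_filter.1 h1T).2 0 with ⟨ξ, hξ, e⟩ | ⟨j, j1, j2, j3⟩
    · obtain ⟨e1, e2, e3⟩ := key ξ hξ σ1 h1 0 e
      exact ⟨0, ξ.1, e1, e2, Or.inr e3⟩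
    · exact ⟨0, j, j1, j3, Or.inl j2⟩

lemma Ok.case_aff (S : Finset (Option F × Option (F × Option Bool)))
    (hS : ∀ p ∈ c.K, ∃ d, (d, c.lab p d) ∈ S) (hq : S.card ≤ Fintype.card F) (y : F × F)
    (hx : ∀ l, Thru (Sum.inr y) l → l ∉ c.A → (l.1, c.lcl l) ∈ S) : False := by
  set U := (univ.filter fun d => (d, ph d y) ∉ c.A).image fun d => (d, c.lcl (d, ph d y)) with hU
  have k1 : U ⊆ S := by
    intro ξ hξ
    obtain ⟨d, hd, rfl⟩ := mem_image.1 hξ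
    exact hx (d, ph d y) (on_mk _ _) (mem_filter.1 hd).2
  have k2 : (S \ U).card + 1 ≤ (c.Act.filter fun σ => On y (c.L σ)).card := by
    have a1 : U.card = (univ.filter fun d => (d, ph d y) ∉ c.A).card :=
      card_image_of_injective _ fun a b e => congrArg Prod.fst e
    have a2 : (univ.filter fun d => (d, ph d y) ∈ c.A).card ≤
        (c.Act.filter fun σ => On y (c.L σ)).card := by
      refine le_trans (card_le_card fun d hd => ?_) (card_image_le (f := Prod.fst))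
      obtain ⟨σ, hσ, e⟩ := mem_image.1 (mem_filter.1 hd).2
      exact mem_image.2 ⟨σ, mem_filter.2 ⟨hσ, by rw [e]; exact on_mk _ _⟩,
        congrArg (fun l : Option F × F => l.1) e⟩
    have a3 := Finset.card_filter_add_card_filter_not (s := (univ : Finset (Option F)))
      (fun d => (d, ph d y) ∈ c.A)
    rw [card_univ, Fintype.card_option] at a3
    have a4 := card_le_card k1
    rw [card_sdiff_of_subset k1]
    omega
  have k3 : ∀ σ ∈ c.Act, On y (c.L σ) → ∀ a, y ≠ c.P σ a →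
      (∃ ξ ∈ S \ U, c.lab (c.P σ a) ξ.1 = ξ.2) ∨
      ∃ j, j ≠ σ.1 ∧ inM c.ω j y ∧ inM c.ω j (c.P σ a) := by
    intro σ hσ o a n
    obtain ⟨j, hj⟩ := hS _ (mem_filter.2 ⟨mem_univ _, Or.inr ⟨σ, hσ, a, rfl⟩⟩)
    by_cases e : (j, c.lab (c.P σ a) j) ∈ U
    swap
    · exact Or.inl ⟨_, mem_sdiff.2 ⟨hj, e⟩, rfl⟩
    obtain ⟨d, hd, e⟩ := mem_image.1 e
    obtain ⟨rfl, e⟩ := Prod.mk.inj e
    have hd' : d ≠ σ.1 := by
      rintro rfl
      exact (mem_filter.1 hd).2 (mk_eq o ▸ mem_image_of_mem _ hσ)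
    rcases k : c.lcl (d, ph d y) with _ | x
    · exact Or.inr ⟨d, hd', h.inM_of (lcl_none k), (h.lab_none hσ (e.symm.trans k)).2⟩
    · obtain rfl := lcl_some k
      have := (h.lab_ord hσ (e.symm.trans k)).2
      exact absurd (two_pts (l := (d, ph d y)) (l' := c.L σ) hd' (on_mk _ _) o this (h.on hσ a)) n
  by_cases hy : ∀ σ ∈ c.Act, ∀ a, y ≠ c.P σ a
  · exact h.aff_core y hy _ k2 fun σ hσ o a => k3 σ hσ o a (hy σ hσ a)
  push Not at hy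
  obtain ⟨σ, hσ, a, rfl⟩ := hy
  have k4 : (c.Act.filter fun τ => On (c.P σ a) (c.L τ)).card ≤ 1 :=
    Finset.card_le_one.2 fun τ hτ τ' hτ' =>
      (h.uniq hσ (mem_filter.1 hτ).1 (mem_filter.1 hτ).2).trans
        (h.uniq hσ (mem_filter.1 hτ').1 (mem_filter.1 hτ').2).symm
  rcases k3 σ hσ (h.on hσ a) (a + 2) (fun e => (fin4_a a).1 (h.P_inj hσ hσ e).2) with
    ⟨ξ, hξ, _⟩ | ⟨j, j1, j2, j3⟩
  · have := card_pos.2 ⟨ξ, hξ⟩
    omega
  · exact h.no_opp hσ j1 j2 j3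

theorem Ok.final :
    ∃ (N : ℕ) (part : Fin N → Fin (Fintype.card F + 1)) (E : Finset (Finset (Fin N))),
        E.Nonempty ∧
        (∀ e ∈ E, ∀ i : Fin (Fintype.card F + 1), (e.filter (fun v => part v = i)).card = 1) ∧
        (∀ e ∈ E, ∀ f ∈ E, (e ∩ f).Nonempty) ∧
        (∀ i : Fin (Fintype.card F + 1),
          (Finset.univ.filter (fun v => part v = i)).card = Fintype.card F + 1) ∧
        (∀ v : Fin N, ∃ e ∈ E, v ∈ e) ∧
        (∀ S : Finset (Fin N), (∀ e ∈ E, (e ∩ S).Nonempty) → Fintype.card F + 1 ≤ S.card) := by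
  refine encode _ Fintype.card_option c.K c.lab ?_ h.hint h.hcard fun S hS => ?_
  · have := h.hcard none
    exact Finset.Nonempty.of_image (card_pos.1 (by rw [this]; omega))
  · by_contra hc
    have hq : S.card ≤ Fintype.card F := by omega
    obtain ⟨x, hx⟩ := h.closure S hS hq
    cases x with
    | inl d => exact h.case_inf S hS hq d hx
    | inr y => exact h.case_aff S hS hq y hx

end Dat

end Crest.Agent.H8.Ry
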