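import Crest.Agent.H8.RyReg2

set_option autoImplicit false
set_option linter.unusedSectionVars false

namespace Crest.Agent.H8.Ry
open Finset

variable {F : Type} [Field F] [Fintype F] [DecidableEq F]
variable {V : Type} [Fintype V] [DecidableEq V]

lemma card_samp_le {w : ℕ} (hP : Par (Fintype.card F) w) (ι : Type) [Fintype ι] [DecidableEq ι] :
    (Fintype.card (ι → Option F × F) : ℝ) ≤ Real.exp (Fintype.card ι * (w / 4)) := by
  rw [Fintype.card_fun, card_lines, Real.exp_nat_mul, Nat.cast_pow]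
  exact pow_le_pow_left₀ (by positivity) hP.lines_le _

lemma exp_mul_small {q w : ℕ} (hP : Par q w) {a b c : ℝ} (hc : c ≤ Real.exp a)
    (h : (w : ℝ) / 2 + a ≤ b) : c * Real.exp (-b) ≤ 1 / 1000 := by
  calc c * Real.exp (-b) ≤ Real.exp a * Real.exp (-b) := by gcongr
    _ = Real.exp (-(b - a)) := by rw [← Real.exp_add]; ring_nf
    _ ≤ _ := hP.exp_small (by linarith)

/-- the classification of small covers -/
def CLgood (dir : V → Option F) (Sp Mg : Finset V) (ω : V → F) : Prop :=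
  (∀ l, (Fintype.card F : ℝ) / 4000 ≤ (cln dir Sp ω l).card) ∧
  ∀ B : Finset (Option F × F), (∀ p, (∀ v ∈ Sp, ¬ On p (Ln dir ω v)) → ∃ l ∈ B, On p l) →
    (∀ v ∈ Sp, Ln dir ω v ∉ B) →
    (∀ E ⊆ B, E.card ≤ Fintype.card F + (Mg.filter fun v => Ln dir ω v ∈ E).card) →
    ∃ x, ∀ l, Thru x l → l ∈ B ∨ ∃ v ∈ Sp, Ln dir ω v = l

theorem classify {w : ℕ} (hP : Par (Fintype.card F) w) (dir : V → Option F)
    (Main Extra Mg : Finset V) (hMain8 : Main.card ≤ 8 * (Fintype.card F / 2))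
    (hMain3 : ∀ d, ((Main.filter fun v => dir v = d).card : ℝ) ≤ 3)
    (hEx : (Extra.card : ℝ) ≤ Fintype.card F / (w : ℝ) ^ 26)
    (hMg : (Mg.card : ℝ) ≤ Fintype.card F / (w : ℝ) ^ 26)
    (hSp : ((Main ∪ Extra).card : ℝ) ≤ 4 * Fintype.card F)
    (hμ : ∀ d, ((((Main ∪ Extra) ∪ Mg).filter fun v => dir v = d).card : ℝ) ≤ (w : ℝ) ^ 60) :
    Pr (fun ω => ¬ CLgood dir (Main ∪ Extra) Mg ω) ≤ 1 / 20 := by
  set q := Fintype.card F with hq
  have hW := hP.W0
  have hW' := hP.W
  have hQ := hP.Q0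
  have hμ' : ∀ d, (((Main ∪ Extra).filter fun v => dir v = d).card : ℝ) ≤ (w : ℝ) ^ 60 :=
    fun d => le_trans (Nat.cast_le.2 (card_le_card (filter_subset_filter _ subset_union_left)))
      (hμ d)
  have htq : 10 ^ 6 * (q / (w : ℝ) ^ 26) ≤ q := hP.uq (by norm_num) (by norm_num)
  have ht0 := hP.upos 26
  obtain ⟨N, hN, hP1⟩ := cln_conc dir (Main ∪ Extra) hSp _ hμ' (q / (w : ℝ) ^ 26) ht0.le
    (by linarith)
  have hP1' : (Fintype.card (Option F × F) : ℝ) *
      (2 * Real.exp (-((q / (w : ℝ) ^ 26) ^ 2 / (16 * q)))) ≤ 1 / 100 := by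
    refine le_trans ?_ hP.lines_small
    rw [card_lines]
    gcongr
    have h1 := hP.pu (C := 16) (by norm_num) (a := 1) (b := 52) (by norm_num)
    have h2 : (q / (w : ℝ) ^ 26) ^ 2 / (16 * q) = q / (w : ℝ) ^ 52 / 16 := by field_simp
    rw [h2]; rw [pow_one] at h1; linarith
  have hh : 2 * (q / 2) ≤ q := Nat.mul_div_le _ _
  have hP2 : Pr (fun ω => ∃ S : Fin (q / w ^ 9) × Bool → Option F × F,
      ¬ CovOK dir 8 (q / (w : ℝ) ^ 7) (600 * q * (w : ℝ) ^ 7) Main (dbl S) ω) ≤ 1 / 100 := by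
    refine (Pr_exists_le' _ fun S => cover dir (q / 2) hh _ _ (hP.upos 7) (le_of_eq (by
      rw [← hq]; field_simp)) 8 Main (dbl S) hMain8 hMain3).trans ?_
    have := exp_mul_small hP (card_samp_le hP (Fin (q / w ^ 9) × Bool)) (b := q / (w : ℝ) ^ 7) (by
      simp only [Fintype.card_prod, Fintype.card_fin, Fintype.card_bool]
      have h1 := hP.div_le q 9
      have h2 := hP.pu (C := 1) (by norm_num) (a := 1) (b := 7) (by norm_num)
      have h3 := hP.uu (C := 1) (by norm_num) (a := 7) (b := 8) le_rfl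
      have h4 : q / (w : ℝ) ^ 9 * w = q / (w : ℝ) ^ 8 := by field_simp
      have h5 := mul_le_mul_of_nonneg_right h1 hW.le
      rw [Nat.cast_mul]
      rw [pow_one] at h2
      push_cast
      linarith)
    push_cast
    linarith
  have hP3 : Pr (fun ω => ∃ S : Fin (q / w ^ 18) × Bool → Option F × F,
      q / (w : ℝ) ^ 16 ≤ ((Main.filter fun v => Ln dir ω v ∈ Fl S).card : ℝ)) ≤ 1 / 100 := by
    refine (Pr_exists_le' (c := Real.exp (-(q / (w : ℝ) ^ 16))) _ fun S =>
      hitsL dir Main 3 hMain3 (Fl S) _ ?_).trans ?_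
    · have hs4 := hP.le_div q 18 (by simpa using hP.pq (C := 1) (by norm_num) (a := 18) (by norm_num))
      set σ := ((q / w ^ 18 : ℕ) : ℝ) with hσ
      have hσ0 : 0 < σ := by have := hP.upos 18; linarith
      have hY : ((dbl S).card : ℝ) ≤ σ ^ 2 := by rw [hσ]; exact_mod_cast card_dbl_le S
      have h1 := card_rich (dbl S) (σ ^ 2 / q) (by positivity) (Fl S) fun l hl => by
        refine le_trans ?_ (mem_filter.1 hl).2
        have : ((dbl S).card : ℝ) / q ≤ σ ^ 2 / q := by gcongr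
        rw [← hq, ← hσ, mul_div_assoc]; linarith
      have h2 : (q : ℝ) * (dbl S).card / (σ ^ 2 / q) ^ 2 ≤ q * σ ^ 2 / (σ ^ 2 / q) ^ 2 := by gcongr
      have h3 : q * σ ^ 2 / (σ ^ 2 / q) ^ 2 = q * ((q : ℝ) / σ) ^ 2 := by field_simp
      have h4 : (q : ℝ) / σ ≤ 2 * (w : ℝ) ^ 18 := by
        rw [div_le_iff₀ hσ0]; rw [div_le_iff₀ (by positivity)] at hs4; linarith
      have h5 : q * ((q : ℝ) / σ) ^ 2 ≤ q * (2 * (w : ℝ) ^ 18) ^ 2 := by gcongr
      have h6 := hP.pu (C := 96) (by norm_num) (a := 36) (b := 16) (by norm_num)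
      refine le_trans ?_ h6
      rw [← hq, div_le_iff₀ hQ]
      rw [← hq] at h1
      have h7 : q * (2 * (w : ℝ) ^ 18) ^ 2 = 4 * (w : ℝ) ^ 36 * q := by ring
      linarith
    · have := exp_mul_small hP (card_samp_le hP (Fin (q / w ^ 18) × Bool))
        (b := q / (w : ℝ) ^ 16) (by
        simp only [Fintype.card_prod, Fintype.card_fin, Fintype.card_bool]
        have h1 := hP.div_le q 18
        have h2 := hP.pu (C := 1) (by norm_num) (a := 1) (b := 16) (by norm_num)
        have h3 := hP.uu (C := 1) (by norm_num) (a := 16) (b := 17) le_rfl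
        have h4 : q / (w : ℝ) ^ 18 * w = q / (w : ℝ) ^ 17 := by field_simp
        have h5 := mul_le_mul_of_nonneg_right h1 hW.le
        rw [Nat.cast_mul]
        rw [pow_one] at h2
        push_cast
        linarith)
      linarith
  have hq1 : ((range (q + 1)).card : ℝ) ≤ Real.exp (w / 4) := by
    refine le_trans ?_ hP.lines_le
    rw [card_range]
    exact Nat.cast_le.2 (Nat.le_mul_of_pos_right _ (by exact_mod_cast hQ))
  have hP4 : Pr (fun ω => ∃ K ∈ range (q + 1), ∃ S : Fin (K / w ^ 2) → Option F × F,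
      w ^ 200 < K ∧ ((Ep K S).card : ℝ) ≤ 7 * q ∧
      (K : ℝ) / 100 ≤ (((Main ∪ Extra) ∪ Mg).filter fun v => Ln dir ω v ∈ Ep K S).card) ≤
      1 / 1000 := by
    refine (Pr_exists_le _ _).trans ((Finset.sum_le_card_nsmul _ _ (Real.exp (-(w : ℝ)))
      fun K _ => ?_).trans ?_)
    · by_cases hK : w ^ 200 < K
      swap
      · rw [Pr_false fun ω ⟨S, h⟩ => hK h.1]; positivity
      have hK' : (w : ℝ) ^ 200 < K := by exact_mod_cast hK
      refine (Pr_exists_le' (c := Real.exp (-((K : ℝ) / 100))) _ fun S => ?_).trans ?_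
      · by_cases hE : ((Ep K S).card : ℝ) ≤ 7 * q
        swap
        · rw [Pr_false fun ω h => hE h.2.1]; positivity
        refine le_trans (Pr_mono fun ω h => h.2.2) (hitsL dir _ _ hμ (Ep K S) _ ?_)
        have h1 := hP.pw (C := 5600) (by norm_num) (a := 60) (b := 200) (by norm_num)
        rw [← hq, div_le_iff₀ hQ]
        have h2 : 8 * (w : ℝ) ^ 60 * (Ep K S).card ≤ 8 * (w : ℝ) ^ 60 * (7 * q) := by gcongr
        have h3 : 56 * (w : ℝ) ^ 60 * q ≤ K / 100 * q := by gcongr; linarith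
        linarith
      · refine le_trans (mul_le_mul_of_nonneg_right (card_samp_le hP _) (Real.exp_pos _).le) ?_
        rw [← Real.exp_add, Fintype.card_fin]
        refine Real.exp_le_exp.2 ?_
        have h1 := mul_le_mul_of_nonneg_right (hP.div_le K 2) hW.le
        have h2 : K / (w : ℝ) ^ 2 * w = K / w := by field_simp
        have h3 : K / (w : ℝ) ≤ K / 10 ^ 12 := by gcongr
        have h4 := hP.pw (C := 1000) (by norm_num) (a := 1) (b := 200) (by norm_num)
        rw [pow_one] at h4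
        norm_num at h3
        linarith
    · rw [nsmul_eq_mul]
      exact exp_mul_small hP hq1 (by linarith)
  have hP5 : Pr (fun ω => ∃ K ∈ range (q + 1), ∃ S : Fin (K / w ^ 2) → Option F × F,
      (K : ℝ) ≤ 18 * (q / (w : ℝ) ^ 3) ∧
      ¬ CovOK dir 8 (q / (w : ℝ) ^ 1) (600 * q * (w : ℝ) ^ 1) Main (unc (Ep K S)) ω) ≤ 1 / 100 := by
    refine (Pr_exists_le _ _).trans ((Finset.sum_le_card_nsmul _ _ (8 * Real.exp (-(w : ℝ)))
      fun K _ => ?_).trans ?_)
    · by_cases hK : (K : ℝ) ≤ 18 * (q / (w : ℝ) ^ 3)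
      swap
      · rw [Pr_false fun ω ⟨S, h⟩ => hK h.1]; positivity
      refine (Pr_exists_le' (c := 8 * Real.exp (-(q / (w : ℝ) ^ 1))) _ fun S => ?_).trans ?_
      · refine le_trans (Pr_mono fun ω h => h.2) ((cover dir (q / 2) hh _ _ (hP.upos 1) (le_of_eq (by
          rw [← hq]; field_simp)) 8 Main _ hMain8 hMain3).trans (le_of_eq (by norm_num)))
      · rw [mul_left_comm]
        refine mul_le_mul_of_nonneg_left ?_ (by norm_num)
        refine le_trans (mul_le_mul_of_nonneg_right (card_samp_le hP _) (Real.exp_pos _).le) ?_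
        rw [← Real.exp_add, Fintype.card_fin]
        refine Real.exp_le_exp.2 ?_
        have h1 := mul_le_mul_of_nonneg_right (hP.div_le K 2) hW.le
        have h2 : K / (w : ℝ) ^ 2 * w = K / w := by field_simp
        have h3 : K / (w : ℝ) ≤ K := div_le_self (by positivity) hP.W1
        have h4 := hP.uu (C := 18) (by norm_num) (a := 1) (b := 3) (by norm_num)
        have h5 := hP.pu (C := 2) (by norm_num) (a := 1) (b := 1) (by norm_num)
        rw [pow_one] at h4 h5 ⊢
        linarith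
    · rw [nsmul_eq_mul, mul_left_comm]
      have := exp_mul_small hP hq1 (b := w) (by linarith)
      linarith
  have hall := (Pr_or_le _ _).trans (add_le_add (hP1.trans hP1')
    ((Pr_or_le _ _).trans (add_le_add hP2 ((Pr_or_le _ _).trans (add_le_add hP3
      ((Pr_or_le _ _).trans (add_le_add hP4 hP5)))))))
  refine le_trans (Pr_mono fun ω hω => ?_) (hall.trans (by norm_num))
  by_contra hc
  push Not at hc
  obtain ⟨G1, G2, G3, G4, G5⟩ := hc
  have G1' : ∀ l, (q : ℝ) / 4000 ≤ (cln dir (Main ∪ Extra) ω l).card := fun l => by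
    linarith [(G1 l).1]
  refine hω ⟨G1', fun B hcov hdisj hsize => ?_⟩
  by_cases hu : ((unc B).card : ℝ) ≤ (q : ℝ) ^ 2 / (w : ℝ) ^ 3
  · refine regime2 hP dir Main Extra Mg ω hEx hMg
      (le_trans (Nat.cast_le.2 (card_le_card subset_union_left)) hSp) G1'
      (fun K h1 h2 S h3 => G4 K (mem_range.2 (Nat.lt_succ_of_le h2)) S h1 h3)
      (fun K h1 S => G5 K (mem_range.2 (Nat.lt_succ_of_le ?_)) S h1) B hcov hsize hu
    have := hP.uq (C := 18) (by norm_num) (b := 3) (by norm_num)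
    exact_mod_cast h1.trans this
  · exfalso
    refine regime1 hP dir Main Extra ω hEx (hμ' none) N hN G1 G2 G3 B hcov hdisj ?_ (not_le.1 hu).le
    have h1 : B.card ≤ q + Mg.card :=
      (hsize B Subset.rfl).trans (Nat.add_le_add_left (card_filter_le _ _) _)
    have h2 : (B.card : ℝ) ≤ q + Mg.card := by exact_mod_cast h1
    linarith

end Crest.Agent.H8.Ry
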