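import Crest.Agent.H8.RyEnc

set_option autoImplicit false
set_option linter.unusedSectionVars false

namespace Crest.Agent.H8.Ry
open Finset

variable {F : Type} [Field F] [Fintype F] [DecidableEq F] {s κ : ℕ}

/-- the data of the construction -/
structure Dat (F : Type) (s κ : ℕ) where
  G : Fin 4 → Finset (Option F)
  ω : Vt F s κ → F
  gd : Option F × Fin s → Gad F κ
  Sp : Finset (Vt F s κ)
  Mg : Finset (Vt F s κ)
  Act : Finset (Option F × Fin s)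
  rk : Option F × Fin s → ℕ
  t0 : ℕ

namespace Dat
variable (c : Dat F s κ)

def L (σ : Option F × Fin s) : Option F × F := Ln dr c.ω (Sum.inl σ)
def P (σ : Option F × Fin s) (a : Fin 4) : F × F := (c.gd σ).p a
def A : Finset (Option F × F) := c.Act.image c.L
def C : Finset (Option F × F) := c.Mg.image (Ln dr c.ω)
def lcl (l : Option F × F) : Option (F × Option Bool) := if l ∈ c.C then none else some (l.2, none)
def sd (p : F × F) : Bool := decide (∃ σ ∈ c.Act, p = c.P σ 1 ∨ p = c.P σ 3)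
def lab (p : F × F) (d : Option F) : Option (F × Option Bool) :=
  if (d, ph d p) ∈ c.A then some (ph d p, some (c.sd p)) else c.lcl (d, ph d p)
def K : Finset (F × F) :=
  univ.filter fun p => (∀ σ ∈ c.Act, ¬ On p (c.L σ)) ∨ ∃ σ ∈ c.Act, ∃ a, p = c.P σ a

/-- the good properties of the data -/
structure Ok : Prop where
  hG : Disj c.G
  rki : Function.Injective c.rk
  sub : ∀ σ ∈ c.Act, Sum.inl σ ∈ c.Sp
  cg : ∀ σ ∈ c.Act, Cg c.G c.Sp c.ω σ (c.gd σ)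
  mg : ∀ v ∈ c.Mg, ∃ u, v = Sum.inr u
  mgG : ∀ a, ∀ j ∈ c.G a, ∀ β i, Sum.inr (j, β, i) ∈ c.Mg
  nb : ∀ σ ∈ c.Act, ¬ Bad (Sum.inl σ.1) c.ω c.gd
    (c.Act.filter fun τ => τ.1 = σ.1 ∧ c.rk τ < c.rk σ) σ
  cnt : ∀ d, (c.Act.filter (·.1 = d)).card = max 1 (univ.filter fun x => (d, x) ∈ c.C).card
  cl : CLgood dr c.Sp c.Mg c.ω
  th : ∀ x, (c.Sp.filter fun v => Thru x (Ln dr c.ω v)).card ≤ c.t0
  num : 1 + 2 * (c.Mg.card : ℝ) + c.t0 < Fintype.card F / 4000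
  no3 : ∀ y, ¬ ∃ O, Der c.G (Sum.inr y) c.ω 50 O 3

/-- parity of a position -/
def par (a : Fin 4) : Bool := a == 1 || a == 3

variable {c} (h : c.Ok)
include h

lemma Ok.val {σ : Option F × Fin s} (hσ : σ ∈ c.Act) {z : Option F ⊕ (F × F)}
    (h1 : Thru z (c.L σ)) (h2 : ∀ a, z ≠ Sum.inr (c.P σ a)) : Val c.G z c.ω σ (c.gd σ) :=
  ⟨h1, ⟨(h.cg σ hσ).1, fun a => ⟨(mem_filter.1 ((h.cg σ hσ).2.1 a)).2.1, h2 a⟩⟩,
    (h.cg σ hσ).2.2.2, (h.cg σ hσ).2.2.1⟩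

lemma Ok.val0 {σ : Option F × Fin s} (hσ : σ ∈ c.Act) : Val c.G (Sum.inl σ.1) c.ω σ (c.gd σ) :=
  h.val hσ rfl (by simp)

lemma Ok.on {σ : Option F × Fin s} (hσ : σ ∈ c.Act) (a : Fin 4) : On (c.P σ a) (c.L σ) :=
  (h.val0 hσ).on a

lemma Ok.L_inj {σ τ : Option F × Fin s} (hσ : σ ∈ c.Act) (hτ : τ ∈ c.Act) (e : c.L σ = c.L τ) :
    σ = τ := by
  have e1 : σ.1 = τ.1 := congrArg (fun l : Option F × F => l.1) e
  rcases lt_trichotomy (c.rk σ) (c.rk τ) with k | k | k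
  · exact absurd (Or.inr (Or.inr (Or.inl ⟨σ, mem_filter.2 ⟨hσ, e1, k⟩, e⟩))) (h.nb τ hτ)
  · exact h.rki k
  · exact absurd (Or.inr (Or.inr (Or.inl ⟨τ, mem_filter.2 ⟨hτ, e1.symm, k⟩, e.symm⟩))) (h.nb σ hσ)

lemma Ok.notC {σ : Option F × Fin s} (hσ : σ ∈ c.Act) : c.L σ ∉ c.C := by
  intro e
  obtain ⟨v, hv, e⟩ := mem_image.1 e
  obtain ⟨u, rfl⟩ := h.mg v hv
  exact h.nb σ hσ (Or.inr (Or.inr (Or.inr (Or.inl ⟨u, e⟩))))

lemma Ok.clean {l : Option F × F} {p : F × F} (hp : p ∈ cln dr c.Sp c.ω l)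
    {τ : Option F × Fin s} (hτ : τ ∈ c.Act) (e : On p (c.L τ)) : c.L τ = l := by
  obtain ⟨h1, h2⟩ := (mem_filter.1 hp).2
  by_cases k : τ.1 = l.1
  · exact line_eq_of_dir k e h1
  · exact absurd e (h2 _ (h.sub τ hτ) k)

lemma Ok.uniq {σ τ : Option F × Fin s} (hσ : σ ∈ c.Act) (hτ : τ ∈ c.Act) {a : Fin 4}
    (e : On (c.P σ a) (c.L τ)) : τ = σ :=
  h.L_inj hτ hσ (h.clean ((h.cg σ hσ).2.1 a) hτ e)

lemma Ok.P_inj {σ τ : Option F × Fin s} (hσ : σ ∈ c.Act) (hτ : τ ∈ c.Act) {a b : Fin 4}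
    (e : c.P σ a = c.P τ b) : σ = τ ∧ a = b := by
  have := h.uniq hσ hτ (e ▸ h.on hτ b)
  subst this
  exact ⟨rfl, (h.cg τ hτ).2.2.1 e⟩

lemma Ok.sd_P {σ : Option F × Fin s} (hσ : σ ∈ c.Act) (a : Fin 4) : c.sd (c.P σ a) = par a := by
  rw [Bool.eq_iff_iff, sd, decide_eq_true_iff]
  simp only [par, Bool.or_eq_true, beq_iff_eq]
  constructor
  · rintro ⟨τ, hτ, e | e⟩
    · exact Or.inl (h.P_inj hσ hτ e).2
    · exact Or.inr (h.P_inj hσ hτ e).2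
  · rintro (rfl | rfl)
    · exact ⟨σ, hσ, Or.inl rfl⟩
    · exact ⟨σ, hσ, Or.inr rfl⟩

omit h in
lemma mk_eq {σ : Option F × Fin s} {p : F × F} (e : On p (c.L σ)) : (σ.1, ph σ.1 p) = c.L σ :=
  Prod.ext rfl e

omit h in
lemma lab_on {σ : Option F × Fin s} (hσ : σ ∈ c.Act) {p : F × F} (e : On p (c.L σ)) :
    c.lab p σ.1 = some ((c.L σ).2, some (c.sd p)) := by
  unfold lab
  rw [mk_eq e, if_pos (show c.L σ ∈ c.A from mem_image_of_mem _ hσ), ← mk_eq e]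

lemma Ok.lab_self {σ : Option F × Fin s} (hσ : σ ∈ c.Act) (a : Fin 4) :
    c.lab (c.P σ a) σ.1 = some ((c.L σ).2, some (par a)) := by
  rw [lab_on hσ (h.on hσ a), h.sd_P hσ]

lemma Ok.lab_ne {σ : Option F × Fin s} (hσ : σ ∈ c.Act) (a : Fin 4) {d : Option F} (hd : d ≠ σ.1) :
    c.lab (c.P σ a) d = c.lcl (d, ph d (c.P σ a)) := by
  unfold lab
  rw [if_neg]
  intro e
  obtain ⟨τ, hτ, e⟩ := mem_image.1 e
  have := h.uniq hσ hτ (a := a) (by rw [e]; exact on_mk _ _)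
  subst this
  exact hd (congrArg Prod.fst e).symm

lemma Ok.inM_of {d : Option F} {p : F × F} (e : (d, ph d p) ∈ c.C) : inM c.ω d p := by
  obtain ⟨v, hv, e⟩ := mem_image.1 e
  obtain ⟨⟨j, β, i⟩, rfl⟩ := h.mg v hv
  have : j = d := congrArg Prod.fst e
  subst this
  exact ⟨β, i, by rw [e]; exact on_mk _ _⟩

omit h in
lemma lcl_none {l : Option F × F} (e : c.lcl l = none) : l ∈ c.C := by
  unfold lcl at e; split_ifs at e with k; exact k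

omit h in
lemma lcl_some {l : Option F × F} {x : F × Option Bool} (e : c.lcl l = some x) :
    x = (l.2, none) := by
  unfold lcl at e; split_ifs at e with k; exact (Option.some_injective _ e).symm

lemma Ok.lab_none {σ : Option F × Fin s} (hσ : σ ∈ c.Act) {a : Fin 4} {d : Option F}
    (e : c.lab (c.P σ a) d = none) : d ≠ σ.1 ∧ inM c.ω d (c.P σ a) := by
  have hd : d ≠ σ.1 := by rintro rfl; rw [h.lab_self hσ] at e; simp at e
  exact ⟨hd, h.inM_of (lcl_none ((h.lab_ne hσ a hd).symm.trans e))⟩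

lemma Ok.lab_ord {σ : Option F × Fin s} (hσ : σ ∈ c.Act) {a : Fin 4} {d : Option F} {x : F}
    (e : c.lab (c.P σ a) d = some (x, none)) : d ≠ σ.1 ∧ On (c.P σ a) (d, x) := by
  have hd : d ≠ σ.1 := by rintro rfl; rw [h.lab_self hσ] at e; simp at e
  have := lcl_some ((h.lab_ne hσ a hd).symm.trans e)
  exact ⟨hd, (congrArg Prod.fst this).symm⟩

lemma Ok.lab_grp {σ : Option F × Fin s} (hσ : σ ∈ c.Act) {a : Fin 4} {d : Option F} {x : F}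
    {b : Bool} (e : c.lab (c.P σ a) d = some (x, some b)) : c.L σ = (d, x) ∧ par a = b := by
  have hd : d = σ.1 := by
    by_contra hd
    have := lcl_some ((h.lab_ne hσ a hd).symm.trans e)
    simp at this
  subst hd
  rw [h.lab_self hσ] at e
  simp only [Option.some.injEq, Prod.mk.injEq] at e
  exact ⟨Prod.ext rfl e.1, e.2⟩

lemma Ok.no_opp {σ : Option F × Fin s} (hσ : σ ∈ c.Act) {a : Fin 4} {j : Option F} (hj : j ≠ σ.1)
    (h1 : inM c.ω j (c.P σ a)) (h2 : inM c.ω j (c.P σ (a + 2))) : False :=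
  h.nb σ hσ (Or.inr (Or.inr (Or.inr (Or.inr (Or.inl ⟨a, j, hj, h1, h2⟩)))))

lemma Ok.one_class {σ : Option F × Fin s} (hσ : σ ∈ c.Act) {y : F × F} (hy : On y (c.L σ))
    (hb : ∀ b, y ≠ c.P σ b) {j j' : Option F} {a a' : Fin 4} (hj : j ≠ σ.1) (hj' : j' ≠ σ.1)
    (h1 : inM c.ω j y) (h2 : inM c.ω j' y) (h3 : inM c.ω j (c.P σ a))
    (h4 : inM c.ω j' (c.P σ a')) : j = j' := by
  by_contra e
  exact h.nb σ hσ (Or.inr (Or.inr (Or.inr (Or.inr (Or.inr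
    ⟨y, j, j', a, a', hy, by simp, hb, e, hj, hj', h1, h2, h3, h4⟩)))))

omit h in
lemma three_par : ∀ a b d : Fin 4, a ≠ b → a ≠ d → b ≠ d → par a = par b → par a ≠ par d := by
  decide

omit h in
lemma three_opp : ∀ a b d : Fin 4, a ≠ b → a ≠ d → b ≠ d →
    b = a + 2 ∨ d = a + 2 ∨ d = b + 2 := by
  decide

lemma Ok.fiber {z : Option F ⊕ (F × F)} {Φ : Finset (Option F × Fin s)} (hΦ : Φ ⊆ c.Act)
    (hnb : ∀ σ ∈ Φ, ¬ Bad z c.ω c.gd (Φ.filter fun τ => c.rk τ < c.rk σ) σ)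
    (ξ : Option F × Option (F × Option Bool)) :
    ((Φ ×ˢ (univ : Finset (Fin 4))).filter fun x => c.lab (c.P x.1 x.2) ξ.1 = ξ.2).card ≤ 2 := by
  by_contra hc
  obtain ⟨⟨σ1, a1⟩, ⟨σ2, a2⟩, ⟨σ3, a3⟩, m1, m2, m3, n12, n13, n23⟩ :=
    Finset.two_lt_card_iff.1 (not_le.1 hc)
  obtain ⟨d, _ | ⟨x, _ | b⟩⟩ := ξ <;>
    simp only [mem_filter, mem_product, mem_univ, and_true] at m1 m2 m3
  · have key : ∀ {σ τ a b}, σ ∈ Φ → τ ∈ Φ → c.lab (c.P σ a) d = none → c.lab (c.P τ b) d = none →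
        σ = τ := by
      intro σ τ a b hσ hτ e1 e2
      have k1 := h.lab_none (hΦ hσ) e1
      have k2 := h.lab_none (hΦ hτ) e2
      rcases lt_trichotomy (c.rk σ) (c.rk τ) with k | k | k
      · exact absurd (Or.inl ⟨b, d, k2.1, k2.2, Or.inr ⟨σ, mem_filter.2 ⟨hσ, k⟩, a, k1.2⟩⟩) (hnb τ hτ)
      · exact h.rki k
      · exact absurd (Or.inl ⟨a, d, k1.1, k1.2, Or.inr ⟨τ, mem_filter.2 ⟨hτ, k⟩, b, k2.2⟩⟩) (hnb σ hσ)
    obtain rfl := key m1.1 m2.1 m1.2 m2.2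
    obtain rfl := key m1.1 m3.1 m1.2 m3.2
    have k1 := h.lab_none (hΦ m1.1) m1.2
    have k2 := h.lab_none (hΦ m1.1) m2.2
    have k3 := h.lab_none (hΦ m1.1) m3.2
    rcases three_opp a1 a2 a3 (by simpa using n12) (by simpa using n13) (by simpa using n23) with
      e | e | e
    · exact h.no_opp (hΦ m1.1) k1.1 k1.2 (e ▸ k2.2)
    · exact h.no_opp (hΦ m1.1) k1.1 k1.2 (e ▸ k3.2)
    · exact h.no_opp (hΦ m1.1) k1.1 k2.2 (e ▸ k3.2)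
  · have k1 := h.lab_ord (hΦ m1.1) m1.2
    have k2 := h.lab_ord (hΦ m2.1) m2.2
    have k3 := h.lab_ord (hΦ m3.1) m3.2
    have ne : ∀ {σ τ a b}, σ ∈ Φ → (σ, a) ≠ (τ, b) → d ≠ σ.1 → On (c.P σ a) (d, x) →
        On (c.P τ b) (d, x) → c.rk σ ≠ c.rk τ := by
      intro σ τ a b hσ n k e1 e2 e
      obtain rfl := h.rki e
      have := two_pts (l := (d, x)) (l' := c.L σ) k e1 (h.on (hΦ hσ) a) e2 (h.on (hΦ hσ) b)
      exact n (by rw [(h.P_inj (hΦ hσ) (hΦ hσ) this).2])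
    have key : ∀ {σ τ τ' a b b'}, σ ∈ Φ → τ ∈ Φ → τ' ∈ Φ → (τ, b) ≠ (τ', b') → d ≠ σ.1 →
        On (c.P σ a) (d, x) → On (c.P τ b) (d, x) → On (c.P τ' b') (d, x) →
        c.rk τ < c.rk σ → c.rk τ' < c.rk σ → False := by
      intro σ τ τ' a b b' hσ hτ hτ' n k e1 e2 e3 l1 l2
      refine hnb σ hσ (Or.inr (Or.inl ⟨a, (d, x), fun e => k (congrArg Prod.fst e), e1, τ,
        mem_filter.2 ⟨hτ, l1⟩, τ', mem_filter.2 ⟨hτ', l2⟩, b, b', fun e => n ?_, e2, e3⟩))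
      obtain ⟨rfl, rfl⟩ := h.P_inj (hΦ hτ) (hΦ hτ') e
      rfl
    have r12 := ne m1.1 n12 k1.1 k1.2 k2.2
    have r13 := ne m1.1 n13 k1.1 k1.2 k3.2
    have r23 := ne m2.1 n23 k2.1 k2.2 k3.2
    have : (c.rk σ2 < c.rk σ1 ∧ c.rk σ3 < c.rk σ1) ∨ (c.rk σ1 < c.rk σ2 ∧ c.rk σ3 < c.rk σ2) ∨
      (c.rk σ1 < c.rk σ3 ∧ c.rk σ2 < c.rk σ3) := by omega
    rcases this with k | k | k
    · exact key m1.1 m2.1 m3.1 n23 k1.1 k1.2 k2.2 k3.2 k.1 k.2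
    · exact key m2.1 m1.1 m3.1 n13 k2.1 k2.2 k1.2 k3.2 k.1 k.2
    · exact key m3.1 m1.1 m2.1 n12 k3.1 k3.2 k1.2 k2.2 k.1 k.2
  · have k1 := h.lab_grp (hΦ m1.1) m1.2
    have k2 := h.lab_grp (hΦ m2.1) m2.2
    have k3 := h.lab_grp (hΦ m3.1) m3.2
    obtain rfl := h.L_inj (hΦ m1.1) (hΦ m2.1) (k1.1.trans k2.1.symm)
    obtain rfl := h.L_inj (hΦ m1.1) (hΦ m3.1) (k1.1.trans k3.1.symm)
    exact three_par a1 a2 a3 (by simpa using n12) (by simpa using n13) (by simpa using n23)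
      (k1.2.trans k2.2.symm) (k1.2.trans k3.2.symm)

lemma Ok.count {z : Option F ⊕ (F × F)} {Φ : Finset (Option F × Fin s)} (hΦ : Φ ⊆ c.Act)
    (hnb : ∀ σ ∈ Φ, ¬ Bad z c.ω c.gd (Φ.filter fun τ => c.rk τ < c.rk σ) σ)
    (X : Finset (Option F × Option (F × Option Bool)))
    (hX : ∀ σ ∈ Φ, ∀ a, ∃ ξ ∈ X, c.lab (c.P σ a) ξ.1 = ξ.2) : 2 * Φ.card ≤ X.card := by
  have h1 : (Φ ×ˢ (univ : Finset (Fin 4))).card ≤ X.card * 2 := by
    have k1 := card_biUnion_le_card_mul X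
      (fun ξ => (Φ ×ˢ (univ : Finset (Fin 4))).filter fun x => c.lab (c.P x.1 x.2) ξ.1 = ξ.2) 2
      fun ξ _ => by have := h.fiber hΦ hnb ξ; convert this
    refine le_trans (card_le_card fun x hx => ?_) k1
    obtain ⟨ξ, h1, h2⟩ := hX x.1 (mem_product.1 hx).1 x.2
    exact mem_biUnion.2 ⟨ξ, h1, mem_filter.2 ⟨hx, h2⟩⟩
  rw [card_product, card_univ, Fintype.card_fin] at h1
  omega

end Dat

end Crest.Agent.H8.Ry
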