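import Crest.Agent.H8.RyGeo

set_option autoImplicit false
set_option linter.unusedSectionVars false

namespace Crest.Agent.H8.Ry
open Finset Polynomial

variable {F : Type} [Field F] [Fintype F] [DecidableEq F]

lemma sw_coeff {ι : Type*} [DecidableEq ι] (a b : ι → F) (I : Finset ι) :
    ∀ j e : ℕ, j + I.card + 1 < Fintype.card F + e →
      ∑ z : F, z ^ j * (∏ i ∈ I, (C (z - a i) - C (b i) * X)).coeff e = 0 := by
  induction I using Finset.induction_on with
  | empty =>
    intro j e h
    simp only [Finset.prod_empty, coeff_one]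
    by_cases he : e = 0
    · subst he
      simp only [if_true, mul_one]
      exact FiniteField.sum_pow_lt_card_sub_one F j (by simp at h; omega)
    · simp [he]
  | insert i I hi ih =>
    intro j e h
    rw [card_insert_of_notMem hi] at h
    simp only [Finset.prod_insert hi, sub_mul, mul_assoc, coeff_sub, coeff_C_mul]
    have h1 := ih (j + 1) e (by omega)
    have h2 := ih j e (by omega)
    have h3 : ∑ z : F, z ^ j * (X * ∏ i ∈ I, (C (z - a i) - C (b i) * X)).coeff e = 0 := by
      cases e with
      | zero => simp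
      | succ e => simp only [coeff_X_mul]; exact ih j e (by omega)
    have : ∀ z : F, z ^ j * (z * (∏ i ∈ I, (C (z - a i) - C (b i) * X)).coeff e -
        a i * (∏ i ∈ I, (C (z - a i) - C (b i) * X)).coeff e -
        b i * (X * ∏ i ∈ I, (C (z - a i) - C (b i) * X)).coeff e) =
        z ^ (j + 1) * (∏ i ∈ I, (C (z - a i) - C (b i) * X)).coeff e -
        a i * (z ^ j * (∏ i ∈ I, (C (z - a i) - C (b i) * X)).coeff e) -
        b i * (z ^ j * (X * ∏ i ∈ I, (C (z - a i) - C (b i) * X)).coeff e) := by
      intro z; ring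
    rw [Finset.sum_congr rfl fun z _ => this z, Finset.sum_sub_distrib, Finset.sum_sub_distrib,
      ← Finset.mul_sum, ← Finset.mul_sum, h1, h2, h3]
    simp

lemma sw_alg (R : F → F[X]) (κ : ℕ)
    (hdeg : ∀ j, (∑ z : F, C (z ^ j) * R z).natDegree ≤ κ + j + 1)
    (s : ℕ) (hs : (univ.filter fun z => (R z).eval 0 ≠ 0).card = s) :
    ∑ y : F, (s - (univ.filter fun z => (R z).eval y ≠ 0).card) ≤ s * (κ + s) := by
  set H : Matrix (Fin s) (Fin s) F[X] :=
    Matrix.of fun a b => ∑ z : F, C (z ^ ((a : ℕ) + b)) * R z with hH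
  have hd : H.det.natDegree ≤ s * (κ + s) := by
    rw [Matrix.det_apply]
    refine natDegree_sum_le_of_forall_le _ _ fun σ _ => ?_
    have h0 : (Equiv.Perm.sign σ • ∏ i, H (σ i) i).natDegree ≤ (∏ i, H (σ i) i).natDegree := by
      rcases Int.units_eq_one_or (Equiv.Perm.sign σ) with h | h <;> rw [h] <;> simp
    refine h0.trans ((natDegree_prod_le _ _).trans ?_)
    calc ∑ i, (H (σ i) i).natDegree ≤ ∑ i : Fin s, (κ + ((σ i : ℕ) + i) + 1) :=
          Finset.sum_le_sum fun i _ => hdeg _
      _ = s * (κ + 1) + (∑ i : Fin s, (σ i : ℕ) + ∑ i : Fin s, (i : ℕ)) := by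
          rw [← Finset.sum_add_distrib]
          rw [show s * (κ + 1) = ∑ _i : Fin s, (κ + 1) by simp, ← Finset.sum_add_distrib]
          exact Finset.sum_congr rfl fun i _ => by ring
      _ = s * (κ + 1) + s * (s - 1) := by
          rw [Equiv.sum_comp σ (fun i : Fin s => (i : ℕ)), Fin.sum_univ_eq_sum_range (fun i => i) s,
            ← Finset.sum_range_id_mul_two]; ring
      _ = s * (κ + s) := by
          cases s with
          | zero => simp
          | succ s => simp; ring
  have hne : H.det ≠ 0 := by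
    intro h0
    have h1 : (H.map (evalRingHom (0:F))).det = 0 := by
      have := RingHom.map_det (evalRingHom (0:F)) H
      rw [h0, map_zero] at this
      exact this.symm
    let e := (Finset.equivFinOfCardEq hs).symm
    have h2 : H.map (evalRingHom (0:F)) =
        (Matrix.vandermonde fun i => (e i : F)).transpose *
          Matrix.diagonal (fun i => (R (e i)).eval 0) * Matrix.vandermonde fun i => (e i : F) := by
      ext a b
      simp only [hH, Matrix.map_apply, Matrix.of_apply, coe_evalRingHom, eval_finsetSum, eval_mul,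
        eval_C, Matrix.mul_apply (N := Matrix.vandermonde fun i => (e i : F)),
        Matrix.mul_diagonal, Matrix.transpose_apply, Matrix.vandermonde_apply]
      rw [Equiv.sum_comp e (fun z => (z : F) ^ (a : ℕ) * (R z).eval 0 * (z : F) ^ (b : ℕ)),
        Finset.sum_coe_sort (univ.filter fun z => (R z).eval 0 ≠ 0)
          (fun z => (z : F) ^ (a : ℕ) * (R z).eval 0 * (z : F) ^ (b : ℕ)),
        Finset.sum_filter_of_ne]
      · exact Finset.sum_congr rfl fun z _ => by ring
      · intro z _ h h'; apply h; rw [h']; ring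
    rw [h2, Matrix.det_mul, Matrix.det_mul, Matrix.det_transpose, Matrix.det_diagonal] at h1
    have hv : (Matrix.vandermonde fun i => (e i : F)).det ≠ 0 :=
      Matrix.det_vandermonde_ne_zero_iff.2 (Subtype.val_injective.comp e.injective)
    have hp : ∏ i, (R (e i)).eval 0 ≠ 0 :=
      Finset.prod_ne_zero_iff.2 fun i _ => (mem_filter.1 (e i).2).2
    exact mul_ne_zero (mul_ne_zero hv hp) hv h1
  have hdvd : ∀ y : F, (X - C y) ^ (s - (univ.filter fun z => (R z).eval y ≠ 0).card) ∣ H.det := by
    intro y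
    have h1 : H.det = ∑ f : Fin s → F, (∏ a, C (f a ^ (a : ℕ)) * R (f a)) •
        (Matrix.of fun a b : Fin s => (C (f a ^ (b : ℕ)) : F[X])).det := by
      have h2 : H = fun a : Fin s => ∑ z : F, (C (z ^ (a : ℕ)) * R z) •
          (fun b : Fin s => (C (z ^ (b : ℕ)) : F[X])) := by
        funext a b
        rw [Finset.sum_apply]
        simp only [hH, Matrix.of_apply, Pi.smul_apply, smul_eq_mul]
        refine Finset.sum_congr rfl fun z _ => ?_
        rw [pow_add, C_mul]; ring
      have h3 := (Matrix.detRowAlternating (n := Fin s) (R := F[X])).toMultilinearMap.map_sum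
        (fun (a : Fin s) (z : F) => (C (z ^ (a : ℕ)) * R z) •
          (fun b : Fin s => (C (z ^ (b : ℕ)) : F[X])))
      have h4 : H.det = (Matrix.detRowAlternating (n := Fin s) (R := F[X])).toMultilinearMap H := rfl
      rw [h4, h2, h3]
      refine Finset.sum_congr rfl fun f _ => ?_
      rw [MultilinearMap.map_smul_univ]
      rfl
    rw [h1]
    refine Finset.dvd_sum fun f _ => ?_
    by_cases hf : Function.Injective f
    · rw [smul_eq_mul]
      refine Dvd.dvd.mul_right ?_ _
      set T := (univ : Finset (Fin s)).filter fun a => (R (f a)).eval y = 0 with hT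
      have hc : s - (univ.filter fun z => (R z).eval y ≠ 0).card ≤ T.card := by
        have h5 : ((univ : Finset (Fin s)).filter fun a => ¬ (R (f a)).eval y = 0).card ≤
            (univ.filter fun z => (R z).eval y ≠ 0).card :=
          Finset.card_le_card_of_injOn f (fun a ha => by simpa using ha) hf.injOn
        have h6 := Finset.card_filter_add_card_filter_not (s := (univ : Finset (Fin s)))
          (fun a => (R (f a)).eval y = 0)
        simp only [card_univ, Fintype.card_fin] at h6
        rw [← hT] at h6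
        omega
      calc (X - C y) ^ (s - (univ.filter fun z => (R z).eval y ≠ 0).card)
          ∣ (X - C y) ^ T.card := pow_dvd_pow _ hc
        _ = ∏ _a ∈ T, (X - C y) := by simp
        _ ∣ ∏ a ∈ T, C (f a ^ (a : ℕ)) * R (f a) := by
            refine Finset.prod_dvd_prod_of_dvd _ _ fun a ha => Dvd.dvd.mul_left ?_ _
            exact dvd_iff_isRoot.2 (mem_filter.1 ha).2
        _ ∣ _ := Finset.prod_dvd_prod_of_subset _ _ _ (subset_univ _)
    · have : (Matrix.of fun a b : Fin s => (C (f a ^ (b : ℕ)) : F[X])).det = 0 := by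
        unfold Function.Injective at hf
        push Not at hf
        obtain ⟨a, a', h1, h2⟩ := hf
        exact Matrix.det_zero_of_row_eq h2 (by ext b; simp [h1])
      rw [this, smul_zero]; exact dvd_zero _
  calc ∑ y : F, (s - (univ.filter fun z => (R z).eval y ≠ 0).card)
      ≤ ∑ y : F, H.det.roots.count y := by
        refine Finset.sum_le_sum fun y _ => ?_
        rw [count_roots]
        exact (le_rootMultiplicity_iff hne).2 (hdvd y)
    _ = H.det.roots.card := Multiset.sum_count_eq_card (by simp)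
    _ ≤ _ := (card_roots' _).trans hd

omit [Fintype F] [DecidableEq F] in
lemma ph_lin (d : Option F) (x e1 e2 : F × F) (u v : F) :
    ph d (x + (u • e1 + v • e2)) = ph d x + (u * ph d e1 + v * ph d e2) := by
  cases d <;> simp [ph] <;> ring

omit [Fintype F] [DecidableEq F] in
lemma exists_basis (d : Option F) : ∃ e1 e2 : F × F, ph d e1 = 0 ∧
    (∀ u v u' v' : F, u • e1 + v • e2 = u' • e1 + v' • e2 → u = u' ∧ v = v') ∧
    ∀ p x : F × F, ph d p = ph d x → ∃ u : F, p = x + (u • e1 + (0:F) • e2) := by
  cases d with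
  | none =>
    refine ⟨(0, 1), (1, 0), rfl, ?_, ?_⟩
    · intro u v u' v' h
      simp only [Prod.smul_mk, smul_eq_mul, mul_zero, mul_one, Prod.mk_add_mk, zero_add, add_zero,
        Prod.mk.injEq] at h
      exact ⟨h.2, h.1⟩
    · intro p x h
      refine ⟨p.2 - x.2, Prod.ext ?_ ?_⟩
      · simpa [ph] using h
      · simp
  | some t =>
    refine ⟨(1, t), (0, 1), by simp [ph], ?_, ?_⟩
    · intro u v u' v' h
      simp only [Prod.smul_mk, smul_eq_mul, mul_zero, mul_one, Prod.mk_add_mk, add_zero,
        Prod.mk.injEq] at h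
      obtain ⟨h1, h2⟩ := h
      subst h1
      exact ⟨rfl, by linear_combination h2⟩
    · intro p x h
      refine ⟨p.1 - x.1, Prod.ext ?_ ?_⟩
      · simp
      · simp only [ph] at h
        simp; linear_combination h

/-- the Szőnyi–Weiner index inequality -/
theorem sw (E : Finset (Option F × F)) (κ : ℕ) (hκ : E.card + 1 ≤ Fintype.card F + κ)
    (l : Option F × F) (s : ℕ) (hs : cnt (unc E) l = s + 1) :
    Fintype.card F * s + 1 ≤ (unc E).card + s * (κ + s) := by
  obtain ⟨x, hx⟩ : ((unc E).filter (On · l)).Nonempty := by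
    rw [← Finset.card_pos]; unfold cnt at hs; omega
  obtain ⟨hxU, hxl⟩ := mem_filter.1 hx
  obtain ⟨e1, e2, he1, hind, hline⟩ := exists_basis l.1
  have hγ : ∀ m ∈ E, m.2 - ph m.1 x ≠ 0 := fun m hm h =>
    mem_unc.1 hxU m hm (sub_eq_zero.1 h).symm
  set a : Option F × F → F := fun m => ph m.1 e1 / (m.2 - ph m.1 x) with ha
  set b : Option F × F → F := fun m => ph m.1 e2 / (m.2 - ph m.1 x) with hb
  set R : F → F[X] := fun z => C z * ∏ m ∈ E, (C (z - a m) - C (b m) * X) with hR
  set P : F → F → F × F := fun y z => x + (z⁻¹ • e1 + (z⁻¹ * y) • e2) with hP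
  have hmiss : ∀ y z, (R z).eval y ≠ 0 ↔ z ≠ 0 ∧ P y z ∈ unc E := by
    intro y z
    simp only [hR, eval_mul, eval_C, eval_prod, eval_sub, eval_X, mul_ne_zero_iff,
      Finset.prod_ne_zero_iff, mem_unc]
    refine and_congr_right fun hz => forall₂_congr fun m hm => ?_
    unfold On
    simp only [hP, ph_lin, ha, hb]
    have h1 := hγ m hm
    constructor
    · intro h h'
      apply h
      have h2 : m.2 - ph m.1 x = z⁻¹ * (ph m.1 e1 + y * ph m.1 e2) := by rw [← h']; ring
      field_simp
      field_simp at h2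
      linear_combination h2
    · intro h h'
      apply h
      field_simp at h'
      field_simp
      linear_combination -h'
  have hPinj : ∀ y z y' z', z ≠ 0 → P y z = P y' z' → y = y' ∧ z = z' := by
    intro y z y' z' hz h
    have := hind _ _ _ _ (add_left_cancel h)
    have h1 : z = z' := inv_injective this.1
    subst h1
    exact ⟨mul_left_cancel₀ (inv_ne_zero hz) this.2, rfl⟩
  have hPx : ∀ y z, z ≠ 0 → P y z ≠ x := by
    intro y z hz h
    have h1 : z⁻¹ • e1 + (z⁻¹ * y) • e2 = (0:F) • e1 + (0:F) • e2 := by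
      have : x + (z⁻¹ • e1 + (z⁻¹ * y) • e2) = x + 0 := by rw [add_zero]; exact h
      rw [add_left_cancel this]; simp
    exact inv_ne_zero hz (hind _ _ _ _ h1).1
  have hdeg : ∀ j, (∑ z : F, C (z ^ j) * R z).natDegree ≤ κ + j + 1 := by
    intro j
    rw [natDegree_le_iff_coeff_eq_zero]
    intro e he
    rw [finsetSum_coeff]
    have := sw_coeff a b E (j + 1) e (by omega)
    rw [← this]
    refine Finset.sum_congr rfl fun z _ => ?_
    simp only [hR, coeff_C_mul]; ring
  have hs0 : (univ.filter fun z => (R z).eval 0 ≠ 0).card = s := by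
    have : (((unc E).filter (On · l)).erase x).card = s := by
      rw [card_erase_of_mem hx]; unfold cnt at hs; omega
    rw [← this]
    refine Finset.card_bij (fun z _ => P 0 z) ?_ ?_ ?_
    · intro z hz
      obtain ⟨h1, h2⟩ := (hmiss 0 z).1 (mem_filter.1 hz).2
      refine mem_erase.2 ⟨hPx 0 z h1, mem_filter.2 ⟨h2, ?_⟩⟩
      unfold On at hxl ⊢
      simp only [hP, ph_lin, he1]; simpa using hxl
    · intro z hz z' _ h
      exact (hPinj _ _ _ _ ((hmiss 0 z).1 (mem_filter.1 hz).2).1 h).2
    · intro p hp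
      obtain ⟨h1, h2⟩ := mem_erase.1 hp
      obtain ⟨h3, h4⟩ := mem_filter.1 h2
      obtain ⟨u, hu⟩ := hline p x (h4.trans hxl.symm)
      have hu0 : u ≠ 0 := by
        rintro rfl; apply h1; simpa using hu
      have hPu : P 0 u⁻¹ = p := by simp only [hP, inv_inv, mul_zero]; exact hu.symm
      exact ⟨u⁻¹, mem_filter.2 ⟨mem_univ _, (hmiss 0 _).2 ⟨inv_ne_zero hu0, hPu ▸ h3⟩⟩, hPu⟩
  have hsum : ∑ y : F, (univ.filter fun z => (R z).eval y ≠ 0).card ≤ (unc E).card - 1 := by
    rw [← card_erase_of_mem hxU, ← Finset.card_sigma]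
    refine Finset.card_le_card_of_injOn (fun w => P w.1 w.2) ?_ ?_
    · intro w hw
      have hw' := (mem_sigma.1 (mem_coe.1 hw)).2
      obtain ⟨h1, h2⟩ := (hmiss _ _).1 (mem_filter.1 hw').2
      exact mem_coe.2 (mem_erase.2 ⟨hPx _ _ h1, h2⟩)
    · rintro ⟨y, z⟩ hw ⟨y', z'⟩ _ h
      have hw' := (mem_sigma.1 (mem_coe.1 hw)).2
      obtain ⟨h1, h2⟩ := hPinj _ _ _ _ ((hmiss _ _).1 (mem_filter.1 hw').2).1 h
      simp only at h1 h2
      subst h1; subst h2; rfl
  have hmain := sw_alg R κ hdeg s hs0
  have h1 : Fintype.card F * s ≤ ∑ y : F, (s - (univ.filter fun z => (R z).eval y ≠ 0).card) +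
      ∑ y : F, (univ.filter fun z => (R z).eval y ≠ 0).card := by
    rw [← Finset.sum_add_distrib]
    calc Fintype.card F * s = ∑ _y : F, s := by simp
      _ ≤ _ := Finset.sum_le_sum fun y _ => by omega
  have h2 : 0 < (unc E).card := card_pos.2 ⟨x, hxU⟩
  omega

end Crest.Agent.H8.Ry
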