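import Crest.Agent.H8.RySamp2
import Crest.Agent.H8.RySW

set_option autoImplicit false
set_option linter.unusedSectionVars false

namespace Crest.Agent.H8.Ry
open Finset

variable {F : Type} [Field F] [Fintype F] [DecidableEq F]

/-- lines through a projective point -/
def Thru (x : Option F ⊕ (F × F)) (l : Option F × F) : Prop :=
  match x with
  | Sum.inl d => l.1 = d
  | Sum.inr p => On p l

instance (x : Option F ⊕ (F × F)) (l : Option F × F) : Decidable (Thru x l) := by
  cases x <;> unfold Thru <;> infer_instance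

lemma sum_mult (B : Finset (Option F × F)) (Y : Finset (F × F)) :
    ∑ p ∈ Y, mult B p = ∑ l ∈ B, cnt Y l := by
  unfold mult cnt
  simp only [Finset.card_filter]
  exact Finset.sum_comm

lemma card_univ_pt : (univ : Finset (F × F)).card = Fintype.card F * Fintype.card F := by simp

lemma unc_card_ge (E : Finset (Option F × F)) :
    Fintype.card F * Fintype.card F ≤ (unc E).card + Fintype.card F * E.card := by
  have h1 := sum_mult E (univ \ unc E)
  have h2 : (univ \ unc E).card ≤ ∑ p ∈ univ \ unc E, mult E p := by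
    rw [Finset.card_eq_sum_ones]
    refine Finset.sum_le_sum fun p hp => ?_
    have := (mem_sdiff.1 hp).2
    rw [mem_unc] at this
    push Not at this
    obtain ⟨l, hl, h⟩ := this
    exact card_pos.2 ⟨l, mem_filter.2 ⟨hl, h⟩⟩
  have h3 : ∑ l ∈ E, cnt (univ \ unc E) l ≤ ∑ _l ∈ E, Fintype.card F :=
    Finset.sum_le_sum fun l _ => cnt_le_card _ _
  rw [card_sdiff_of_subset (subset_univ _), card_univ_pt] at h2
  simp only [Finset.sum_const, smul_eq_mul] at h3
  have h4 : (unc E).card ≤ Fintype.card F * Fintype.card F := by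
    rw [← card_univ_pt]; exact card_le_univ _
  rw [mul_comm E.card] at h3
  omega

lemma unc_insert (E : Finset (Option F × F)) (l : Option F × F) :
    (unc (insert l E)).card + cnt (unc E) l = (unc E).card := by
  unfold cnt
  rw [← Finset.card_filter_add_card_filter_not (s := unc E) (On · l), add_comm]
  congr 2
  ext p
  simp only [mem_unc, mem_insert, forall_eq_or_imp, mem_filter]
  tauto

lemma sum_mult_pairs (B : Finset (Option F × F)) :
    ∑ p, mult B p * (mult B p - 1) ≤ B.card * B.card := by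
  have h1 : ∀ p, mult B p * (mult B p - 1) = ((B.filter (On p)).offDiag).card := by
    intro p; rw [Finset.offDiag_card]; unfold mult; rw [Nat.mul_sub, mul_one]
  rw [Finset.sum_congr rfl fun p _ => h1 p, ← Finset.card_sigma, ← Finset.card_product]
  refine Finset.card_le_card_of_injOn (fun w => w.2) ?_ ?_
  · intro w hw
    have := mem_offDiag.1 (mem_sigma.1 (mem_coe.1 hw)).2
    exact mem_coe.2 (mem_product.2 ⟨(mem_filter.1 this.1).1, (mem_filter.1 this.2.1).1⟩)
  · rintro ⟨p, l⟩ hw ⟨p', l'⟩ hw' h
    simp only at h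
    subst h
    have h2 := mem_offDiag.1 (mem_sigma.1 (mem_coe.1 hw)).2
    have h3 := mem_offDiag.1 (mem_sigma.1 (mem_coe.1 hw')).2
    have := pt_unique h2.2.2 (mem_filter.1 h2.1).2 (mem_filter.1 h2.2.1).2
      (mem_filter.1 h3.1).2 (mem_filter.1 h3.2.1).2
    simp only at this
    subst this; rfl

/-- many multiple points -/
lemma multi_card (B : Finset (Option F × F)) (a : ℝ) (ha : 0 ≤ a)
    (h : a + (Fintype.card F : ℝ) ^ 2 ≤ Fintype.card F * B.card + (unc B).card) :
    a ^ 2 ≤ (univ.filter fun p => 2 ≤ mult B p).card * (2 * (B.card : ℝ) ^ 2) := by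
  set T := univ.filter fun p => 2 ≤ mult B p with hT
  have h1 := sum_mult B univ
  rw [Finset.sum_congr rfl fun l _ => cnt_univ l, Finset.sum_const, smul_eq_mul] at h1
  have h2 : ∑ p, mult B p ≤ ∑ p ∈ T, mult B p + (univ \ unc B).card := by
    rw [hT, Finset.sum_filter, Finset.card_eq_sum_ones, Finset.sdiff_eq_filter, Finset.sum_filter,
      ← Finset.sum_add_distrib]
    refine Finset.sum_le_sum fun p _ => ?_
    split_ifs with h3 h4 h4
    · omega
    · omega
    · have : mult B p = 0 := by
        unfold mult; rw [card_eq_zero, filter_eq_empty_iff]; exact mem_unc.1 h4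
      omega
    · omega
  rw [card_sdiff_of_subset (subset_univ _), card_univ_pt] at h2
  have h4 : (unc B).card ≤ Fintype.card F * Fintype.card F := by
    rw [← card_univ_pt]; exact card_le_univ _
  have h5 : a ≤ ∑ p ∈ T, (mult B p : ℝ) := by
    have : B.card * Fintype.card F + (unc B).card ≤
        ∑ p ∈ T, mult B p + Fintype.card F * Fintype.card F := by omega
    have : (B.card : ℝ) * Fintype.card F + (unc B).card ≤
        ∑ p ∈ T, (mult B p : ℝ) + Fintype.card F * Fintype.card F := by exact_mod_cast this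
    nlinarith
  have h6 : ∑ p ∈ T, (mult B p : ℝ) ^ 2 ≤ 2 * (B.card : ℝ) ^ 2 := by
    have h7 : ∑ p ∈ T, mult B p ^ 2 ≤ 2 * (B.card * B.card) := by
      calc ∑ p ∈ T, mult B p ^ 2 ≤ ∑ p ∈ T, 2 * (mult B p * (mult B p - 1)) := by
            refine Finset.sum_le_sum fun p hp => ?_
            have := (mem_filter.1 hp).2
            obtain ⟨n, hn⟩ : ∃ n, mult B p = n + 2 := ⟨mult B p - 2, by omega⟩
            rw [hn]; simp only [show n + 2 - 1 = n + 1 by omega]; nlinarith
        _ ≤ ∑ p, 2 * (mult B p * (mult B p - 1)) :=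
            Finset.sum_le_sum_of_subset (subset_univ _)
        _ ≤ _ := by rw [← Finset.mul_sum]; exact Nat.mul_le_mul_left _ (sum_mult_pairs B)
    rw [sq (B.card : ℝ)]; exact_mod_cast h7
  calc a ^ 2 ≤ (∑ p ∈ T, (mult B p : ℝ)) ^ 2 := by gcongr
    _ ≤ T.card * ∑ p ∈ T, (mult B p : ℝ) ^ 2 := sq_sum_le_card_mul_sum_sq
    _ ≤ _ := by gcongr

lemma exists_core (B : Finset (Option F × F)) : ∃ E ⊆ B,
    (unc E).card + Fintype.card F * Fintype.card F ≤ 2 * (unc B).card + Fintype.card F * B.card ∧
    (∀ l ∈ E, Fintype.card F ≤ 2 * cnt (unc (E.erase l)) l) ∧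
    ∀ l ∈ B, l ∉ E → 2 * cnt (unc E) l ≤ Fintype.card F := by
  obtain ⟨E, hE, hmin⟩ := Finset.exists_min_image B.powerset
    (fun E => 2 * (unc E).card + Fintype.card F * E.card) ⟨B, mem_powerset_self _⟩
  have hEB := mem_powerset.1 hE
  refine ⟨E, hEB, ?_, fun l hl => ?_, fun l hl hl' => ?_⟩
  · have h1 := hmin B (mem_powerset_self _)
    have h2 := unc_card_ge E
    omega
  · have h1 := hmin (E.erase l) (mem_powerset.2 ((erase_subset _ _).trans hEB))
    have h2 := unc_insert (E.erase l) l
    rw [insert_erase hl] at h2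
    have h3 := card_erase_add_one hl
    rw [← h3, mul_add] at h1
    omega
  · have h1 := hmin (insert l E) (mem_powerset.2 (insert_subset hl hEB))
    have h2 := unc_insert E l
    rw [card_insert_of_notMem hl', mul_add] at h1
    omega

lemma dichot (E : Finset (Option F × F)) (κ s : ℕ) (hκ : E.card + 1 ≤ Fintype.card F + κ)
    (hκq : 4 * κ ≤ Fintype.card F) (hs : (unc E).card ≤ s * Fintype.card F) (l : Option F × F) :
    cnt (unc E) l ≤ 4 * s + 1 ∨ Fintype.card F ≤ cnt (unc E) l + κ + 4 * s := by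
  rcases Nat.eq_zero_or_pos (cnt (unc E) l) with h | h
  · left; omega
  obtain ⟨c, hc⟩ : ∃ c, cnt (unc E) l = c + 1 := ⟨cnt (unc E) l - 1, by omega⟩
  have h1 := sw E κ hκ l c hc
  rw [hc]
  by_contra h2
  push Not at h2
  set q := Fintype.card F
  rcases le_total (2 * c) q with h3 | h3
  · have h4 : c * (4 * (κ + c)) ≤ c * (3 * q) := Nat.mul_le_mul_left _ (by omega)
    have h5 : (4 * s + 1) * q ≤ c * q := Nat.mul_le_mul_right _ (by omega)
    nlinarith
  · have h4 : c * (κ + c + 4 * s) ≤ c * q := Nat.mul_le_mul_left _ (by omega)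
    have h5 : s * q ≤ s * (2 * c) := Nat.mul_le_mul_left _ h3
    nlinarith

lemma img_le (E : Finset (Option F × F)) (K : ℕ) (l : Option F × F)
    (h : Fintype.card F ≤ cnt (unc (E.erase l)) l + K) : (E.image (ptl l)).card ≤ K + 1 := by
  classical
  set Z := (univ.filter (On · l)) \ (unc (E.erase l)).filter (On · l) with hZ
  have hZc : Z.card ≤ K := by
    rw [hZ, card_sdiff_of_subset (filter_subset_filter _ (subset_univ _))]
    have := cnt_univ l
    unfold cnt at this h
    omega
  calc (E.image (ptl l)).card ≤ (insert none (Z.image some)).card := by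
        refine card_le_card fun y hy => ?_
        obtain ⟨m, hm, rfl⟩ := mem_image.1 hy
        cases e : ptl l m with
        | none => exact mem_insert_self _ _
        | some p =>
          obtain ⟨h1, h2, h3⟩ := ptl_eq_some.1 e
          refine mem_insert_of_mem (mem_image_of_mem _ (mem_sdiff.2 ⟨by simpa using h2, ?_⟩))
          intro h4
          exact mem_unc.1 (mem_filter.1 h4).1 m (mem_erase.2 ⟨fun e => h1 (by rw [e]), hm⟩) h3
    _ ≤ _ := (card_insert_le _ _).trans (Nat.succ_le_succ (card_image_le.trans hZc))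

lemma img_ge (E : Finset (Option F × F)) (l : Option F × F) (hl : l ∉ E) :
    Fintype.card F ≤ (E.image (ptl l)).card + cnt (unc E) l := by
  classical
  set Z := (univ.filter (On · l)) \ (unc E).filter (On · l) with hZ
  have hZc : Fintype.card F ≤ Z.card + cnt (unc E) l := by
    rw [hZ, card_sdiff_of_subset (filter_subset_filter _ (subset_univ _))]
    have := cnt_univ l
    unfold cnt at this ⊢
    omega
  have : (Z.image some).card ≤ (E.image (ptl l)).card := by
    refine card_le_card fun y hy => ?_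
    obtain ⟨p, hp, rfl⟩ := mem_image.1 hy
    obtain ⟨h1, h2⟩ := mem_sdiff.1 hp
    have h3 := (mem_filter.1 h1).2
    have h4 : ¬ ∀ m ∈ E, ¬ On p m := fun h => h2 (mem_filter.2 ⟨mem_unc.2 h, h3⟩)
    push Not at h4
    obtain ⟨m, hm, h5⟩ := h4
    exact mem_image.2 ⟨m, hm, ptl_eq_some.2
      ⟨fun e => hl (line_eq_of_dir e h3 h5 ▸ hm), h3, h5⟩⟩
  rw [card_image_of_injective _ (Option.some_injective _)] at this
  omega

lemma img_thru (E : Finset (Option F × F)) (x : Option F ⊕ (F × F)) (l : Option F × F)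
    (hl : l ∉ E) (hx : Thru x l) :
    (E.image (ptl l)).card + (E.filter (Thru x)).card ≤ E.card + 1 := by
  classical
  obtain ⟨y, hy⟩ : ∃ y, ∀ m ∈ E, Thru x m → ptl l m = y := by
    cases x with
    | inl d => exact ⟨none, fun m _ hm => ptl_eq_none.2 (hx.trans (Eq.symm hm))⟩
    | inr p => exact ⟨some p, fun m hm h => ptl_eq_some.2
        ⟨fun e => hl (line_eq_of_dir e hx h ▸ hm), hx, h⟩⟩
  have h1 : (E.image (ptl l)).card ≤ (insert y ((E.filter (¬ Thru x ·)).image (ptl l))).card := by
    refine card_le_card fun z hz => ?_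
    obtain ⟨m, hm, rfl⟩ := mem_image.1 hz
    by_cases h : Thru x m
    · rw [hy m hm h]; exact mem_insert_self _ _
    · exact mem_insert_of_mem (mem_image_of_mem _ (mem_filter.2 ⟨hm, h⟩))
  have h2 := (card_insert_le y ((E.filter (¬ Thru x ·)).image (ptl l))).trans
    (Nat.succ_le_succ card_image_le)
  have h3 := Finset.card_filter_add_card_filter_not (s := E) (Thru x)
  omega

lemma exists_heavy (E : Finset (Option F × F)) (K : ℕ) (l : Option F × F)
    (h : (E.image (ptl l)).card ≤ K + 1) (hK : (K + 1) * (K + 1) < E.card) :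
    ∃ x, K + 1 < (E.filter (Thru x)).card := by
  classical
  obtain ⟨y, _, hy⟩ := Finset.exists_lt_card_fiber_of_mul_lt_card_of_maps_to (s := E)
    (t := E.image (ptl l)) (f := ptl l) (n := K + 1) (fun a ha => mem_image_of_mem _ ha)
    (lt_of_le_of_lt (Nat.mul_le_mul_right _ h) hK)
  cases y with
  | none =>
    refine ⟨Sum.inl l.1, hy.trans_le (card_le_card fun m hm => ?_)⟩
    exact mem_filter.2 ⟨(mem_filter.1 hm).1, (ptl_eq_none.1 (mem_filter.1 hm).2).symm⟩
  | some p =>
    refine ⟨Sum.inr p, hy.trans_le (card_le_card fun m hm => ?_)⟩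
    exact mem_filter.2 ⟨(mem_filter.1 hm).1, (ptl_eq_some.1 (mem_filter.1 hm).2).2.2⟩

end Crest.Agent.H8.Ry
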