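import Crest.Agent.H8.RyCfg

set_option autoImplicit false
set_option linter.unusedSectionVars false

namespace Crest.Agent.H8.Ry
open Finset

variable {F : Type} [Field F] [Fintype F] [DecidableEq F] {s κ : ℕ}

lemma card_thru_ge (x : Option F ⊕ (F × F)) : Fintype.card F ≤ (univ.filter (Thru x)).card := by
  rw [← card_univ]
  cases x with
  | inl d =>
    exact Finset.card_le_card_of_injOn (fun c => (d, c))
      (fun c _ => mem_filter.2 ⟨mem_univ _, rfl⟩) fun a _ b _ e => congrArg Prod.snd e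
  | inr p =>
    exact Finset.card_le_card_of_injOn (fun t => (some t, ph (some t) p))
      (fun c _ => mem_filter.2 ⟨mem_univ _, rfl⟩)
      fun a _ b _ e => Option.some_injective _ (congrArg Prod.fst e)

namespace Dat
variable {c : Dat F s κ} (h : c.Ok)
include h

omit h in
lemma lab_off {p : F × F} (hp : ∀ σ ∈ c.Act, ¬ On p (c.L σ)) (d : Option F) :
    (d, ph d p) ∉ c.A ∧ c.lab p d = c.lcl (d, ph d p) := by
  have : (d, ph d p) ∉ c.A := by
    intro e
    obtain ⟨σ, hσ, e⟩ := mem_image.1 e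
    exact hp σ hσ (by rw [e]; exact on_mk _ _)
  exact ⟨this, if_neg this⟩

lemma Ok.off_of_clean {l : Option F × F} (hl : l ∉ c.A) {p : F × F} (hp : p ∈ cln dr c.Sp c.ω l) :
    ∀ σ ∈ c.Act, ¬ On p (c.L σ) := fun σ hσ e =>
  hl (h.clean hp hσ e ▸ mem_image_of_mem _ hσ)

lemma Ok.closure (S : Finset (Option F × Option (F × Option Bool)))
    (hS : ∀ p ∈ c.K, ∃ d, (d, c.lab p d) ∈ S) (hq : S.card ≤ Fintype.card F) :
    ∃ x, ∀ l, Thru x l → l ∉ c.A → (l.1, c.lcl l) ∈ S := by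
  set B' : Finset (Option F × F) := univ.filter fun l => l ∉ c.A ∧ (l.1, c.lcl l) ∈ S with hB'
  set Dp := c.Sp.image (Ln dr c.ω) with hDp
  have c1 : ∀ p, (∀ σ ∈ c.Act, ¬ On p (c.L σ)) → ∃ l ∈ B', On p l := by
    intro p hp
    obtain ⟨d, hd⟩ := hS p (mem_filter.2 ⟨mem_univ _, Or.inl hp⟩)
    obtain ⟨k1, k2⟩ := lab_off hp d
    exact ⟨(d, ph d p), mem_filter.2 ⟨mem_univ _, k1, k2 ▸ hd⟩, on_mk _ _⟩
  have c2 : (B' \ c.C).card ≤ Fintype.card F := by
    refine le_trans (Finset.card_le_card_of_injOn (fun l => (l.1, some (l.2, none)))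
      (fun l hl => ?_) fun a _ b _ e => ?_) hq
    · obtain ⟨k1, k2⟩ := mem_sdiff.1 hl
      have := (mem_filter.1 k1).2.2
      rwa [lcl, if_neg k2] at this
    · simp only [Prod.mk.injEq, Option.some.injEq, and_true] at e
      exact Prod.ext e.1 e.2
  have c3 : c.C.card ≤ c.Mg.card := card_image_le
  obtain ⟨x, hx⟩ := h.cl.2 (B' \ Dp) (fun p hp => by
      obtain ⟨l, k1, k2⟩ := c1 p fun σ hσ => hp _ (h.sub σ hσ)
      refine ⟨l, mem_sdiff.2 ⟨k1, fun e => ?_⟩, k2⟩
      obtain ⟨v, hv, rfl⟩ := mem_image.1 e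
      exact hp v hv k2)
    (fun v hv e => (mem_sdiff.1 e).2 (mem_image_of_mem _ hv)) (fun E hE => by
      have k1 : (E \ c.C).card ≤ (B' \ c.C).card :=
        card_le_card (sdiff_subset_sdiff (hE.trans sdiff_subset) Subset.rfl)
      have k2 : (E ∩ c.C).card ≤ (c.Mg.filter fun v => Ln dr c.ω v ∈ E).card := by
        refine le_trans (card_le_card fun l hl => ?_) (card_image_le (f := Ln dr c.ω))
        obtain ⟨v, hv, rfl⟩ := mem_image.1 (mem_inter.1 hl).2
        exact mem_image_of_mem _ (mem_filter.2 ⟨hv, (mem_inter.1 hl).1⟩)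
      have k3 := Finset.card_sdiff_add_card_inter E c.C
      omega)
  refine ⟨x, fun l0 t0 a0 => ?_⟩
  by_contra n0
  have n1 : l0 ∉ B'.filter (¬ Thru x ·) := fun e => (mem_filter.1 e).2 t0
  have k1 := card_cov_le l0 _ n1 ((cln dr c.Sp c.ω l0).filter fun p => x ≠ Sum.inr p) fun p hp => by
    obtain ⟨p1, p2⟩ := mem_filter.1 hp
    have p3 := (mem_filter.1 p1).2.1
    obtain ⟨l, k1, k2⟩ := c1 p (h.off_of_clean a0 p1)
    refine ⟨p3, l, mem_filter.2 ⟨k1, fun e => n0 ?_⟩, k2⟩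
    rw [thru_unique p2 t0 e p3 k2]
    exact (mem_filter.1 k1).2.2
  have k2 : ((cln dr c.Sp c.ω l0).filter fun p => ¬ x ≠ Sum.inr p).card ≤ 1 :=
    Finset.card_le_one.2 fun p hp p' hp' => Sum.inr_injective
      ((not_not.1 (mem_filter.1 hp).2).symm.trans (not_not.1 (mem_filter.1 hp').2))
  have k3 := Finset.card_filter_add_card_filter_not (s := cln dr c.Sp c.ω l0)
    (fun p => x ≠ Sum.inr p)
  have k4 : (B'.filter (¬ Thru x ·)).card ≤ ((B' \ c.C).filter (¬ Thru x ·)).card + c.C.card := by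
    refine le_trans (card_le_card fun l hl => ?_) (card_union_le _ _)
    by_cases e : l ∈ c.C
    · exact mem_union_right _ e
    · exact mem_union_left _ (mem_filter.2 ⟨mem_sdiff.2 ⟨(mem_filter.1 hl).1, e⟩,
        (mem_filter.1 hl).2⟩)
  have k5 := Finset.card_filter_add_card_filter_not (s := B' \ c.C) (Thru x)
  have k6 : (univ.filter (Thru x)).card ≤ ((B' \ c.C).filter (Thru x)).card + c.C.card +
      ((c.Sp.filter fun v => Thru x (Ln dr c.ω v)).image (Ln dr c.ω)).card := by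
    refine le_trans (card_le_card fun l hl => ?_) ((card_union_le _ _).trans
      (Nat.add_le_add_right (card_union_le _ _) _))
    have t := (mem_filter.1 hl).2
    rcases hx l t with e | ⟨v, hv, rfl⟩
    · by_cases e' : l ∈ c.C
      · exact mem_union_left _ (mem_union_right _ e')
      · exact mem_union_left _ (mem_union_left _ (mem_filter.2
          ⟨mem_sdiff.2 ⟨(mem_sdiff.1 e).1, e'⟩, t⟩))
    · exact mem_union_right _ (mem_image_of_mem _ (mem_filter.2 ⟨hv, t⟩))
  have k7 := card_thru_ge x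
  have k8 := (card_image_le (f := Ln dr c.ω)).trans (h.th x)
  have k9 : (cln dr c.Sp c.ω l0).card ≤ 1 + 2 * c.Mg.card + c.t0 := by omega
  have k10 : ((cln dr c.Sp c.ω l0).card : ℝ) ≤ 1 + 2 * c.Mg.card + c.t0 := by exact_mod_cast k9
  linarith [h.cl.1 l0, h.num]

/-- labels of the inactive lines of a direction -/
def Ul (c : Dat F s κ) (d : Option F) : Finset (Option (F × Option Bool)) :=
  (univ.filter fun x => (d, x) ∉ c.A).image fun x => c.lcl (d, x)

lemma Ok.card_Ul (d : Option F) :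
    (c.Ul d).card + 2 * (c.Act.filter (·.1 = d)).card = Fintype.card F + 1 := by
  set Ad := univ.filter fun x => (d, x) ∈ c.A with hAd
  set Cd := univ.filter fun x => (d, x) ∈ c.C with hCd
  have k1 : Ad.card = (c.Act.filter (·.1 = d)).card := by
    symm
    refine Finset.card_bij (fun σ _ => (c.L σ).2) ?_ ?_ ?_
    · intro σ hσ
      obtain ⟨a, rfl⟩ := mem_filter.1 hσ
      exact mem_filter.2 ⟨mem_univ _, mem_image_of_mem _ a⟩
    · intro σ hσ τ hτ e
      exact h.L_inj (mem_filter.1 hσ).1 (mem_filter.1 hτ).1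
        (Prod.ext ((mem_filter.1 hσ).2.trans (mem_filter.1 hτ).2.symm) e)
    · intro x hx
      obtain ⟨σ, hσ, e⟩ := mem_image.1 (mem_filter.1 hx).2
      exact ⟨σ, mem_filter.2 ⟨hσ, congrArg Prod.fst e⟩, congrArg Prod.snd e⟩
  have k2 : Disjoint Ad Cd := by
    rw [Finset.disjoint_left]
    intro x h1 h2
    obtain ⟨σ, hσ, e⟩ := mem_image.1 (mem_filter.1 h1).2
    exact h.notC hσ (e ▸ (mem_filter.1 h2).2)
  have k3 : c.Ul d = Cd.image (fun _ => none) ∪ (univ \ (Ad ∪ Cd)).image fun x => some (x, none) := by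
    ext t
    simp only [Ul, mem_union, mem_image, mem_sdiff, mem_univ, true_and, not_or]
    constructor
    · rintro ⟨x, hx, rfl⟩
      by_cases e : (d, x) ∈ c.C
      · exact Or.inl ⟨x, by simpa [hCd] using e, by rw [lcl, if_pos e]⟩
      · exact Or.inr ⟨x, ⟨by simpa [hAd] using hx, by simpa [hCd] using e⟩, by rw [lcl, if_neg e]⟩
    · rintro (⟨x, hx, rfl⟩ | ⟨x, hx, rfl⟩)
      · refine ⟨x, ?_, by rw [lcl, if_pos (mem_filter.1 hx).2]⟩
        have := Finset.disjoint_right.1 k2 hx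
        simpa [hAd] using this
      · exact ⟨x, by simpa [hAd] using hx.1, by rw [lcl, if_neg (by simpa [hCd] using hx.2)]⟩
  have k4 : (c.Ul d).card = (Cd.image fun _ => (none : Option (F × Option Bool))).card +
      (Fintype.card F - (Ad.card + Cd.card)) := by
    rw [k3, card_union_of_disjoint, card_image_of_injective (univ \ (Ad ∪ Cd)),
      card_sdiff_of_subset (subset_univ _), card_union_of_disjoint k2, card_univ]
    · intro a b e; simpa using e
    · rw [Finset.disjoint_left]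
      intro t h1 h2
      obtain ⟨_, _, rfl⟩ := mem_image.1 h1
      simp at h2
  have k5 : Ad.card + Cd.card ≤ Fintype.card F := by
    rw [← card_union_of_disjoint k2]; exact card_le_univ _
  have k6 := h.cnt d
  rw [← hCd] at k6
  rcases Cd.eq_empty_or_nonempty with e | e
  · rw [e] at k4 k5 k6; simp at k4 k5 k6; omega
  · rw [Finset.image_const e, card_singleton] at k4
    have := e.card_pos
    omega

lemma Ok.nb_dir (d : Option F) : ∀ σ ∈ c.Act.filter (·.1 = d), ¬ Bad (Sum.inl d) c.ω c.gd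
    ((c.Act.filter (·.1 = d)).filter fun τ => c.rk τ < c.rk σ) σ := by
  intro σ hσ
  obtain ⟨k, rfl⟩ := mem_filter.1 hσ
  rw [Finset.filter_filter]
  exact h.nb σ k

lemma Ok.case_inf (S : Finset (Option F × Option (F × Option Bool)))
    (hS : ∀ p ∈ c.K, ∃ d, (d, c.lab p d) ∈ S) (hq : S.card ≤ Fintype.card F) (d : Option F)
    (hx : ∀ l, Thru (Sum.inl d) l → l ∉ c.A → (l.1, c.lcl l) ∈ S) : False := by
  have k1 : (c.Ul d).image (fun t => (d, t)) ⊆ S := by
    intro ξ hξ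
    obtain ⟨t, ht, rfl⟩ := mem_image.1 hξ
    obtain ⟨x, hx', rfl⟩ := mem_image.1 ht
    exact hx (d, x) rfl (mem_filter.1 hx').2
  have k2 := h.count (filter_subset _ _) (h.nb_dir d) (S \ (c.Ul d).image fun t => (d, t))
    fun σ hσ a => by
      obtain ⟨hσ', rfl⟩ := mem_filter.1 hσ
      obtain ⟨j, hj⟩ := hS _ (mem_filter.2 ⟨mem_univ _, Or.inr ⟨σ, hσ', a, rfl⟩⟩)
      refine ⟨_, mem_sdiff.2 ⟨hj, fun e => ?_⟩, rfl⟩
      obtain ⟨t, ht, e⟩ := mem_image.1 e
      obtain ⟨x, _, rfl⟩ := mem_image.1 ht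
      obtain ⟨rfl, e⟩ := Prod.mk.inj e
      rw [h.lab_self hσ'] at e
      simpa using lcl_some e
  rw [card_sdiff_of_subset k1, card_image_of_injective _ (Prod.mk_right_injective d)] at k2
  have k3 := card_le_card k1
  rw [card_image_of_injective _ (Prod.mk_right_injective d)] at k3
  have := h.card_Ul d
  omega

lemma Ok.hcard (d : Option F) : (c.K.image (c.lab · d)).card = Fintype.card F + 1 := by
  have k1 : c.K.image (c.lab · d) = c.Ul d ∪ ((c.Act.filter (·.1 = d)) ×ˢ (univ : Finset Bool)).image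
      fun x => some ((c.L x.1).2, some x.2) := by
    ext t
    simp only [mem_union, mem_image]
    constructor
    · rintro ⟨p, _, rfl⟩
      by_cases e : (d, ph d p) ∈ c.A
      · obtain ⟨σ, hσ, e'⟩ := mem_image.1 e
        refine Or.inr ⟨(σ, c.sd p), mem_product.2 ⟨mem_filter.2 ⟨hσ, congrArg Prod.fst e'⟩,
          mem_univ _⟩, ?_⟩
        rw [lab, if_pos e, e']
      · exact Or.inl (mem_image.2 ⟨ph d p, mem_filter.2 ⟨mem_univ _, e⟩, by rw [lab, if_neg e]⟩)
    · rintro (ht | ⟨⟨σ, b⟩, hx, rfl⟩)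
      · obtain ⟨x, hx, rfl⟩ := mem_image.1 ht
        have k : 0 < (cln dr c.Sp c.ω (d, x)).card := by
          have := qpos (F := F)
          have : (0:ℝ) < (cln dr c.Sp c.ω (d, x)).card := by linarith [h.cl.1 (d, x)]
          exact_mod_cast this
        obtain ⟨p, hp⟩ := card_pos.1 k
        have o := h.off_of_clean (mem_filter.1 hx).2 hp
        refine ⟨p, mem_filter.2 ⟨mem_univ _, Or.inl o⟩, ?_⟩
        rw [(lab_off o d).2, show ph d p = x from (mem_filter.1 hp).2.1]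
      · obtain ⟨hσ, rfl⟩ := mem_filter.1 (mem_product.1 hx).1
        cases b
        · exact ⟨_, mem_filter.2 ⟨mem_univ _, Or.inr ⟨σ, hσ, 0, rfl⟩⟩, h.lab_self hσ 0⟩
        · exact ⟨_, mem_filter.2 ⟨mem_univ _, Or.inr ⟨σ, hσ, 1, rfl⟩⟩, h.lab_self hσ 1⟩
  rw [k1, card_union_of_disjoint, Finset.card_image_of_injOn, card_product, card_univ,
    Fintype.card_bool, mul_comm, h.card_Ul]
  · rintro ⟨σ, b⟩ h1 ⟨τ, b'⟩ h2 e
    simp only [Option.some.injEq, Prod.mk.injEq] at e
    obtain ⟨a1, a2⟩ := mem_filter.1 (mem_product.1 h1).1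
    obtain ⟨a3, a4⟩ := mem_filter.1 (mem_product.1 h2).1
    exact Prod.ext (h.L_inj a1 a3 (Prod.ext (a2.trans a4.symm) e.1)) e.2
  · rw [Finset.disjoint_left]
    intro t h1 h2
    obtain ⟨x, _, rfl⟩ := mem_image.1 h1
    obtain ⟨y, _, e⟩ := mem_image.1 h2
    simpa using lcl_some e.symm

lemma Ok.lab_cl {σ : Option F × Fin s} (hσ : σ ∈ c.Act) (a : Fin 4) (β : Bool) :
    c.lab (c.P σ a) ((c.gd σ).cl a β) = none := by
  have hv := h.val0 hσ
  rw [h.lab_ne hσ a (hv.cl_ne a β), lcl, if_pos]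
  refine mem_image.2 ⟨(c.gd σ).sl s a β, ?_, Prod.ext (Gad.dr_sl _ _ _) (hv.dy a β)⟩
  cases β
  · exact h.mgG _ _ (hv.st.1 a).1 _ _
  · exact h.mgG _ _ (hv.st.1 (a - 1)).1 _ _

omit h in
lemma par_cases : ∀ a b : Fin 4, par a = par b ∨ b - 1 = a ∨ a - 1 = b := by decide

lemma Ok.hint : ∀ p ∈ c.K, ∀ p' ∈ c.K, ∃ d, c.lab p d = c.lab p' d := by
  intro p hp p' hp'
  obtain ⟨d, hd⟩ := exists_dir p p'
  by_cases e : (d, ph d p) ∈ c.A
  swap
  · exact ⟨d, by rw [lab, lab, ← hd, if_neg e, if_neg e]⟩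
  obtain ⟨σ, hσ, e⟩ := mem_image.1 e
  have o : ∀ p ∈ c.K, On p (c.L σ) → ∃ a, p = c.P σ a := by
    intro p hp o
    rcases (mem_filter.1 hp).2 with k | ⟨τ, hτ, a, rfl⟩
    · exact absurd o (k σ hσ)
    · exact ⟨a, by rw [h.uniq hτ hσ o]⟩
  obtain ⟨a, rfl⟩ := o p hp (by rw [e]; exact on_mk _ _)
  obtain ⟨b, rfl⟩ := o p' hp' (by rw [e, hd]; exact on_mk _ _)
  rcases par_cases a b with k | k | k
  · exact ⟨σ.1, by rw [h.lab_self hσ, h.lab_self hσ, k]⟩
  · refine ⟨_, (h.lab_cl hσ a false).trans ?_⟩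
    have := h.lab_cl hσ b true
    simp only [Gad.cl, k] at this ⊢
    exact this.symm
  · refine ⟨_, (h.lab_cl hσ a true).trans ?_⟩
    have := h.lab_cl hσ b false
    simp only [Gad.cl, k] at this ⊢
    exact this.symm

end Dat

end Crest.Agent.H8.Ry
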