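import Crest.Agent.H8.RyGeo

set_option autoImplicit false
set_option linter.unusedSectionVars false

namespace Crest.Agent.H8.Ry
open Finset

variable {F : Type} [Field F] [Fintype F] [DecidableEq F]
variable {V : Type} [Fintype V] [DecidableEq V]

/-- the line of a slot -/
def Ln (dir : V → Option F) (ω : V → F) (v : V) : Option F × F := (dir v, ω v)

lemma Ln_congr (dir : V → Option F) {ω ω' : V → F} {v : V} (h : ω v = ω' v) :
    Ln dir ω v = Ln dir ω' v := by unfold Ln; rw [h]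

lemma qpos : (0:ℝ) < Fintype.card F := by exact_mod_cast Fintype.card_pos

lemma hitsL (dir : V → Option F) (S : Finset V) (μ : ℝ)
    (hμ : ∀ d, ((S.filter fun v => dir v = d).card : ℝ) ≤ μ) (A : Finset (Option F × F)) (n : ℝ)
    (h : 8 * μ * A.card / Fintype.card F ≤ n) :
    Pr (fun ω : V → F => n ≤ ((S.filter fun v => Ln dir ω v ∈ A).card : ℝ)) ≤ Real.exp (-n) := by
  have := hits (α := F) S (fun v => univ.filter fun c => (dir v, c) ∈ A) n ?_
  · refine le_trans (Pr_mono fun ω hω => ?_) this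
    convert hω using 3
    ext v; simp [Ln]
  refine le_trans ?_ h
  rw [← Finset.sum_div, mul_assoc, mul_div_assoc]
  gcongr
  have h1 : ∀ v, ((univ.filter fun c => (dir v, c) ∈ A).card : ℝ) =
      ∑ l ∈ A, ind (dir v = l.1) := by
    intro v
    rw [← card_filter_eq_sum_ind]
    congr 1
    refine Finset.card_bij (fun c _ => (dir v, c)) ?_ ?_ ?_
    · intro c hc; simpa using hc
    · intro c _ c' _ h; simpa using h
    · rintro ⟨d, c⟩ hl
      obtain ⟨h1, h2⟩ := mem_filter.1 hl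
      simp only at h2
      exact ⟨c, by simpa [h2] using h1, by rw [h2]⟩
  rw [Finset.sum_congr rfl fun v _ => h1 v, Finset.sum_comm]
  calc ∑ l ∈ A, ∑ v ∈ S, ind (dir v = l.1) ≤ ∑ _l ∈ A, μ := by
        refine Finset.sum_le_sum fun l _ => ?_
        rw [← card_filter_eq_sum_ind]; exact hμ _
    _ = _ := by simp [mul_comm]

/-- points of `Y` not on the lines of the slots `H` -/
def rem (dir : V → Option F) (H : Finset V) (Y : Finset (F × F)) (ω : V → F) : Finset (F × F) :=
  Y.filter fun p => ∀ v ∈ H, ¬ On p (Ln dir ω v)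

lemma rem_congr (dir : V → Option F) (H : Finset V) (Y : Finset (F × F)) {ω ω' : V → F}
    (h : ∀ v ∈ H, ω v = ω' v) : rem dir H Y ω = rem dir H Y ω' := by
  unfold rem
  refine Finset.filter_congr fun p _ => forall₂_congr fun v hv => ?_
  rw [Ln_congr dir (h v hv)]

lemma card_le_rem (dir : V → Option F) (H : Finset V) (Y : Finset (F × F)) (ω : V → F) :
    Y.card ≤ (rem dir H Y ω).card + ∑ v ∈ H, cnt Y (Ln dir ω v) := by
  calc Y.card ≤ (rem dir H Y ω ∪ H.biUnion fun v => Y.filter (On · (Ln dir ω v))).card := by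
        refine card_le_card fun p hp => ?_
        by_cases h : ∀ v ∈ H, ¬ On p (Ln dir ω v)
        · exact mem_union_left _ (mem_filter.2 ⟨hp, h⟩)
        · push Not at h
          obtain ⟨v, hv, h⟩ := h
          exact mem_union_right _ (mem_biUnion.2 ⟨v, hv, mem_filter.2 ⟨hp, h⟩⟩)
    _ ≤ _ := (card_union_le _ _).trans (Nat.add_le_add_left card_biUnion_le _)

/-- the conclusion of the cover lemma -/
def CovOK (dir : V → Option F) (b : ℕ) (r y0 : ℝ) (H : Finset V) (Y : Finset (F × F))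
    (ω : V → F) : Prop :=
  ∃ R ⊆ H, (R.card : ℝ) ≤ b * r ∧
    (2 / 5 : ℝ) ^ b * Y.card - y0 - ∑ v ∈ R, (cnt Y (Ln dir ω v) : ℝ) ≤ (rem dir H Y ω).card

lemma CovOK_congr (dir : V → Option F) (b : ℕ) (r y0 : ℝ) (H : Finset V) (Y : Finset (F × F))
    {ω ω' : V → F} (h : ∀ v ∈ H, ω v = ω' v) (h1 : CovOK dir b r y0 H Y ω) :
    CovOK dir b r y0 H Y ω' := by
  obtain ⟨R, hR, h2, h3⟩ := h1
  refine ⟨R, hR, h2, ?_⟩
  have h4 : ∑ v ∈ R, (cnt Y (Ln dir ω v) : ℝ) = ∑ v ∈ R, (cnt Y (Ln dir ω' v) : ℝ) :=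
    Finset.sum_congr rfl fun v hv => by rw [Ln_congr dir (h v (hR hv))]
  rw [← rem_congr dir H Y h, ← h4]
  exact h3

theorem cover (dir : V → Option F) (h : ℕ) (hh : 2 * h ≤ Fintype.card F) (r y0 : ℝ) (hr : 0 < r)
    (hy : 600 * (Fintype.card F : ℝ) ^ 2 / r ≤ y0) (b : ℕ) :
    ∀ (H : Finset V) (Y : Finset (F × F)), H.card ≤ b * h →
      (∀ d, ((H.filter fun v => dir v = d).card : ℝ) ≤ 3) →
      Pr (fun ω => ¬ CovOK dir b r y0 H Y ω) ≤ b * Real.exp (-r) := by
  have hq := qpos (F := F)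
  have hy0 : 0 < y0 := lt_of_lt_of_le (by positivity) hy
  induction b with
  | zero =>
    intro H Y hH _
    have : H = ∅ := by simpa using hH
    subst this
    rw [Pr_false]; · simp
    intro ω hω
    refine hω ⟨∅, Subset.refl _, by simp, ?_⟩
    have : rem dir ∅ Y ω = Y := by simp [rem]
    rw [this]; simp; linarith
  | succ b ih =>
    intro H Y hH hμ
    by_cases hY : (Y.card : ℝ) < y0
    · rw [Pr_false]; · positivity
      intro ω hω
      refine hω ⟨∅, empty_subset _, by simp; positivity, ?_⟩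
      have h1 : (2 / 5 : ℝ) ^ (b + 1) ≤ 1 := pow_le_one₀ (by norm_num) (by norm_num)
      have h2 : (0:ℝ) ≤ (rem dir H Y ω).card := by positivity
      have h3 : (0:ℝ) ≤ Y.card := by positivity
      simp only [Finset.sum_empty]
      nlinarith
    push Not at hY
    have hYpos : (0:ℝ) < Y.card := hy0.trans_le hY
    obtain ⟨H1, hH1, hc1⟩ := Finset.exists_subset_card_eq (s := H) (n := min h H.card)
      (min_le_right _ _)
    set H2 := H \ H1 with hH2
    have hc2 : H2.card ≤ b * h := by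
      rw [hH2, card_sdiff_of_subset hH1, hc1]
      rw [add_mul, one_mul] at hH
      omega
    set A : Finset (Option F × F) := univ.filter fun l =>
      (Y.card : ℝ) / Fintype.card F + Y.card / (5 * Fintype.card F) ≤ cnt Y l with hA
    have hAc : (A.card : ℝ) ≤ 25 * (Fintype.card F : ℝ) ^ 3 / Y.card := by
      have := card_rich Y (Y.card / (5 * Fintype.card F)) (by positivity) A
        (fun l hl => (mem_filter.1 hl).2)
      refine this.trans (le_of_eq ?_)
      field_simp; ring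
    have hsub : ∀ H' ⊆ H, ∀ d, ((H'.filter fun v => dir v = d).card : ℝ) ≤ 3 := fun H' hH' d =>
      le_trans (by exact_mod_cast card_le_card (filter_subset_filter _ hH')) (hμ d)
    have hP1 := hitsL dir H1 3 (hsub H1 hH1) A r (by
      calc 8 * 3 * (A.card : ℝ) / Fintype.card F
          ≤ 8 * 3 * (25 * (Fintype.card F : ℝ) ^ 3 / Y.card) / Fintype.card F := by gcongr
        _ = 600 * (Fintype.card F : ℝ) ^ 2 / Y.card := by field_simp; ring
        _ ≤ r := by
          rw [div_le_iff₀ hYpos]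
          rw [div_le_iff₀ hr] at hy
          nlinarith)
    have hP2 : Pr (fun ω => ¬ CovOK dir b r y0 H2 (rem dir H1 Y ω) ω) ≤ b * Real.exp (-r) := by
      unfold Pr
      rw [Ex_piecewise H2]
      refine Ex_le_const fun ω => ?_
      refine le_trans ?_ (ih H2 (rem dir H1 Y ω) hc2 (hsub H2 sdiff_subset))
      refine Ex_mono fun ω' => ind_mono fun h1 h2 => h1 ?_
      rw [rem_congr dir H1 Y (ω' := ω) fun v hv =>
        Finset.piecewise_eq_of_notMem _ _ _ (by simp [hH2, hv])]
      exact CovOK_congr dir b r y0 H2 _ (fun v hv => (Finset.piecewise_eq_of_mem _ _ _ hv).symm) h2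
    refine le_trans (Pr_mono fun ω hω => ?_) ((Pr_or_le _ _).trans
      ((add_le_add hP1 hP2).trans (le_of_eq (by push_cast; ring))))
    by_contra hc
    push Not at hc
    obtain ⟨h1, R', hR', h2, h3⟩ := hc
    set R1 := H1.filter fun v => Ln dir ω v ∈ A with hR1
    have hdisj : Disjoint R1 R' := by
      rw [Finset.disjoint_left]
      intro v hv hv'
      exact (mem_sdiff.1 (hR' hv')).2 (mem_filter.1 hv).1
    refine hω ⟨R1 ∪ R', union_subset ((filter_subset _ _).trans hH1) (hR'.trans sdiff_subset),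
      ?_, ?_⟩
    · rw [card_union_of_disjoint hdisj]; push_cast; linarith
    have hrem : rem dir H2 (rem dir H1 Y ω) ω = rem dir H Y ω := by
      ext p
      simp only [rem, mem_filter, hH2, mem_sdiff]
      constructor
      · rintro ⟨⟨h4, h5⟩, h6⟩
        refine ⟨h4, fun v hv => ?_⟩
        by_cases h7 : v ∈ H1
        · exact h5 v h7
        · exact h6 v ⟨hv, h7⟩
      · rintro ⟨h4, h5⟩
        exact ⟨⟨h4, fun v hv => h5 v (hH1 hv)⟩, fun v hv => h5 v hv.1⟩
    rw [hrem] at h3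
    rw [Finset.sum_union hdisj]
    have h4 : ∑ v ∈ R', (cnt (rem dir H1 Y ω) (Ln dir ω v) : ℝ) ≤
        ∑ v ∈ R', (cnt Y (Ln dir ω v) : ℝ) :=
      Finset.sum_le_sum fun v _ => by exact_mod_cast cnt_mono (filter_subset _ _) _
    have h5 : (Y.card : ℝ) ≤ (rem dir H1 Y ω).card + ∑ v ∈ H1, (cnt Y (Ln dir ω v) : ℝ) := by
      exact_mod_cast card_le_rem dir H1 Y ω
    have h6 : ∑ v ∈ H1, (cnt Y (Ln dir ω v) : ℝ) ≤
        ∑ v ∈ R1, (cnt Y (Ln dir ω v) : ℝ) + 3 / 5 * Y.card := by
      rw [← Finset.sum_filter_add_sum_filter_not H1 (fun v => Ln dir ω v ∈ A)]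
      refine add_le_add le_rfl ?_
      calc ∑ v ∈ H1 with ¬ Ln dir ω v ∈ A, (cnt Y (Ln dir ω v) : ℝ)
          ≤ ∑ _v ∈ H1 with ¬ Ln dir ω _v ∈ A, (6 / 5 * Y.card / Fintype.card F : ℝ) := by
            refine Finset.sum_le_sum fun v hv => ?_
            have := (mem_filter.1 hv).2
            simp only [hA, mem_filter, mem_univ, true_and, not_le] at this
            refine this.le.trans (le_of_eq ?_)
            field_simp; ring
        _ = ((H1.filter fun v => ¬ Ln dir ω v ∈ A).card : ℝ) *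
              (6 / 5 * Y.card / Fintype.card F : ℝ) := by rw [Finset.sum_const, nsmul_eq_mul]
        _ ≤ (Fintype.card F / 2 : ℝ) * (6 / 5 * Y.card / Fintype.card F : ℝ) := by
            refine mul_le_mul_of_nonneg_right ?_ (by positivity)
            have h7 : (H1.filter fun v => ¬ Ln dir ω v ∈ A).card ≤ h :=
              (card_filter_le _ _).trans (hc1 ▸ min_le_left _ _)
            have h8 : (2 * h : ℝ) ≤ Fintype.card F := by exact_mod_cast hh
            have h9 : ((H1.filter fun v => ¬ Ln dir ω v ∈ A).card : ℝ) ≤ h := by exact_mod_cast h7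
            linarith
        _ = _ := by field_simp; ring
    have h7 : (2 / 5 : ℝ) ^ b ≤ 1 := pow_le_one₀ (by norm_num) (by norm_num)
    have h8 : (0:ℝ) ≤ (2 / 5 : ℝ) ^ b := by positivity
    have h9 : (0:ℝ) ≤ ∑ v ∈ R1, (cnt Y (Ln dir ω v) : ℝ) :=
      Finset.sum_nonneg fun _ _ => Nat.cast_nonneg _
    have h10 : (2 / 5 : ℝ) ^ b * (2 / 5 * Y.card - ∑ v ∈ R1, (cnt Y (Ln dir ω v) : ℝ)) ≤
        (2 / 5 : ℝ) ^ b * (rem dir H1 Y ω).card :=
      mul_le_mul_of_nonneg_left (by linarith) h8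
    have h11 := mul_le_mul_of_nonneg_right h7 h9
    rw [pow_succ]
    rw [mul_sub, ← mul_assoc] at h10
    linarith

/-- clean points of a line -/
def cln (dir : V → Option F) (Sp : Finset V) (ω : V → F) (l : Option F × F) : Finset (F × F) :=
  univ.filter fun p => On p l ∧ ∀ v ∈ Sp, dir v ≠ l.1 → ¬ On p (Ln dir ω v)

lemma cln_congr (dir : V → Option F) (Sp : Finset V) {ω ω' : V → F} (h : ∀ v ∈ Sp, ω v = ω' v)
    (l : Option F × F) : cln dir Sp ω l = cln dir Sp ω' l := by
  unfold cln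
  refine Finset.filter_congr fun p _ => and_congr_right fun _ => forall₂_congr fun v hv => ?_
  rw [Ln_congr dir (h v hv)]

lemma card_le_succ_of {A A' : Finset (F × F)} {l l' : Option F × F} (hl : l ≠ l')
    (h : ∀ p ∈ A', p ∉ A → On p l ∧ On p l') : A'.card ≤ A.card + 1 := by
  have h1 : (A' \ A).card ≤ 1 := by
    rw [Finset.card_le_one]
    intro p hp p' hp'
    obtain ⟨h2, h3⟩ := h p (mem_sdiff.1 hp).1 (mem_sdiff.1 hp).2
    obtain ⟨h4, h5⟩ := h p' (mem_sdiff.1 hp').1 (mem_sdiff.1 hp').2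
    exact pt_unique hl h2 h3 h4 h5
  have := Finset.le_card_sdiff A A'
  omega

lemma cln_le_succ (dir : V → Option F) (Sp : Finset V) (l : Option F × F) {ω ω' : V → F} (i : V)
    (h : ∀ v, v ≠ i → ω v = ω' v) : (cln dir Sp ω' l).card ≤ (cln dir Sp ω l).card + 1 := by
  by_cases hd : dir i = l.1
  · refine le_trans (card_le_card fun p hp => ?_) (Nat.le_succ _)
    simp only [cln, mem_filter, mem_univ, true_and] at hp ⊢
    refine ⟨hp.1, fun v hv hv' => ?_⟩
    rw [Ln_congr dir (h v fun e => hv' (e ▸ hd))]; exact hp.2 v hv hv'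
  · refine card_le_succ_of (l := l) (l' := Ln dir ω i) (fun e => hd (by rw [e]; rfl)) ?_
    intro p hp hp'
    simp only [cln, mem_filter, mem_univ, true_and] at hp hp'
    refine ⟨hp.1, ?_⟩
    by_contra hc
    refine hp' ⟨hp.1, fun v hv hv' => ?_⟩
    by_cases e : v = i
    · exact e ▸ hc
    · rw [Ln_congr dir (h v e)]; exact hp.2 v hv hv'

lemma Ex_ind_ne (c : F) : Ex (fun a : F => ind (¬ c = a)) = 1 - 1 / Fintype.card F := by
  have := Pr_not (fun a : F => a ∈ ({c} : Finset F))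
  rw [Pr_mem] at this
  simp only [card_singleton, Nat.cast_one] at this
  rw [← this]
  exact Ex_congr fun a => ind_congr (by simp [eq_comm])

lemma Ex_cln (dir : V → Option F) (Sp : Finset V) (l : Option F × F) :
    Ex (fun ω => ((cln dir Sp ω l).card : ℝ)) = Fintype.card F *
      (1 - 1 / Fintype.card F) ^ (Sp.filter fun v => dir v ≠ l.1).card := by
  have h1 : ∀ ω, ((cln dir Sp ω l).card : ℝ) = ∑ p ∈ univ.filter (On · l),
      ∏ v ∈ Sp.filter fun v => dir v ≠ l.1, ind (¬ ph (dir v) p = ω v) := by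
    intro ω
    unfold cln
    rw [← Finset.filter_filter, card_filter_eq_sum_ind]
    refine Finset.sum_congr rfl fun p _ => ?_
    rw [← ind_forall]
    refine ind_congr ?_
    simp [On, Ln]
  rw [Ex_congr h1, Ex_sum]
  have h2 : ∀ p : F × F, Ex (fun ω : V → F => ∏ v ∈ Sp.filter fun v => dir v ≠ l.1,
      ind (¬ ph (dir v) p = ω v)) =
      (1 - 1 / Fintype.card F) ^ (Sp.filter fun v => dir v ≠ l.1).card := by
    intro p
    rw [Ex_prod _ (fun v a => ind (¬ ph (dir v) p = a)),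
      Finset.prod_congr rfl fun v _ => Ex_ind_ne (ph (dir v) p)]
    simp
  rw [Finset.sum_congr rfl fun p _ => h2 p]
  have := cnt_univ l
  unfold cnt at this
  simp [this]

lemma one_sub_pow_ge (q : ℝ) (hq : 2 ≤ q) (n : ℕ) (hn : (n : ℝ) ≤ 4 * q) :
    1 / 3000 ≤ (1 - 1 / q) ^ n := by
  have h1 : Real.exp (-(2 / q)) ≤ 1 - 1 / q := by
    have h2 := Real.add_one_le_exp (2 / q)
    rw [Real.exp_neg, inv_le_comm₀ (Real.exp_pos _) (by rw [sub_pos, div_lt_one] <;> linarith)]
    refine le_trans ?_ h2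
    rw [inv_le_iff_one_le_mul₀ (by rw [sub_pos, div_lt_one] <;> linarith)]
    have : (2 / q + 1) * (1 - 1 / q) = 1 + (q - 2) / q ^ 2 := by field_simp; ring
    rw [this]
    have : 0 ≤ (q - 2) / q ^ 2 := div_nonneg (by linarith) (by positivity)
    linarith
  calc (1 / 3000 : ℝ) ≤ Real.exp (-8) := by
        rw [Real.exp_neg, one_div]
        refine inv_anti₀ (Real.exp_pos _) ?_
        have h3 : Real.exp 8 = Real.exp 1 ^ 8 := by rw [← Real.exp_nat_mul]; norm_num
        rw [h3]
        calc Real.exp 1 ^ 8 ≤ (2.7182818286 : ℝ) ^ 8 :=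
              pow_le_pow_left₀ (Real.exp_pos _).le Real.exp_one_lt_d9.le 8
          _ ≤ _ := by norm_num
    _ ≤ Real.exp (-(2 / q)) ^ n := by
        rw [← Real.exp_nat_mul]
        refine Real.exp_le_exp.2 ?_
        have : (n : ℝ) * (2 / q) ≤ 8 := by
          rw [← mul_div_assoc, div_le_iff₀ (by linarith)]; linarith
        linarith
    _ ≤ _ := pow_le_pow_left₀ (Real.exp_pos _).le h1 n

theorem cln_conc (dir : V → Option F) (Sp : Finset V) (hSp : (Sp.card : ℝ) ≤ 4 * Fintype.card F)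
    (μ : ℝ) (hμ : ∀ d, ((Sp.filter fun v => dir v = d).card : ℝ) ≤ μ) (t : ℝ) (ht : 0 ≤ t)
    (htq : t ≤ Fintype.card F) :
    ∃ N : ℝ, Fintype.card F / 3000 ≤ N ∧
      Pr (fun ω => ∃ l, ¬ (N - t ≤ (cln dir Sp ω l).card ∧ (cln dir Sp ω l).card ≤ N + μ + t)) ≤
        Fintype.card (Option F × F) * (2 * Real.exp (-(t ^ 2 / (16 * Fintype.card F)))) := by
  have hq := qpos (F := F)
  have hq2 : (2:ℝ) ≤ Fintype.card F := by exact_mod_cast Fintype.one_lt_card
  have hx0 : (0:ℝ) ≤ 1 - 1 / Fintype.card F := by rw [sub_nonneg, div_le_one hq]; linarith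
  have hx1 : (1:ℝ) - 1 / Fintype.card F ≤ 1 := by
    have : (0:ℝ) ≤ 1 / Fintype.card F := by positivity
    linarith
  refine ⟨Fintype.card F * (1 - 1 / Fintype.card F) ^ Sp.card, ?_, ?_⟩
  · have := one_sub_pow_ge _ hq2 _ hSp
    nlinarith
  refine Pr_exists_le' _ fun l => ?_
  have hE := Ex_cln dir Sp l
  have hc := Finset.card_filter_add_card_filter_not (s := Sp) (fun v => dir v = l.1)
  set n1 := (Sp.filter fun v => dir v = l.1).card
  set n2 := (Sp.filter fun v => ¬ dir v = l.1).card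
  have hlo : Fintype.card F * (1 - 1 / Fintype.card F : ℝ) ^ Sp.card ≤
      Ex (fun ω => ((cln dir Sp ω l).card : ℝ)) := by
    rw [hE]; gcongr ?_ * ?_
    exact pow_le_pow_of_le_one hx0 hx1 (by omega)
  have hhi : Ex (fun ω => ((cln dir Sp ω l).card : ℝ)) ≤
      Fintype.card F * (1 - 1 / Fintype.card F : ℝ) ^ Sp.card + μ := by
    rw [hE, ← hc, pow_add]
    have h1 : 1 - n1 / (Fintype.card F : ℝ) ≤ (1 - 1 / Fintype.card F : ℝ) ^ n1 := by
      have := one_add_mul_le_pow (a := -(1 / Fintype.card F : ℝ)) (by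
        have : (1 / Fintype.card F : ℝ) ≤ 1 := by linarith
        linarith) n1
      calc _ = 1 + (n1 : ℝ) * -(1 / Fintype.card F : ℝ) := by ring
        _ ≤ _ := this
        _ = _ := by rw [← sub_eq_add_neg]
    have h2 : (1 - 1 / Fintype.card F : ℝ) ^ n2 ≤ 1 := pow_le_one₀ hx0 hx1
    have h3 : (0:ℝ) ≤ (1 - 1 / Fintype.card F : ℝ) ^ n2 := pow_nonneg hx0 _
    have h4 : (n1 : ℝ) ≤ μ := hμ _
    have h5 : Fintype.card F * ((1 - n1 / (Fintype.card F : ℝ)) * (1 - 1 / Fintype.card F : ℝ) ^ n2) ≤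
      Fintype.card F * ((1 - 1 / Fintype.card F : ℝ) ^ n1 * (1 - 1 / Fintype.card F : ℝ) ^ n2) := by
      gcongr
    have h6 : Fintype.card F * ((1 - n1 / (Fintype.card F : ℝ)) * (1 - 1 / Fintype.card F : ℝ) ^ n2) =
      Fintype.card F * (1 - 1 / Fintype.card F : ℝ) ^ n2 - n1 * (1 - 1 / Fintype.card F : ℝ) ^ n2 := by
      field_simp
    have h7 : (0:ℝ) ≤ n1 := by positivity
    change Fintype.card F * (1 - 1 / Fintype.card F : ℝ) ^ n2 ≤ _
    nlinarith
  have hd : ∀ i ∈ Sp, ∀ (ω : V → F) a, |((cln dir Sp (Function.update ω i a) l).card : ℝ) -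
      (cln dir Sp ω l).card| ≤ 1 := by
    intro i _ ω a
    have h1 := cln_le_succ dir Sp l (ω := ω) (ω' := Function.update ω i a) i
      fun v hv => (Function.update_of_ne hv _ _).symm
    have h2 := cln_le_succ dir Sp l (ω' := ω) (ω := Function.update ω i a) i
      fun v hv => Function.update_of_ne hv _ _
    have h1' : ((cln dir Sp (Function.update ω i a) l).card : ℝ) ≤ (cln dir Sp ω l).card + 1 := by
      exact_mod_cast h1
    have h2' : ((cln dir Sp ω l).card : ℝ) ≤ (cln dir Sp (Function.update ω i a) l).card + 1 := by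
      exact_mod_cast h2
    rw [abs_le]; constructor <;> linarith
  have hi : ∀ ω ω' : V → F, (∀ i ∈ Sp, ω i = ω' i) →
      ((cln dir Sp ω l).card : ℝ) = (cln dir Sp ω' l).card := fun ω ω' h => by
    rw [cln_congr dir Sp h]
  have hU := mcd_upper Sp _ 1 t (4 * Fintype.card F) one_pos ht hSp (by positivity) (by linarith)
    hd hi
  have hL := mcd_lower Sp _ 1 t (4 * Fintype.card F) one_pos ht hSp (by positivity) (by linarith)
    hd hi
  have he : 4 * (4 * (Fintype.card F : ℝ)) * 1 ^ 2 = 16 * Fintype.card F := by ring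
  rw [he] at hU hL
  refine le_trans (Pr_mono fun ω hω => ?_) ((Pr_or_le _ _).trans ((add_le_add hU hL).trans
    (le_of_eq (by ring))))
  by_contra hc
  push Not at hc
  exact hω ⟨by linarith, by linarith⟩

end Crest.Agent.H8.Ry
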