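import Crest.Agent.H8.RyMode

set_option autoImplicit false
set_option linter.unusedSectionVars false

namespace Crest.Agent.H8.Ry
open Finset

variable {F : Type} [Field F] [Fintype F] [DecidableEq F] {s κ : ℕ}

/-- the merged slots of a gadget -/
def Gad.sls (s : ℕ) (g : Gad F κ) : Finset (Vt F s κ) :=
  univ.image fun x : Fin 4 × Bool => g.sl s x.1 x.2

lemma Gad.sl_mem (g : Gad F κ) (a : Fin 4) (β : Bool) : g.sl s a β ∈ g.sls s :=
  mem_image.2 ⟨(a, β), mem_univ _, rfl⟩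

lemma Gad.card_sls (g : Gad F κ) : (g.sls s).card ≤ 8 := card_image_le.trans (by simp)

/-- the slots of the gadget pass through its points -/
def Gdy (ω : Vt F s κ → F) (g : Gad F κ) : Prop :=
  ∀ a β, ω (g.sl s a β) = ph (g.cl a β) (g.p a)

/-- a gadget step -/
def GSt (G : Fin 4 → Finset (Option F)) (z : Option F ⊕ (F × F)) (ω : Vt F s κ → F)
    (O : Finset (Vt F s κ)) (δ : ℕ) (σ : Option F × Fin s) (g : Gad F κ) : Prop :=
  Sum.inl σ ∉ O ∧ Thru z (Ln dr ω (Sum.inl σ)) ∧ Gst G z (Ln dr ω (Sum.inl σ)) g ∧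
    HH z (O.image (Ln dr ω)) O (Ln dr ω (Sum.inl σ)) g δ ∧ Gdy ω g

/-- one step of a derivation -/
def Step (G : Fin 4 → Finset (Option F)) (z : Option F ⊕ (F × F)) (ω : Vt F s κ → F)
    (O O' : Finset (Vt F s κ)) (δ : ℕ) : Prop :=
  (δ = 0 ∧ O' = O) ∨
  (δ = 0 ∧ ∃ v, (v ∉ O ∧ Rc z (O.image (Ln dr ω)) O (Ln dr ω v)) ∧ O' = insert v O) ∨
  (δ = 1 ∧ ∃ v, (v ∉ O ∧ Kc z (O.image (Ln dr ω)) O (Ln dr ω v)) ∧ O' = insert v O) ∨
  (∃ x : (Option F × Fin s) × Gad F κ, GSt G z ω O δ x.1 x.2 ∧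
    O' = insert (Sum.inl x.1) (O ∪ x.2.sls s))

lemma img_congr {O : Finset (Vt F s κ)} {ω ω' : Vt F s κ → F} (h : ∀ v ∈ O, ω v = ω' v) :
    O.image (Ln dr ω) = O.image (Ln dr ω') :=
  Finset.image_congr fun v hv => Ln_congr dr (h v hv)

variable {G : Fin 4 → Finset (Option F)} {z : Option F ⊕ (F × F)}

lemma Step.sub {ω : Vt F s κ → F} {O O' : Finset (Vt F s κ)} {δ : ℕ} (h : Step G z ω O O' δ) :
    O ⊆ O' ∧ O'.card ≤ O.card + 9 := by
  rcases h with ⟨_, rfl⟩ | ⟨_, v, _, rfl⟩ | ⟨_, v, _, rfl⟩ | ⟨x, _, rfl⟩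
  · exact ⟨Subset.rfl, by omega⟩
  · exact ⟨subset_insert _ _, (card_insert_le _ _).trans (by omega)⟩
  · exact ⟨subset_insert _ _, (card_insert_le _ _).trans (by omega)⟩
  · refine ⟨subset_union_left.trans (subset_insert _ _), (card_insert_le _ _).trans ?_⟩
    have := card_union_le O (x.2.sls s)
    have := x.2.card_sls (s := s)
    omega

lemma Step.congr {ω ω' : Vt F s κ → F} {O O' : Finset (Vt F s κ)} {δ : ℕ}
    (h : Step G z ω O O' δ) (hω : ∀ v ∈ O', ω v = ω' v) : Step G z ω' O O' δ := by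
  have h1 := img_congr fun v hv => hω v (h.sub.1 hv)
  rcases h with h | ⟨h0, v, h, rfl⟩ | ⟨h0, v, h, rfl⟩ | ⟨x, h, rfl⟩
  · exact Or.inl h
  · refine Or.inr (Or.inl ⟨h0, v, ?_, rfl⟩)
    rwa [← h1, ← Ln_congr dr (hω v (mem_insert_self _ _))]
  · refine Or.inr (Or.inr (Or.inl ⟨h0, v, ?_, rfl⟩))
    rwa [← h1, ← Ln_congr dr (hω v (mem_insert_self _ _))]
  · refine Or.inr (Or.inr (Or.inr ⟨x, ?_, rfl⟩))
    unfold GSt at h ⊢
    rw [← h1, ← Ln_congr dr (hω _ (mem_insert_self _ _))]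
    refine ⟨h.1, h.2.1, h.2.2.1, h.2.2.2.1, fun a β => ?_⟩
    rw [← hω _ (mem_insert_of_mem (mem_union_right _ (x.2.sl_mem a β)))]
    exact h.2.2.2.2 a β

lemma sum_ind_ex {α β : Type*} [Fintype α] [Fintype β] (P : α → Prop) (f : α → β) :
    ∑ b, ind (∃ a, P a ∧ b = f a) ≤ ∑ a, ind (P a) := by
  classical
  calc _ ≤ ∑ b, ∑ a, ind (P a) * ind (b = f a) := by
        refine Finset.sum_le_sum fun b _ => ind_le (Finset.sum_nonneg fun _ _ =>
          mul_nonneg (ind_nonneg _) (ind_nonneg _)) ?_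
        rintro ⟨a, h1, h2⟩
        refine le_trans (le_of_eq ?_) (Finset.single_le_sum
          (f := fun a => ind (P a) * ind (b = f a))
          (fun _ _ => mul_nonneg (ind_nonneg _) (ind_nonneg _)) (mem_univ a))
        rw [ind_of h1, ind_of h2, one_mul]
    _ = _ := by
        rw [Finset.sum_comm]
        refine Finset.sum_congr rfl fun a _ => ?_
        rw [← Finset.mul_sum, ← card_filter_eq_sum_ind, Finset.filter_eq' univ (f a)]
        simp

lemma ind_or_le (p q : Prop) : ind (p ∨ q) ≤ ind p + ind q := by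
  by_cases hp : p
  · rw [ind_of hp]; linarith [ind_le_one (p ∨ q), ind_nonneg q]
  · rw [ind_of_not hp, zero_add]; exact ind_mono fun h => h.resolve_left hp

lemma G_cost {w : ℕ} (hP : Par (Fintype.card F) w) (hκ : (κ : ℝ) ≤ (w : ℝ) ^ 30)
    (hs : (s : ℝ) ≤ (w : ℝ) ^ 31) (hG : Disj G) (O : Finset (Vt F s κ)) (hO : O.card ≤ 500)
    (ω0 : Vt F s κ → F) (δ : ℕ) (hδ : δ < 3) :
    Cx O ω0 (fun ω => ∑ x : (Option F × Fin s) × Gad F κ, ind (GSt G z ω O δ x.1 x.2)) ≤
      (w : ℝ) ^ 285 / (Fintype.card F : ℝ) ^ δ := by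
  classical
  have hQ := hP.Q0
  have hW := hP.W0
  have hq1 : (1:ℝ) ≤ Fintype.card F := by exact_mod_cast Fintype.card_pos
  set K := O.image (Ln dr ω0) with hKd
  have hK : K.card ≤ 500 := card_image_le.trans hO
  have h1 : ∀ (σ : Option F × Fin s) (g : Gad F κ), Cx O ω0 (fun ω => ind (GSt G z ω O δ σ g)) ≤
      ∑ c, ind (Thru z (σ.1, c)) / Fintype.card F *
        (ind (Gst G z (σ.1, c) g ∧ HH z K O (σ.1, c) g δ) *
          ∏ x : Fin 4 × Bool, wt O ω0 (g.sl s x.1 x.2) (ph (g.cl x.1 x.2) (g.p x.1))) := by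
    intro σ g
    refine le_trans (Cx_mono O ω0 (g := fun ω => ∑ c, ind (Sum.inl σ ∉ O ∧ Thru z (σ.1, c) ∧
        Gst G z (σ.1, c) g ∧ HH z K O (σ.1, c) g δ) *
        ind (∀ x : Option (Fin 4 × Bool), ω (x.elim (Sum.inl σ) fun y => g.sl s y.1 y.2) =
          x.elim c fun y => ph (g.cl y.1 y.2) (g.p y.1))) fun ω hω => ?_) ?_
    · refine ind_le (Finset.sum_nonneg fun _ _ => mul_nonneg (ind_nonneg _) (ind_nonneg _))
        fun h => ?_
      refine le_trans (le_of_eq ?_) (Finset.single_le_sum (f := fun c => ind (Sum.inl σ ∉ O ∧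
        Thru z (σ.1, c) ∧ Gst G z (σ.1, c) g ∧ HH z K O (σ.1, c) g δ) *
        ind (∀ x : Option (Fin 4 × Bool), ω (x.elim (Sum.inl σ) fun y => g.sl s y.1 y.2) =
          x.elim c fun y => ph (g.cl y.1 y.2) (g.p y.1)))
          (fun _ _ => mul_nonneg (ind_nonneg _) (ind_nonneg _)) (mem_univ (ω (Sum.inl σ))))
      unfold GSt at h
      rw [img_congr hω] at h
      rw [ind_of ⟨h.1, h.2.1, h.2.2.1, h.2.2.2.1⟩, ind_of, one_mul]
      rintro (_ | y)
      · rfl
      · exact h.2.2.2.2 y.1 y.2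
    · rw [Cx_sum]
      refine Finset.sum_le_sum fun c _ => ?_
      rw [Cx_mul_left]
      by_cases h : Sum.inl σ ∉ O ∧ Thru z (σ.1, c) ∧ Gst G z (σ.1, c) g ∧ HH z K O (σ.1, c) g δ
      swap
      · rw [ind_of_not h, zero_mul]
        exact mul_nonneg (div_nonneg (ind_nonneg _) hQ.le) (mul_nonneg (ind_nonneg _)
          (Finset.prod_nonneg fun _ _ => wt_nonneg _ _ _ _))
      rw [Cx_prod, ind_of h, ind_of h.2.1, ind_of h.2.2, Fintype.prod_option]
      · refine le_of_eq ?_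
        simp only [Option.elim]
        rw [wt, if_neg h.1]; ring
      · rintro (_ | y) (_ | y') e
        · rfl
        · exfalso; obtain ⟨a, _ | _⟩ := y' <;> simp [Gad.sl] at e
        · exfalso; obtain ⟨a, _ | _⟩ := y <;> simp [Gad.sl] at e
        · rw [Gad.sl_inj hG g (fun a => (h.2.2.1.1 a).1) e]
  rw [Cx_sum, Fintype.sum_prod_type]
  set Λ := 64 * (w : ℝ) ^ 252 / (Fintype.card F : ℝ) ^ δ with hΛ
  calc _ ≤ ∑ σ : Option F × Fin s, ∑ c, ind (Thru z (σ.1, c)) / Fintype.card F *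
        (Λ * (1 + Fintype.card F * ind (chi z K (σ.1, c)))) := by
        refine Finset.sum_le_sum fun σ _ => (Finset.sum_le_sum fun g _ => h1 σ g).trans ?_
        rw [Finset.sum_comm]
        refine Finset.sum_le_sum fun c _ => ?_
        rw [← Finset.mul_sum]
        exact mul_le_mul_of_nonneg_left (TT_le hP hκ z O hO ω0 _ G hG δ hδ)
          (div_nonneg (ind_nonneg _) hQ.le)
    _ = s * Λ * ((∑ l, ind (Thru z l)) / Fintype.card F + ∑ l, ind (Thru z l ∧ chi z K l)) := by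
        rw [Fintype.sum_prod_type, Finset.sum_div, ← Finset.sum_add_distrib, Finset.mul_sum,
          Fintype.sum_prod_type]
        refine Finset.sum_congr rfl fun d _ => ?_
        simp only [Finset.sum_const, card_univ, Fintype.card_fin, nsmul_eq_mul]
        rw [Finset.mul_sum]
        refine Finset.sum_congr rfl fun c _ => ?_
        rw [ind_and]; field_simp
    _ ≤ (w : ℝ) ^ 31 * Λ * (2 + 10 ^ 6) := by
        rw [← card_filter_eq_sum_ind, ← card_filter_eq_sum_ind]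
        have h2 : ((univ.filter (Thru z)).card : ℝ) ≤ Fintype.card F + 1 := by
          exact_mod_cast card_thru z
        have h3 : ((univ.filter fun l => Thru z l ∧ chi z K l).card : ℝ) ≤ 10 ^ 6 := by
          exact_mod_cast card_chi z K hK
        have h4 : ((univ.filter (Thru z)).card : ℝ) / Fintype.card F ≤ 2 := by
          rw [div_le_iff₀ hQ]; linarith
        gcongr
    _ = (64 * (2 + 10 ^ 6)) * (w : ℝ) ^ 283 / (Fintype.card F : ℝ) ^ δ := by rw [hΛ]; ring
    _ ≤ _ := by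
        gcongr
        exact hP.pw (by norm_num) (by norm_num)

lemma step_cost {w : ℕ} (hP : Par (Fintype.card F) w) (hκ : (κ : ℝ) ≤ (w : ℝ) ^ 30)
    (hs : (s : ℝ) ≤ (w : ℝ) ^ 31) (hG : Disj G) (O : Finset (Vt F s κ)) (hO : O.card ≤ 500)
    (ω0 : Vt F s κ → F) (δ : ℕ) (hδ : δ < 3) :
    Cx O ω0 (fun ω => ∑ O', ind (Step G z ω O O' δ)) ≤ (w : ℝ) ^ 286 / (Fintype.card F : ℝ) ^ δ := by
  classical
  have hQ := hP.Q0
  have hW := hP.W0
  set K := O.image (Ln dr ω0) with hKd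
  have hK : K.card ≤ 500 := card_image_le.trans hO
  have hμ : (s : ℝ) + 2 * κ ≤ (w : ℝ) ^ 32 := by
    have := hP.pw (C := 2) (by norm_num) (a := 30) (b := 31) le_rfl
    have := hP.pw (C := 2) (by norm_num) (a := 31) (b := 32) le_rfl
    linarith
  refine le_trans (Cx_mono O ω0 (g := fun ω => ind (δ = 0) + (ind (δ = 0) *
    ∑ v, ind (v ∉ O ∧ Ln dr ω v ∈ univ.filter (Rc z K O)) + (ind (δ = 1) *
    ∑ v, ind (v ∉ O ∧ Ln dr ω v ∈ univ.filter (Kc z K O)) +
    ∑ x : (Option F × Fin s) × Gad F κ, ind (GSt G z ω O δ x.1 x.2)))) fun ω hω => ?_) ?_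
  · unfold Step
    rw [img_congr hω]
    refine (Finset.sum_le_sum fun O' _ => (ind_or_le _ _).trans (add_le_add_right
      ((ind_or_le _ _).trans (add_le_add_right (ind_or_le _ _) _)) _)).trans ?_
    rw [Finset.sum_add_distrib, Finset.sum_add_distrib, Finset.sum_add_distrib]
    refine add_le_add ?_ (add_le_add ?_ (add_le_add ?_ (sum_ind_ex _ _)))
    · simp only [ind_and, ← Finset.mul_sum]
      rw [← card_filter_eq_sum_ind]
      simp [Finset.filter_eq']
    · simp only [ind_and (δ = 0), ← Finset.mul_sum, mem_filter, mem_univ, true_and]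
      exact mul_le_mul_of_nonneg_left (sum_ind_ex _ _) (ind_nonneg _)
    · simp only [ind_and (δ = 1), ← Finset.mul_sum, mem_filter, mem_univ, true_and]
      exact mul_le_mul_of_nonneg_left (sum_ind_ex _ _) (ind_nonneg _)
  rw [Cx_add, Cx_add, Cx_add, Cx_const, Cx_mul_left, Cx_mul_left]
  have h1 := slot_sum O ω0 (univ.filter (Rc z K O))
  have h2 := slot_sum O ω0 (univ.filter (Kc z K O))
  have h3 := G_cost (z := z) hP hκ hs hG O hO ω0 δ hδ
  have h4 : ((univ.filter (Rc z K O)).card : ℝ) ≤ 10 ^ 6 * Fintype.card F := by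
    exact_mod_cast card_Rc z K hK O hO
  have h5 : ((univ.filter (Kc z K O)).card : ℝ) ≤ 10 ^ 9 := by
    exact_mod_cast card_Kc z K hK O hO
  have h6 : (s + 2 * κ) * ((univ.filter (Rc z K O)).card : ℝ) / Fintype.card F ≤ (w : ℝ) ^ 285 := by
    rw [div_le_iff₀ hQ]
    have := hP.pw (C := 10 ^ 6) (by norm_num) (a := 32) (b := 285) (by norm_num)
    calc _ ≤ (w : ℝ) ^ 32 * (10 ^ 6 * Fintype.card F) := by gcongr
      _ = 10 ^ 6 * (w : ℝ) ^ 32 * Fintype.card F := by ring
      _ ≤ _ := by gcongr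
  have h7 : (s + 2 * κ) * ((univ.filter (Kc z K O)).card : ℝ) / Fintype.card F ≤
      (w : ℝ) ^ 285 / Fintype.card F := by
    have := hP.pw (C := 10 ^ 9) (by norm_num) (a := 32) (b := 285) (by norm_num)
    gcongr
    calc _ ≤ (w : ℝ) ^ 32 * 10 ^ 9 := by gcongr
      _ ≤ _ := by linarith
  have h8 := hP.pw (C := 4) (by norm_num) (a := 285) (b := 286) le_rfl
  have h9 : (1:ℝ) ≤ (w : ℝ) ^ 285 := one_le_pow₀ hP.W1
  have h10 : 4 * ((w : ℝ) ^ 285 / (Fintype.card F : ℝ) ^ δ) ≤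
      (w : ℝ) ^ 286 / (Fintype.card F : ℝ) ^ δ := by
    rw [← mul_div_assoc]; gcongr
  have h11 : 0 ≤ (w : ℝ) ^ 285 / (Fintype.card F : ℝ) ^ δ := by positivity
  interval_cases δ
  · rw [ind_of rfl, ind_of_not (by norm_num)]
    simp only [pow_zero, div_one] at *
    linarith
  · rw [ind_of rfl, ind_of_not (by norm_num)]
    simp only [pow_one] at *
    linarith
  · rw [ind_of_not (by norm_num), ind_of_not (by norm_num)]
    linarith

/-- derivations with `n` steps and gain at least `γ` -/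
def Der (G : Fin 4 → Finset (Option F)) (z : Option F ⊕ (F × F)) (ω : Vt F s κ → F) :
    ℕ → Finset (Vt F s κ) → ℕ → Prop
  | 0, O, γ => O = ∅ ∧ γ = 0
  | n + 1, O', γ => ∃ O, ∃ δ ∈ range 3, Der G z ω n O (γ - δ) ∧ Step G z ω O O' δ

lemma Der.card {ω : Vt F s κ → F} : ∀ {n : ℕ} {O : Finset (Vt F s κ)} {γ : ℕ},
    Der G z ω n O γ → O.card ≤ 9 * n
  | 0, O, γ, h => by rw [h.1]; simp
  | n + 1, O', γ, ⟨O, δ, _, h1, h2⟩ => by
    have := h1.card; have := h2.sub.2; omega

lemma Der.congr {ω ω' : Vt F s κ → F} : ∀ {n : ℕ} {O : Finset (Vt F s κ)} {γ : ℕ},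
    Der G z ω n O γ → (∀ v ∈ O, ω v = ω' v) → Der G z ω' n O γ
  | 0, _, _, h, _ => h
  | _ + 1, _, _, ⟨O, δ, hδ, h1, h2⟩, hω =>
    ⟨O, δ, hδ, h1.congr fun v hv => hω v (h2.sub.1 hv), h2.congr hω⟩

theorem der_count {w : ℕ} (hP : Par (Fintype.card F) w) (hκ : (κ : ℝ) ≤ (w : ℝ) ^ 30)
    (hs : (s : ℝ) ≤ (w : ℝ) ^ 31) (hG : Disj G) (n : ℕ) (hn : n ≤ 50) : ∀ γ : ℕ,
    Ex (fun ω : Vt F s κ → F => ∑ O, ind (Der G z ω n O γ)) ≤
      ((w : ℝ) ^ 287) ^ n / (Fintype.card F : ℝ) ^ γ := by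
  classical
  have hQ := hP.Q0
  have hW := hP.W0
  have hq1 : (1:ℝ) ≤ Fintype.card F := by exact_mod_cast Fintype.card_pos
  induction n with
  | zero =>
    intro γ
    refine Ex_le_const fun ω => ?_
    simp only [Der, ind_and, ← Finset.sum_mul]
    rw [← card_filter_eq_sum_ind]
    by_cases h : γ = 0
    · subst h; simp [Finset.filter_eq', ind_of]
    · rw [ind_of_not h, mul_zero]; positivity
  | succ n ih =>
    intro γ
    have ih' := ih (by omega)
    calc _ ≤ Ex (fun ω : Vt F s κ → F => ∑ δ ∈ range 3, ∑ O,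
          ind (Der G z ω n O (γ - δ)) * ∑ O', ind (Step G z ω O O' δ)) := by
          refine Ex_mono fun ω => ?_
          simp only [Finset.mul_sum]
          rw [Finset.sum_congr rfl fun δ _ => Finset.sum_comm, Finset.sum_comm]
          refine Finset.sum_le_sum fun O' _ => ind_le (Finset.sum_nonneg fun _ _ =>
            Finset.sum_nonneg fun _ _ => mul_nonneg (ind_nonneg _) (ind_nonneg _)) ?_
          rintro ⟨O, δ, hδ, h1, h2⟩
          refine le_trans ?_ (Finset.single_le_sum (f := fun δ => ∑ O,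
            ind (Der G z ω n O (γ - δ)) * ind (Step G z ω O O' δ)) (fun _ _ =>
            Finset.sum_nonneg fun _ _ => mul_nonneg (ind_nonneg _) (ind_nonneg _)) hδ)
          refine le_trans (le_of_eq ?_) (Finset.single_le_sum (f := fun O =>
            ind (Der G z ω n O (γ - δ)) * ind (Step G z ω O O' δ))
            (fun _ _ => mul_nonneg (ind_nonneg _) (ind_nonneg _)) (mem_univ O))
          rw [ind_of h1, ind_of h2, one_mul]
      _ ≤ ∑ δ ∈ range 3, ((w : ℝ) ^ 287) ^ n * (w : ℝ) ^ 286 / (Fintype.card F : ℝ) ^ γ := by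
          rw [Ex_sum]
          refine Finset.sum_le_sum fun δ hδ => ?_
          calc _ ≤ Ex (fun ω : Vt F s κ → F => (∑ O, ind (Der G z ω n O (γ - δ))) *
                ((w : ℝ) ^ 286 / (Fintype.card F : ℝ) ^ δ)) := by
                simp only [Finset.sum_mul]
                rw [Ex_sum, Ex_sum]
                refine Finset.sum_le_sum fun O _ => ?_
                rw [Ex_mul_Cx O _ _ fun ω ω' h => ind_congr
                  ⟨fun h' => h'.congr h, fun h' => h'.congr fun v hv => (h v hv).symm⟩]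
                refine Ex_mono fun ω => ?_
                by_cases h : Der G z ω n O (γ - δ)
                · exact mul_le_mul_of_nonneg_left (step_cost hP hκ hs hG O (h.card.trans (by omega))
                    ω δ (mem_range.1 hδ)) (ind_nonneg _)
                · rw [ind_of_not h, zero_mul, zero_mul]
            _ ≤ ((w : ℝ) ^ 287) ^ n / (Fintype.card F : ℝ) ^ (γ - δ) *
                ((w : ℝ) ^ 286 / (Fintype.card F : ℝ) ^ δ) := by
                rw [Ex_mul_right]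
                exact mul_le_mul_of_nonneg_right (ih' _) (by positivity)
            _ ≤ _ := by
                rw [div_mul_div_comm, ← pow_add]
                exact div_le_div_of_nonneg_left (by positivity) (by positivity)
                  (pow_le_pow_right₀ hq1 (by omega))
      _ ≤ _ := by
          rw [Finset.sum_const, card_range, nsmul_eq_mul, ← mul_div_assoc, pow_succ _ n]
          have := hP.pw (C := 3) (by norm_num) (a := 286) (b := 287) le_rfl
          refine div_le_div_of_nonneg_right ?_ (by positivity)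
          calc _ = ((w : ℝ) ^ 287) ^ n * (3 * (w : ℝ) ^ 286) := by push_cast; ring
            _ ≤ _ := by gcongr

theorem der_pr {w : ℕ} (hP : Par (Fintype.card F) w) (hκ : (κ : ℝ) ≤ (w : ℝ) ^ 30)
    (hs : (s : ℝ) ≤ (w : ℝ) ^ 31) (hG : Disj G) (γ : ℕ) :
    Pr (fun ω : Vt F s κ → F => ∃ O, Der G z ω 50 O γ) ≤
      (w : ℝ) ^ 14350 / (Fintype.card F : ℝ) ^ γ := by
  have := der_count (z := z) hP hκ hs hG 50 le_rfl γ
  rw [← pow_mul] at this
  refine le_trans (Pr_le_Ex (fun ω => Finset.sum_nonneg fun _ _ => ind_nonneg _) ?_) this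
  rintro ω ⟨O, h⟩
  exact le_trans (ind_of h).symm.le (Finset.single_le_sum (f := fun O => ind (Der G z ω 50 O γ))
    (fun _ _ => ind_nonneg _) (mem_univ O))

end Crest.Agent.H8.Ry
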