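import Crest.Agent.H8.RyEx

set_option autoImplicit false
set_option linter.unusedSectionVars false

namespace Crest.Agent.H8.Ry
open Finset

theorem encode {P D C : Type} [Fintype D] [DecidableEq D] [DecidableEq C] (n : ℕ)
    (hD : Fintype.card D = n + 1) (K : Finset P) (lab : P → D → C) (hK : K.Nonempty)
    (hint : ∀ p ∈ K, ∀ p' ∈ K, ∃ d, lab p d = lab p' d)
    (hcard : ∀ d, (K.image (lab · d)).card = n + 1)
    (hcov : ∀ S : Finset (D × C), (∀ p ∈ K, ∃ d, (d, lab p d) ∈ S) → n + 1 ≤ S.card) :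
    ∃ (N : ℕ) (part : Fin N → Fin (n + 1)) (E : Finset (Finset (Fin N))),
        E.Nonempty ∧
        (∀ e ∈ E, ∀ i : Fin (n + 1), (e.filter (fun v => part v = i)).card = 1) ∧
        (∀ e ∈ E, ∀ f ∈ E, (e ∩ f).Nonempty) ∧
        (∀ i : Fin (n + 1), (Finset.univ.filter (fun v => part v = i)).card = n + 1) ∧
        (∀ v : Fin N, ∃ e ∈ E, v ∈ e) ∧
        (∀ S : Finset (Fin N), (∀ e ∈ E, (e ∩ S).Nonempty) → n + 1 ≤ S.card) := by
  classical
  set Vx : Finset (D × C) := K.biUnion fun p => univ.image fun d => (d, lab p d) with hVx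
  have hmem : ∀ p ∈ K, ∀ d, (d, lab p d) ∈ Vx := fun p hp d =>
    mem_biUnion.2 ⟨p, hp, mem_image_of_mem _ (mem_univ d)⟩
  let e : Fin Vx.card ≃ Vx := Vx.equivFin.symm
  let eD : D ≃ Fin (n + 1) := Fintype.equivFinOfCardEq hD
  let ed : P → Finset (Fin Vx.card) := fun p => univ.filter fun v => (e v).1.2 = lab p (e v).1.1
  have hed : ∀ p (hp : p ∈ K) d, e.symm ⟨_, hmem p hp d⟩ ∈ ed p := fun p hp d => by simp [ed]
  refine ⟨Vx.card, fun v => eD (e v).1.1, K.image ed, hK.image _, ?_, ?_, ?_, ?_, ?_⟩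
  · intro x hx i
    obtain ⟨p, hp, rfl⟩ := mem_image.1 hx
    rw [Finset.card_eq_one]
    refine ⟨e.symm ⟨_, hmem p hp (eD.symm i)⟩, ?_⟩
    ext v
    simp only [ed, mem_filter, mem_univ, true_and, mem_singleton]
    constructor
    · rintro ⟨h1, h2⟩
      rw [Equiv.eq_symm_apply]
      have h3 : (e v).1.1 = eD.symm i := by rw [← h2]; simp
      exact Subtype.ext (Prod.ext h3 (by rw [h1, h3]))
    · rintro rfl; simp
  · intro x hx y hy
    obtain ⟨p, hp, rfl⟩ := mem_image.1 hx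
    obtain ⟨p', hp', rfl⟩ := mem_image.1 hy
    obtain ⟨d, h⟩ := hint p hp p' hp'
    exact ⟨_, mem_inter.2 ⟨hed p hp d, by simp [ed, h]⟩⟩
  · intro i
    refine Eq.trans ?_ (hcard (eD.symm i))
    refine Finset.card_bij (fun v _ => (e v).1.2) ?_ ?_ ?_
    · intro v hv
      obtain ⟨p, hp, h⟩ := mem_biUnion.1 (e v).2
      obtain ⟨d, _, h⟩ := mem_image.1 h
      have h3 : (e v).1.1 = eD.symm i := by rw [← (mem_filter.1 hv).2]; simp
      refine mem_image.2 ⟨p, hp, ?_⟩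
      rw [← h3, ← h]
    · intro v hv v' hv' h
      refine e.injective (Subtype.ext (Prod.ext (eD.injective ?_) h))
      exact (mem_filter.1 hv).2.trans (mem_filter.1 hv').2.symm
    · intro c hc
      obtain ⟨p, hp, rfl⟩ := mem_image.1 hc
      exact ⟨e.symm ⟨_, hmem p hp (eD.symm i)⟩, by simp, by simp⟩
  · intro v
    obtain ⟨p, hp, h⟩ := mem_biUnion.1 (e v).2
    obtain ⟨d, _, h⟩ := mem_image.1 h
    exact ⟨ed p, mem_image_of_mem _ hp, by simp [ed, ← h]⟩
  · intro S hS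
    refine (hcov (S.image fun v => (e v).1) fun p hp => ?_).trans card_image_le
    obtain ⟨v, hv⟩ := hS _ (mem_image_of_mem ed hp)
    obtain ⟨h1, h2⟩ := mem_inter.1 hv
    exact ⟨(e v).1.1, mem_image.2 ⟨v, h2, Prod.ext rfl (mem_filter.1 h1).2⟩⟩

end Crest.Agent.H8.Ry
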