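import Crest.Agent.H8.RyLoc2

set_option autoImplicit false
set_option linter.unusedSectionVars false

namespace Crest.Agent.H8.Ry
open Finset

variable {F : Type} [Field F] [Fintype F] [DecidableEq F] {s κ : ℕ}

/-- gadgets with prescribed classes and point sets -/
def Raw (Gr : Fin 4 → Finset (Option F)) (W : Fin 4 → Finset (F × F)) (ω : Vt F s κ → F)
    (g : Gad F κ) : Prop :=
  ((∀ a, g.1 a ∈ Gr a) ∧ ∀ a, (g.2 a).2.2 ∈ W a) ∧ Gdy ω g

lemma Cx_raw {Gr : Fin 4 → Finset (Option F)} (hG : Disj Gr) (W : Fin 4 → Finset (F × F))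
    (O : Finset (Vt F s κ)) (ω0 : Vt F s κ → F) :
    Cx O ω0 (fun ω => ∑ g : Gad F κ, ind (Raw Gr W ω g)) =
      gadS O ω0 Gr (fun a _ _ x => x.2.2 ∈ W a) := by
  rw [Cx_sum]
  refine Finset.sum_congr rfl fun g _ => ?_
  unfold Raw
  simp only [ind_and ((∀ a, g.1 a ∈ Gr a) ∧ _)]
  rw [Cx_mul_left]
  by_cases h : (∀ a, g.1 a ∈ Gr a) ∧ ∀ a, (g.2 a).2.2 ∈ W a
  · rw [← Cx_prod O ω0 _ (Gad.sl_inj hG g h.1)]
    congr 2
    ext ω
    exact ind_congr ⟨fun h x => h x.1 x.2, fun h a β => h (a, β)⟩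
  · rw [ind_of_not h, zero_mul, zero_mul]

lemma Ex_raw {Gr : Fin 4 → Finset (Option F)} (hG : Disj Gr) (W : Fin 4 → Finset (F × F)) :
    Ex (fun ω : Vt F s κ → F => ∑ g : Gad F κ, ind (Raw Gr W ω g)) =
      ∏ a, ((Gr a).card * ((W a).card * (κ : ℝ) ^ 2 / (Fintype.card F : ℝ) ^ 2)) := by
  have := Cx_raw (s := s) (κ := κ) hG W ∅ (fun _ => 0)
  unfold Cx at this
  simp only [Finset.piecewise_empty] at this
  rw [this, gadS_eq]
  have h1 : ∀ a (j' j : Option F), locS (∅ : Finset (Vt F s κ)) (fun _ => 0)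
      (fun x => x.2.2 ∈ W a) j' j = (W a).card * (κ : ℝ) ^ 2 / (Fintype.card F : ℝ) ^ 2 := by
    intro a j' j
    unfold locS wt
    simp only [notMem_empty, if_false]
    rw [← Finset.sum_mul]
    simp only [Fintype.sum_prod_type (α₂ := Fin κ × (F × F)), Fintype.sum_prod_type (α₂ := F × F)]
    rw [← card_filter_eq_sum_ind]
    simp; field_simp
  simp only [h1]
  rw [Finset.sum_const, Fintype.card_piFinset, nsmul_eq_mul, Nat.cast_prod, Finset.prod_mul_distrib]

lemma pat_ok : ∀ b0 b1 b2 b3 : Bool, ¬ (b0 = false ∧ b1 = false ∧ b2 = false ∧ b3 = false) →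
    ¬ (b0 = true ∧ b1 = true ∧ b2 = true ∧ b3 = true) →
    (if b0 then 0 else 1) + (if b1 then 0 else 1) + (if b2 then 0 else 1) + (if b3 then 0 else 1)
      + 1 ≤ ee false true b3 b0 + ee false true b0 b1 + ee false true b1 b2 + ee false true b2 b3 := by
  decide

lemma gadS_two {w : ℕ} (hP : Par (Fintype.card F) w) (hκ : (κ : ℝ) ≤ (w : ℝ) ^ 30)
    (l : Option F × F) {Gr : Fin 4 → Finset (Option F)} (hl : ∀ a, l.1 ∉ Gr a)
    (W : Fin 4 → Finset (F × F)) (hW : ∀ a, ∀ p ∈ W a, On p l)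
    (O : Finset (Vt F s κ)) (hO : O.card ≤ 8) (ω0 : Vt F s κ → F) :
    gadS O ω0 Gr (fun a _ _ x => x.2.2 ∈ W a) ≤
      ∏ a, ((Gr a).card * ((W a).card * (κ : ℝ) ^ 2 / (Fintype.card F : ℝ) ^ 2)) + 16 * w := by
  classical
  have hQ := hP.Q0
  have hW0 := hP.W0
  have hq1 : (1:ℝ) ≤ Fintype.card F := by exact_mod_cast Fintype.card_pos
  have hO' : (O.card : ℝ) ≤ 8 := by exact_mod_cast hO
  have hκ2 : (κ : ℝ) ^ 2 ≤ (w : ℝ) ^ 60 := by
    calc (κ : ℝ) ^ 2 ≤ ((w : ℝ) ^ 30) ^ 2 := by gcongr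
      _ = _ := by ring
  have hA : ∀ a, (W a).card * (κ : ℝ) ^ 2 / (Fintype.card F : ℝ) ^ 2 ≤
      (w : ℝ) ^ 60 / Fintype.card F := by
    intro a
    have h1 : ((W a).card : ℝ) ≤ Fintype.card F := by
      rw [← card_on l]
      exact Nat.cast_le.2 (card_le_card fun p hp => mem_filter.2 ⟨mem_univ _, hW a p hp⟩)
    calc _ ≤ Fintype.card F * (w : ℝ) ^ 60 / (Fintype.card F : ℝ) ^ 2 := by gcongr
      _ = _ := by field_simp
  have hGr : ∀ a, ((Gr a).card : ℝ) ≤ Fintype.card F := by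
    intro a
    have : (Gr a).card ≤ (univ.erase l.1).card :=
      card_le_card fun j hj => mem_erase.2 ⟨fun e => hl a (e ▸ hj), mem_univ _⟩
    rw [card_erase_of_mem (mem_univ _), card_univ, Fintype.card_option] at this
    exact_mod_cast this
  have h61 : (w : ℝ) ^ 61 / Fintype.card F ≤ 1 := by
    rw [div_le_one hQ]; simpa using hP.pq (C := 1) (by norm_num) (a := 61) (by norm_num)
  have h60 : 2 * ((w : ℝ) ^ 60 / Fintype.card F) ≤ (w : ℝ) ^ 61 / Fintype.card F := by
    rw [← mul_div_assoc]; gcongr; exact hP.pw (by norm_num) le_rfl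
  set cn : Fin 4 → Bool → ℝ := fun a b => if b then 8 else (Gr a).card with hcn
  set sb : Fin 4 → Bool → Bool → ℝ := fun a b' b => if !b' && !b then
    (W a).card * (κ : ℝ) ^ 2 / (Fintype.card F : ℝ) ^ 2 else if b' && b then 100 else
    (w : ℝ) ^ 61 / Fintype.card F with hsb
  have hsb0 : ∀ a b' b, 0 ≤ sb a b' b := by
    intro a b' b; simp only [hsb]; split_ifs <;> positivity
  have hcn0 : ∀ a b, 0 ≤ cn a b := by
    intro a b; simp only [hcn]; split_ifs <;> positivity
  refine (gadS_le O ω0 _ _ cn sb ?_ hsb0 ?_).trans ?_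
  · intro a b
    cases b
    · simp only [hcn, Bool.false_eq_true, if_false]
      exact Nat.cast_le.2 (card_filter_le _ _)
    · simp only [hcn, if_true]
      exact le_trans (Nat.cast_le.2 (card_old_le O _)) hO'
  · intro a j' hj' j hj
    have := locS_le O ω0 l (fun x => x.2.2 ∈ W a) j' j (fun e => hl _ (e ▸ hj))
      (fun e => hl _ (e ▸ hj')) (W a) (fun x hx => hx) (fun x hx => hW a _ hx) True
      (fun _ _ _ _ _ _ => trivial)
    refine this.trans ?_
    have h4 : O.card * κ / (Fintype.card F : ℝ) * 2 ≤ (w : ℝ) ^ 60 / Fintype.card F := by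
      have h5 := hP.pw (C := 16) (by norm_num) (a := 30) (b := 60) (by norm_num)
      calc _ ≤ 8 * (w : ℝ) ^ 30 / Fintype.card F * 2 := by gcongr
        _ = 16 * (w : ℝ) ^ 30 / Fintype.card F := by ring
        _ ≤ _ := by gcongr
    have h5 : 0 ≤ O.card * κ / (Fintype.card F : ℝ) := by positivity
    have h6 : (O.card : ℝ) ^ 2 ≤ 8 ^ 2 := by gcongr
    have h7 := hA a
    by_cases o1 : old O j <;> by_cases o2 : old O j'
    · simp only [hsb, oldb_true.2 o1, oldb_true.2 o2, ind_of o1, ind_of o2, ind_of trivial]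
      simp; linarith
    · simp only [hsb, oldb_true.2 o1, oldb_false.2 o2, ind_of o1, ind_of_not o2, ind_of trivial]
      simp; linarith
    · simp only [hsb, oldb_false.2 o1, oldb_true.2 o2, ind_of_not o1, ind_of o2, ind_of trivial]
      simp; linarith
    · simp only [hsb, oldb_false.2 o1, oldb_false.2 o2, ind_of_not o1, ind_of_not o2]
      simp
  rw [← Finset.add_sum_erase _ _ (mem_univ fun _ => false)]
  refine add_le_add (le_of_eq (by simp [hcn, hsb])) ?_
  refine (Finset.sum_le_card_nsmul _ _ (w : ℝ) fun P hP' => ?_).trans ?_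
  swap
  · rw [nsmul_eq_mul]; gcongr
    exact_mod_cast card_erase_le.trans (by simp)
  by_cases ht : P = fun _ => true
  · subst ht
    simp only [hcn, hsb]
    simp
    exact le_trans (by norm_num) hP.W
  have hγ : (∑ a, if P a then 0 else 1) + 1 ≤ ∑ a, ee false true (P (a - 1)) (P a) := by
    have := pat_ok (P 0) (P 1) (P 2) (P 3) (fun h => ne_of_mem_erase hP' (by
      ext a; fin_cases a <;> simp [h])) (fun h => ht (by ext a; fin_cases a <;> simp [h]))
    simp only [Fin.sum_univ_four]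
    exact this
  calc _ ≤ ∏ a, (w * (Fintype.card F : ℝ) ^ (if P a then 0 else 1)) *
        ((w : ℝ) ^ 62 / (Fintype.card F : ℝ) ^ ee false true (P (a - 1)) (P a)) := by
        refine Finset.prod_le_prod (fun a _ => mul_nonneg (hcn0 _ _) (hsb0 _ _ _)) fun a _ => ?_
        refine mul_le_mul ?_ ?_ (hsb0 _ _ _) (by positivity)
        · cases P a
          · simp only [hcn, Bool.false_eq_true, if_false, pow_one]
            exact (hGr a).trans (le_mul_of_one_le_left hQ.le hP.W1)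
          · simp only [hcn, if_true, pow_zero, mul_one]
            exact le_trans (by norm_num) hP.W
        · have k1 : (w : ℝ) ^ 61 / Fintype.card F ≤ (w : ℝ) ^ 62 / Fintype.card F := by
            gcongr; exact hP.W1; norm_num
          have k2 := hP.pw (C := 100) (by norm_num) (a := 0) (b := 62) (by norm_num)
          have k3 := hA a
          have k4 : 0 ≤ (w : ℝ) ^ 60 / Fintype.card F := by positivity
          cases P a <;> cases P (a - 1) <;> simp [hsb, ee] <;> linarith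
    _ ≤ (w : ℝ) ^ 252 / (Fintype.card F : ℝ) ^ 1 := by
        rw [Finset.prod_mul_distrib, Finset.prod_mul_distrib, Finset.prod_div_distrib,
          Finset.prod_const, Finset.prod_const,
          Finset.prod_pow_eq_pow_sum, Finset.prod_pow_eq_pow_sum, card_univ, Fintype.card_fin,
          mul_div_assoc', div_le_div_iff₀ (by positivity) (by positivity)]
        have := pow_le_pow_right₀ hq1 hγ
        rw [pow_add] at this
        calc _ = (w : ℝ) ^ 252 * ((Fintype.card F : ℝ) ^ (∑ a, if P a then 0 else 1) *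
              (Fintype.card F : ℝ) ^ 1) := by ring
          _ ≤ _ := by gcongr
    _ ≤ _ := by
        rw [pow_one, div_le_iff₀ hQ]
        have := hP.pq (C := 1) (by norm_num) (a := 252) (by norm_num)
        have := le_mul_of_one_le_left hQ.le hP.W1
        linarith

lemma Raw.congr {Gr : Fin 4 → Finset (Option F)} {W : Fin 4 → Finset (F × F)}
    {ω ω' : Vt F s κ → F} {g : Gad F κ} (h : Raw Gr W ω g) (hω : ∀ v ∈ g.sls s, ω v = ω' v) :
    Raw Gr W ω' g := ⟨h.1, fun a β => by rw [← hω _ (g.sl_mem a β)]; exact h.2 a β⟩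

theorem no_raw {w : ℕ} (hP : Par (Fintype.card F) w) (hκ : (κ : ℝ) ≤ (w : ℝ) ^ 30)
    (l : Option F × F) {Gr : Fin 4 → Finset (Option F)} (hG : Disj Gr) (hl : ∀ a, l.1 ∉ Gr a)
    (W : Fin 4 → Finset (F × F)) (hW : ∀ a, ∀ p ∈ W a, On p l)
    (hμ : ∀ a, (w : ℝ) ≤ (Gr a).card * ((W a).card * (κ : ℝ) ^ 2 / (Fintype.card F : ℝ) ^ 2)) :
    Pr (fun ω : Vt F s κ → F => ¬ ∃ g : Gad F κ, Raw Gr W ω g) ≤ Real.exp (-1) := by
  have hW0 := hP.W0
  set μ := ∏ a, ((Gr a).card * ((W a).card * (κ : ℝ) ^ 2 / (Fintype.card F : ℝ) ^ 2)) with hμd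
  have hμ4 : (w : ℝ) ^ 4 ≤ μ := by
    calc (w : ℝ) ^ 4 = ∏ _a : Fin 4, (w : ℝ) := by simp
      _ ≤ _ := Finset.prod_le_prod (fun _ _ => hW0.le) fun a _ => hμ a
  have hμ0 : 0 < μ := lt_of_lt_of_le (by positivity) hμ4
  set X : (Vt F s κ → F) → ℝ := fun ω => ∑ g : Gad F κ, ind (Raw Gr W ω g) with hX
  have h1 : Ex X = μ := Ex_raw hG W
  have h2 : Ex (fun ω => X ω * X ω) ≤ μ * (μ + 16 * w) := by
    calc _ = ∑ g : Gad F κ, Ex (fun ω => ind (Raw Gr W ω g) * X ω) := by
          rw [← Ex_sum]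
          refine Ex_congr fun ω => ?_
          rw [← Finset.sum_mul]
      _ ≤ ∑ g : Gad F κ, Ex (fun ω : Vt F s κ → F => ind (Raw Gr W ω g) * (μ + 16 * w)) := by
          refine Finset.sum_le_sum fun g _ => ?_
          rw [Ex_mul_Cx (g.sls s) _ _ fun ω ω' h => ind_congr
            ⟨fun h' => h'.congr h, fun h' => h'.congr fun v hv => (h v hv).symm⟩]
          refine Ex_mono fun ω => mul_le_mul_of_nonneg_left ?_ (ind_nonneg _)
          rw [hX, Cx_raw hG]
          exact gadS_two hP hκ l hl W hW _ g.card_sls ω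
      _ = _ := by
          simp only [Ex_mul_right]
          rw [← Finset.sum_mul, ← Ex_sum]
          exact congrArg (· * (μ + 16 * w)) h1
  have h3 : ∀ ω, (¬ ∃ g : Gad F κ, Raw Gr W ω g) → X ω = 0 := fun ω h =>
    Finset.sum_eq_zero fun g _ => ind_of_not fun h' => h ⟨g, h'⟩
  clear_value μ X
  calc _ ≤ Ex (fun ω => (1 / μ ^ 2) * (X ω * X ω - 2 * μ * X ω + μ ^ 2)) := by
        refine Pr_le_Ex (fun ω => mul_nonneg (by positivity) (by nlinarith [sq_nonneg (X ω - μ)]))
          fun ω h => ?_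
        rw [h3 ω h]; field_simp; simp
    _ = (1 / μ ^ 2) * (Ex (fun ω => X ω * X ω) - 2 * μ * μ + μ ^ 2) := by
        rw [Ex_mul_left, Ex_add, Ex_sub, Ex_mul_left, h1, Ex_const]
    _ ≤ (1 / μ ^ 2) * (μ * (16 * w)) := by gcongr; linarith
    _ = 16 * w / μ := by field_simp
    _ ≤ 1 / 3 := by
        rw [div_le_div_iff₀ hμ0 (by norm_num)]
        have := hP.pw (C := 48) (by norm_num) (a := 1) (b := 4) (by norm_num)
        rw [pow_one] at this; linarith
    _ ≤ _ := by
        rw [Real.exp_neg, one_div]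
        exact inv_anti₀ (Real.exp_pos _) (Real.exp_one_lt_d9.le.trans (by norm_num))

lemma exists_split (A : Finset (F × F)) : ∃ W : Fin 4 → Finset (F × F), (∀ a, W a ⊆ A) ∧
    (∀ a, (W a).card = A.card / 4) ∧ ∀ a b p, p ∈ W a → p ∈ W b → a = b := by
  obtain ⟨e⟩ : Nonempty (Fin 4 × Fin (A.card / 4) ↪ A) :=
    Function.Embedding.nonempty_of_card_le (by simp; omega)
  refine ⟨fun a => univ.image fun i => (e (a, i) : F × F), fun a p hp => ?_, fun a => ?_, ?_⟩
  · obtain ⟨i, _, rfl⟩ := mem_image.1 hp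
    exact (e (a, i)).2
  · rw [card_image_of_injective _ fun i j h => by simpa using e.injective (Subtype.ext h)]
    simp
  · intro a b p ha hb
    obtain ⟨i, _, rfl⟩ := mem_image.1 ha
    obtain ⟨j, _, h⟩ := mem_image.1 hb
    exact (congrArg Prod.fst (e.injective (Subtype.ext h))).symm

/-- a gadget with clean distinct points -/
def Cg (G : Fin 4 → Finset (Option F)) (Sp : Finset (Vt F s κ)) (ω : Vt F s κ → F)
    (σ : Option F × Fin s) (g : Gad F κ) : Prop :=
  (∀ a, g.1 a ∈ G a ∧ g.1 a ≠ σ.1) ∧ (∀ a, g.p a ∈ cln dr Sp ω (Ln dr ω (Sum.inl σ))) ∧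
    Function.Injective g.p ∧ Gdy ω g

theorem ex_gad {w : ℕ} (hP : Par (Fintype.card F) w) (hκ : (κ : ℝ) = (w : ℝ) ^ 30)
    (hs : (s : ℝ) ≤ (w : ℝ) ^ 31) (G : Fin 4 → Finset (Option F))
    (Gr : Fin w → Fin 4 → Finset (Option F)) (hsub : ∀ r a, Gr r a ⊆ G a)
    (hdis : ∀ r r' a a' j, j ∈ Gr r a → j ∈ Gr r' a' → r = r' ∧ a = a')
    (hcard : ∀ r a, Fintype.card F / (w : ℝ) ^ 58 ≤ 2 * (Gr r a).card)
    (Sp : Finset (Vt F s κ)) (hSp : ∀ v ∈ Sp, ∃ σ, v = Sum.inl σ) :
    Pr (fun ω => ∃ σ : Option F × Fin s,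
      (Fintype.card F : ℝ) / 4000 ≤ (cln dr Sp ω (Ln dr ω (Sum.inl σ))).card ∧
        ¬ ∃ g, Cg G Sp ω σ g) ≤ 1 / 1000 := by
  classical
  have hQ := hP.Q0
  have hW0 := hP.W0
  choose spl hspl using exists_split (F := F)
  refine (Pr_exists_le' (c := Real.exp (-(w : ℝ))) _ fun σ => ?_).trans ?_
  swap
  · refine exp_mul_small hP (a := w / 4) (le_trans ?_ hP.lines_le) (by linarith)
    simp only [Fintype.card_prod, Fintype.card_option, Fintype.card_fin]
    push_cast
    have := hP.pq (C := 1) (by norm_num) (a := 31) (by norm_num)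
    have h2 : (s : ℝ) ≤ Fintype.card F := by linarith
    gcongr
  set C : (Vt F s κ → F) → Finset (F × F) := fun ω => cln dr Sp ω (Ln dr ω (Sum.inl σ)) with hC
  have hCc : ∀ ω ω' : Vt F s κ → F, (∀ τ, ω (Sum.inl τ) = ω' (Sum.inl τ)) → C ω = C ω' := by
    intro ω ω' h
    simp only [hC]
    rw [Ln_congr dr (h σ), cln_congr dr Sp (ω' := ω') fun v hv => by
      obtain ⟨τ, rfl⟩ := hSp v hv; exact h τ]
  have key : ∀ R : Finset (Fin w), Pr (fun ω => (Fintype.card F : ℝ) / 4000 ≤ (C ω).card ∧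
      ∀ r ∈ R, ¬ ∃ g : Gad F κ, Raw (fun a => (Gr r a).erase σ.1) (spl (C ω)) ω g) ≤
      Real.exp (-1) ^ R.card := by
    intro R
    induction R using Finset.induction_on with
    | empty => simpa using Pr_le_one _
    | insert r0 R hr ih =>
      set O : Finset (Vt F s κ) := univ.filter fun v => ∀ u, v = Sum.inr u → ∀ a, u.1 ∉ Gr r0 a
        with hO
      have hOl : ∀ τ, Sum.inl τ ∈ O := fun τ => by simp [hO]
      have hcl : ∀ r (g : Gad F κ), (∀ a, g.1 a ∈ (Gr r a).erase σ.1) → ∀ v ∈ g.sls s,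
          ∃ u a, v = Sum.inr u ∧ u.1 ∈ Gr r a := by
        intro r g hg v hv
        obtain ⟨⟨a, β⟩, _, rfl⟩ := mem_image.1 hv
        cases β
        · exact ⟨_, a, rfl, mem_of_mem_erase (hg a)⟩
        · exact ⟨_, a - 1, rfl, mem_of_mem_erase (hg _)⟩
      have hloc : ∀ ω ω' : Vt F s κ → F, (∀ v ∈ O, ω v = ω' v) →
          ((Fintype.card F : ℝ) / 4000 ≤ (C ω).card ∧
          ∀ r ∈ R, ¬ ∃ g : Gad F κ, Raw (fun a => (Gr r a).erase σ.1) (spl (C ω)) ω g) →
          ((Fintype.card F : ℝ) / 4000 ≤ (C ω').card ∧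
          ∀ r ∈ R, ¬ ∃ g : Gad F κ, Raw (fun a => (Gr r a).erase σ.1) (spl (C ω')) ω' g) := by
        intro ω ω' h h'
        rw [← hCc ω ω' fun τ => h _ (hOl τ)]
        refine ⟨h'.1, fun r hr' ⟨g, hg⟩ => h'.2 r hr' ⟨g, hg.congr fun v hv => (h v ?_).symm⟩⟩
        obtain ⟨u, a, rfl, hu⟩ := hcl r g hg.1.1 v hv
        simp only [hO, mem_filter, mem_univ, true_and, Sum.inr.injEq]
        rintro _ rfl a' h2
        exact hr ((hdis _ _ _ _ _ hu h2).1 ▸ hr')
      rw [card_insert_of_notMem hr, pow_succ]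
      calc _ = Ex (fun ω => ind ((Fintype.card F : ℝ) / 4000 ≤ (C ω).card ∧
            ∀ r ∈ R, ¬ ∃ g : Gad F κ, Raw (fun a => (Gr r a).erase σ.1) (spl (C ω)) ω g) *
            ind (¬ ∃ g : Gad F κ, Raw (fun a => (Gr r0 a).erase σ.1) (spl (C ω)) ω g)) := by
            refine Ex_congr fun ω => ?_
            rw [← ind_and]
            refine ind_congr ?_
            simp only [forall_mem_insert]; tauto
        _ ≤ Ex (fun ω => ind ((Fintype.card F : ℝ) / 4000 ≤ (C ω).card ∧
            ∀ r ∈ R, ¬ ∃ g : Gad F κ, Raw (fun a => (Gr r a).erase σ.1) (spl (C ω)) ω g) *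
            Real.exp (-1)) := by
            rw [Ex_mul_Cx O _ _ fun ω ω' h => ind_congr
              ⟨hloc ω ω' h, hloc ω' ω fun v hv => (h v hv).symm⟩]
            refine Ex_mono fun ω => ?_
            by_cases h : (Fintype.card F : ℝ) / 4000 ≤ (C ω).card ∧
              ∀ r ∈ R, ¬ ∃ g : Gad F κ, Raw (fun a => (Gr r a).erase σ.1) (spl (C ω)) ω g
            swap
            · rw [ind_of_not h, zero_mul, zero_mul]
            refine mul_le_mul_of_nonneg_left (le_trans ?_ (no_raw (s := s) hP hκ.le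
              (Ln dr ω (Sum.inl σ)) (Gr := fun a => (Gr r0 a).erase σ.1) (fun a b j h1 h2 =>
                (hdis _ _ _ _ _ (mem_of_mem_erase h1) (mem_of_mem_erase h2)).2)
              (fun a => notMem_erase _ _) (spl (C ω))
              (fun a p hp => (mem_filter.1 ((hspl _).1 a hp)).2.1) fun a => ?_)) (ind_nonneg _)
            · refine Ex_mono fun ω' => ind_mono fun h1 ⟨g, hg⟩ => h1 ⟨g, ?_⟩
              rw [hCc _ ω fun τ => Finset.piecewise_eq_of_mem _ _ _ (hOl τ)]
              refine hg.congr fun v hv => (Finset.piecewise_eq_of_notMem _ _ _ ?_).symm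
              obtain ⟨u, a, rfl, hu⟩ := hcl r0 g hg.1.1 v hv
              exact fun h2 => (mem_filter.1 h2).2 u rfl a hu
            · rw [(hspl _).2.1, hκ]
              have k1 : ((Gr r0 a).card : ℝ) ≤ ((Gr r0 a).erase σ.1).card + 1 := by
                exact_mod_cast (by have := Finset.pred_card_le_card_erase (s := Gr r0 a) (a := σ.1)
                                   omega : (Gr r0 a).card ≤ ((Gr r0 a).erase σ.1).card + 1)
              have k2 := hcard r0 a
              have k3 := hP.pu (C := 4) (by norm_num) (a := 0) (b := 58) (by norm_num)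
              have k4 : Fintype.card F / (w : ℝ) ^ 58 / 4 ≤ ((Gr r0 a).erase σ.1).card := by
                rw [pow_zero] at k3; linarith
              have k5 : ((C ω).card : ℝ) < 4 * (((C ω).card / 4 : ℕ) + 1) := by
                exact_mod_cast Nat.lt_mul_div_succ _ (by norm_num)
              have k6 := hP.pq (C := 10 ^ 6) (by norm_num) (a := 0) (by norm_num)
              have k7 : (Fintype.card F : ℝ) / 20000 ≤ (((C ω).card / 4 : ℕ) : ℝ) := by
                rw [pow_zero] at k6; linarith [h.1]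
              have k8 := hP.pw (C := 80000) (by norm_num) (a := 1) (b := 2) le_rfl
              calc (w : ℝ) ≤ (w : ℝ) ^ 2 / 80000 := by rw [pow_one] at k8; linarith
                _ = Fintype.card F / (w : ℝ) ^ 58 / 4 * (Fintype.card F / 20000 *
                    ((w : ℝ) ^ 30) ^ 2 / (Fintype.card F : ℝ) ^ 2) := by field_simp; norm_num
                _ ≤ _ := by gcongr
        _ ≤ _ := by
            rw [Ex_mul_right]
            exact mul_le_mul_of_nonneg_right ih (Real.exp_pos _).le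
  have := key univ
  rw [card_univ, Fintype.card_fin, ← Real.exp_nat_mul, mul_neg_one] at this
  refine le_trans (Pr_mono fun ω h => ⟨h.1, fun r _ ⟨g, hg⟩ => h.2 ⟨g, ?_⟩⟩) this
  exact ⟨fun a => ⟨hsub r a (mem_of_mem_erase (hg.1.1 a)), ne_of_mem_erase (hg.1.1 a)⟩,
    fun a => (hspl _).1 a (hg.1.2 a), fun a b e => (hspl _).2.2 a b _ (hg.1.2 a)
      (by have := hg.1.2 b; rw [show (g.2 a).2.2 = (g.2 b).2.2 from e]; exact this), hg.2⟩

end Crest.Agent.H8.Ry
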