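import Crest.Agent.H8.RyAff

set_option autoImplicit false
set_option linter.unusedSectionVars false

namespace Crest.Agent.H8.Ry
open Finset

variable {F : Type} [Field F] [Fintype F] [DecidableEq F] {s κ : ℕ}

lemma card_dir_le (S : Finset (Vt F s κ)) (d : Option F) :
    ((S.filter fun v => dr v = d).card : ℝ) ≤ s + 2 * κ := by
  refine le_trans (Nat.cast_le.2 (card_le_card (filter_subset_filter _ (subset_univ S)))) ?_
  rw [card_filter_eq_sum_ind, sum_dr (fun d' => ind (d' = d)), ← card_filter_eq_sum_ind,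
    Finset.filter_eq' univ d]
  simp

theorem good_omega {w : ℕ} (hP : Par (Fintype.card F) w) (hq : w ^ 14351 ≤ Fintype.card F)
    (hκ : κ = w ^ 30) (hs : s = 2 * κ + 2) (G : Fin 4 → Finset (Option F)) (hG : Disj G)
    (Gr : Fin w → Fin 4 → Finset (Option F)) (hsub : ∀ r a, Gr r a ⊆ G a)
    (hdis : ∀ r r' a a' j, j ∈ Gr r a → j ∈ Gr r' a' → r = r' ∧ a = a')
    (hcard : ∀ r a, Fintype.card F / (w : ℝ) ^ 58 ≤ 2 * (Gr r a).card)
    (Main Extra Mg : Finset (Vt F s κ)) (hMain : Main.card ≤ 3 * (Fintype.card F + 1))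
    (hMain3 : ∀ d, ((Main.filter fun v => dr v = d).card : ℝ) ≤ 3)
    (hEx : (Extra.card : ℝ) ≤ Fintype.card F / (w : ℝ) ^ 26)
    (hMg : (Mg.card : ℝ) ≤ Fintype.card F / (w : ℝ) ^ 26)
    (hSp : ∀ v ∈ Main ∪ Extra, ∃ σ, v = Sum.inl σ) :
    ∃ ω : Vt F s κ → F, CLgood dr (Main ∪ Extra) Mg ω ∧
      (∀ σ, ∃ g, Cg G (Main ∪ Extra) ω σ g) ∧
      (∀ x, ((Main ∪ Extra).filter fun v => Thru x (Ln dr ω v)).card ≤ w ^ 61) ∧
      (∀ y, ¬ ∃ O, Der G (Sum.inr y) ω 50 O 3) ∧ ∀ d, ¬ ∃ O, Der G (Sum.inl d) ω 50 O 2 := by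
  have hQ := hP.Q0
  have hW := hP.W0
  have hW' := hP.W
  have hκ' : (κ : ℝ) = (w : ℝ) ^ 30 := by rw [hκ]; push_cast; rfl
  have h30 : (1:ℝ) ≤ (w : ℝ) ^ 30 := one_le_pow₀ hP.W1
  have hs' : (s : ℝ) ≤ (w : ℝ) ^ 31 := by
    have := hP.pw (C := 4) (by norm_num) (a := 30) (b := 31) le_rfl
    rw [hs]; push_cast; linarith
  have hμ : ∀ (S : Finset (Vt F s κ)) d, ((S.filter fun v => dr v = d).card : ℝ) ≤ (w : ℝ) ^ 60 := by
    intro S d
    refine (card_dir_le S d).trans ?_
    have := hP.pw (C := 6) (by norm_num) (a := 30) (b := 60) (by norm_num)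
    rw [hs]; push_cast; linarith
  have hq10 : 100 ≤ Fintype.card F := by
    have := hP.pq (C := 100) (by norm_num) (a := 0) (by norm_num)
    rw [pow_zero, mul_one] at this
    exact_mod_cast this
  have hq10' : (100:ℝ) ≤ Fintype.card F := by exact_mod_cast hq10
  have P1 := classify hP dr Main Extra Mg (by omega) hMain3 hEx hMg (by
    have h1 : ((Main ∪ Extra).card : ℝ) ≤ Main.card + Extra.card := by
      exact_mod_cast card_union_le Main Extra
    have h2 : (Main.card : ℝ) ≤ 3 * (Fintype.card F + 1) := by exact_mod_cast hMain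
    have h3 := hP.uq (C := 2) (by norm_num) (b := 26) (by norm_num)
    linarith) (hμ _)
  have P2 := ex_gad hP hκ' hs' G Gr hsub hdis hcard (Main ∪ Extra) hSp
  have P3 : Pr (fun ω : Vt F s κ → F => ∃ y : F × F, (w : ℝ) ^ 61 ≤
      (((Main ∪ Extra).filter fun v => Ln dr ω v ∈ univ.filter (Thru (Sum.inr y))).card : ℝ)) ≤
      1 / 1000 := by
    refine (Pr_exists_le' (c := Real.exp (-((w : ℝ) ^ 61))) _ fun y =>
      hitsL dr _ _ (hμ _) _ _ ?_).trans ?_
    · have h1 : ((univ.filter (Thru (Sum.inr y))).card : ℝ) ≤ Fintype.card F + 1 := by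
        exact_mod_cast card_thru (Sum.inr y)
      have h2 := hP.pw (C := 16) (by norm_num) (a := 60) (b := 61) le_rfl
      rw [div_le_iff₀ hQ]
      calc _ ≤ 8 * (w : ℝ) ^ 60 * (2 * Fintype.card F) := by gcongr; linarith
        _ = 16 * (w : ℝ) ^ 60 * Fintype.card F := by ring
        _ ≤ _ := by gcongr
    · refine exp_mul_small hP (a := w / 4) (le_trans ?_ hP.lines_le) ?_
      · rw [Fintype.card_prod]; push_cast; nlinarith
      · have := hP.pw (C := 1) (by norm_num) (a := 1) (b := 61) (by norm_num)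
        rw [pow_one] at this; linarith
  have hsm : (w : ℝ) ^ 14350 / Fintype.card F ≤ 1 / 1000 := by
    have h1 : (w : ℝ) ^ 14351 ≤ Fintype.card F := by exact_mod_cast hq
    have h2 := hP.pw (C := 1000) (by norm_num) (a := 14350) (b := 14351) le_rfl
    rw [div_le_div_iff₀ hQ (by norm_num)]
    linarith
  have hA : 0 ≤ (w : ℝ) ^ 14350 := by positivity
  have P4 : Pr (fun ω : Vt F s κ → F => ∃ y : F × F, ∃ O, Der G (Sum.inr y) ω 50 O 3) ≤ 1 / 1000 := by
    refine (Pr_exists_le' _ fun y => der_pr hP hκ'.le hs' hG 3).trans (le_trans (le_of_eq ?_) hsm)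
    generalize (w : ℝ) ^ 14350 = A
    rw [Fintype.card_prod]; push_cast; field_simp
  have P5 : Pr (fun ω : Vt F s κ → F => ∃ d, ∃ O, Der G (Sum.inl d) ω 50 O 2) ≤ 2 / 1000 := by
    refine (Pr_exists_le' _ fun y => der_pr hP hκ'.le hs' hG 2).trans ?_
    revert hsm hA
    generalize (w : ℝ) ^ 14350 = A
    intro hsm hA
    rw [Fintype.card_option]; push_cast
    calc _ ≤ (2 * Fintype.card F) * (A / (Fintype.card F : ℝ) ^ 2) := by gcongr; linarith
      _ = 2 * (A / Fintype.card F) := by field_simp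
      _ ≤ _ := by linarith
  have hall := (Pr_or_le _ _).trans (add_le_add P1
    ((Pr_or_le _ _).trans (add_le_add P2 ((Pr_or_le _ _).trans (add_le_add P3
      ((Pr_or_le _ _).trans (add_le_add P4 P5)))))))
  obtain ⟨ω, hω⟩ := exists_of_Pr_lt_one (hall.trans_lt (by norm_num))
  simp only [not_or, not_not] at hω
  obtain ⟨g1, g2, g3, g4, g5⟩ := hω
  refine ⟨ω, g1, fun σ => ?_, fun x => ?_, fun y h => g4 ⟨y, h⟩, fun d h => g5 ⟨d, h⟩⟩
  · by_contra h
    exact g2 ⟨σ, g1.1 _, h⟩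
  · cases x with
    | inl d =>
      have h1 := hμ (Main ∪ Extra) d
      have h2 : (w : ℝ) ^ 60 ≤ (w : ℝ) ^ 61 := pow_le_pow_right₀ hP.W1 (by norm_num)
      exact_mod_cast h1.trans h2
    | inr y =>
      have h1 := not_le.1 fun h => g3 ⟨y, h⟩
      simp only [mem_filter, mem_univ, true_and] at h1
      exact_mod_cast h1.le

theorem exists_ok {w : ℕ} (hP : Par (Fintype.card F) w) (hq : w ^ 14351 ≤ Fintype.card F) :
    ∃ c : Dat F (2 * w ^ 30 + 2) (w ^ 30), c.Ok := by
  classical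
  have hQ := hP.Q0
  have hW := hP.W0
  set κ := w ^ 30 with hκ
  set s := 2 * κ + 2 with hs
  have hκ' : (κ : ℝ) = (w : ℝ) ^ 30 := by rw [hκ]; push_cast; rfl
  have h30 : (1:ℝ) ≤ (w : ℝ) ^ 30 := one_le_pow₀ hP.W1
  have hκ1 : 1 ≤ κ := by rw [← hκ'] at h30; exact_mod_cast h30
  set m := Fintype.card F / w ^ 58 with hm
  have hm1 : (m : ℝ) ≤ Fintype.card F / (w : ℝ) ^ 58 := hP.div_le _ 58
  have hm2 : Fintype.card F / (w : ℝ) ^ 58 ≤ 2 * m :=
    hP.le_div _ 58 (by simpa using hP.pq (C := 1) (by norm_num) (a := 58) (by norm_num))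
  have hcd : (Fintype.card (Fin 4 × Fin w × Fin m) : ℝ) ≤ 4 * (Fintype.card F / (w : ℝ) ^ 57) := by
    simp only [Fintype.card_prod, Fintype.card_fin]
    push_cast
    calc _ ≤ 4 * (w * (Fintype.card F / (w : ℝ) ^ 58)) := by gcongr
      _ = _ := by field_simp
  obtain ⟨e⟩ : Nonempty (Fin 4 × Fin w × Fin m ↪ Option F) := by
    refine Function.Embedding.nonempty_of_card_le ?_
    have h1 := hP.uq (C := 4) (by norm_num) (b := 57) (by norm_num)
    have h2 : Fintype.card (Fin 4 × Fin w × Fin m) ≤ Fintype.card F := by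
      exact_mod_cast hcd.trans h1
    rw [Fintype.card_option]; omega
  set Δ : Finset (Option F) := univ.image e with hΔ
  have hΔc : (Δ.card : ℝ) ≤ 4 * (Fintype.card F / (w : ℝ) ^ 57) :=
    le_trans (Nat.cast_le.2 card_image_le) hcd
  set G : Fin 4 → Finset (Option F) := fun a => univ.image fun x => e (a, x) with hG
  have hGd : Disj G := by
    intro a b j h1 h2
    obtain ⟨x, _, rfl⟩ := mem_image.1 h1
    obtain ⟨x', _, h⟩ := mem_image.1 h2
    exact (congrArg Prod.fst (e.injective h)).symm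
  set T3 : Finset (Fin s) := univ.image (Fin.castLE (show 3 ≤ s by omega)) with hT3
  have hT3c : T3.card = 3 := by
    rw [hT3, card_image_of_injective _ (Fin.castLE_injective _)]; simp
  set Main : Finset (Vt F s κ) := (univ ×ˢ T3).image Sum.inl with hMain
  set Extra : Finset (Vt F s κ) := (Δ ×ˢ univ).image Sum.inl with hExtra
  set Mg : Finset (Vt F s κ) := (Δ ×ˢ univ).image Sum.inr with hMg
  have hsm : (Δ.card : ℝ) * (4 * (w : ℝ) ^ 30) ≤ Fintype.card F / (w : ℝ) ^ 26 := by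
    have h1 := hP.uu (C := 16) (by norm_num) (a := 26) (b := 27) le_rfl
    calc _ ≤ 4 * (Fintype.card F / (w : ℝ) ^ 57) * (4 * (w : ℝ) ^ 30) := by gcongr
      _ = 16 * (Fintype.card F / (w : ℝ) ^ 27) := by field_simp; norm_num
      _ ≤ _ := h1
  have hMgc : (Mg.card : ℝ) ≤ Fintype.card F / (w : ℝ) ^ 26 := by
    refine le_trans (Nat.cast_le.2 card_image_le) (le_trans ?_ hsm)
    rw [card_product, card_univ, Fintype.card_prod, Fintype.card_bool, Fintype.card_fin]
    push_cast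
    exact mul_le_mul_of_nonneg_left (by linarith) (by positivity)
  obtain ⟨ω, g1, g2, g3, g4, g5⟩ := good_omega hP hq hκ hs G hGd
    (fun r a => univ.image fun i => e (a, r, i))
    (fun r a j hj => by
      obtain ⟨i, _, rfl⟩ := mem_image.1 hj
      exact mem_image.2 ⟨(r, i), mem_univ _, rfl⟩)
    (fun r r' a a' j h1 h2 => by
      obtain ⟨x, _, rfl⟩ := mem_image.1 h1
      obtain ⟨x', _, h⟩ := mem_image.1 h2
      have := e.injective h
      simp only [Prod.mk.injEq] at this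
      exact ⟨this.2.1.symm, this.1.symm⟩)
    (fun r a => by
      rw [card_image_of_injective _ fun i j h => by simpa using e.injective h]
      simpa using hm2)
    Main Extra Mg
    (by
      refine card_image_le.trans ?_
      rw [card_product, card_univ, Fintype.card_option, hT3c, mul_comm])
    (fun d => by
      have : (Main.filter fun v => dr v = d).card ≤ (T3.image fun i => (Sum.inl (d, i) : Vt F s κ)).card := by
        refine card_le_card fun v hv => ?_
        obtain ⟨h1, rfl⟩ := mem_filter.1 hv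
        obtain ⟨σ, hσ, rfl⟩ := mem_image.1 h1
        exact mem_image.2 ⟨σ.2, (mem_product.1 hσ).2, rfl⟩
      exact_mod_cast this.trans (card_image_le.trans hT3c.le))
    (by
      refine le_trans (Nat.cast_le.2 card_image_le) (le_trans ?_ hsm)
      rw [card_product, card_univ, Fintype.card_fin, hs]
      push_cast
      gcongr; linarith)
    hMgc
    (fun v hv => by
      rcases mem_union.1 hv with h | h <;> obtain ⟨σ, _, rfl⟩ := mem_image.1 h <;> exact ⟨σ, rfl⟩)
  choose gd hgd using g2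
  set rk : Option F × Fin s → ℕ := fun σ => Fintype.equivFin _ σ with hrk
  set T : Option F → Finset (Option F × Fin s) := fun d =>
    univ.filter fun σ => σ.1 = d ∧ Sum.inl σ ∈ Main ∪ Extra with hT
  have hA : ∀ d, ∃ A ⊆ (T d).filter fun σ =>
      ¬ Bad (Sum.inl d) ω gd ((T d).filter fun τ => rk τ < rk σ) σ,
      A.card = max 1 (univ.filter fun x => (d, x) ∈ Mg.image (Ln dr ω)).card := by
    intro d
    refine Finset.exists_subset_card_eq ?_
    have h1 := few_bad (z := Sum.inl d) (ω := ω) (gd := gd) hGd rk (T d) (fun τ hτ =>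
      ⟨(mem_filter.1 hτ).2.1, ⟨(hgd τ).1, fun a => ⟨(mem_filter.1 ((hgd τ).2.1 a)).2.1, by simp⟩⟩,
        (hgd τ).2.2.2, (hgd τ).2.2.1⟩) 2 (by norm_num) (g5 d)
    have h2 := Finset.card_filter_add_card_filter_not (s := T d)
      (fun σ => Bad (Sum.inl d) ω gd ((T d).filter fun τ => rk τ < rk σ) σ)
    by_cases hd : d ∈ Δ
    · have h3 : s ≤ (T d).card := by
        have := Finset.card_le_card_of_injOn (s := (univ : Finset (Fin s))) (t := T d)
          (fun i => (d, i)) (fun i _ => mem_filter.2 ⟨mem_univ _, rfl, mem_union_right _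
            (mem_image_of_mem _ (mem_product.2 ⟨hd, mem_univ _⟩))⟩)
          fun a _ b _ e => congrArg Prod.snd e
        simpa using this
      have h4 : (univ.filter fun x => (d, x) ∈ Mg.image (Ln dr ω)).card ≤ 2 * κ := by
        refine le_trans (card_le_card (t := (univ : Finset (Bool × Fin κ)).image
          fun u => ω (Sum.inr (d, u))) fun x hx => ?_) (card_image_le.trans (by simp))
        obtain ⟨v, hv, h⟩ := mem_image.1 (mem_filter.1 hx).2
        obtain ⟨u, _, rfl⟩ := mem_image.1 hv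
        obtain ⟨rfl, rfl⟩ := Prod.mk.inj h
        exact mem_image.2 ⟨u.2, mem_univ _, rfl⟩
      omega
    · have h3 : 3 ≤ (T d).card := by
        have := Finset.card_le_card_of_injOn (s := T3) (t := T d)
          (fun i => (d, i)) (fun i hi => mem_filter.2 ⟨mem_univ _, rfl, mem_union_left _
            (mem_image_of_mem _ (mem_product.2 ⟨mem_univ _, hi⟩))⟩)
          fun a _ b _ e => congrArg Prod.snd e
        omega
      have h4 : (univ.filter fun x => (d, x) ∈ Mg.image (Ln dr ω)).card = 0 := by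
        rw [Finset.card_eq_zero, Finset.filter_eq_empty_iff]
        intro x _ hx
        obtain ⟨v, hv, h⟩ := mem_image.1 hx
        obtain ⟨u, hu, rfl⟩ := mem_image.1 hv
        obtain ⟨rfl, rfl⟩ := Prod.mk.inj h
        exact hd (mem_product.1 hu).1
      omega
  choose A hA1 hA2 using hA
  have hAd : ∀ d, ∀ σ ∈ A d, σ.1 = d := fun d σ hσ =>
    (mem_filter.1 (mem_filter.1 (hA1 d hσ)).1).2.1
  have hAct : ∀ σ ∈ univ.biUnion A, σ ∈ A σ.1 := fun σ hσ => by
    obtain ⟨d, _, h⟩ := mem_biUnion.1 hσ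
    rw [hAd d σ h]; exact h
  refine ⟨⟨G, ω, gd, Main ∪ Extra, Mg, univ.biUnion A, rk, w ^ 61⟩, hGd, ?_, ?_, fun σ _ => hgd σ,
    ?_, ?_, ?_, ?_, g1, g3, ?_, g4⟩
  · exact fun a b h => (Fintype.equivFin _).injective (Fin.ext h)
  · exact fun σ hσ => (mem_filter.1 (mem_filter.1 (hA1 _ (hAct σ hσ))).1).2.2
  · intro v hv
    obtain ⟨u, _, rfl⟩ := mem_image.1 hv
    exact ⟨u, rfl⟩
  · intro a j hj β i
    obtain ⟨x, _, rfl⟩ := mem_image.1 hj
    exact mem_image_of_mem _ (mem_product.2 ⟨mem_image_of_mem _ (mem_univ _), mem_univ _⟩)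
  · intro σ hσ h
    refine (mem_filter.1 (hA1 _ (hAct σ hσ))).2 (h.mono fun τ hτ => ?_)
    obtain ⟨h1, h2, h3⟩ := mem_filter.1 hτ
    exact mem_filter.2 ⟨h2 ▸ (mem_filter.1 (hA1 _ (hAct τ h1))).1, h3⟩
  · intro d
    refine Eq.trans (congrArg card ?_) (hA2 d)
    ext σ
    constructor
    · intro h
      obtain ⟨h1, rfl⟩ := mem_filter.1 h
      exact hAct σ h1
    · intro h
      exact mem_filter.2 ⟨mem_biUnion.2 ⟨d, mem_univ _, h⟩, hAd d σ h⟩
  · have h1 := hP.uq (C := 10 ^ 5) (by norm_num) (b := 26) (by norm_num)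
    have h2 := hP.pq (C := 10 ^ 5) (by norm_num) (a := 61) (by norm_num)
    have h3 := hP.pq (C := 10 ^ 5) (by norm_num) (a := 0) (by norm_num)
    simp only []
    push_cast
    rw [pow_zero] at h3
    linarith

lemma exists_par : ∃ q₀ : ℕ, ∀ q, q₀ ≤ q → ∃ w, Par q w ∧ w ^ 14351 ≤ q := by
  have h1 : ∀ᶠ x : ℝ in Filter.atTop, ‖Real.log x ^ 14351‖ ≤ (1 / 11 ^ 14351) * ‖x‖ :=
    (Real.isLittleO_pow_log_id_atTop (n := 14351)).bound (by positivity)
  have h2 : ∀ᶠ x : ℝ in Filter.atTop, (10 : ℝ) ^ 12 ≤ Real.log x :=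
    Real.tendsto_log_atTop.eventually_ge_atTop _
  have h3 := tendsto_natCast_atTop_atTop.eventually (h1.and (h2.and (Filter.eventually_gt_atTop 0)))
  obtain ⟨q₀, h⟩ := Filter.eventually_atTop.1 h3
  refine ⟨q₀, fun q hq => ?_⟩
  obtain ⟨k1, k2, k3⟩ := h q hq
  have k4 := Nat.le_ceil (10 * Real.log q)
  have k5 := Nat.ceil_lt_add_one (show 0 ≤ 10 * Real.log q by linarith)
  set w := ⌈10 * Real.log q⌉₊ with hw
  have k6 : (w : ℝ) ^ 14351 ≤ q := by
    rw [Real.norm_of_nonneg (by positivity), Real.norm_of_nonneg k3.le, one_div,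
      ← div_eq_inv_mul, le_div_iff₀ (by positivity), ← mul_pow] at k1
    exact le_trans (pow_le_pow_left₀ (by positivity) (by linarith) _) k1
  have k7 : w ^ 14351 ≤ q := by exact_mod_cast k6
  have k8 : 10 ^ 12 ≤ w := by
    have : (10 : ℝ) ^ 12 ≤ w := by linarith
    exact_mod_cast this
  refine ⟨w, ⟨k8, le_trans (Nat.pow_le_pow_right (by omega) (by norm_num)) k7, ?_⟩, k7⟩
  rw [← Real.exp_log k3]
  exact Real.exp_le_exp.2 (by linarith)

theorem main_thm : ∃ q₀ : ℕ, ∀ (F : Type) [Field F] [Finite F] (q : ℕ), Nat.card F = q → q₀ ≤ q →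
    ∃ (N : ℕ) (part : Fin N → Fin (q + 1)) (E : Finset (Finset (Fin N))),
        E.Nonempty ∧
        (∀ e ∈ E, ∀ i : Fin (q + 1), (e.filter (fun v => part v = i)).card = 1) ∧
        (∀ e ∈ E, ∀ f ∈ E, (e ∩ f).Nonempty) ∧
        (∀ i : Fin (q + 1), (Finset.univ.filter (fun v => part v = i)).card = q + 1) ∧
        (∀ v : Fin N, ∃ e ∈ E, v ∈ e) ∧
        (∀ S : Finset (Fin N), (∀ e ∈ E, (e ∩ S).Nonempty) → q + 1 ≤ S.card) := by
  obtain ⟨q₀, h⟩ := exists_par
  refine ⟨q₀, fun F _ _ q hF hq => ?_⟩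
  classical
  have := Fintype.ofFinite F
  rw [Nat.card_eq_fintype_card] at hF
  subst hF
  obtain ⟨w, hP, hw⟩ := h _ hq
  obtain ⟨c, hc⟩ := exists_ok hP hw
  exact hc.final

end Crest.Agent.H8.Ry
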