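import Crest.Agent.H8.RyCL

set_option autoImplicit false
set_option linter.unusedSectionVars false

namespace Crest.Agent.H8.Ry
open Finset

variable {F : Type} [Field F] [Fintype F] [DecidableEq F]

section cx
variable {V : Type} [Fintype V] [DecidableEq V]

/-- conditional expectation given the coordinates in `O` -/
noncomputable def Cx (O : Finset V) (ω0 : V → F) (f : (V → F) → ℝ) : ℝ :=
  Ex fun ω' => f (O.piecewise ω0 ω')

lemma Ex_mul_Cx (O : Finset V) (f g : (V → F) → ℝ)
    (hf : ∀ ω ω', (∀ v ∈ O, ω v = ω' v) → f ω = f ω') :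
    Ex (fun ω => f ω * g ω) = Ex (fun ω => f ω * Cx O ω g) := by
  rw [Ex_piecewise Oᶜ]
  refine Ex_congr fun ω => ?_
  unfold Cx
  rw [← Ex_mul_left]
  refine Ex_congr fun ω' => ?_
  rw [Finset.piecewise_compl, hf _ ω fun v hv => Finset.piecewise_eq_of_mem _ _ _ hv]

/-- conditional probability that a slot takes a value -/
noncomputable def wt (O : Finset V) (ω0 : V → F) (v : V) (c : F) : ℝ :=
  if v ∈ O then ind (ω0 v = c) else 1 / Fintype.card F

lemma wt_nonneg (O : Finset V) (ω0 : V → F) (v : V) (c : F) : 0 ≤ wt O ω0 v c := by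
  unfold wt; split_ifs
  · exact ind_nonneg _
  · positivity

lemma Cx_prod {ι : Type} [Fintype ι] (O : Finset V) (ω0 : V → F) (σ : ι → V)
    (hσ : Function.Injective σ) (val : ι → F) :
    Cx O ω0 (fun ω => ind (∀ i, ω (σ i) = val i)) = ∏ i, wt O ω0 (σ i) (val i) := by
  classical
  let val' : V → F := Function.extend σ val 0
  have hv : ∀ i, val' (σ i) = val i := fun i => hσ.extend_apply _ _ _
  unfold Cx
  have h1 : ∀ ω' : V → F, ind (∀ i, O.piecewise ω0 ω' (σ i) = val i) =
      ∏ v ∈ univ.image σ, ind ((if v ∈ O then ω0 v else ω' v) = val' v) := by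
    intro ω'
    rw [← ind_forall]
    refine ind_congr ?_
    simp [Finset.piecewise, hv]
  rw [Ex_congr h1, Ex_prod (univ.image σ) (fun v a => ind ((if v ∈ O then ω0 v else a) = val' v)),
    Finset.prod_image fun a _ b _ h => hσ h]
  refine Finset.prod_congr rfl fun i _ => ?_
  unfold wt
  rw [hv]
  split_ifs with h
  · exact Ex_const _
  · have := Pr_mem ({val i} : Finset F)
    rw [card_singleton, Nat.cast_one] at this
    rw [← this]
    exact Ex_congr fun a => ind_congr (by simp)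

lemma Cx_mono (O : Finset V) (ω0 : V → F) {f g : (V → F) → ℝ}
    (h : ∀ ω, (∀ v ∈ O, ω v = ω0 v) → f ω ≤ g ω) : Cx O ω0 f ≤ Cx O ω0 g :=
  Ex_mono fun _ => h _ fun _ hv => Finset.piecewise_eq_of_mem _ _ _ hv

lemma Cx_sum {β : Type*} (O : Finset V) (ω0 : V → F) (s : Finset β) (f : β → (V → F) → ℝ) :
    Cx O ω0 (fun ω => ∑ b ∈ s, f b ω) = ∑ b ∈ s, Cx O ω0 (f b) := Ex_sum _ _

lemma Cx_mul_left (O : Finset V) (ω0 : V → F) (c : ℝ) (f : (V → F) → ℝ) :
    Cx O ω0 (fun ω => c * f ω) = c * Cx O ω0 f := Ex_mul_left _ _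

lemma Cx_add (O : Finset V) (ω0 : V → F) (f g : (V → F) → ℝ) :
    Cx O ω0 (fun ω => f ω + g ω) = Cx O ω0 f + Cx O ω0 g := Ex_add _ _

lemma Cx_const (O : Finset V) (ω0 : V → F) (c : ℝ) : Cx O ω0 (fun _ => c) = c := Ex_const _

lemma Cx_one (O : Finset V) (ω0 : V → F) (v : V) (c : F) :
    Cx O ω0 (fun ω => ind (ω v = c)) = wt O ω0 v c := by
  have := Cx_prod (ι := Unit) O ω0 (fun _ => v) (fun _ _ _ => rfl) (fun _ => c)
  simpa using this

end cx

/-- slots -/
abbrev Vt (F : Type) (s κ : ℕ) := (Option F × Fin s) ⊕ (Option F × Bool × Fin κ)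

variable {s κ : ℕ}

/-- direction of a slot -/
def dr (v : Vt F s κ) : Option F := Sum.elim Prod.fst Prod.fst v

/-- gadget data -/
abbrev Gad (F : Type) (κ : ℕ) := (Fin 4 → Option F) × (Fin 4 → Fin κ × Fin κ × (F × F))

/-- points of a gadget -/
def Gad.p (g : Gad F κ) (a : Fin 4) : F × F := (g.2 a).2.2

/-- merged slots of a gadget -/
def Gad.sl (s : ℕ) (g : Gad F κ) (a : Fin 4) (β : Bool) : Vt F s κ :=
  match β with
  | false => Sum.inr (g.1 a, false, (g.2 a).1)
  | true => Sum.inr (g.1 (a - 1), true, (g.2 a).2.1)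

/-- class of a slot of a gadget -/
def Gad.cl (g : Gad F κ) (a : Fin 4) (β : Bool) : Option F :=
  match β with
  | false => g.1 a
  | true => g.1 (a - 1)

lemma Gad.dr_sl (g : Gad F κ) (a : Fin 4) (β : Bool) : dr (g.sl s a β) = g.cl a β := by
  cases β <;> rfl

/-- pairwise disjoint groups of directions -/
def Disj (G : Fin 4 → Finset (Option F)) : Prop := ∀ a b j, j ∈ G a → j ∈ G b → a = b

lemma Gad.sl_inj {G : Fin 4 → Finset (Option F)} (hG : Disj G) (g : Gad F κ)
    (hg : ∀ a, g.1 a ∈ G a) : Function.Injective fun x : Fin 4 × Bool => g.sl s x.1 x.2 := by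
  rintro ⟨a, β⟩ ⟨a', β'⟩ h
  cases β <;> cases β' <;> simp only [Gad.sl, Sum.inr.injEq, Prod.mk.injEq] at h
  · rw [hG a a' _ (hg a) (h.1 ▸ hg a')]
  · simp at h
  · simp at h
  · have := hG (a - 1) (a' - 1) _ (hg _) (h.1 ▸ hg _)
    rw [sub_left_injective this]

/-- a class with a revealed slot -/
def old (O : Finset (Vt F s κ)) (j : Option F) : Prop := ∃ β i, Sum.inr (j, β, i) ∈ O

noncomputable def oldb (O : Finset (Vt F s κ)) (j : Option F) : Bool :=
  @decide (old O j) (Classical.propDecidable _)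

lemma oldb_true {O : Finset (Vt F s κ)} {j : Option F} : oldb O j = true ↔ old O j := by
  simp [oldb]

lemma oldb_false {O : Finset (Vt F s κ)} {j : Option F} : oldb O j = false ↔ ¬ old O j := by
  simp [oldb]

lemma card_old_le (O : Finset (Vt F s κ)) (A : Finset (Option F)) :
    (A.filter fun j => oldb O j = true).card ≤ O.card := by
  refine le_trans (card_le_card fun j hj => ?_) (card_image_le (f := dr))
  obtain ⟨β, i, h⟩ := oldb_true.1 (mem_filter.1 hj).2
  exact mem_image.2 ⟨_, h, rfl⟩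

/-- the local sum at a point of a gadget -/
noncomputable def locS (O : Finset (Vt F s κ)) (ω0 : Vt F s κ → F)
    (Q : Fin κ × Fin κ × (F × F) → Prop) (j' j : Option F) : ℝ :=
  ∑ x : Fin κ × Fin κ × (F × F), ind (Q x) *
    (wt O ω0 (Sum.inr (j, false, x.1)) (ph j x.2.2) * wt O ω0 (Sum.inr (j', true, x.2.1)) (ph j' x.2.2))

lemma locS_nonneg (O : Finset (Vt F s κ)) (ω0 : Vt F s κ → F)
    (Q : Fin κ × Fin κ × (F × F) → Prop) (j' j : Option F) : 0 ≤ locS O ω0 Q j' j :=
  Finset.sum_nonneg fun _ _ => mul_nonneg (ind_nonneg _)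
    (mul_nonneg (wt_nonneg _ _ _ _) (wt_nonneg _ _ _ _))

lemma sum_old_le (O : Finset (Vt F s κ)) (ω0 : Vt F s κ → F) (l : Option F × F) (j : Option F)
    (hj : j ≠ l.1) (β : Bool) :
    ∑ i : Fin κ, ∑ p : F × F, ind (On p l ∧ Sum.inr (j, β, i) ∈ O ∧ ω0 (Sum.inr (j, β, i)) = ph j p)
      ≤ O.card * ind (old O j) := by
  classical
  by_cases ho : old O j
  swap
  · rw [ind_of_not ho, mul_zero]
    refine le_of_eq (Finset.sum_eq_zero fun i _ => Finset.sum_eq_zero fun p _ => ind_of_not ?_)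
    exact fun h => ho ⟨β, i, h.2.1⟩
  rw [ind_of ho, mul_one]
  calc _ ≤ ∑ i : Fin κ, ind (Sum.inr (j, β, i) ∈ O) := by
        refine Finset.sum_le_sum fun i _ => ?_
        rw [← card_filter_eq_sum_ind]
        by_cases h : Sum.inr (j, β, i) ∈ O
        · rw [ind_of h]
          refine Nat.cast_le_one.2 (Finset.card_le_one.2 fun p hp p' hp' => ?_)
          obtain ⟨h1, _, h2⟩ := (mem_filter.1 hp).2
          obtain ⟨h3, _, h4⟩ := (mem_filter.1 hp').2
          exact eq_of_ph hj (h2.symm.trans h4) (h1.trans h3.symm)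
        · rw [ind_of_not h, Finset.filter_eq_empty_iff.2 fun p _ h' => h h'.2.1]; simp
    _ ≤ _ := by
        rw [← card_filter_eq_sum_ind]
        exact Nat.cast_le.2 (Finset.card_le_card_of_injOn (fun i => Sum.inr (j, β, i))
          (fun i hi => (mem_filter.1 hi).2) fun a _ b _ h => by simpa using h)

lemma locS_le (O : Finset (Vt F s κ)) (ω0 : Vt F s κ → F) (l : Option F × F)
    (Q : Fin κ × Fin κ × (F × F) → Prop) (j' j : Option F) (hj : j ≠ l.1) (hj' : j' ≠ l.1)
    (W : Finset (F × F)) (hW : ∀ x, Q x → x.2.2 ∈ W) (hl : ∀ x, Q x → On x.2.2 l) (c : Prop)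
    (hc : ∀ x, Q x → Sum.inr (j, false, x.1) ∈ O → Sum.inr (j', true, x.2.1) ∈ O →
      ω0 (Sum.inr (j, false, x.1)) = ph j x.2.2 → ω0 (Sum.inr (j', true, x.2.1)) = ph j' x.2.2 → c) :
    locS O ω0 Q j' j ≤ W.card * (κ : ℝ) ^ 2 / (Fintype.card F : ℝ) ^ 2 +
      O.card * κ / Fintype.card F * (ind (old O j) + ind (old O j')) +
      (O.card : ℝ) ^ 2 * (ind c * (ind (old O j) * ind (old O j'))) := by
  classical
  have hq := qpos (F := F)
  set A : Fin κ → F × F → ℝ := fun i p =>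
    ind (On p l ∧ Sum.inr (j, false, i) ∈ O ∧ ω0 (Sum.inr (j, false, i)) = ph j p) with hA
  set A' : Fin κ → F × F → ℝ := fun i p =>
    ind (On p l ∧ Sum.inr (j', true, i) ∈ O ∧ ω0 (Sum.inr (j', true, i)) = ph j' p) with hA'
  have hA0 : ∀ i p, 0 ≤ A i p := fun _ _ => ind_nonneg _
  have hA0' : ∀ i p, 0 ≤ A' i p := fun _ _ => ind_nonneg _
  have h1 := sum_old_le O ω0 l j hj false
  have h2 := sum_old_le O ω0 l j' hj' true
  set N : ℝ := 1 / Fintype.card F with hN
  have hN0 : 0 ≤ N := by positivity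
  have key : ∀ x : Fin κ × Fin κ × (F × F), ind (Q x) *
      (wt O ω0 (Sum.inr (j, false, x.1)) (ph j x.2.2) *
        wt O ω0 (Sum.inr (j', true, x.2.1)) (ph j' x.2.2)) ≤
      ind (x.2.2 ∈ W) * N ^ 2 + (N * A x.1 x.2.2 + N * A' x.2.1 x.2.2) +
        ind c * (A x.1 x.2.2 * A' x.2.1 x.2.2) := by
    intro x
    have p1 := mul_nonneg hN0 (hA0 x.1 x.2.2)
    have p2 := mul_nonneg hN0 (hA0' x.2.1 x.2.2)
    have p3 := mul_nonneg (ind_nonneg c) (mul_nonneg (hA0 x.1 x.2.2) (hA0' x.2.1 x.2.2))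
    have p4 := mul_nonneg (ind_nonneg (x.2.2 ∈ W)) (sq_nonneg N)
    by_cases hQ : Q x
    swap
    · rw [ind_of_not hQ, zero_mul]; linarith
    rw [ind_of hQ, one_mul]
    unfold wt
    split_ifs with o1 o2 o2
    · by_cases e1 : ω0 (Sum.inr (j, false, x.1)) = ph j x.2.2
      · by_cases e2 : ω0 (Sum.inr (j', true, x.2.1)) = ph j' x.2.2
        · have a1 : A x.1 x.2.2 = 1 := ind_of ⟨hl x hQ, o1, e1⟩
          have a2 : A' x.2.1 x.2.2 = 1 := ind_of ⟨hl x hQ, o2, e2⟩
          rw [ind_of e1, ind_of e2, ind_of (hc x hQ o1 o2 e1 e2), a1, a2]; linarith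
        · rw [ind_of_not e2, mul_zero]; linarith
      · rw [ind_of_not e1, zero_mul]; linarith
    · have a1 : A x.1 x.2.2 = ind (ω0 (Sum.inr (j, false, x.1)) = ph j x.2.2) :=
        ind_congr ⟨fun h => h.2.2, fun h => ⟨hl x hQ, o1, h⟩⟩
      rw [← a1]; linarith
    · have a1 : A' x.2.1 x.2.2 = ind (ω0 (Sum.inr (j', true, x.2.1)) = ph j' x.2.2) :=
        ind_congr ⟨fun h => h.2.2, fun h => ⟨hl x hQ, o2, h⟩⟩
      rw [← a1]; linarith
    · rw [ind_of (hW x hQ)]; linarith
  refine (Finset.sum_le_sum fun x _ => key x).trans ?_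
  rw [Finset.sum_add_distrib, Finset.sum_add_distrib, Finset.sum_add_distrib]
  refine add_le_add (add_le_add (le_of_eq ?_) ?_) ?_
  · rw [← Finset.sum_mul]
    simp only [Fintype.sum_prod_type (α₂ := Fin κ × (F × F)), Fintype.sum_prod_type (α₂ := F × F)]
    rw [← card_filter_eq_sum_ind]
    simp [hN]; field_simp
  · rw [mul_add]
    refine add_le_add ?_ ?_
    · rw [← Finset.mul_sum]
      simp only [Fintype.sum_prod_type (α₂ := Fin κ × (F × F)), Fintype.sum_prod_type (α₂ := F × F),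
        Finset.sum_const, card_univ, Fintype.card_fin, nsmul_eq_mul, ← Finset.mul_sum]
      calc N * (κ * ∑ i, ∑ p, A i p) ≤ N * (κ * (O.card * ind (old O j))) := by gcongr
        _ = _ := by rw [hN]; ring
    · rw [← Finset.mul_sum]
      simp only [Fintype.sum_prod_type (α₂ := Fin κ × (F × F)), Fintype.sum_prod_type (α₂ := F × F),
        Finset.sum_const, card_univ, Fintype.card_fin, nsmul_eq_mul]
      calc N * (κ * ∑ i, ∑ p, A' i p) ≤ N * (κ * (O.card * ind (old O j'))) := by gcongr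
        _ = _ := by rw [hN]; ring
  · rw [← Finset.mul_sum, mul_left_comm]
    refine mul_le_mul_of_nonneg_left ?_ (ind_nonneg _)
    calc ∑ x : Fin κ × Fin κ × (F × F), A x.1 x.2.2 * A' x.2.1 x.2.2
        ≤ (∑ i, ∑ p, A i p) * ∑ i, ∑ p, A' i p := by
          simp only [Fintype.sum_prod_type (α₂ := Fin κ × (F × F)),
            Fintype.sum_prod_type (α₂ := F × F)]
          rw [Finset.sum_mul_sum]
          refine Finset.sum_le_sum fun i _ => Finset.sum_le_sum fun i' _ => ?_
          rw [Finset.sum_mul]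
          refine Finset.sum_le_sum fun p _ => mul_le_mul_of_nonneg_left ?_ (hA0 _ _)
          exact Finset.single_le_sum (f := fun p => A' i' p) (fun _ _ => hA0' _ _) (mem_univ p)
      _ ≤ (O.card * ind (old O j)) * (O.card * ind (old O j')) :=
          mul_le_mul h1 h2 (Finset.sum_nonneg fun _ _ => Finset.sum_nonneg fun _ _ => hA0' _ _)
            (mul_nonneg (by positivity) (ind_nonneg _))
      _ = _ := by ring

/-- the total conditional weight of gadgets -/
noncomputable def gadS (O : Finset (Vt F s κ)) (ω0 : Vt F s κ → F) (G : Fin 4 → Finset (Option F))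
    (Q : Fin 4 → Option F → Option F → Fin κ × Fin κ × (F × F) → Prop) : ℝ :=
  ∑ g : Gad F κ, ind ((∀ a, g.1 a ∈ G a) ∧ ∀ a, Q a (g.1 (a - 1)) (g.1 a) (g.2 a)) *
    ∏ x : Fin 4 × Bool, wt O ω0 (g.sl s x.1 x.2) (ph (g.cl x.1 x.2) (g.p x.1))

lemma gadS_eq (O : Finset (Vt F s κ)) (ω0 : Vt F s κ → F) (G : Fin 4 → Finset (Option F))
    (Q : Fin 4 → Option F → Option F → Fin κ × Fin κ × (F × F) → Prop) :
    gadS O ω0 G Q = ∑ c ∈ Fintype.piFinset G,
      ∏ a, locS O ω0 (Q a (c (a - 1)) (c a)) (c (a - 1)) (c a) := by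
  classical
  unfold gadS
  rw [Fintype.sum_prod_type]
  rw [← Finset.sum_filter_add_sum_filter_not univ (· ∈ Fintype.piFinset G)]
  rw [Finset.sum_eq_zero (s := univ.filter (¬ · ∈ Fintype.piFinset G)), add_zero]
  · rw [Finset.filter_mem_eq_inter, Finset.univ_inter]
    refine Finset.sum_congr rfl fun c hc => ?_
    unfold locS
    rw [Finset.prod_univ_sum, Fintype.piFinset_univ]
    refine Finset.sum_congr rfl fun x _ => ?_
    rw [Finset.prod_mul_distrib, ← ind_forall, Fintype.prod_prod_type]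
    congr 1
    · refine ind_congr ?_
      simp only [mem_univ, forall_true_left, and_iff_right_iff_imp]
      exact fun _ => Fintype.mem_piFinset.1 hc
    · refine Finset.prod_congr rfl fun a _ => ?_
      rw [Fintype.prod_bool, mul_comm]; rfl
  · intro c hc
    refine Finset.sum_eq_zero fun x _ => ?_
    rw [ind_of_not, zero_mul]
    exact fun h => (mem_filter.1 hc).2 (Fintype.mem_piFinset.2 h.1)

lemma gadS_le (O : Finset (Vt F s κ)) (ω0 : Vt F s κ → F) (G : Fin 4 → Finset (Option F))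
    (Q : Fin 4 → Option F → Option F → Fin κ × Fin κ × (F × F) → Prop)
    (cn : Fin 4 → Bool → ℝ) (sb : Fin 4 → Bool → Bool → ℝ)
    (hcn : ∀ a b, (((G a).filter fun j => oldb O j = b).card : ℝ) ≤ cn a b)
    (hsb0 : ∀ a b b', 0 ≤ sb a b b')
    (hsb : ∀ a, ∀ j' ∈ G (a - 1), ∀ j ∈ G a,
      locS O ω0 (Q a j' j) j' j ≤ sb a (oldb O j') (oldb O j)) :
    gadS O ω0 G Q ≤ ∑ P : Fin 4 → Bool, ∏ a, cn a (P a) * sb a (P (a - 1)) (P a) := by
  classical
  rw [gadS_eq, ← Finset.sum_fiberwise (Fintype.piFinset G) (fun c a => oldb O (c a))]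
  refine Finset.sum_le_sum fun P _ => ?_
  calc _ ≤ ∑ _c ∈ (Fintype.piFinset G).filter (fun c => (fun a => oldb O (c a)) = P),
        ∏ a, sb a (P (a - 1)) (P a) := by
        refine Finset.sum_le_sum fun c hc => ?_
        obtain ⟨h1, h2⟩ := mem_filter.1 hc
        refine Finset.prod_le_prod (fun a _ => locS_nonneg _ _ _ _ _) fun a _ => ?_
        rw [← h2]
        exact hsb a _ (Fintype.mem_piFinset.1 h1 _) _ (Fintype.mem_piFinset.1 h1 _)
    _ ≤ _ := by
        rw [Finset.sum_const, nsmul_eq_mul, Finset.prod_mul_distrib]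
        refine mul_le_mul_of_nonneg_right ?_ (Finset.prod_nonneg fun a _ => hsb0 _ _ _)
        have : (Fintype.piFinset G).filter (fun c => (fun a => oldb O (c a)) = P) =
            Fintype.piFinset fun a => (G a).filter fun j => oldb O j = P a := by
          ext c
          simp only [mem_filter, Fintype.mem_piFinset, funext_iff, forall_and]
        rw [this, Fintype.card_piFinset, Nat.cast_prod]
        exact Finset.prod_le_prod (fun _ _ => by positivity) fun a _ => hcn a _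

end Crest.Agent.H8.Ry
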