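import Crest.Agent.H8.RyProb

set_option autoImplicit false

namespace Crest.Agent.H8.Ry
open Finset

variable {F : Type} [Field F] [Fintype F] [DecidableEq F]

/-- the linear form of a direction -/
def ph (d : Option F) (p : F × F) : F :=
  match d with
  | none => p.1
  | some t => p.2 - t * p.1

/-- incidence -/
def On (p : F × F) (l : Option F × F) : Prop := ph l.1 p = l.2

instance (p : F × F) (l : Option F × F) : Decidable (On p l) := by unfold On; infer_instance

/-- number of points of `Y` on `l` -/
def cnt (Y : Finset (F × F)) (l : Option F × F) : ℕ := (Y.filter (On · l)).card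

omit [Fintype F] [DecidableEq F] in
lemma eq_of_ph {d d' : Option F} (h : d ≠ d') {p p' : F × F} (h1 : ph d p = ph d p')
    (h2 : ph d' p = ph d' p') : p = p' := by
  obtain ⟨x, y⟩ := p
  obtain ⟨x', y'⟩ := p'
  cases d with
  | none =>
    cases d' with
    | none => exact absurd rfl h
    | some t =>
      simp only [ph] at h1 h2
      subst h1
      simp only [Prod.mk.injEq, true_and]; linear_combination h2
  | some t =>
    cases d' with
    | none =>
      simp only [ph] at h1 h2
      subst h2
      simp only [Prod.mk.injEq, true_and]; linear_combination h1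
    | some t' =>
      simp only [ph] at h1 h2
      have ht : t - t' ≠ 0 := sub_ne_zero.2 fun e => h (by rw [e])
      have hx : x = x' := by
        have : (t - t') * (x - x') = 0 := by linear_combination h2 - h1
        rcases mul_eq_zero.1 this with h3 | h3
        · exact absurd h3 ht
        · exact sub_eq_zero.1 h3
      subst hx
      simp only [Prod.mk.injEq, true_and]; linear_combination h1

omit [Fintype F] [DecidableEq F] in
lemma exists_ph {d d' : Option F} (h : d ≠ d') (c c' : F) : ∃ p, ph d p = c ∧ ph d' p = c' := by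
  cases d with
  | none =>
    cases d' with
    | none => exact absurd rfl h
    | some t => exact ⟨(c, c' + t * c), rfl, by simp [ph]⟩
  | some t =>
    cases d' with
    | none => exact ⟨(c', c + t * c'), by simp [ph], rfl⟩
    | some t' =>
      have ht : t' - t ≠ 0 := sub_ne_zero.2 fun e => h (by rw [e])
      refine ⟨((c - c') / (t' - t), c + t * ((c - c') / (t' - t))), by simp [ph], ?_⟩
      simp only [ph]; field_simp; ring

omit [Fintype F] in
lemma exists_dir (p p' : F × F) : ∃ d, ph d p = ph d p' := by
  by_cases h : p.1 = p'.1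
  · exact ⟨none, h⟩
  · refine ⟨some ((p.2 - p'.2) / (p.1 - p'.1)), ?_⟩
    have : p.1 - p'.1 ≠ 0 := sub_ne_zero.2 h
    simp only [ph]; field_simp; ring

omit [Fintype F] [DecidableEq F] in
lemma dir_unique {p p' : F × F} (h : p ≠ p') {d d' : Option F} (h1 : ph d p = ph d p')
    (h2 : ph d' p = ph d' p') : d = d' := by
  by_contra hd; exact h (eq_of_ph hd h1 h2)

omit [Fintype F] [DecidableEq F] in
lemma pt_unique {l l' : Option F × F} (h : l ≠ l') {p p' : F × F} (h1 : On p l) (h2 : On p l')
    (h3 : On p' l) (h4 : On p' l') : p = p' := by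
  by_cases hd : l.1 = l'.1
  · exfalso; apply h
    unfold On at *
    exact Prod.ext hd (by rw [← h1, ← h2, hd])
  · exact eq_of_ph hd (h1.trans h3.symm) (h2.trans h4.symm)

omit [Fintype F] [DecidableEq F] in
lemma line_unique {p p' : F × F} (h : p ≠ p') {l l' : Option F × F} (h1 : On p l) (h2 : On p' l)
    (h3 : On p l') (h4 : On p' l') : l = l' := by
  by_contra hl; exact h (pt_unique hl h1 h3 h2 h4)

omit [Fintype F] [DecidableEq F] in
lemma line_eq_of_dir {p : F × F} {l l' : Option F × F} (hd : l.1 = l'.1) (h1 : On p l)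
    (h2 : On p l') : l = l' := by
  unfold On at *
  exact Prod.ext hd (by rw [← h1, ← h2, hd])

omit [Fintype F] [DecidableEq F] in
lemma on_mk (d : Option F) (p : F × F) : On p (d, ph d p) := rfl

lemma cnt_univ (l : Option F × F) : cnt univ l = Fintype.card F := by
  obtain ⟨d, c⟩ := l
  unfold cnt
  rw [← Finset.card_univ (α := F)]
  cases d with
  | none =>
    refine Finset.card_bij (fun p _ => p.2) (by simp) ?_ ?_
    · intro p hp p' hp' h
      simp only [mem_filter, mem_univ, true_and, On, ph] at hp hp'
      exact Prod.ext (hp.trans hp'.symm) h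
    · intro y _; exact ⟨(c, y), by simp [On, ph], rfl⟩
  | some t =>
    refine Finset.card_bij (fun p _ => p.1) (by simp) ?_ ?_
    · intro p hp p' hp' h
      simp only [mem_filter, mem_univ, true_and, On, ph] at hp hp'
      refine Prod.ext h ?_
      linear_combination hp - hp' + t * h
    · intro x _; exact ⟨(x, c + t * x), by simp [On, ph], rfl⟩

lemma cnt_le_card (Y : Finset (F × F)) (l : Option F × F) : cnt Y l ≤ Fintype.card F := by
  rw [← cnt_univ l]; exact card_le_card (filter_subset_filter _ (subset_univ _))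

omit [Fintype F] in
lemma cnt_mono {Y Y' : Finset (F × F)} (h : Y ⊆ Y') (l : Option F × F) : cnt Y l ≤ cnt Y' l :=
  card_le_card (filter_subset_filter _ h)

lemma sum_cnt_dir (Y : Finset (F × F)) (d : Option F) : ∑ c, cnt Y (d, c) = Y.card := by
  unfold cnt On
  exact (Finset.card_eq_sum_card_fiberwise (f := ph d) (t := univ) (by simp)).symm

lemma card_lines : Fintype.card (Option F × F) = (Fintype.card F + 1) * Fintype.card F := by
  simp

lemma card_dir_eq (p p' : F × F) :
    (univ.filter fun d : Option F => ph d p = ph d p').card =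
      if p = p' then Fintype.card F + 1 else 1 := by
  split_ifs with h
  · subst h; simp
  · obtain ⟨d, hd⟩ := exists_dir p p'
    rw [Finset.card_eq_one]
    refine ⟨d, ?_⟩
    ext d'
    simp only [mem_filter, mem_univ, true_and, mem_singleton]
    exact ⟨fun h' => dir_unique h h' hd, fun h' => h' ▸ hd⟩

lemma sum_cnt_sq (Y : Finset (F × F)) :
    ∑ l : Option F × F, (cnt Y l : ℝ) ^ 2 = Fintype.card F * Y.card + (Y.card : ℝ) ^ 2 := by
  have h1 : ∀ l : Option F × F, (cnt Y l : ℝ) ^ 2 =
      ∑ p ∈ Y, ∑ p' ∈ Y, ind (On p l) * ind (On p' l) := by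
    intro l
    unfold cnt
    rw [card_filter_eq_sum_ind, sq, Finset.sum_mul_sum]
  have h2 : ∀ p p' : F × F, ∑ l : Option F × F, ind (On p l) * ind (On p' l) =
      if p = p' then (Fintype.card F : ℝ) + 1 else 1 := by
    intro p p'
    rw [Fintype.sum_prod_type]
    have : ∀ d : Option F, ∑ c, ind (On p (d, c)) * ind (On p' (d, c)) = ind (ph d p = ph d p') := by
      intro d
      rw [Finset.sum_eq_single (ph d p)]
      · rw [ind_of (on_mk d p), one_mul]; exact ind_congr ⟨fun h => h.symm, fun h => h.symm⟩
      · intro c _ hc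
        rw [ind_of_not (show ¬ On p (d, c) from fun h => hc h.symm), zero_mul]
      · simp
    rw [Finset.sum_congr rfl fun d _ => this d, ← card_filter_eq_sum_ind, card_dir_eq]
    split_ifs <;> simp
  rw [Finset.sum_congr rfl fun l _ => h1 l, Finset.sum_comm]
  have h3 : ∀ p ∈ Y, ∑ l : Option F × F, ∑ p' ∈ Y, ind (On p l) * ind (On p' l) =
      Fintype.card F + Y.card := by
    intro p hp
    rw [Finset.sum_comm, Finset.sum_congr rfl fun p' _ => h2 p p']
    have : ∀ p' ∈ Y, (if p = p' then (Fintype.card F : ℝ) + 1 else 1) =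
        (if p = p' then (Fintype.card F : ℝ) else 0) + 1 := by
      intro p' _; split_ifs <;> simp
    rw [Finset.sum_congr rfl this, Finset.sum_add_distrib, Finset.sum_ite_eq]
    simp [hp]
  rw [Finset.sum_congr rfl h3]
  simp; ring

lemma mixing (Y : Finset (F × F)) :
    ∑ l : Option F × F, ((cnt Y l : ℝ) - Y.card / Fintype.card F) ^ 2 ≤
      Fintype.card F * Y.card := by
  have hq : (0:ℝ) < Fintype.card F := by exact_mod_cast Fintype.card_pos
  have h1 : ∑ l : Option F × F, (cnt Y l : ℝ) = (Fintype.card F + 1) * Y.card := by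
    rw [Fintype.sum_prod_type]
    have : ∀ d : Option F, ∑ c, (cnt Y (d, c) : ℝ) = Y.card := by
      intro d; exact_mod_cast sum_cnt_dir Y d
    rw [Finset.sum_congr rfl fun d _ => this d]; simp
  have h2 : ∀ l : Option F × F, ((cnt Y l : ℝ) - Y.card / Fintype.card F) ^ 2 =
      (cnt Y l : ℝ) ^ 2 - 2 * (Y.card / Fintype.card F) * cnt Y l +
        (Y.card / Fintype.card F) ^ 2 := by intro l; ring
  rw [Finset.sum_congr rfl fun l _ => h2 l, Finset.sum_add_distrib, Finset.sum_sub_distrib,
    ← Finset.mul_sum, h1, sum_cnt_sq]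
  simp only [Finset.sum_const, Finset.card_univ, card_lines, nsmul_eq_mul]
  push_cast
  have : (0:ℝ) ≤ (Y.card : ℝ) ^ 2 / Fintype.card F := by positivity
  have h3 : (Fintype.card F : ℝ) * Y.card + (Y.card : ℝ) ^ 2 -
      2 * (Y.card / Fintype.card F) * ((Fintype.card F + 1) * Y.card) +
      (Fintype.card F + 1) * Fintype.card F * (Y.card / Fintype.card F) ^ 2 =
      Fintype.card F * Y.card - (Y.card : ℝ) ^ 2 / Fintype.card F := by
    field_simp; ring
  linarith

/-- rich lines are rare -/
lemma card_rich (Y : Finset (F × F)) (t : ℝ) (ht : 0 < t) (A : Finset (Option F × F))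
    (hA : ∀ l ∈ A, (Y.card : ℝ) / Fintype.card F + t ≤ cnt Y l) :
    (A.card : ℝ) ≤ Fintype.card F * Y.card / t ^ 2 := by
  rw [le_div_iff₀ (by positivity)]
  calc (A.card : ℝ) * t ^ 2 = ∑ _l ∈ A, t ^ 2 := by simp
    _ ≤ ∑ l ∈ A, ((cnt Y l : ℝ) - Y.card / Fintype.card F) ^ 2 := by
        refine Finset.sum_le_sum fun l hl => pow_le_pow_left₀ ht.le ?_ 2
        linarith [hA l hl]
    _ ≤ ∑ l, ((cnt Y l : ℝ) - Y.card / Fintype.card F) ^ 2 :=
        Finset.sum_le_sum_of_subset_of_nonneg (subset_univ _) fun _ _ _ => by positivity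
    _ ≤ _ := mixing Y

/-- points not covered by a family of lines -/
def unc (E : Finset (Option F × F)) : Finset (F × F) := univ.filter fun p => ∀ l ∈ E, ¬ On p l

lemma mem_unc {E : Finset (Option F × F)} {p : F × F} : p ∈ unc E ↔ ∀ l ∈ E, ¬ On p l := by
  simp [unc]

/-- points of a line covered by other lines -/
lemma card_cov_le (l : Option F × F) (E : Finset (Option F × F)) (hl : l ∉ E)
    (Z : Finset (F × F)) (hZ : ∀ p ∈ Z, On p l ∧ ∃ l' ∈ E, On p l') : Z.card ≤ E.card := by
  choose! f hf using fun p hp => (hZ p hp).2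
  refine Finset.card_le_card_of_injOn f (fun p hp => (hf p hp).1) ?_
  intro p hp p' hp' h
  have hne : l ≠ f p := fun e => hl (e ▸ (hf p hp).1)
  exact pt_unique hne (hZ p hp).1 (hf p hp).2 (hZ p' hp').1 (h ▸ (hf p' hp').2)

end Crest.Agent.H8.Ry
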