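import Crest.Agent.H8.RyGad

set_option autoImplicit false
set_option linter.unusedSectionVars false

namespace Crest.Agent.H8.Ry
open Finset

variable {F : Type} [Field F] [Fintype F] [DecidableEq F]

lemma card_le_uniq {α ι : Type*} (A : Finset α) (I : Finset ι) (R : ι → α → Prop)
    (h1 : ∀ p ∈ A, ∃ i ∈ I, R i p) (h2 : ∀ i p p', R i p → R i p' → p = p') :
    A.card ≤ I.card := by
  classical
  rcases A.eq_empty_or_nonempty with h | ⟨p0, hp0⟩
  · simp [h]
  obtain ⟨i0, _, _⟩ := h1 p0 hp0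
  have : Nonempty ι := ⟨i0⟩
  choose! f hf using h1
  exact Finset.card_le_card_of_injOn f (fun p hp => (hf p hp).1) fun p hp p' hp' h =>
    h2 (f p) p p' (hf p hp).2 (h ▸ (hf p' hp').2)

/-- known points -/
def kp (z : Option F ⊕ (F × F)) (K : Finset (Option F × F)) (p : F × F) : Prop :=
  z = Sum.inr p ∨ ∃ l ∈ K, ∃ l' ∈ K, l.1 ≠ l'.1 ∧ On p l ∧ On p l'

/-- known lines -/
def kl (z : Option F ⊕ (F × F)) (K : Finset (Option F × F)) (l : Option F × F) : Prop :=
  l ∈ K ∨ ∃ p p', kp z K p ∧ kp z K p' ∧ p ≠ p' ∧ On p l ∧ On p' l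

/-- forced points -/
def fp (z : Option F ⊕ (F × F)) (K : Finset (Option F × F)) (l : Option F × F) (p : F × F) : Prop :=
  ∃ l', l' ≠ l ∧ kl z K l' ∧ On p l'

/-- lines through a second known point -/
def chi (z : Option F ⊕ (F × F)) (K : Finset (Option F × F)) (l : Option F × F) : Prop :=
  (∃ p, kp z K p ∧ On p l ∧ z ≠ Sum.inr p) ∨ l ∈ K

open Classical in
lemma card_kp (z : Option F ⊕ (F × F)) (K : Finset (Option F × F)) (hK : K.card ≤ 500) :
    (univ.filter (kp z K)).card ≤ 250001 := by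
  refine le_trans (card_le_uniq _ (Finset.insertNone (K ×ˢ K)) (fun i p => match i with
    | none => z = Sum.inr p
    | some x => x.1.1 ≠ x.2.1 ∧ On p x.1 ∧ On p x.2) ?_ ?_) ?_
  · intro p hp
    rcases (mem_filter.1 hp).2 with h | ⟨l, hl, l', hl', h⟩
    · exact ⟨none, by simp, h⟩
    · exact ⟨some (l, l'), by simp [hl, hl'], h⟩
  · rintro (_ | x) p p' h h'
    · exact Sum.inr_injective (h.symm.trans h')
    · exact pt_unique (fun e => h.1 (by rw [e])) h.2.1 h.2.2 h'.2.1 h'.2.2
  · rw [Finset.card_insertNone, card_product]; nlinarith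

open Classical in
lemma card_kl (z : Option F ⊕ (F × F)) (K : Finset (Option F × F)) (hK : K.card ≤ 500) :
    (univ.filter (kl z K)).card ≤ 10 ^ 11 := by
  have h0 := card_kp z K hK
  refine le_trans (card_le_uniq _ (K.disjSum (univ.filter (kp z K) ×ˢ univ.filter (kp z K)))
    (fun i l => match i with
    | Sum.inl l' => l = l'
    | Sum.inr x => x.1 ≠ x.2 ∧ On x.1 l ∧ On x.2 l) ?_ ?_) ?_
  · intro l hl
    rcases (mem_filter.1 hl).2 with h | ⟨p, p', h1, h2, h⟩
    · exact ⟨Sum.inl l, by simp [h], rfl⟩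
    · exact ⟨Sum.inr (p, p'), by simp [h1, h2], h⟩
  · rintro (l' | x) l l'' h h'
    · exact h.trans h'.symm
    · exact line_unique h.1 h.2.1 h.2.2 h'.2.1 h'.2.2
  · rw [Finset.card_disjSum, card_product]; nlinarith

open Classical in
lemma card_fp (z : Option F ⊕ (F × F)) (K : Finset (Option F × F)) (hK : K.card ≤ 500)
    (l : Option F × F) : (univ.filter fun p => On p l ∧ fp z K l p).card ≤ 10 ^ 11 := by
  refine le_trans (card_cov_le l ((univ.filter (kl z K)).erase l) (notMem_erase _ _) _ ?_)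
    (card_erase_le.trans (card_kl z K hK))
  intro p hp
  obtain ⟨h1, l', h2, h3, h4⟩ := (mem_filter.1 hp).2
  exact ⟨h1, l', by simp [h2, h3], h4⟩

omit [Fintype F] [DecidableEq F] in
lemma thru_unique {z : Option F ⊕ (F × F)} {p : F × F} (h : z ≠ Sum.inr p) {l l' : Option F × F}
    (h1 : Thru z l) (h2 : Thru z l') (h3 : On p l) (h4 : On p l') : l = l' := by
  cases z with
  | inl d => exact line_eq_of_dir (h1.trans h2.symm) h3 h4
  | inr p' => exact line_unique (fun e => h (by rw [e])) h3 h1 h4 h2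

open Classical in
lemma card_chi (z : Option F ⊕ (F × F)) (K : Finset (Option F × F)) (hK : K.card ≤ 500) :
    (univ.filter fun l => Thru z l ∧ chi z K l).card ≤ 10 ^ 6 := by
  have h0 := card_kp z K hK
  refine le_trans (card_le_uniq _ (K.disjSum (univ.filter (kp z K)))
    (fun i l => match i with
    | Sum.inl l' => l = l'
    | Sum.inr p => Thru z l ∧ On p l ∧ z ≠ Sum.inr p) ?_ ?_) ?_
  · intro l hl
    obtain ⟨h1, ⟨p, h2, h3⟩ | h⟩ := (mem_filter.1 hl).2
    · exact ⟨Sum.inr p, by simp [h2], h1, h3⟩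
    · exact ⟨Sum.inl l, by simp [h], rfl⟩
  · rintro (l' | x) l l'' h h'
    · exact h.trans h'.symm
    · exact thru_unique h.2.2 h.1 h'.1 h.2.1 h'.2.1
  · rw [Finset.card_disjSum]; omega

lemma card_thru (z : Option F ⊕ (F × F)) :
    (univ.filter (Thru z)).card ≤ Fintype.card F + 1 := by
  cases z with
  | inl d =>
    refine le_trans (card_le_uniq _ (univ : Finset F) (fun c l => l = (d, c)) ?_ ?_) (by simp)
    · intro l hl
      exact ⟨l.2, mem_univ _, Prod.ext (mem_filter.1 hl).2 rfl⟩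
    · intro c l l' h h'; exact h.trans h'.symm
  | inr p =>
    refine le_trans (card_le_uniq _ (univ : Finset (Option F)) (fun d l => l = (d, ph d p)) ?_ ?_)
      (by simp)
    · intro l hl
      exact ⟨l.1, mem_univ _, Prod.ext rfl (mem_filter.1 hl).2.symm⟩
    · intro c l l' h h'; exact h.trans h'.symm

variable {s κ : ℕ}

/-- cheap reveals -/
def Rc (z : Option F ⊕ (F × F)) (K : Finset (Option F × F)) (O : Finset (Vt F s κ))
    (l : Option F × F) : Prop :=
  Thru z l ∨ (∃ p, kp z K p ∧ On p l) ∨ old O l.1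

/-- gaining reveals -/
def Kc (z : Option F ⊕ (F × F)) (K : Finset (Option F × F)) (O : Finset (Vt F s κ))
    (l : Option F × F) : Prop :=
  old O l.1 ∧ ∃ p, kp z K p ∧ On p l

lemma old_mem {O : Finset (Vt F s κ)} {j : Option F} (h : old O j) : j ∈ O.image dr := by
  obtain ⟨β, i, h⟩ := h
  exact mem_image.2 ⟨_, h, rfl⟩

open Classical in
lemma card_Rc (z : Option F ⊕ (F × F)) (K : Finset (Option F × F)) (hK : K.card ≤ 500)
    (O : Finset (Vt F s κ)) (hO : O.card ≤ 500) :
    (univ.filter (Rc z K O)).card ≤ 10 ^ 6 * Fintype.card F := by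
  have h0 := card_kp z K hK
  set X : Finset (Option F ⊕ (F × F)) :=
    insert z ((O.image dr).disjSum (univ.filter (kp z K))) with hX
  have h1 : X.card ≤ 250502 := by
    refine (card_insert_le _ _).trans ?_
    rw [Finset.card_disjSum]
    have := card_image_le (s := O) (f := dr)
    omega
  calc _ ≤ (X.biUnion fun x => univ.filter (Thru x)).card := by
        refine card_le_card fun l hl => ?_
        rcases (mem_filter.1 hl).2 with h | ⟨p, h, h'⟩ | h
        · exact mem_biUnion.2 ⟨z, mem_insert_self _ _, by simpa using h⟩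
        · exact mem_biUnion.2 ⟨Sum.inr p, mem_insert_of_mem (by simpa using h),
            mem_filter.2 ⟨mem_univ _, h'⟩⟩
        · exact mem_biUnion.2 ⟨Sum.inl l.1, mem_insert_of_mem (Finset.inl_mem_disjSum.2 (old_mem h)),
            mem_filter.2 ⟨mem_univ _, rfl⟩⟩
    _ ≤ X.card * (Fintype.card F + 1) := card_biUnion_le_card_mul _ _ _ fun x _ => card_thru x
    _ ≤ _ := by
        have : 0 < Fintype.card F := Fintype.card_pos
        nlinarith

open Classical in
lemma card_Kc (z : Option F ⊕ (F × F)) (K : Finset (Option F × F)) (hK : K.card ≤ 500)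
    (O : Finset (Vt F s κ)) (hO : O.card ≤ 500) :
    (univ.filter (Kc z K O)).card ≤ 10 ^ 9 := by
  have h0 := card_kp z K hK
  refine le_trans (card_le_uniq _ (O.image dr ×ˢ univ.filter (kp z K))
    (fun i l => l.1 = i.1 ∧ On i.2 l) ?_ ?_) ?_
  · intro l hl
    obtain ⟨h1, p, h2, h3⟩ := (mem_filter.1 hl).2
    exact ⟨(l.1, p), mem_product.2 ⟨old_mem h1, by simpa using h2⟩, rfl, h3⟩
  · intro i l l' h h'
    exact line_eq_of_dir (h.1.trans h'.1.symm) h.2 h'.2
  · rw [card_product]
    have := card_image_le (s := O) (f := dr)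
    nlinarith

lemma sum_dr (φ : Option F → ℝ) :
    ∑ v : Vt F s κ, φ (dr v) = (s + 2 * κ) * ∑ d, φ d := by
  rw [Fintype.sum_sum_type, Fintype.sum_prod_type, Fintype.sum_prod_type, add_mul, Finset.mul_sum,
    Finset.mul_sum]
  congr 1
  · refine Finset.sum_congr rfl fun d _ => ?_
    simp [dr]
  · refine Finset.sum_congr rfl fun d _ => ?_
    simp [dr]

lemma slot_sum (O : Finset (Vt F s κ)) (ω0 : Vt F s κ → F) (A : Finset (Option F × F)) :
    Cx O ω0 (fun ω => ∑ v, ind (v ∉ O ∧ Ln dr ω v ∈ A)) ≤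
      (s + 2 * κ) * A.card / Fintype.card F := by
  have hq := qpos (F := F)
  rw [Cx_sum]
  have h1 : ∀ v : Vt F s κ, Cx O ω0 (fun ω => ind (v ∉ O ∧ Ln dr ω v ∈ A)) ≤
      (∑ c, ind ((dr v, c) ∈ A)) / Fintype.card F := by
    intro v
    by_cases hv : v ∈ O
    · refine le_trans (Cx_mono O ω0 (g := fun _ => 0) fun ω _ => (ind_of_not (by simp [hv])).le) ?_
      rw [Cx_const]
      exact div_nonneg (Finset.sum_nonneg fun _ _ => ind_nonneg _) hq.le
    · refine le_trans (Cx_mono O ω0 (g := fun ω => ∑ c, ind ((dr v, c) ∈ A) * ind (ω v = c))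
        fun ω _ => ?_) ?_
      · refine le_trans ?_ (Finset.single_le_sum (f := fun c => ind ((dr v, c) ∈ A) * ind (ω v = c))
          (fun _ _ => mul_nonneg (ind_nonneg _) (ind_nonneg _)) (mem_univ (ω v)))
        simp only []
        rw [ind_of trivial, mul_one]
        exact ind_mono fun h => h.2
      · rw [Cx_sum, Finset.sum_div]
        refine Finset.sum_le_sum fun c _ => le_of_eq ?_
        rw [Cx_mul_left, Cx_one]; unfold wt; rw [if_neg hv]; ring
  refine (Finset.sum_le_sum fun v _ => h1 v).trans (le_of_eq ?_)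
  rw [← Finset.sum_div, sum_dr (fun d => ∑ c, ind ((d, c) ∈ A)),
    ← Fintype.sum_prod_type (fun l => ind (l ∈ A)), ← card_filter_eq_sum_ind]
  simp

end Crest.Agent.H8.Ry
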