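import Crest.Agent.H8.RyDer

set_option autoImplicit false
set_option linter.unusedSectionVars false

namespace Crest.Agent.H8.Ry
open Finset

variable {F : Type} [Field F] [Fintype F] [DecidableEq F] {s κ : ℕ}
variable {G : Fin 4 → Finset (Option F)} {z : Option F ⊕ (F × F)} {ω : Vt F s κ → F}

lemma Der.succ {n : ℕ} {O : Finset (Vt F s κ)} {γ : ℕ} (h : Der G z ω n O γ) :
    Der G z ω (n + 1) O γ := ⟨O, 0, by simp, h, Or.inl ⟨rfl, rfl⟩⟩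

lemma Der.mono {n n' : ℕ} {O : Finset (Vt F s κ)} {γ : ℕ} (h : Der G z ω n O γ) (hn : n ≤ n') :
    Der G z ω n' O γ := by
  induction hn with
  | refl => exact h
  | step _ ih => exact ih.succ

lemma Der.gain : ∀ {n : ℕ} {O : Finset (Vt F s κ)} {γ γ' : ℕ}, Der G z ω n O γ → γ' ≤ γ →
    Der G z ω n O γ'
  | 0, _, _, _, h, h' => ⟨h.1, by have := h.2; omega⟩
  | _ + 1, _, _, _, ⟨O, δ, hδ, h1, h2⟩, h' => ⟨O, δ, hδ, h1.gain (by omega), h2⟩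

lemma Der.R {n : ℕ} {O : Finset (Vt F s κ)} {γ : ℕ} (h : Der G z ω n O γ) (v : Vt F s κ)
    (hv : Rc z (O.image (Ln dr ω)) O (Ln dr ω v)) : Der G z ω (n + 1) (insert v O) γ := by
  by_cases h1 : v ∈ O
  · rw [insert_eq_of_mem h1]; exact h.succ
  · exact ⟨O, 0, by simp, h, Or.inr (Or.inl ⟨rfl, v, ⟨h1, hv⟩, rfl⟩)⟩

lemma Der.K {n : ℕ} {O : Finset (Vt F s κ)} {γ : ℕ} (h : Der G z ω n O γ) (v : Vt F s κ)
    (h1 : v ∉ O) (hv : Kc z (O.image (Ln dr ω)) O (Ln dr ω v)) :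
    Der G z ω (n + 1) (insert v O) (γ + 1) :=
  ⟨O, 1, by simp, h, Or.inr (Or.inr (Or.inl ⟨rfl, v, ⟨h1, hv⟩, rfl⟩))⟩

lemma Der.Gs {n : ℕ} {O : Finset (Vt F s κ)} {γ : ℕ} (h : Der G z ω n O γ) (δ : ℕ) (hδ : δ < 3)
    (σ : Option F × Fin s) (g : Gad F κ) (hg : GSt G z ω O δ σ g) :
    Der G z ω (n + 1) (insert (Sum.inl σ) (O ∪ g.sls s)) (γ + δ) :=
  ⟨O, δ, mem_range.2 hδ, by simpa using h, Or.inr (Or.inr (Or.inr ⟨(σ, g), hg, rfl⟩))⟩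

lemma kp_mono {K K' : Finset (Option F × F)} (h : K ⊆ K') {p : F × F} (hp : kp z K p) :
    kp z K' p := hp.imp id fun ⟨l, hl, l', hl', h'⟩ => ⟨l, h hl, l', h hl', h'⟩

lemma fp_mono {K K' : Finset (Option F × F)} (h : K ⊆ K') {l : Option F × F} {p : F × F}
    (hp : fp z K l p) : fp z K' l p := by
  obtain ⟨l', h1, h2, h3⟩ := hp
  exact ⟨l', h1, h2.imp (fun h' => h h') fun ⟨p, p', a, b, c⟩ =>
    ⟨p, p', kp_mono h a, kp_mono h b, c⟩, h3⟩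

lemma old_mono {O O' : Finset (Vt F s κ)} (h : O ⊆ O') {j : Option F} (hj : old O j) : old O' j :=
  let ⟨β, i, hj⟩ := hj; ⟨β, i, h hj⟩

/-- membership in an (unrestricted) merged class -/
def inM (ω : Vt F s κ → F) (j : Option F) (p : F × F) : Prop :=
  ∃ β i, On p (Ln dr ω (Sum.inr (j, β, i)))

/-- a valid gadget on a split slot -/
structure Val (G : Fin 4 → Finset (Option F)) (z : Option F ⊕ (F × F)) (ω : Vt F s κ → F)
    (σ : Option F × Fin s) (g : Gad F κ) : Prop where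
  th : Thru z (Ln dr ω (Sum.inl σ))
  st : Gst G z (Ln dr ω (Sum.inl σ)) g
  dy : Gdy ω g
  inj : Function.Injective g.p

section val
variable {σ : Option F × Fin s} {g : Gad F κ}

lemma Val.on (h : Val G z ω σ g) (a : Fin 4) : On (g.p a) (Ln dr ω (Sum.inl σ)) := (h.st.2 a).1

lemma Val.on_sl (h : Val G z ω σ g) (a : Fin 4) (β : Bool) : On (g.p a) (Ln dr ω (g.sl s a β)) := by
  have := h.dy a β
  unfold On Ln
  simp only [Gad.dr_sl]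
  exact this.symm

lemma Val.cl_ne (h : Val G z ω σ g) (a : Fin 4) (β : Bool) : g.cl a β ≠ σ.1 := by
  cases β
  · exact (h.st.1 a).2
  · exact (h.st.1 (a - 1)).2

lemma Val.c_inj (hG : Disj G) (h : Val G z ω σ g) {a b : Fin 4} (e : g.1 a = g.1 b) : a = b :=
  hG _ _ _ (h.st.1 a).1 (e ▸ (h.st.1 b).1)

lemma Val.kp (hG : Disj G) (h : Val G z ω σ g) {O : Finset (Vt F s κ)} (hO : g.sls s ⊆ O)
    (a : Fin 4) : kp z (O.image (Ln dr ω)) (g.p a) :=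
  Or.inr ⟨_, mem_image_of_mem _ (hO (g.sl_mem a false)), _,
    mem_image_of_mem _ (hO (g.sl_mem a true)),
    fun e => sub_one_ne a (h.c_inj hG e).symm, h.on_sl a false, h.on_sl a true⟩

lemma two_pts {l l' : Option F × F} (h : l.1 ≠ l'.1) {x y : F × F} (h1 : On x l) (h2 : On x l')
    (h3 : On y l) (h4 : On y l') : x = y := pt_unique (fun e => h (by rw [e])) h1 h2 h3 h4

lemma Val.sls_pt (h : Val G z ω σ g) {v : Vt F s κ} (hv : v ∈ g.sls s) {y : F × F}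
    (h1 : On y (Ln dr ω v)) (h2 : On y (Ln dr ω (Sum.inl σ))) :
    ∃ a β, v = g.sl s a β ∧ y = g.p a := by
  obtain ⟨⟨a, β⟩, _, rfl⟩ := mem_image.1 hv
  refine ⟨a, β, rfl, two_pts ?_ h1 h2 (h.on_sl a β) (h.on a)⟩
  simp only [Ln, Gad.dr_sl]
  exact h.cl_ne a β

lemma Val.sls_pos (h : Val G z ω σ g) {j : Option F} {β : Bool} {i : Fin κ}
    (hv : Sum.inr (j, β, i) ∈ g.sls s) {a : Fin 4}
    (h1 : On (g.p a) (Ln dr ω (Sum.inr (j, β, i)))) : j = g.1 a ∨ j = g.1 (a - 1) := by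
  obtain ⟨b, β', e, e'⟩ := h.sls_pt hv h1 (h.on a)
  rw [← h.inj e'] at e
  cases β' <;> simp only [Gad.sl, Sum.inr.injEq, Prod.mk.injEq] at e
  · exact Or.inl e.1
  · exact Or.inr e.1

lemma inl_notMem_sls (τ : Option F × Fin s) : Sum.inl τ ∉ g.sls s := by
  intro h
  obtain ⟨⟨a, β⟩, _, e⟩ := mem_image.1 h
  cases β <;> simp [Gad.sl] at e

end val

/-- bookkeeping of the processed gadgets -/
def Inv (gd : Option F × Fin s → Gad F κ) (O : Finset (Vt F s κ))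
    (U : Finset (Option F × Fin s)) : Prop :=
  (∀ σ ∈ U, Sum.inl σ ∈ O ∧ (gd σ).sls s ⊆ O) ∧ ∀ σ, Sum.inl σ ∈ O → σ ∈ U

variable {gd : Option F × Fin s → Gad F κ}

lemma Inv.ins {O : Finset (Vt F s κ)} {U : Finset (Option F × Fin s)} (h : Inv gd O U)
    (u : Option F × Bool × Fin κ) : Inv gd (insert (Sum.inr u) O) U :=
  ⟨fun σ hσ => ⟨mem_insert_of_mem (h.1 σ hσ).1, (h.1 σ hσ).2.trans (subset_insert _ _)⟩,
    fun σ hσ => h.2 σ (by simpa using hσ)⟩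

lemma Inv.gs {O : Finset (Vt F s κ)} {U : Finset (Option F × Fin s)} (h : Inv gd O U)
    (σ : Option F × Fin s) :
    Inv gd (insert (Sum.inl σ) (O ∪ (gd σ).sls s)) (insert σ U) := by
  refine ⟨fun τ hτ => ?_, fun τ hτ => ?_⟩
  · rcases mem_insert.1 hτ with rfl | hτ
    · exact ⟨mem_insert_self _ _, subset_union_right.trans (subset_insert _ _)⟩
    · exact ⟨mem_insert_of_mem (mem_union_left _ (h.1 τ hτ).1),
        (h.1 τ hτ).2.trans (subset_union_left.trans (subset_insert _ _))⟩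
  · rcases mem_insert.1 hτ with e | hτ
    · rw [Sum.inl_injective e]; exact mem_insert_self _ _
    · rcases mem_union.1 hτ with hτ | hτ
      · exact mem_insert_of_mem (h.2 τ hτ)
      · exact absurd hτ (inl_notMem_sls τ)

/-- a gadget step in the bookkeeping form -/
lemma gstep {n γ : ℕ} {O : Finset (Vt F s κ)} {U : Finset (Option F × Fin s)}
    (hD : Der G z ω n O γ) (hI : Inv gd O U) {σ : Option F × Fin s} (hσ : σ ∉ U)
    (hv : Val G z ω σ (gd σ)) (δ : ℕ) (hδ : δ < 3)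
    (hH : HH z (O.image (Ln dr ω)) O (Ln dr ω (Sum.inl σ)) (gd σ) δ) :
    Der G z ω (n + 1) (insert (Sum.inl σ) (O ∪ (gd σ).sls s)) (γ + δ) :=
  hD.Gs δ hδ σ _ ⟨fun h => hσ (hI.2 σ h), hv.th, hv.st, hH, hv.dy⟩

lemma fp_of_mem {O : Finset (Vt F s κ)} {v : Vt F s κ} (hv : v ∈ O) {l : Option F × F}
    (h : dr v ≠ l.1) {p : F × F} (hp : On p (Ln dr ω v)) : fp z (O.image (Ln dr ω)) l p :=
  ⟨_, fun e => h (by rw [← e]; rfl), Or.inl (mem_image_of_mem _ hv), hp⟩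

/-- bad gadgets relative to earlier ones -/
def Bad (z : Option F ⊕ (F × F)) (ω : Vt F s κ → F) (gd : Option F × Fin s → Gad F κ)
    (U : Finset (Option F × Fin s)) (σ : Option F × Fin s) : Prop :=
  (∃ a j, j ≠ σ.1 ∧ inM ω j ((gd σ).p a) ∧
    ((∃ y, z = Sum.inr y ∧ inM ω j y) ∨ ∃ τ ∈ U, ∃ b, inM ω j ((gd τ).p b))) ∨
  (∃ a l, l ≠ Ln dr ω (Sum.inl σ) ∧ On ((gd σ).p a) l ∧ ∃ τ ∈ U, ∃ τ' ∈ U, ∃ b b',
    (gd τ).p b ≠ (gd τ').p b' ∧ On ((gd τ).p b) l ∧ On ((gd τ').p b') l) ∨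
  (∃ τ ∈ U, Ln dr ω (Sum.inl τ) = Ln dr ω (Sum.inl σ)) ∨
  (∃ u, Ln dr ω (Sum.inr u) = Ln dr ω (Sum.inl σ)) ∨
  (∃ a j, j ≠ σ.1 ∧ inM ω j ((gd σ).p a) ∧ inM ω j ((gd σ).p (a + 2))) ∨
  (∃ y j j' a a', On y (Ln dr ω (Sum.inl σ)) ∧ z ≠ Sum.inr y ∧ (∀ b, y ≠ (gd σ).p b) ∧ j ≠ j' ∧
    j ≠ σ.1 ∧ j' ≠ σ.1 ∧ inM ω j y ∧ inM ω j' y ∧ inM ω j ((gd σ).p a) ∧ inM ω j' ((gd σ).p a'))

lemma Bad.mono {U U' : Finset (Option F × Fin s)} {σ : Option F × Fin s} (h : Bad z ω gd U σ)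
    (hU : U ⊆ U') : Bad z ω gd U' σ := by
  rcases h with ⟨a, j, h1, h2, h3⟩ | ⟨a, l, h1, h2, τ, hτ, τ', hτ', h3⟩ | ⟨τ, hτ, h⟩ | h
  · exact Or.inl ⟨a, j, h1, h2, h3.imp id fun ⟨τ, hτ, h⟩ => ⟨τ, hU hτ, h⟩⟩
  · exact Or.inr (Or.inl ⟨a, l, h1, h2, τ, hU hτ, τ', hU hτ', h3⟩)
  · exact Or.inr (Or.inr (Or.inl ⟨τ, hU hτ, h⟩))
  · exact Or.inr (Or.inr (Or.inr h))

lemma Bad.small {U : Finset (Option F × Fin s)} {σ : Option F × Fin s} (h : Bad z ω gd U σ) :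
    ∃ W ⊆ U, W.card ≤ 2 ∧ Bad z ω gd W σ := by
  rcases h with ⟨a, j, h1, h2, h3 | ⟨τ, hτ, h3⟩⟩ | ⟨a, l, h1, h2, τ, hτ, τ', hτ', h3⟩ |
    ⟨τ, hτ, h⟩ | h
  · exact ⟨∅, empty_subset _, by simp, Or.inl ⟨a, j, h1, h2, Or.inl h3⟩⟩
  · exact ⟨{τ}, by simpa, by simp, Or.inl ⟨a, j, h1, h2, Or.inr ⟨τ, by simp, h3⟩⟩⟩
  · exact ⟨{τ, τ'}, by simp [insert_subset_iff, hτ, hτ'], card_le_two,
      Or.inr (Or.inl ⟨a, l, h1, h2, τ, by simp, τ', by simp, h3⟩)⟩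
  · exact ⟨{τ}, by simpa, by simp, Or.inr (Or.inr (Or.inl ⟨τ, by simp, h⟩))⟩
  · exact ⟨∅, empty_subset _, by simp, Or.inr (Or.inr (Or.inr h))⟩

lemma d1_core (hG : Disj G) {n γ : ℕ} {O : Finset (Vt F s κ)} {U : Finset (Option F × Fin s)}
    (hD : Der G z ω n O γ) (hI : Inv gd O U) {σ : Option F × Fin s} (hσ : σ ∉ U)
    (hv : Val G z ω σ (gd σ)) {j : Option F} (hj : j ≠ σ.1) {β β' : Bool} {i i' : Fin κ}
    {b b' : Fin 4} (hb : b ≠ b') (h1 : On ((gd σ).p b) (Ln dr ω (Sum.inr (j, β, i))))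
    (h2 : On ((gd σ).p b') (Ln dr ω (Sum.inr (j, β', i'))))
    (h3 : Sum.inr (j, β, i) ∉ (gd σ).sls s) :
    ∃ O', Der G z ω (n + 5) O' (γ + 1) ∧ Inv gd O' (insert σ U) := by
  by_cases h : Sum.inr (j, β, i) ∈ O
  · exact ⟨_, (gstep hD hI hσ hv 1 (by norm_num)
      (Or.inr (Or.inl ⟨rfl, Or.inl ⟨b, fp_of_mem h (by exact hj) h1⟩⟩))).mono (by omega), hI.gs σ⟩
  have D1 := gstep hD hI hσ hv 0 (by norm_num) (Or.inl rfl)
  have I1 := hI.gs σ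
  have D2 := D1.R (Sum.inr (j, β', i'))
    (Or.inr (Or.inl ⟨_, hv.kp hG (I1.1 σ (mem_insert_self _ _)).2 b', h2⟩))
  have I2 := I1.ins (j, β', i')
  have D3 := D2.K (Sum.inr (j, β, i)) ?_ ⟨⟨β', i', mem_insert_self _ _⟩, _,
    hv.kp hG (I2.1 σ (mem_insert_self _ _)).2 b, h1⟩
  · exact ⟨_, D3.mono (by omega), I2.ins _⟩
  · simp only [mem_insert, mem_union, reduceCtorEq, false_or, not_or]
    refine ⟨fun e => hb (hv.inj ?_), h, h3⟩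
    rw [← e] at h2
    exact two_pts (by exact hj) h1 (hv.on b) h2 (hv.on b')

lemma d2_core (hG : Disj G) {n γ : ℕ} {O : Finset (Vt F s κ)} {U : Finset (Option F × Fin s)}
    (hD : Der G z ω n O γ) (hI : Inv gd O U) {σ : Option F × Fin s} (hσ : σ ∉ U)
    (hv : Val G z ω σ (gd σ)) {y : F × F} {j j' : Option F} {a a' : Fin 4}
    (hy : On y (Ln dr ω (Sum.inl σ))) (hb : ∀ b, y ≠ (gd σ).p b) (hjj : j ≠ j') (hj : j ≠ σ.1)
    (hj' : j' ≠ σ.1) (e1 : inM ω j y) {β : Bool} {i : Fin κ}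
    (e2 : On y (Ln dr ω (Sum.inr (j', β, i)))) (u1 : inM ω j ((gd σ).p a))
    (u2 : inM ω j' ((gd σ).p a')) (h : Sum.inr (j', β, i) ∉ O) :
    ∃ O', Der G z ω (n + 5) O' (γ + 1) ∧ Inv gd O' (insert σ U) := by
  obtain ⟨β1, i1, e1⟩ := e1
  obtain ⟨β2, i2, u1⟩ := u1
  obtain ⟨β3, i3, u2⟩ := u2
  have D1 := gstep hD hI hσ hv 0 (by norm_num) (Or.inl rfl)
  have I1 := hI.gs σ
  have D2 := D1.R (Sum.inr (j, β2, i2))
    (Or.inr (Or.inl ⟨_, hv.kp hG (I1.1 σ (mem_insert_self _ _)).2 a, u1⟩))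
  have I2 := I1.ins (j, β2, i2)
  have D3 := D2.R (Sum.inr (j', β3, i3))
    (Or.inr (Or.inl ⟨_, hv.kp hG (I2.1 σ (mem_insert_self _ _)).2 a', u2⟩))
  have I3 := I2.ins (j', β3, i3)
  have D4 := D3.R (Sum.inr (j, β1, i1))
    (Or.inr (Or.inr ⟨β2, i2, mem_insert_of_mem (mem_insert_self _ _)⟩))
  have I4 := I3.ins (j, β1, i1)
  have D5 := D4.K (Sum.inr (j', β, i)) ?_ ⟨⟨β3, i3, mem_insert_of_mem (mem_insert_self _ _)⟩, y,
    Or.inr ⟨_, mem_image_of_mem _ (mem_insert_self _ _), _,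
      mem_image_of_mem _ (I4.1 σ (mem_insert_self _ _)).1, hj, e1, hy⟩, e2⟩
  · exact ⟨_, D5, I4.ins _⟩
  · simp only [mem_insert, mem_union, reduceCtorEq, false_or, not_or]
    refine ⟨fun e => hjj ?_, fun e => hb a' ?_, fun e => hjj ?_, h, fun e => ?_⟩
    · simp only [Sum.inr.injEq, Prod.mk.injEq] at e; exact e.1.symm
    · rw [← e] at u2
      exact two_pts (by exact hj') e2 hy u2 (hv.on a')
    · simp only [Sum.inr.injEq, Prod.mk.injEq] at e; exact e.1.symm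
    · obtain ⟨b, _, _, e'⟩ := hv.sls_pt e e2 hy
      exact hb b e'

lemma fin4_a (a : Fin 4) : a ≠ a + 2 ∧ a ≠ a + 2 - 1 ∧ a - 1 ≠ a + 2 ∧ a - 1 ≠ a + 2 - 1 := by
  revert a; decide

lemma proc_bad (hG : Disj G) {n γ : ℕ} {O : Finset (Vt F s κ)} {U : Finset (Option F × Fin s)}
    (hD : Der G z ω n O γ) (hI : Inv gd O U) (hU : ∀ τ ∈ U, Val G z ω τ (gd τ))
    {σ : Option F × Fin s} (hσ : σ ∉ U) (hv : Val G z ω σ (gd σ)) (hB : Bad z ω gd U σ) :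
    ∃ O', Der G z ω (n + 5) O' (γ + 1) ∧ Inv gd O' (insert σ U) := by
  rcases hB with ⟨a, j, h1, ⟨β, i, h2⟩, h3⟩ | ⟨a, l, h1, h2, τ, hτ, τ', hτ', b, b', h3⟩ |
    ⟨τ, hτ, h⟩ | ⟨u, h⟩ | ⟨a, j, h1, ⟨β, i, h2⟩, ⟨β', i', h3⟩⟩ |
    ⟨y, j, j', a, a', h1, h2, h3, h4, h5, h6, ⟨β, i, h7⟩, ⟨β', i', h8⟩, h9, h10⟩
  · obtain ⟨y, ky, β', i', hy⟩ : ∃ y, kp z (O.image (Ln dr ω)) y ∧ inM ω j y := by
      rcases h3 with ⟨y, h3, h4⟩ | ⟨τ, hτ, b, h4⟩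
      · exact ⟨y, Or.inl h3, h4⟩
      · exact ⟨_, (hU τ hτ).kp hG (hI.1 τ hτ).2 b, h4⟩
    have D1 := hD.R (Sum.inr (j, β', i')) (Or.inr (Or.inl ⟨y, ky, hy⟩))
    have D2 := D1.R (Sum.inr (j, β, i)) (Or.inr (Or.inr ⟨β', i', mem_insert_self _ _⟩))
    have I2 := (hI.ins (j, β', i')).ins (j, β, i)
    exact ⟨_, (gstep D2 I2 hσ hv 1 (by norm_num) (Or.inr (Or.inl ⟨rfl, Or.inl
      ⟨a, fp_of_mem (mem_insert_self _ _) (by exact h1) h2⟩⟩))).mono (by omega), I2.gs σ⟩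
  · exact ⟨_, (gstep hD hI hσ hv 1 (by norm_num) (Or.inr (Or.inl ⟨rfl, Or.inl
      ⟨a, l, h1, Or.inr ⟨_, _, (hU τ hτ).kp hG (hI.1 τ hτ).2 b, (hU τ' hτ').kp hG (hI.1 τ' hτ').2 b',
        h3⟩, h2⟩⟩))).mono (by omega), hI.gs σ⟩
  · exact ⟨_, (gstep hD hI hσ hv 1 (by norm_num) (Or.inr (Or.inl ⟨rfl, Or.inr (Or.inr
      (h ▸ mem_image_of_mem _ (hI.1 τ hτ).1))⟩))).mono (by omega), hI.gs σ⟩
  · have D1 := hD.R (Sum.inr u) (Or.inl (h ▸ hv.th))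
    have I1 := hI.ins u
    exact ⟨_, (gstep D1 I1 hσ hv 1 (by norm_num) (Or.inr (Or.inl ⟨rfl, Or.inr (Or.inr
      (h ▸ mem_image_of_mem _ (mem_insert_self _ _)))⟩))).mono (by omega), I1.gs σ⟩
  · by_cases k1 : Sum.inr (j, β, i) ∈ (gd σ).sls s
    · refine d1_core hG hD hI hσ hv h1 (fin4_a a).1.symm h3 h2 fun k2 => ?_
      obtain ⟨f1, f2, f3, f4⟩ := fin4_a a
      rcases hv.sls_pos k1 h2 with e | e <;> rcases hv.sls_pos k2 h3 with e' | e'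
      · exact f1 (hv.c_inj hG (e.symm.trans e'))
      · exact f2 (hv.c_inj hG (e.symm.trans e'))
      · exact f3 (hv.c_inj hG (e.symm.trans e'))
      · exact f4 (hv.c_inj hG (e.symm.trans e'))
    · exact d1_core hG hD hI hσ hv h1 (fin4_a a).1 h2 h3 k1
  · by_cases k1 : Sum.inr (j', β', i') ∈ O
    · by_cases k2 : Sum.inr (j, β, i) ∈ O
      · exact ⟨_, (gstep hD hI hσ hv 1 (by norm_num) (Or.inr (Or.inl ⟨rfl, Or.inr (Or.inl
          ⟨y, Or.inr ⟨_, mem_image_of_mem _ k2, _, mem_image_of_mem _ k1, h4, h7, h8⟩, h1,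
          h2⟩)⟩))).mono (by omega), hI.gs σ⟩
      · exact d2_core hG hD hI hσ hv h1 h3 h4.symm h6 h5 ⟨β', i', h8⟩ h7 h10 h9 k2
    · exact d2_core hG hD hI hσ hv h1 h3 h4 h5 h6 ⟨β, i, h7⟩ h8 h9 h10 k1

open Classical in
lemma proc_list (hG : Disj G) (rk : Option F × Fin s → ℕ) (U : Finset (Option F × Fin s)) :
    (∀ τ ∈ U, Val G z ω τ (gd τ)) → ∃ O, Der G z ω (5 * U.card) O
      (U.filter fun σ => Bad z ω gd (U.filter fun τ => rk τ < rk σ) σ).card ∧ Inv gd O U := by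
  refine Finset.induction_on_max_value rk U (fun _ => ⟨∅, ⟨rfl, rfl⟩, by simp [Inv]⟩) ?_
  intro m U hm hmax ih hU
  obtain ⟨O, hD, hI⟩ := ih fun τ hτ => hU τ (mem_insert_of_mem hτ)
  have h1 : (U.filter fun σ => Bad z ω gd ((insert m U).filter fun τ => rk τ < rk σ) σ) =
      U.filter fun σ => Bad z ω gd (U.filter fun τ => rk τ < rk σ) σ := by
    refine Finset.filter_congr fun σ hσ => ?_
    rw [Finset.filter_insert, if_neg (not_lt.2 (hmax σ hσ))]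
  rw [card_insert_of_notMem hm, Finset.filter_insert, h1]
  split_ifs with h
  · rw [card_insert_of_notMem fun h' => hm (mem_filter.1 h').1]
    refine proc_bad hG hD hI (fun τ hτ => hU τ (mem_insert_of_mem hτ)) hm
      (hU m (mem_insert_self _ _)) (h.mono fun τ hτ => ?_)
    obtain ⟨h2, h3⟩ := mem_filter.1 hτ
    exact (mem_insert.1 h2).resolve_left fun e => by rw [e] at h3; omega
  · exact ⟨_, (gstep hD hI hm (hU m (mem_insert_self _ _)) 0 (by norm_num) (Or.inl rfl)).mono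
      (by omega), hI.gs m⟩

open Classical in
theorem few_bad (hG : Disj G) (rk : Option F × Fin s → ℕ) (T : Finset (Option F × Fin s))
    (hT : ∀ τ ∈ T, Val G z ω τ (gd τ)) (k : ℕ) (hk : k ≤ 3) (hno : ¬ ∃ O, Der G z ω 50 O k) :
    (T.filter fun σ => Bad z ω gd (T.filter fun τ => rk τ < rk σ) σ).card < k := by
  by_contra hc
  obtain ⟨B, hB, hBk⟩ := Finset.exists_subset_card_eq (not_lt.1 hc)
  have h1 : ∀ σ ∈ B, ∃ W ⊆ T.filter fun τ => rk τ < rk σ, W.card ≤ 2 ∧ Bad z ω gd W σ :=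
    fun σ hσ => (mem_filter.1 (hB hσ)).2.small
  choose! W hW using h1
  have h2 : (B ∪ B.biUnion W).card ≤ 9 := by
    have := card_union_le B (B.biUnion W)
    have := card_biUnion_le_card_mul B W 2 fun σ hσ => (hW σ hσ).2.1
    omega
  obtain ⟨O, hD, _⟩ := proc_list (z := z) (ω := ω) (gd := gd) hG rk (B ∪ B.biUnion W) fun τ hτ => by
    rcases mem_union.1 hτ with h | h
    · exact hT τ (mem_filter.1 (hB h)).1
    · obtain ⟨σ, hσ, h⟩ := mem_biUnion.1 h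
      exact hT τ (mem_filter.1 ((hW σ hσ).1 h)).1
  refine hno ⟨O, (hD.mono (by omega)).gain ?_⟩
  rw [← hBk]
  refine card_le_card fun σ hσ => mem_filter.2 ⟨mem_union_left _ hσ, (hW σ hσ).2.2.mono ?_⟩
  intro τ hτ
  exact mem_filter.2 ⟨mem_union_right _ (mem_biUnion.2 ⟨σ, hσ, hτ⟩),
    (mem_filter.1 ((hW σ hσ).1 hτ)).2⟩

end Crest.Agent.H8.Ry
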