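import Crest.Agent.H8.RyLoc

set_option autoImplicit false
set_option linter.unusedSectionVars false

namespace Crest.Agent.H8.Ry
open Finset

variable {F : Type} [Field F] [Fintype F] [DecidableEq F] {s κ : ℕ}
variable {G : Fin 4 → Finset (Option F)} {ω : Vt F s κ → F} {y : F × F}
variable {gd : Option F × Fin s → Gad F κ}

lemma one_pt {n γ : ℕ} {O : Finset (Vt F s κ)} {U : Finset (Option F × Fin s)}
    (hD : Der G (Sum.inr y) ω n O γ) (hI : Inv gd O U) {σ : Option F × Fin s}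
    (hv : Val G (Sum.inr y) ω σ (gd σ)) (a : Fin 4) {j : Option F} (hj : j ≠ σ.1)
    (h1 : inM ω j ((gd σ).p a)) (h2 : old O j ∨ inM ω j y) :
    ∃ O', O ⊆ O' ∧ Der G (Sum.inr y) ω (n + 2) O' γ ∧ Inv gd O' U ∧
      (∀ v ∈ O', v ∈ (gd σ).sls s → v ∈ O) ∧
      (fp (Sum.inr y) (O'.image (Ln dr ω)) (Ln dr ω (Sum.inl σ)) ((gd σ).p a) ∨
        old O' ((gd σ).1 a) ∨ old O' ((gd σ).1 (a - 1))) := by
  obtain ⟨O1, s1, D1, I1, n1, o1⟩ : ∃ O', O ⊆ O' ∧ Der G (Sum.inr y) ω (n + 1) O' γ ∧ Inv gd O' U ∧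
      (∀ v ∈ O', v ∈ (gd σ).sls s → v ∈ O) ∧ old O' j := by
    rcases h2 with h2 | ⟨β, i, h2⟩
    · exact ⟨O, Subset.rfl, hD.succ, hI, fun v h _ => h, h2⟩
    · refine ⟨_, subset_insert _ _, hD.R (Sum.inr (j, β, i)) (Or.inl h2), hI.ins _, fun v h h' => ?_,
        β, i, mem_insert_self _ _⟩
      rcases mem_insert.1 h with rfl | h
      · obtain ⟨b, _, _, e⟩ := hv.sls_pt h' h2 hv.th
        exact absurd (by rw [e]) (hv.st.2 b).2
      · exact h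
  by_cases hadj : j = (gd σ).1 a ∨ j = (gd σ).1 (a - 1)
  · exact ⟨O1, s1, D1.succ, I1, n1, Or.inr (by rcases hadj with e | e <;> rw [← e] <;> simp [o1])⟩
  obtain ⟨β, i, h1⟩ := h1
  refine ⟨_, s1.trans (subset_insert _ _), D1.R (Sum.inr (j, β, i)) (Or.inr (Or.inr o1)), I1.ins _,
    fun v h h' => ?_, Or.inl (fp_of_mem (mem_insert_self _ _) (by exact hj) h1)⟩
  rcases mem_insert.1 h with rfl | h
  · exact absurd (hv.sls_pos h' h1) hadj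
  · exact n1 v h h'

lemma gain2 {n γ : ℕ} {O : Finset (Vt F s κ)} {U : Finset (Option F × Fin s)}
    (hD : Der G (Sum.inr y) ω n O γ) (hI : Inv gd O U) {σ : Option F × Fin s} (hσ : σ ∉ U)
    (hv : Val G (Sum.inr y) ω σ (gd σ))
    (h : ∀ a, ∃ j, j ≠ σ.1 ∧ inM ω j ((gd σ).p a) ∧ (old O j ∨ inM ω j y))
    (hnew : ∃ a β, (gd σ).sl s a β ∉ O) :
    ∃ O', Der G (Sum.inr y) ω (n + 9) O' (γ + 2) ∧ Inv gd O' (insert σ U) := by
  obtain ⟨j0, a0, b0, c0⟩ := h 0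
  obtain ⟨j1, a1, b1, c1⟩ := h 1
  obtain ⟨j2, a2, b2, c2⟩ := h 2
  obtain ⟨j3, a3, b3, c3⟩ := h 3
  obtain ⟨O0, s0, D0, I0, n0, f0⟩ := one_pt hD hI hv 0 a0 b0 c0
  obtain ⟨O1, s1, D1, I1, n1, f1⟩ := one_pt D0 I0 hv 1 a1 b1 (c1.imp (old_mono s0) id)
  obtain ⟨O2, s2, D2, I2, n2, f2⟩ := one_pt D1 I1 hv 2 a2 b2 (c2.imp (old_mono (s0.trans s1)) id)
  obtain ⟨O3, s3, D3, I3, n3, f3⟩ := one_pt D2 I2 hv 3 a3 b3
    (c3.imp (old_mono ((s0.trans s1).trans s2)) id)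
  have mono : ∀ {O' : Finset (Vt F s κ)} {a : Fin 4}, O' ⊆ O3 →
      (fp (Sum.inr y) (O'.image (Ln dr ω)) (Ln dr ω (Sum.inl σ)) ((gd σ).p a) ∨
        old O' ((gd σ).1 a) ∨ old O' ((gd σ).1 (a - 1))) →
      (fp (Sum.inr y) (O3.image (Ln dr ω)) (Ln dr ω (Sum.inl σ)) ((gd σ).p a) ∨
        old O3 ((gd σ).1 a) ∨ old O3 ((gd σ).1 (a - 1))) := fun hs h =>
    h.imp (fp_mono (image_subset_image hs)) fun h => h.imp (old_mono hs) (old_mono hs)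
  refine ⟨_, gstep D3 I3 hσ hv 2 (by norm_num) (Or.inr (Or.inr ⟨rfl, fun a => ?_, ?_⟩)), I3.gs σ⟩
  · fin_cases a
    · exact mono ((s1.trans s2).trans s3) f0
    · exact mono (s2.trans s3) f1
    · exact mono s3 f2
    · exact f3
  · obtain ⟨a, β, h⟩ := hnew
    have m := (gd σ).sl_mem (s := s) a β
    exact ⟨a, β, fun h' => h (n0 _ (n1 _ (n2 _ (n3 _ h' m) m) m) m)⟩

lemma new_slot (hG : Disj G) {O : Finset (Vt F s κ)} {σ0 σ : Option F × Fin s} {g0 g : Gad F κ}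
    (hv0 : Val G (Sum.inr y) ω σ0 g0) (hv : Val G (Sum.inr y) ω σ g)
    (hne : Ln dr ω (Sum.inl σ0) ≠ Ln dr ω (Sum.inl σ)) (x1 x2 : Vt F s κ)
    (hO : ∀ v ∈ O, v = Sum.inl σ0 ∨ v ∈ g0.sls s ∨ v = x1 ∨ v = x2 ∨ On y (Ln dr ω v)) :
    ∃ a β, g.sl s a β ∉ O := by
  by_contra hc
  push Not at hc
  have h1 : ∀ a β, g.sl s a β ∈ g0.sls s ∨ g.sl s a β ∈ ({x1, x2} : Finset _) := by
    intro a β
    rcases hO _ (hc a β) with h | h | h | h | h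
    · exact absurd (h ▸ g.sl_mem a β) (inl_notMem_sls σ0)
    · exact Or.inl h
    · exact Or.inr (by simp [h])
    · exact Or.inr (by simp [h])
    · obtain ⟨b, _, _, e⟩ := hv.sls_pt (g.sl_mem a β) h hv.th
      exact absurd (by rw [e]) (hv.st.2 b).2
  have h2 : ∀ a, ∃ β, g.sl s a β ∈ ({x1, x2} : Finset _) := by
    intro a
    by_contra h
    push Not at h
    have k : ∀ β, g.sl s a β = g0.sl s a β := by
      intro β
      obtain ⟨⟨b, β'⟩, _, e⟩ := mem_image.1 ((h1 a β).resolve_right (h β))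
      have e' := e
      cases β <;> cases β' <;> simp only [Gad.sl, Sum.inr.injEq, Prod.mk.injEq] at e'
      · rw [← e, hG _ _ _ (hv.st.1 a).1 (e'.1 ▸ (hv0.st.1 b).1)]
      · simp at e'
      · simp at e'
      · rw [← e, sub_left_injective (hG _ _ _ (hv.st.1 (a - 1)).1 (e'.1 ▸ (hv0.st.1 (b - 1)).1))]
    have k2 : g.p a = g0.p a := two_pts (l := Ln dr ω (g.sl s a false)) (l' := Ln dr ω (g.sl s a true))
      (fun e => sub_one_ne a (hv.c_inj hG e).symm) (hv.on_sl a false) (hv.on_sl a true)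
      (k false ▸ hv0.on_sl a false) (k true ▸ hv0.on_sl a true)
    have k3 : y = g.p a := pt_unique hne hv0.th hv.th (k2 ▸ hv0.on a) (hv.on a)
    exact (hv.st.2 a).2 (by rw [k3])
  choose β hβ using h2
  have h3 := Finset.card_le_card_of_injOn (s := univ) (t := ({x1, x2} : Finset _))
    (fun a => g.sl s a (β a)) (fun a _ => hβ a) fun a _ b _ e =>
      congrArg Prod.fst (Gad.sl_inj hG g (fun a => (hv.st.1 a).1) (a₁ := (a, β a)) (a₂ := (b, β b)) e)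
  have h4 := card_le_two (a := x1) (b := x2)
  simp only [card_univ, Fintype.card_fin] at h3
  omega

lemma der_zero {z : Option F ⊕ (F × F)} : Der G z ω 0 (∅ : Finset (Vt F s κ)) 0 := ⟨rfl, rfl⟩

lemma inv_empty : Inv gd ∅ ∅ := by simp [Inv]

theorem no_T2 (hG : Disj G) {σ1 σ2 : Option F × Fin s}
    (hv1 : Val G (Sum.inr y) ω σ1 (gd σ1)) (hv2 : Val G (Sum.inr y) ω σ2 (gd σ2))
    (hne : Ln dr ω (Sum.inl σ1) ≠ Ln dr ω (Sum.inl σ2))
    (h1 : ∃ a j, j ≠ σ1.1 ∧ inM ω j ((gd σ1).p a) ∧ inM ω j y) (X : Option F)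
    (hX : ∃ b, inM ω X ((gd σ1).p b))
    (h2 : ∀ a, ∃ j, j ≠ σ2.1 ∧ inM ω j ((gd σ2).p a) ∧ (j = X ∨ inM ω j y)) :
    ∃ O, Der G (Sum.inr y) ω 50 O 3 := by
  obtain ⟨a, j, hj, ⟨β, i, ht⟩, ⟨β', i', hh⟩⟩ := h1
  obtain ⟨b, βx, ix, hx⟩ := hX
  have D1 := (der_zero (G := G) (ω := ω) (z := Sum.inr y)).R (Sum.inr (j, β', i')) (Or.inl hh)
  have D2 := D1.R (Sum.inr (j, β, i)) (Or.inr (Or.inr ⟨β', i', mem_insert_self _ _⟩))
  have I2 := ((inv_empty (gd := gd)).ins (j, β', i')).ins (j, β, i)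
  have D3 := gstep D2 I2 (notMem_empty σ1) hv1 1 (by norm_num) (Or.inr (Or.inl ⟨rfl, Or.inl
      ⟨a, fp_of_mem (mem_insert_self _ _) (by exact hj) ht⟩⟩))
  have I3 := I2.gs σ1
  have D4 := D3.R (Sum.inr (X, βx, ix))
    (Or.inr (Or.inl ⟨_, hv1.kp hG (I3.1 σ1 (mem_insert_self _ _)).2 b, hx⟩))
  have I4 := I3.ins (X, βx, ix)
  obtain ⟨O, D5, _⟩ := gain2 D4 I4 (σ := σ2) (by
      simp only [insert_empty_eq, mem_singleton]; rintro rfl; exact hne rfl) hv2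
    (fun a => let ⟨j, k1, k2, k3⟩ := h2 a
      ⟨j, k1, k2, k3.imp (fun e => ⟨βx, ix, by rw [e]; exact mem_insert_self _ _⟩) id⟩)
    (new_slot hG hv1 hv2 hne (Sum.inr (X, βx, ix)) (Sum.inr (j, β, i)) fun v hv => by
      simp only [mem_insert, mem_union, notMem_empty, or_false] at hv
      rcases hv with h | h | (h | h) | h
      · exact Or.inr (Or.inr (Or.inl h))
      · exact Or.inl h
      · exact Or.inr (Or.inr (Or.inr (Or.inl h)))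
      · exact Or.inr (Or.inr (Or.inr (Or.inr (h ▸ hh))))
      · exact Or.inr (Or.inl h))
  exact ⟨O, D5.mono (by omega)⟩

theorem no_T3 (hG : Disj G) {σ0 σ1 σ2 : Option F × Fin s} (hv0 : Val G (Sum.inr y) ω σ0 (gd σ0))
    (hv1 : Val G (Sum.inr y) ω σ1 (gd σ1)) (hv2 : Val G (Sum.inr y) ω σ2 (gd σ2))
    (hne : Ln dr ω (Sum.inl σ0) ≠ Ln dr ω (Sum.inl σ2)) (h10 : σ1 ≠ σ0) (h12 : σ1 ≠ σ2)
    (X1 X2 : Option F) (hX1 : ∃ b, inM ω X1 ((gd σ0).p b)) (hX2 : ∃ b, inM ω X2 ((gd σ0).p b))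
    (h2 : ∀ a, ∃ j, j ≠ σ2.1 ∧ inM ω j ((gd σ2).p a) ∧ (j = X1 ∨ j = X2 ∨ inM ω j y))
    (h1 : ∃ a j, j ≠ σ1.1 ∧ inM ω j ((gd σ1).p a) ∧ (inM ω j y ∨ ∃ b, inM ω j ((gd σ0).p b))) :
    ∃ O, Der G (Sum.inr y) ω 50 O 3 := by
  obtain ⟨b1, β1, i1, hx1⟩ := hX1
  obtain ⟨b2, β2, i2, hx2⟩ := hX2
  have D1 := gstep (der_zero (G := G) (ω := ω) (z := Sum.inr y)) (inv_empty (gd := gd))
    (notMem_empty σ0) hv0 0 (by norm_num) (Or.inl rfl)
  have I1 := (inv_empty (gd := gd)).gs σ0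
  have D2 := D1.R (Sum.inr (X1, β1, i1))
    (Or.inr (Or.inl ⟨_, hv0.kp hG (I1.1 σ0 (mem_insert_self _ _)).2 b1, hx1⟩))
  have I2 := I1.ins (X1, β1, i1)
  have D3 := D2.R (Sum.inr (X2, β2, i2))
    (Or.inr (Or.inl ⟨_, hv0.kp hG (I2.1 σ0 (mem_insert_self _ _)).2 b2, hx2⟩))
  have I3 := I2.ins (X2, β2, i2)
  obtain ⟨O, D4, I4⟩ := gain2 D3 I3 (σ := σ2) (by
      simp only [insert_empty_eq, mem_singleton]; rintro rfl; exact hne rfl) hv2
    (fun a => let ⟨j, k1, k2, k3⟩ := h2 a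
      ⟨j, k1, k2, by
        rcases k3 with e | e | e
        · exact Or.inl ⟨β1, i1, e ▸ mem_insert_of_mem (mem_insert_self _ _)⟩
        · exact Or.inl ⟨β2, i2, e ▸ mem_insert_self _ _⟩
        · exact Or.inr e⟩)
    (new_slot hG hv0 hv2 hne (Sum.inr (X1, β1, i1)) (Sum.inr (X2, β2, i2)) fun v hv => by
      simp only [mem_insert, mem_union, notMem_empty, false_or] at hv
      rcases hv with h | h | h | h
      · exact Or.inr (Or.inr (Or.inr (Or.inl h)))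
      · exact Or.inr (Or.inr (Or.inl h))
      · exact Or.inl h
      · exact Or.inr (Or.inl h))
  obtain ⟨a, j, k1, k2, k3⟩ := h1
  obtain ⟨O', D5, _⟩ := proc_bad hG D4 I4 (fun τ hτ => by
      simp only [mem_insert, notMem_empty, or_false] at hτ
      rcases hτ with rfl | rfl
      · exact hv2
      · exact hv0) (σ := σ1) (by simp [h10, h12]) hv1
    (Or.inl ⟨a, j, k1, k2, k3.imp (fun h => ⟨y, rfl, h⟩) fun h => ⟨σ0, by simp, h⟩⟩)
  exact ⟨O', D5.mono (by omega)⟩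

end Crest.Agent.H8.Ry
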