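import Crest.Agent.H8.RyKnown

set_option autoImplicit false
set_option linter.unusedSectionVars false

namespace Crest.Agent.H8.Ry
open Finset

variable {F : Type} [Field F] [Fintype F] [DecidableEq F] {s κ : ℕ}

/-- exponent of a local sum -/
def ee (fo bo b' b : Bool) : ℕ :=
  if !b' && !b then (if fo then 2 else 1) else if b' && b && bo then 0 else 1

/-- the local predicate of a mode -/
def Qm (z : Option F ⊕ (F × F)) (K : Finset (Option F × F)) (O : Finset (Vt F s κ))
    (ω0 : Vt F s κ → F) (l : Option F × F) (fo bo : Bool) (j' j : Option F)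
    (x : Fin κ × Fin κ × (F × F)) : Prop :=
  On x.2.2 l ∧ (fo = true → ¬ old O j → ¬ old O j' → fp z K l x.2.2) ∧
    (Sum.inr (j, false, x.1) ∈ O → Sum.inr (j', true, x.2.1) ∈ O →
      ω0 (Sum.inr (j, false, x.1)) = ph j x.2.2 → ω0 (Sum.inr (j', true, x.2.1)) = ph j' x.2.2 →
      bo = true)

lemma card_on (l : Option F × F) : (univ.filter (On · l)).card = Fintype.card F := cnt_univ l

lemma locS_mode {w : ℕ} (hP : Par (Fintype.card F) w) (hκ : (κ : ℝ) ≤ (w : ℝ) ^ 30)
    (z : Option F ⊕ (F × F)) (K : Finset (Option F × F)) (hK : K.card ≤ 500)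
    (O : Finset (Vt F s κ)) (hO : O.card ≤ 500) (ω0 : Vt F s κ → F) (l : Option F × F)
    (fo bo : Bool) (j' j : Option F) (hj : j ≠ l.1) (hj' : j' ≠ l.1) :
    locS O ω0 (Qm z K O ω0 l fo bo j' j) j' j ≤
      (w : ℝ) ^ 62 / (Fintype.card F : ℝ) ^ ee fo bo (oldb O j') (oldb O j) := by
  classical
  have hQ := hP.Q0
  have hW := hP.W0
  have hq1 : (1:ℝ) ≤ Fintype.card F := by exact_mod_cast Fintype.card_pos
  set q : ℝ := (Fintype.card F : ℝ) with hq
  have hO' : (O.card : ℝ) ≤ 500 := by exact_mod_cast hO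
  have hκ2 : (κ : ℝ) ^ 2 ≤ (w : ℝ) ^ 60 := by
    calc (κ : ℝ) ^ 2 ≤ ((w : ℝ) ^ 30) ^ 2 := by gcongr
      _ = _ := by ring
  by_cases h1 : fo = true ∧ ¬ old O j ∧ ¬ old O j'
  · have := locS_le O ω0 l (Qm z K O ω0 l fo bo j' j) j' j hj hj'
      (univ.filter fun p => On p l ∧ fp z K l p)
      (fun x hx => mem_filter.2 ⟨mem_univ _, hx.1, hx.2.1 h1.1 h1.2.1 h1.2.2⟩) (fun x hx => hx.1)
      (bo = true) (fun x hx => hx.2.2)
    rw [ind_of_not h1.2.1, ind_of_not h1.2.2] at this
    rw [oldb_false.2 h1.2.1, oldb_false.2 h1.2.2, show ee fo bo false false = 2 by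
      simp [ee, h1.1]]
    have h2 : ((univ.filter fun p => On p l ∧ fp z K l p).card : ℝ) ≤ 10 ^ 11 := by
      exact_mod_cast card_fp z K hK l
    have h3 := hP.pw (C := 10 ^ 11) (by norm_num) (a := 60) (b := 62) (by norm_num)
    refine this.trans ?_
    simp only [add_zero, mul_zero]
    gcongr
    exact le_trans (by gcongr) h3
  have := locS_le O ω0 l (Qm z K O ω0 l fo bo j' j) j' j hj hj'
      (univ.filter (On · l)) (fun x hx => mem_filter.2 ⟨mem_univ _, hx.1⟩) (fun x hx => hx.1)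
      (bo = true) (fun x hx => hx.2.2)
  rw [card_on, ← hq] at this
  have h3 : q * (κ : ℝ) ^ 2 / q ^ 2 ≤ (w : ℝ) ^ 60 / q := by
    rw [show q * (κ : ℝ) ^ 2 / q ^ 2 = (κ : ℝ) ^ 2 / q by field_simp]; gcongr
  have h4 : O.card * κ / q * (ind (old O j) + ind (old O j')) ≤ (w : ℝ) ^ 60 / q := by
    have h5 := hP.pw (C := 1000) (by norm_num) (a := 30) (b := 60) (by norm_num)
    have := ind_le_one (old O j)
    have := ind_le_one (old O j')
    have := ind_nonneg (old O j)
    have := ind_nonneg (old O j')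
    calc _ ≤ 500 * (w : ℝ) ^ 30 / q * 2 := by gcongr; linarith
      _ = 1000 * (w : ℝ) ^ 30 / q := by ring
      _ ≤ _ := by gcongr
  have h6 := hP.pw (C := 3) (by norm_num) (a := 60) (b := 62) (by norm_num)
  by_cases h2 : bo = true ∧ old O j ∧ old O j'
  · rw [oldb_true.2 h2.2.1, oldb_true.2 h2.2.2, show ee fo bo true true = 0 by simp [ee, h2.1]]
    rw [ind_of h2.1, ind_of h2.2.1, ind_of h2.2.2] at this
    rw [ind_of h2.2.1, ind_of h2.2.2] at h4
    have h7 : (w : ℝ) ^ 60 / q ≤ (w : ℝ) ^ 60 := div_le_self (by positivity) hq1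
    have h8 := hP.pw (C := 250000) (by norm_num) (a := 0) (b := 60) (by norm_num)
    have h9 : (O.card : ℝ) ^ 2 ≤ 500 ^ 2 := by gcongr
    simp only [pow_zero, div_one]
    linarith
  · have h7 : ind (bo = true) * (ind (old O j) * ind (old O j')) = 0 := by
      rw [← ind_and, ← ind_and, ind_of_not h2]
    rw [h7] at this
    have h8 : ee fo bo (oldb O j') (oldb O j) = 1 := by
      rw [← oldb_true, ← oldb_true] at h1 h2
      revert h1 h2
      generalize oldb O j = b
      generalize oldb O j' = b'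
      cases fo <;> cases bo <;> cases b <;> cases b' <;> simp [ee]
    rw [h8, pow_one]
    have h9 : 3 * (w : ℝ) ^ 60 / q ≤ (w : ℝ) ^ 62 / q := by gcongr
    have h10 : 0 ≤ (w : ℝ) ^ 60 / q := by positivity
    rw [mul_div_assoc] at h9
    linarith

lemma mode_le {w : ℕ} (hP : Par (Fintype.card F) w) (hκ : (κ : ℝ) ≤ (w : ℝ) ^ 30)
    (z : Option F ⊕ (F × F)) (K : Finset (Option F × F)) (hK : K.card ≤ 500)
    (O : Finset (Vt F s κ)) (hO : O.card ≤ 500) (ω0 : Vt F s κ → F) (l : Option F × F)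
    (G : Fin 4 → Finset (Option F)) (fo bo : Fin 4 → Bool) (γ : ℕ)
    (hγ : ∀ P : Fin 4 → Bool, (∑ a, if P a then 0 else 1) + γ ≤
      ∑ a, ee (fo a) (bo a) (P (a - 1)) (P a)) :
    gadS O ω0 (fun a => (G a).erase l.1) (fun a => Qm z K O ω0 l (fo a) (bo a)) ≤
      16 * (w : ℝ) ^ 252 / (Fintype.card F : ℝ) ^ γ := by
  have hQ := hP.Q0
  have hW := hP.W0
  have hq1 : (1:ℝ) ≤ Fintype.card F := by exact_mod_cast Fintype.card_pos
  refine (gadS_le O ω0 _ _ (fun a b => w * (Fintype.card F : ℝ) ^ (if b then 0 else 1))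
    (fun a b' b => (w : ℝ) ^ 62 / (Fintype.card F : ℝ) ^ ee (fo a) (bo a) b' b) ?_ ?_ ?_).trans ?_
  · intro a b
    cases b
    · have h1 : (((G a).erase l.1).filter fun j => oldb O j = false).card ≤ Fintype.card F := by
        refine (card_filter_le _ _).trans ((card_le_card (erase_subset_erase _ (subset_univ _))).trans ?_)
        simp
      have h2 : ((((G a).erase l.1).filter fun j => oldb O j = false).card : ℝ) ≤ Fintype.card F := by
        exact_mod_cast h1
      simp only [Bool.false_eq_true, if_false, pow_one]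
      exact h2.trans (le_mul_of_one_le_left hQ.le hP.W1)
    · have h1 : ((((G a).erase l.1).filter fun j => oldb O j = true).card : ℝ) ≤ 500 := by
        exact_mod_cast (card_old_le O _).trans hO
      simp only [if_true, pow_zero, mul_one]
      exact h1.trans (le_trans (by norm_num) hP.W)
  · intro a b b'; positivity
  · intro a j' hj' j hj
    exact locS_mode hP hκ z K hK O hO ω0 l _ _ j' j (ne_of_mem_erase hj) (ne_of_mem_erase hj')
  · refine (Finset.sum_le_card_nsmul _ _ ((w : ℝ) ^ 252 / (Fintype.card F : ℝ) ^ γ)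
      fun P _ => ?_).trans (le_of_eq ?_)
    · rw [Finset.prod_mul_distrib, Finset.prod_mul_distrib, Finset.prod_div_distrib,
        Finset.prod_const, Finset.prod_const,
        Finset.prod_pow_eq_pow_sum, Finset.prod_pow_eq_pow_sum, card_univ, Fintype.card_fin, mul_div_assoc', div_le_div_iff₀ (by positivity)
        (by positivity)]
      have := pow_le_pow_right₀ hq1 (hγ P)
      rw [pow_add] at this
      calc _ = (w : ℝ) ^ 252 * ((Fintype.card F : ℝ) ^ (∑ a, if P a then 0 else 1) *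
            (Fintype.card F : ℝ) ^ γ) := by ring
        _ ≤ _ := by gcongr
    · simp [mul_div_assoc]

/-- gain hypotheses of a gadget step -/
def HH (z : Option F ⊕ (F × F)) (K : Finset (Option F × F)) (O : Finset (Vt F s κ))
    (l : Option F × F) (g : Gad F κ) (δ : ℕ) : Prop :=
  δ = 0 ∨ (δ = 1 ∧ ((∃ a, fp z K l (g.p a)) ∨ chi z K l)) ∨
    (δ = 2 ∧ (∀ a, fp z K l (g.p a) ∨ old O (g.1 a) ∨ old O (g.1 (a - 1))) ∧
      ∃ a β, g.sl s a β ∉ O)

/-- static part of a gadget on a line -/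
def Gst (G : Fin 4 → Finset (Option F)) (z : Option F ⊕ (F × F)) (l : Option F × F)
    (g : Gad F κ) : Prop :=
  (∀ a, g.1 a ∈ G a ∧ g.1 a ≠ l.1) ∧ ∀ a, On (g.p a) l ∧ z ≠ Sum.inr (g.p a)

def mfo (δ : ℕ) (χ : Bool) (a0 a : Fin 4) : Bool := δ == 2 || (δ == 1 && !χ && a == a0)
def mbo (δ : ℕ) (χ : Bool) (a0 a : Fin 4) : Bool := χ && !(δ == 2 && a == a0)

lemma mode_ok : ∀ δ : Fin 3, ∀ χ : Bool, ∀ a0 : Fin 4, ∀ b0 b1 b2 b3 : Bool,
    (if b0 then 0 else 1) + (if b1 then 0 else 1) + (if b2 then 0 else 1) + (if b3 then 0 else 1)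
      + (if χ then δ.1 - 1 else δ.1) ≤
      ee (mfo δ χ a0 0) (mbo δ χ a0 0) b3 b0 + ee (mfo δ χ a0 1) (mbo δ χ a0 1) b0 b1 +
      ee (mfo δ χ a0 2) (mbo δ χ a0 2) b1 b2 + ee (mfo δ χ a0 3) (mbo δ χ a0 3) b2 b3 := by
  decide

lemma sub_one_ne (a : Fin 4) : a - 1 ≠ a := by revert a; decide

lemma TT_le {w : ℕ} (hP : Par (Fintype.card F) w) (hκ : (κ : ℝ) ≤ (w : ℝ) ^ 30)
    (z : Option F ⊕ (F × F)) (O : Finset (Vt F s κ)) (hO : O.card ≤ 500) (ω0 : Vt F s κ → F)
    (l : Option F × F) (G : Fin 4 → Finset (Option F)) (hG : Disj G) (δ : ℕ) (hδ : δ < 3) :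
    ∑ g : Gad F κ, ind (Gst G z l g ∧ HH z (O.image (Ln dr ω0)) O l g δ) *
      ∏ x : Fin 4 × Bool, wt O ω0 (g.sl s x.1 x.2) (ph (g.cl x.1 x.2) (g.p x.1)) ≤
      64 * (w : ℝ) ^ 252 / (Fintype.card F : ℝ) ^ δ *
        (1 + Fintype.card F * ind (chi z (O.image (Ln dr ω0)) l)) := by
  classical
  have hQ := hP.Q0
  have hW := hP.W0
  have hq1 : (1:ℝ) ≤ Fintype.card F := by exact_mod_cast Fintype.card_pos
  set K := O.image (Ln dr ω0) with hKd
  have hK : K.card ≤ 500 := card_image_le.trans hO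
  set χ : Bool := decide (chi z K l) with hχ
  have h1 : ∀ a0, gadS O ω0 (fun a => (G a).erase l.1)
      (fun a => Qm z K O ω0 l (mfo δ χ a0 a) (mbo δ χ a0 a)) ≤
      16 * (w : ℝ) ^ 252 / (Fintype.card F : ℝ) ^ (if χ then δ - 1 else δ) := by
    intro a0
    refine mode_le hP hκ z K hK O hO ω0 l G _ _ _ fun P => ?_
    have := mode_ok ⟨δ, hδ⟩ χ a0 (P 0) (P 1) (P 2) (P 3)
    simp only [Fin.sum_univ_four]
    exact this
  calc _ ≤ ∑ a0, gadS O ω0 (fun a => (G a).erase l.1)
        (fun a => Qm z K O ω0 l (mfo δ χ a0 a) (mbo δ χ a0 a)) := by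
        unfold gadS
        rw [Finset.sum_comm]
        refine Finset.sum_le_sum fun g _ => ?_
        rw [← Finset.sum_mul]
        refine mul_le_mul_of_nonneg_right ?_ (Finset.prod_nonneg fun _ _ => wt_nonneg _ _ _ _)
        refine ind_le (Finset.sum_nonneg fun _ _ => ind_nonneg _) ?_
        rintro ⟨⟨hg1, hg2⟩, hH⟩
        have key : ∀ a0, (∀ a, mfo δ χ a0 a = true → ¬ old O (g.1 a) → ¬ old O (g.1 (a - 1)) →
            fp z K l (g.p a)) → (δ = 2 → g.sl s a0 false ∉ O ∨ g.sl s a0 true ∉ O) →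
            1 ≤ ∑ a0, ind ((∀ a, g.1 a ∈ (G a).erase l.1) ∧ ∀ a,
              Qm z K O ω0 l (mfo δ χ a0 a) (mbo δ χ a0 a) (g.1 (a - 1)) (g.1 a) (g.2 a)) := by
          intro a0 k1 k2
          refine le_trans (le_of_eq (ind_of ?_).symm) (Finset.single_le_sum
            (f := fun a0 => ind ((∀ a, g.1 a ∈ (G a).erase l.1) ∧ ∀ a,
              Qm z K O ω0 l (mfo δ χ a0 a) (mbo δ χ a0 a) (g.1 (a - 1)) (g.1 a) (g.2 a)))
            (fun _ _ => ind_nonneg _) (mem_univ a0))
          refine ⟨fun a => mem_erase.2 ⟨(hg1 a).2, (hg1 a).1⟩, fun a => ⟨(hg2 a).1, k1 a, ?_⟩⟩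
          intro o1 o2 e1 e2
          have hc : χ = true := by
            rw [hχ, decide_eq_true_iff]
            refine Or.inl ⟨g.p a, Or.inr ⟨_, mem_image_of_mem _ o1, _, mem_image_of_mem _ o2,
              fun e => sub_one_ne a ?_, e1.symm, e2.symm⟩, hg2 a⟩
            exact hG _ _ _ (hg1 (a - 1)).1 (by
              have e' : g.1 a = g.1 (a - 1) := e
              rw [← e']; exact (hg1 a).1)
          simp only [mbo, hc, Bool.true_and, Bool.not_eq_true', Bool.and_eq_false_iff,
            beq_eq_false_iff_ne]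
          by_contra hn
          push Not at hn
          obtain ⟨d2, rfl⟩ := hn
          rcases k2 d2 with k | k
          · exact k o1
          · exact k o2
        rcases hH with h | ⟨h, ⟨a0, ha⟩ | hc⟩ | ⟨h, h2, a0, β, ha⟩
        · exact key 0 (fun a h' => by simp [mfo, h] at h') (by omega)
        · refine key a0 (fun a h' _ _ => ?_) (by omega)
          simp only [mfo, h, Bool.or_eq_true, beq_iff_eq, Bool.and_eq_true] at h'
          rcases h' with h' | h'
          · omega
          · rw [h'.2]; exact ha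
        · have hc' : χ = true := by rw [hχ, decide_eq_true_iff]; exact hc
          exact key 0 (fun a h' => by simp [mfo, h, hc'] at h') (by omega)
        · refine key a0 (fun a _ n1 n2 => ?_) (fun _ => ?_)
          · rcases h2 a with k | k | k
            · exact k
            · exact absurd k n1
            · exact absurd k n2
          · cases β
            · exact Or.inl ha
            · exact Or.inr ha
    _ ≤ ∑ _a0 : Fin 4, 16 * (w : ℝ) ^ 252 / (Fintype.card F : ℝ) ^ (if χ then δ - 1 else δ) :=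
        Finset.sum_le_sum fun a0 _ => h1 a0
    _ ≤ _ := by
        rw [Finset.sum_const, card_univ, Fintype.card_fin, nsmul_eq_mul]
        by_cases hc : chi z K l
        · have hc' : χ = true := by rw [hχ, decide_eq_true_iff]; exact hc
          rw [ind_of hc, hc', if_pos rfl, mul_one]
          have h2 : (Fintype.card F : ℝ) ^ δ ≤ (Fintype.card F : ℝ) ^ (δ - 1) * (1 + Fintype.card F) := by
            calc _ ≤ (Fintype.card F : ℝ) ^ (δ - 1 + 1) := pow_le_pow_right₀ hq1 (by omega)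
              _ ≤ _ := by rw [pow_succ]; gcongr; linarith
          rw [div_mul_eq_mul_div, mul_div_assoc', div_le_div_iff₀ (by positivity) (by positivity)]
          calc _ = 64 * (w : ℝ) ^ 252 * (Fintype.card F : ℝ) ^ δ := by push_cast; ring
            _ ≤ 64 * (w : ℝ) ^ 252 * ((Fintype.card F : ℝ) ^ (δ - 1) * (1 + Fintype.card F)) := by
              gcongr
            _ = _ := by ring
        · have hc' : χ = false := by rw [hχ, decide_eq_false_iff_not]; exact hc
          rw [ind_of_not hc, hc']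
          simp only [Bool.false_eq_true, if_false, mul_zero, add_zero, mul_one]
          refine le_of_eq ?_
          push_cast; ring

end Crest.Agent.H8.Ry
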