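import Mathlib

set_option autoImplicit false

namespace Crest.Agent.H8.Ry
open Finset

/-- uniform expectation on a finite type -/
noncomputable def Ex {Ω : Type*} [Fintype Ω] (f : Ω → ℝ) : ℝ := (∑ ω, f ω) / (Fintype.card Ω)

open Classical in
/-- indicator -/
noncomputable def ind (p : Prop) : ℝ := if p then 1 else 0

/-- uniform probability -/
noncomputable def Pr {Ω : Type*} [Fintype Ω] (p : Ω → Prop) : ℝ := Ex (fun ω => ind (p ω))

lemma ind_nonneg (p : Prop) : 0 ≤ ind p := by unfold ind; split_ifs <;> norm_num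
lemma ind_le_one (p : Prop) : ind p ≤ 1 := by unfold ind; split_ifs <;> norm_num
lemma ind_of {p : Prop} (h : p) : ind p = 1 := by unfold ind; simp [h]
lemma ind_of_not {p : Prop} (h : ¬ p) : ind p = 0 := by unfold ind; simp [h]
lemma ind_mono {p q : Prop} (h : p → q) : ind p ≤ ind q := by
  by_cases hp : p
  · rw [ind_of hp, ind_of (h hp)]
  · rw [ind_of_not hp]; exact ind_nonneg _
lemma ind_and (p q : Prop) : ind (p ∧ q) = ind p * ind q := by
  by_cases hp : p <;> by_cases hq : q <;> simp [ind, hp, hq]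
lemma ind_congr {p q : Prop} (h : p ↔ q) : ind p = ind q := by rw [propext h]
lemma ind_le {p : Prop} {x : ℝ} (h0 : 0 ≤ x) (h : p → 1 ≤ x) : ind p ≤ x := by
  by_cases hp : p
  · rw [ind_of hp]; exact h hp
  · rw [ind_of_not hp]; exact h0
lemma card_filter_eq_sum_ind {β : Type*} (s : Finset β) (p : β → Prop) [DecidablePred p] :
    ((s.filter p).card : ℝ) = ∑ x ∈ s, ind (p x) := by
  rw [Finset.card_filter]; push_cast
  refine Finset.sum_congr rfl fun x _ => ?_
  by_cases h : p x <;> simp [ind, h]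
lemma ind_forall {β : Type*} (s : Finset β) (p : β → Prop) :
    ind (∀ x ∈ s, p x) = ∏ x ∈ s, ind (p x) := by
  by_cases h : ∀ x ∈ s, p x
  · rw [ind_of h, Finset.prod_congr rfl (fun x hx => ind_of (h x hx))]; simp
  · rw [ind_of_not h]
    push Not at h
    obtain ⟨x, hx, hp⟩ := h
    exact (Finset.prod_eq_zero hx (ind_of_not hp)).symm

section basic
variable {Ω : Type*} [Fintype Ω]

lemma Ex_mono {f g : Ω → ℝ} (h : ∀ ω, f ω ≤ g ω) : Ex f ≤ Ex g := by
  unfold Ex; gcongr with ω; exact h ω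
lemma Ex_nonneg {f : Ω → ℝ} (h : ∀ ω, 0 ≤ f ω) : 0 ≤ Ex f := by
  unfold Ex; exact div_nonneg (Finset.sum_nonneg fun ω _ => h ω) (by positivity)
lemma Ex_add (f g : Ω → ℝ) : Ex (fun ω => f ω + g ω) = Ex f + Ex g := by
  unfold Ex; rw [Finset.sum_add_distrib, add_div]
lemma Ex_sub (f g : Ω → ℝ) : Ex (fun ω => f ω - g ω) = Ex f - Ex g := by
  unfold Ex; rw [Finset.sum_sub_distrib, sub_div]
lemma Ex_mul_left (c : ℝ) (f : Ω → ℝ) : Ex (fun ω => c * f ω) = c * Ex f := by
  unfold Ex; rw [← Finset.mul_sum, mul_div_assoc]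
lemma Ex_mul_right (c : ℝ) (f : Ω → ℝ) : Ex (fun ω => f ω * c) = Ex f * c := by
  unfold Ex; rw [← Finset.sum_mul]; ring
lemma Ex_sum {β : Type*} (s : Finset β) (f : β → Ω → ℝ) :
    Ex (fun ω => ∑ b ∈ s, f b ω) = ∑ b ∈ s, Ex (f b) := by
  unfold Ex; rw [Finset.sum_comm, Finset.sum_div]
lemma Ex_const [Nonempty Ω] (c : ℝ) : Ex (fun _ : Ω => c) = c := by
  unfold Ex
  have : (Fintype.card Ω : ℝ) ≠ 0 := by exact_mod_cast Fintype.card_ne_zero
  simp only [Finset.sum_const, Finset.card_univ, nsmul_eq_mul]; field_simp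
lemma Ex_le_const [Nonempty Ω] {f : Ω → ℝ} {c : ℝ} (h : ∀ ω, f ω ≤ c) : Ex f ≤ c :=
  (Ex_mono h).trans (Ex_const c).le
lemma const_le_Ex [Nonempty Ω] {f : Ω → ℝ} {c : ℝ} (h : ∀ ω, c ≤ f ω) : c ≤ Ex f :=
  (Ex_const c).ge.trans (Ex_mono h)
lemma Ex_congr {f g : Ω → ℝ} (h : ∀ ω, f ω = g ω) : Ex f = Ex g := by
  rw [show f = g from funext h]
lemma Ex_comm {Ω' : Type*} [Fintype Ω'] (f : Ω → Ω' → ℝ) :
    Ex (fun a => Ex (fun b => f a b)) = Ex (fun b => Ex (fun a => f a b)) := by
  unfold Ex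
  rw [← Finset.sum_div, ← Finset.sum_div, Finset.sum_comm]; ring

lemma Pr_nonneg (p : Ω → Prop) : 0 ≤ Pr p := Ex_nonneg fun _ => ind_nonneg _
lemma Pr_le_one [Nonempty Ω] (p : Ω → Prop) : Pr p ≤ 1 := Ex_le_const fun _ => ind_le_one _
lemma Pr_mono {p q : Ω → Prop} (h : ∀ ω, p ω → q ω) : Pr p ≤ Pr q :=
  Ex_mono fun ω => ind_mono (h ω)
lemma Pr_le_Ex {p : Ω → Prop} {f : Ω → ℝ} (h0 : ∀ ω, 0 ≤ f ω) (h : ∀ ω, p ω → 1 ≤ f ω) :
    Pr p ≤ Ex f := Ex_mono fun ω => ind_le (h0 ω) (h ω)
lemma Pr_or_le (p q : Ω → Prop) : Pr (fun ω => p ω ∨ q ω) ≤ Pr p + Pr q := by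
  unfold Pr; rw [← Ex_add]
  refine Ex_mono fun ω => ind_le (add_nonneg (ind_nonneg _) (ind_nonneg _)) ?_
  rintro (h | h)
  · rw [ind_of h]; linarith [ind_nonneg (q ω)]
  · rw [ind_of h]; linarith [ind_nonneg (p ω)]
lemma Pr_exists_le {β : Type*} (s : Finset β) (p : β → Ω → Prop) :
    Pr (fun ω => ∃ b ∈ s, p b ω) ≤ ∑ b ∈ s, Pr (p b) := by
  unfold Pr; rw [← Ex_sum]
  refine Ex_mono fun ω => ind_le (Finset.sum_nonneg fun _ _ => ind_nonneg _) ?_
  rintro ⟨b, hb, h⟩
  calc (1:ℝ) = ind (p b ω) := (ind_of h).symm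
    _ ≤ _ := Finset.single_le_sum (f := fun b => ind (p b ω)) (fun _ _ => ind_nonneg _) hb
lemma Pr_exists_le' {β : Type*} [Fintype β] (p : β → Ω → Prop) {c : ℝ} (h : ∀ b, Pr (p b) ≤ c) :
    Pr (fun ω => ∃ b, p b ω) ≤ Fintype.card β * c := by
  calc Pr (fun ω => ∃ b, p b ω) ≤ Pr (fun ω => ∃ b ∈ (univ : Finset β), p b ω) :=
        Pr_mono fun ω ⟨b, hb⟩ => ⟨b, mem_univ _, hb⟩
    _ ≤ ∑ b, Pr (p b) := Pr_exists_le _ _
    _ ≤ ∑ _b : β, c := Finset.sum_le_sum fun b _ => h b
    _ = _ := by simp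
lemma exists_of_Pr_lt_one [Nonempty Ω] {p : Ω → Prop} (h : Pr p < 1) : ∃ ω, ¬ p ω := by
  by_contra hc
  push Not at hc
  have : Pr p = 1 := by
    unfold Pr; rw [Ex_congr (fun ω => ind_of (hc ω)), Ex_const]
  linarith
lemma Pr_false {p : Ω → Prop} (h : ∀ ω, ¬ p ω) : Pr p = 0 := by
  unfold Pr Ex; rw [Finset.sum_congr rfl (fun ω _ => ind_of_not (h ω))]; simp
lemma Pr_not [Nonempty Ω] (p : Ω → Prop) : Pr (fun ω => ¬ p ω) = 1 - Pr p := by
  unfold Pr
  rw [← Ex_const (Ω := Ω) 1, ← Ex_sub]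
  refine Ex_congr fun ω => ?_
  by_cases h : p ω <;> simp [ind, h]
lemma Pr_mem [DecidableEq Ω] (A : Finset Ω) : Pr (fun a => a ∈ A) = A.card / Fintype.card Ω := by
  unfold Pr Ex
  congr 1
  rw [← card_filter_eq_sum_ind]; simp

end basic

section product
variable {ι α : Type*} [Fintype ι] [DecidableEq ι] [Fintype α]

lemma Ex_piecewise [Nonempty α] (S : Finset ι) (f : (ι → α) → ℝ) :
    Ex f = Ex (fun ω => Ex (fun ω' => f (S.piecewise ω' ω))) := by
  let e : (ι → α) × (ι → α) ≃ (ι → α) × (ι → α) :=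
    { toFun := fun x => (S.piecewise x.2 x.1, S.piecewise x.1 x.2)
      invFun := fun x => (S.piecewise x.2 x.1, S.piecewise x.1 x.2)
      left_inv := by
        rintro ⟨a, b⟩
        ext i <;> by_cases h : i ∈ S <;> simp [Finset.piecewise, h]
      right_inv := by
        rintro ⟨a, b⟩
        ext i <;> by_cases h : i ∈ S <;> simp [Finset.piecewise, h] }
  have h1 : ∑ x : (ι → α) × (ι → α), f (e x).1 = ∑ x : (ι → α) × (ι → α), f x.1 :=
    Equiv.sum_comp e (fun x => f x.1)
  have hc : (Fintype.card (ι → α) : ℝ) ≠ 0 := by exact_mod_cast Fintype.card_ne_zero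
  rw [Fintype.sum_prod_type, Fintype.sum_prod_type] at h1
  unfold Ex
  rw [← Finset.sum_div]
  simp only [e, Equiv.coe_fn_mk] at h1
  rw [h1]
  simp only [Finset.sum_const, Finset.card_univ, nsmul_eq_mul, ← Finset.mul_sum]
  field_simp

lemma Ex_prod [Nonempty α] (S : Finset ι) (g : ι → α → ℝ) :
    Ex (fun ω : ι → α => ∏ i ∈ S, g i (ω i)) = ∏ i ∈ S, Ex (g i) := by
  have hc : (Fintype.card α : ℝ) ≠ 0 := by exact_mod_cast Fintype.card_ne_zero
  let g' : ι → α → ℝ := fun i a => if i ∈ S then g i a else 1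
  have h1 : ∀ ω : ι → α, ∏ i ∈ S, g i (ω i) = ∏ i, g' i (ω i) := by
    intro ω
    simp only [g']
    rw [Finset.prod_ite_mem univ S, Finset.univ_inter]
  have h2 : ∏ i ∈ S, Ex (g i) = ∏ i, Ex (g' i) := by
    have : ∀ i, Ex (g' i) = if i ∈ S then Ex (g i) else 1 := by
      intro i
      by_cases h : i ∈ S
      · simp only [g', h, if_true]
      · simp only [g', h, if_false]; exact Ex_const 1
    rw [Finset.prod_congr rfl (fun i _ => this i), Finset.prod_ite_mem univ S, Finset.univ_inter]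
  rw [Ex_congr h1, h2]
  unfold Ex
  rw [Finset.prod_div_distrib, Finset.prod_univ_sum, Fintype.piFinset_univ]
  simp

lemma Ex_coord [Nonempty α] (i : ι) (g : α → ℝ) : Ex (fun ω : ι → α => g (ω i)) = Ex g := by
  have := Ex_prod (α := α) {i} (fun _ => g)
  simpa using this

lemma Ex_update [Nonempty α] (i : ι) (f : (ι → α) → ℝ) :
    Ex f = Ex (fun ω => Ex (fun a => f (Function.update ω i a))) := by
  rw [Ex_piecewise {i} f]
  refine Ex_congr fun ω => ?_
  rw [← Ex_coord i (fun a => f (Function.update ω i a))]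
  refine Ex_congr fun ω' => ?_
  rw [Finset.piecewise_singleton]

lemma exp_le_quad {x : ℝ} (h : |x| ≤ 1) : Real.exp x ≤ 1 + x + x ^ 2 := by
  have := Real.abs_exp_sub_one_sub_id_le h
  have := (abs_le.1 this).2
  linarith

lemma mcd_mgf [Nonempty α] (c s : ℝ) (hs : 0 ≤ s) (hsc : s * c ≤ 1) (S : Finset ι) :
    ∀ f : (ι → α) → ℝ, (∀ i ∈ S, ∀ ω a, |f (Function.update ω i a) - f ω| ≤ c) →
      (∀ ω ω', (∀ i ∈ S, ω i = ω' i) → f ω = f ω') →
      Ex (fun ω => Real.exp (s * (f ω - Ex f))) ≤ Real.exp (S.card * (s * c) ^ 2) := by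
  induction S using Finset.induction_on with
  | empty =>
    intro f _ h2
    refine Ex_le_const fun ω => ?_
    have : Ex f = f ω := by
      rw [Ex_congr (fun ω' => h2 ω' ω (by simp)), Ex_const]
    simp [this]
  | insert i S hi ih =>
    intro f h1 h2
    set g : (ι → α) → ℝ := fun ω => Ex (fun a => f (Function.update ω i a)) with hg
    have hEg : Ex g = Ex f := (Ex_update i f).symm
    have hgi : ∀ ω a, g (Function.update ω i a) = g ω := by
      intro ω a; simp only [hg, Function.update_idem]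
    have hg1 : ∀ j ∈ S, ∀ ω a, |g (Function.update ω j a) - g ω| ≤ c := by
      intro j hj ω a
      have hij : i ≠ j := fun h => hi (h ▸ hj)
      simp only [hg]
      rw [← Ex_sub, abs_le]
      constructor
      · refine const_le_Ex fun b => ?_
        rw [Function.update_comm hij.symm]
        exact (abs_le.1 (h1 j (mem_insert_of_mem hj) _ a)).1
      · refine Ex_le_const fun b => ?_
        rw [Function.update_comm hij.symm]
        exact (abs_le.1 (h1 j (mem_insert_of_mem hj) _ a)).2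
    have hg2 : ∀ ω ω', (∀ j ∈ S, ω j = ω' j) → g ω = g ω' := by
      intro ω ω' h
      simp only [hg]
      refine Ex_congr fun a => h2 _ _ fun j hj => ?_
      rcases mem_insert.1 hj with rfl | hj
      · simp
      · have : j ≠ i := fun h => hi (h ▸ hj)
        simp [Function.update_of_ne this, h j hj]
    have key : ∀ ω, Ex (fun a => Real.exp (s * (f (Function.update ω i a) - g ω))) ≤
        Real.exp ((s * c) ^ 2) := by
      intro ω
      have hd : ∀ a, |f (Function.update ω i a) - g ω| ≤ c := by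
        intro a
        have : f (Function.update ω i a) - g ω =
            Ex (fun b => f (Function.update ω i a) - f (Function.update ω i b)) := by
          rw [Ex_sub, Ex_const]
        rw [this, abs_le]
        have h3 : ∀ b, |f (Function.update ω i a) - f (Function.update ω i b)| ≤ c := by
          intro b
          have := h1 i (mem_insert_self _ _) (Function.update ω i b) a
          rwa [Function.update_idem] at this
        exact ⟨const_le_Ex fun b => (abs_le.1 (h3 b)).1, Ex_le_const fun b => (abs_le.1 (h3 b)).2⟩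
      calc Ex (fun a => Real.exp (s * (f (Function.update ω i a) - g ω)))
          ≤ Ex (fun a => (1 + (s * c) ^ 2) + s * (f (Function.update ω i a) - g ω)) := by
            refine Ex_mono fun a => ?_
            have h4 : |s * (f (Function.update ω i a) - g ω)| ≤ s * c := by
              rw [abs_mul, abs_of_nonneg hs]; exact mul_le_mul_of_nonneg_left (hd a) hs
            have h5 := exp_le_quad (h4.trans hsc)
            have h6 : (s * (f (Function.update ω i a) - g ω)) ^ 2 ≤ (s * c) ^ 2 := by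
              rw [← sq_abs]; exact pow_le_pow_left₀ (abs_nonneg _) h4 2
            linarith
        _ = 1 + (s * c) ^ 2 := by
            rw [Ex_add, Ex_const, Ex_mul_left, Ex_sub, Ex_const]; simp [hg]
        _ ≤ _ := by linarith [Real.add_one_le_exp ((s * c) ^ 2)]
    rw [Ex_update i]
    calc Ex (fun ω => Ex fun a => Real.exp (s * (f (Function.update ω i a) - Ex f)))
        ≤ Ex (fun ω => Real.exp (s * (g ω - Ex g)) * Real.exp ((s * c) ^ 2)) := by
          refine Ex_mono fun ω => ?_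
          have : ∀ a, Real.exp (s * (f (Function.update ω i a) - Ex f)) =
              Real.exp (s * (g ω - Ex g)) * Real.exp (s * (f (Function.update ω i a) - g ω)) := by
            intro a; rw [← Real.exp_add, hEg]; ring_nf
          rw [Ex_congr this, Ex_mul_left]
          exact mul_le_mul_of_nonneg_left (key ω) (Real.exp_pos _).le
      _ ≤ Real.exp (S.card * (s * c) ^ 2) * Real.exp ((s * c) ^ 2) := by
          rw [Ex_mul_right]
          exact mul_le_mul_of_nonneg_right (ih g hg1 hg2) (Real.exp_pos _).le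
      _ = _ := by rw [← Real.exp_add, card_insert_of_notMem hi]; push_cast; ring_nf

/-- McDiarmid, upper tail. `n` bounds the number of coordinates. -/
lemma mcd_upper [Nonempty α] (S : Finset ι) (f : (ι → α) → ℝ) (c t n : ℝ) (hc : 0 < c)
    (ht : 0 ≤ t) (hn : S.card ≤ n) (hn0 : 0 < n) (htn : t ≤ 2 * n * c)
    (h1 : ∀ i ∈ S, ∀ ω a, |f (Function.update ω i a) - f ω| ≤ c)
    (h2 : ∀ ω ω', (∀ i ∈ S, ω i = ω' i) → f ω = f ω') :
    Pr (fun ω => Ex f + t ≤ f ω) ≤ Real.exp (-(t ^ 2 / (4 * n * c ^ 2))) := by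
  set s := t / (2 * n * c ^ 2) with hs
  have hs0 : 0 ≤ s := by positivity
  have hsc : s * c ≤ 1 := by
    rw [hs, div_mul_eq_mul_div, div_le_one (by positivity)]; nlinarith
  calc Pr (fun ω => Ex f + t ≤ f ω)
      ≤ Ex (fun ω => Real.exp (s * (f ω - Ex f)) * Real.exp (-(s * t))) := by
        refine Pr_le_Ex (fun ω => by positivity) fun ω h => ?_
        rw [← Real.exp_add]
        exact Real.one_le_exp (by nlinarith)
    _ ≤ Real.exp (S.card * (s * c) ^ 2) * Real.exp (-(s * t)) := by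
        rw [Ex_mul_right]
        exact mul_le_mul_of_nonneg_right (mcd_mgf c s hs0 hsc S f h1 h2) (Real.exp_pos _).le
    _ ≤ _ := by
        rw [← Real.exp_add]
        refine Real.exp_le_exp.2 ?_
        have : (S.card : ℝ) * (s * c) ^ 2 ≤ n * (s * c) ^ 2 := by gcongr
        have h3 : n * (s * c) ^ 2 + -(s * t) = -(t ^ 2 / (4 * n * c ^ 2)) := by
          rw [hs]; field_simp; ring
        linarith

lemma mcd_lower [Nonempty α] (S : Finset ι) (f : (ι → α) → ℝ) (c t n : ℝ) (hc : 0 < c)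
    (ht : 0 ≤ t) (hn : S.card ≤ n) (hn0 : 0 < n) (htn : t ≤ 2 * n * c)
    (h1 : ∀ i ∈ S, ∀ ω a, |f (Function.update ω i a) - f ω| ≤ c)
    (h2 : ∀ ω ω', (∀ i ∈ S, ω i = ω' i) → f ω = f ω') :
    Pr (fun ω => f ω ≤ Ex f - t) ≤ Real.exp (-(t ^ 2 / (4 * n * c ^ 2))) := by
  have := mcd_upper S (fun ω => - f ω) c t n hc ht hn hn0 htn
    (fun i hi ω a => by rw [← abs_neg]; convert h1 i hi ω a using 2; ring)
    (fun ω ω' h => by rw [h2 ω ω' h])
  refine le_trans (Pr_mono fun ω h => ?_) this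
  have h3 : Ex (fun ω => - f ω) = - Ex f := by
    rw [show (fun ω => - f ω) = fun ω => (-1) * f ω from funext fun _ => by ring, Ex_mul_left]; ring
  rw [h3]; linarith

/-- many independent rare hits are unlikely -/
lemma hits [Nonempty α] [DecidableEq α] (S : Finset ι) (A : ι → Finset α) (n : ℝ)
    (h : 8 * ∑ i ∈ S, ((A i).card : ℝ) / Fintype.card α ≤ n) :
    Pr (fun ω : ι → α => n ≤ ((S.filter fun i => ω i ∈ A i).card : ℝ)) ≤ Real.exp (-n) := by
  have he : Real.exp 2 ≤ 8 := by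
    have := Real.exp_one_lt_d9
    have h2 : Real.exp 2 = Real.exp 1 * Real.exp 1 := by rw [← Real.exp_add]; norm_num
    rw [h2]; nlinarith [Real.exp_pos 1]
  calc Pr (fun ω : ι → α => n ≤ ((S.filter fun i => ω i ∈ A i).card : ℝ))
      ≤ Ex (fun ω : ι → α => (∏ i ∈ S, Real.exp (2 * ind (ω i ∈ A i))) * Real.exp (-(2 * n))) := by
        refine Pr_le_Ex (fun ω => by positivity) fun ω h => ?_
        rw [← Real.exp_sum, ← Finset.mul_sum, ← card_filter_eq_sum_ind, ← Real.exp_add]
        exact Real.one_le_exp (by linarith)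
    _ = (∏ i ∈ S, Ex (fun a => Real.exp (2 * ind (a ∈ A i)))) * Real.exp (-(2 * n)) := by
        rw [Ex_mul_right, Ex_prod S (fun i a => Real.exp (2 * ind (a ∈ A i)))]
    _ ≤ (∏ i ∈ S, Real.exp (8 * (((A i).card : ℝ) / Fintype.card α))) * Real.exp (-(2 * n)) := by
        gcongr with i hi
        · exact fun i _ => Ex_nonneg fun _ => (Real.exp_pos _).le
        calc Ex (fun a => Real.exp (2 * ind (a ∈ A i))) ≤ Ex (fun a => 1 + 8 * ind (a ∈ A i)) := by
              refine Ex_mono fun a => ?_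
              by_cases ha : a ∈ A i
              · rw [ind_of ha]; norm_num; linarith
              · rw [ind_of_not ha]; simp
          _ = 1 + 8 * (((A i).card : ℝ) / Fintype.card α) := by
              rw [Ex_add, Ex_const, Ex_mul_left, ← Pr_mem]; rfl
          _ ≤ _ := by linarith [Real.add_one_le_exp (8 * (((A i).card : ℝ) / Fintype.card α))]
    _ ≤ _ := by
        rw [← Real.exp_sum, ← Real.exp_add, ← Finset.mul_sum]
        exact Real.exp_le_exp.2 (by linarith)

end product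

end Crest.Agent.H8.Ry
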