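import Crest.Agent.H8.RyCore

set_option autoImplicit false
set_option linter.unusedSectionVars false

namespace Crest.Agent.H8.Ry
open Finset

/-- numerical parameters -/
structure Par (q w : ℕ) : Prop where
  hw : 10 ^ 12 ≤ w
  hq : w ^ 500 ≤ q
  hlog : (q : ℝ) ≤ Real.exp (w / 10)

namespace Par
variable {q w : ℕ} (h : Par q w)
include h

lemma W : (10 ^ 12 : ℝ) ≤ w := by exact_mod_cast h.hw
lemma W0 : (0 : ℝ) < w := lt_of_lt_of_le (by norm_num) h.W
lemma W1 : (1 : ℝ) ≤ w := le_trans (by norm_num) h.W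
lemma Q : (w : ℝ) ^ 500 ≤ q := by exact_mod_cast h.hq
lemma Q0 : (0 : ℝ) < q := lt_of_lt_of_le (pow_pos h.W0 _) h.Q
lemma pw {C : ℝ} (hC : C ≤ 10 ^ 12) {a b : ℕ} (hab : a + 1 ≤ b) : C * (w : ℝ) ^ a ≤ (w : ℝ) ^ b := by
  calc C * (w : ℝ) ^ a ≤ w * (w : ℝ) ^ a :=
        mul_le_mul_of_nonneg_right (hC.trans h.W) (pow_pos h.W0 _).le
    _ = (w : ℝ) ^ (a + 1) := by ring
    _ ≤ _ := pow_le_pow_right₀ h.W1 hab
lemma pq {C : ℝ} (hC : C ≤ 10 ^ 12) {a : ℕ} (ha : a + 1 ≤ 500) : C * (w : ℝ) ^ a ≤ q :=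
  (h.pw hC ha).trans h.Q
lemma pu {C : ℝ} (hC : C ≤ 10 ^ 12) {a b : ℕ} (ha : a + b + 1 ≤ 500) :
    C * (w : ℝ) ^ a ≤ q / (w : ℝ) ^ b := by
  rw [le_div_iff₀ (pow_pos h.W0 _), mul_assoc, ← pow_add]; exact h.pq hC ha
lemma uu {C : ℝ} (hC : C ≤ 10 ^ 12) {a b : ℕ} (hab : a + 1 ≤ b) :
    C * (q / (w : ℝ) ^ b) ≤ q / (w : ℝ) ^ a := by
  rw [← mul_div_assoc, div_le_div_iff₀ (pow_pos h.W0 _) (pow_pos h.W0 _)]
  have := mul_le_mul_of_nonneg_left (h.pw hC hab) h.Q0.le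
  linarith
lemma uq {C : ℝ} (hC : C ≤ 10 ^ 12) {b : ℕ} (hb : 1 ≤ b) : C * (q / (w : ℝ) ^ b) ≤ q := by
  have := h.uu hC (a := 0) (b := b) (by omega); simpa using this
lemma upos (a : ℕ) : 0 < q / (w : ℝ) ^ a := div_pos h.Q0 (pow_pos h.W0 _)
lemma div_le (n a : ℕ) : ((n / w ^ a : ℕ) : ℝ) ≤ n / (w : ℝ) ^ a := by
  have := @Nat.cast_div_le ℝ _ _ _ n (w ^ a); simpa using this
lemma le_div (n a : ℕ) (hn : (w : ℝ) ^ a ≤ n) : n / (w : ℝ) ^ a ≤ 2 * ((n / w ^ a : ℕ) : ℝ) := by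
  have hw : 0 < w ^ a := by have := pow_pos h.W0 a; exact_mod_cast this
  have h1 : 1 ≤ n / w ^ a := (Nat.le_div_iff_mul_le hw).2 (by
    rw [one_mul]; exact_mod_cast hn)
  have h2 : n < w ^ a * (n / w ^ a + 1) := Nat.lt_mul_div_succ n hw
  have h3 : (n : ℝ) < (w : ℝ) ^ a * (((n / w ^ a : ℕ) : ℝ) + 1) := by exact_mod_cast h2
  have h4 : (1 : ℝ) ≤ ((n / w ^ a : ℕ) : ℝ) := by exact_mod_cast h1
  rw [div_le_iff₀ (pow_pos h.W0 _)]
  nlinarith [pow_pos h.W0 a]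
lemma lines_le : (((q + 1) * q : ℕ) : ℝ) ≤ Real.exp (w / 4) := by
  have h1 : (1 : ℝ) ≤ q := le_trans (one_le_pow₀ h.W1) h.Q
  have h2 : (2 : ℝ) ≤ Real.exp (w / 20) := by
    have := Real.add_one_le_exp ((w : ℝ) / 20); have := h.W; linarith
  have h3 : Real.exp (w / 4) = Real.exp (w / 20) * (Real.exp (w / 10) * Real.exp (w / 10)) := by
    rw [← Real.exp_add, ← Real.exp_add]; ring_nf
  push_cast
  rw [h3]
  calc ((q : ℝ) + 1) * q ≤ 2 * (q * q) := by nlinarith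
    _ ≤ _ := by have := h.hlog; gcongr
lemma exp_small {x : ℝ} (hx : (w : ℝ) / 2 ≤ x) : Real.exp (-x) ≤ 1 / 1000 := by
  rw [Real.exp_neg, one_div]
  refine inv_anti₀ (by norm_num) ?_
  have := Real.add_one_le_exp x; have := h.W; linarith
lemma lines_small : (((q + 1) * q : ℕ) : ℝ) * (2 * Real.exp (-(w : ℝ))) ≤ 1 / 100 := by
  have h1 := h.lines_le
  have h2 := h.exp_small (x := 3 * w / 4) (by have := h.W0; linarith)
  have h3 : Real.exp (w / 4) * Real.exp (-(w : ℝ)) = Real.exp (-(3 * w / 4)) := by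
    rw [← Real.exp_add]; ring_nf
  have := mul_le_mul_of_nonneg_right h1 (Real.exp_pos (-(w:ℝ))).le
  linarith
end Par

variable {F : Type} [Field F] [Fintype F] [DecidableEq F]
variable {V : Type} [Fintype V] [DecidableEq V]

lemma cnt_R0_le (dir : V → Option F) (Sp : Finset V) (ω : V → F) (l : Option F × F) :
    cnt (rem dir Sp univ ω) l ≤ (cln dir Sp ω l).card := by
  refine card_le_card fun p hp => ?_
  simp only [rem, cln, mem_filter, mem_univ, true_and] at hp ⊢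
  exact ⟨hp.2, fun v hv _ => hp.1 v hv⟩

lemma cln_le_cnt_R0 (dir : V → Option F) (Sp : Finset V) (ω : V → F) (l : Option F × F)
    (hl : ∀ v ∈ Sp, Ln dir ω v ≠ l) : cln dir Sp ω l ⊆ (rem dir Sp univ ω).filter (On · l) := by
  intro p hp
  simp only [rem, cln, mem_filter, mem_univ, true_and] at hp ⊢
  refine ⟨fun v hv h => ?_, hp.1⟩
  by_cases hd : dir v = l.1
  · exact hl v hv (line_eq_of_dir hd h hp.1)
  · exact hp.2 v hv hd h

lemma card_R0_ge (dir : V → Option F) (Sp : Finset V) (ω : V → F) (μ a : ℝ) (ha : 0 ≤ a)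
    (hμ : ((Sp.filter fun v => dir v = none).card : ℝ) ≤ μ)
    (h : ∀ l, a ≤ (cln dir Sp ω l).card) :
    (Fintype.card F - μ) * a ≤ (rem dir Sp univ ω).card := by
  have h1 : ((rem dir Sp univ ω).card : ℝ) = ∑ c, (cnt (rem dir Sp univ ω) (none, c) : ℝ) := by
    exact_mod_cast (sum_cnt_dir _ none).symm
  set C := univ \ (Sp.filter fun v => dir v = none).image ω with hC
  have h2 : Fintype.card F - μ ≤ C.card := by
    have h3 := Finset.le_card_sdiff ((Sp.filter fun v => dir v = none).image ω) univ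
    have h4 := card_image_le (s := Sp.filter fun v => dir v = none) (f := ω)
    rw [card_univ, ← hC] at h3
    have h5 : Fintype.card F ≤ C.card + (Sp.filter fun v => dir v = none).card := by omega
    have h6 : (Fintype.card F : ℝ) ≤ C.card + (Sp.filter fun v => dir v = none).card := by
      exact_mod_cast h5
    linarith
  rw [h1]
  calc (Fintype.card F - μ) * a ≤ C.card * a := by gcongr
    _ = ∑ _c ∈ C, a := by simp
    _ ≤ ∑ c ∈ C, (cnt (rem dir Sp univ ω) (none, c) : ℝ) := by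
        refine Finset.sum_le_sum fun c hc => (h (none, c)).trans ?_
        refine Nat.cast_le.2 (card_le_card (cln_le_cnt_R0 dir Sp ω _ fun v hv e => ?_))
        refine (mem_sdiff.1 hc).2 (mem_image.2 ⟨v, mem_filter.2 ⟨hv, ?_⟩, ?_⟩)
        · exact congrArg Prod.fst e
        · exact congrArg Prod.snd e
    _ ≤ _ := Finset.sum_le_sum_of_subset_of_nonneg (subset_univ _) fun _ _ _ => by positivity

/-- flagged lines -/
noncomputable def Fl {σ : ℕ} (S : Fin σ × Bool → Option F × F) : Finset (Option F × F) :=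
  univ.filter fun l => 2 * (σ : ℝ) ^ 2 / Fintype.card F ≤ cnt (dbl S) l

lemma reg1_arith {q w : ℕ} (hP : Par q w) (s y : ℝ) (hs : q / (w : ℝ) ^ 9 ≤ 2 * s)
    (hy : (q : ℝ) ^ 2 / (32 * (w : ℝ) ^ 6) * s ^ 2 / (72 * (q : ℝ) ^ 2) ≤ y)
    (h : (2 / 5 : ℝ) ^ 8 * y - 600 * q * (w : ℝ) ^ 7 -
      (q / (w : ℝ) ^ 16 * s + 8 * (q / (w : ℝ) ^ 7) * (288 * s ^ 2 / q)) ≤
        6 * q * (q / (w : ℝ) ^ 26) + q / (w : ℝ) ^ 26 * s) : False := by
  have hW := hP.W0
  have hQ := hP.Q0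
  have hs0 : 0 < s := by have := hP.upos 9; linarith
  set z := s ^ 2 / (w : ℝ) ^ 7 with hz
  have hz0 : 0 < z := by positivity
  have hz1 : (q : ℝ) ^ 2 / (4 * (w : ℝ) ^ 25) ≤ z := by
    have : (q / (w : ℝ) ^ 9) ^ 2 ≤ (2 * s) ^ 2 := pow_le_pow_left₀ (hP.upos 9).le hs 2
    calc (q : ℝ) ^ 2 / (4 * (w : ℝ) ^ 25) = (q / (w : ℝ) ^ 9) ^ 2 / (4 * (w : ℝ) ^ 7) := by
          field_simp
      _ ≤ (2 * s) ^ 2 / (4 * (w : ℝ) ^ 7) := by gcongr
      _ = z := by rw [hz]; field_simp; ring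
  have h1 : 600 * q * (w : ℝ) ^ 7 ≤ z := by
    refine le_trans ?_ hz1
    rw [le_div_iff₀ (by positivity)]
    have := mul_le_mul_of_nonneg_left (hP.pq (C := 2400) (by norm_num) (a := 32) (by norm_num)) hQ.le
    calc _ = q * (2400 * (w : ℝ) ^ 32) := by ring
      _ ≤ _ := by rw [sq]; exact this
  have h2 : q / (w : ℝ) ^ 16 * s ≤ 2 * z := by
    calc q / (w : ℝ) ^ 16 * s = q / (w : ℝ) ^ 9 * s / (w : ℝ) ^ 7 := by field_simp
      _ ≤ 2 * s * s / (w : ℝ) ^ 7 := by gcongr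
      _ = 2 * z := by rw [hz]; ring
  have h3 : 8 * (q / (w : ℝ) ^ 7) * (288 * s ^ 2 / q) = 2304 * z := by rw [hz]; field_simp; ring
  have h4 : 6 * q * (q / (w : ℝ) ^ 26) ≤ z := by
    refine le_trans ?_ hz1
    have := mul_le_mul_of_nonneg_left (hP.uu (C := 24) (by norm_num) (a := 25) (b := 26) le_rfl) hQ.le
    calc _ = q * (24 * (q / (w : ℝ) ^ 26)) / 4 := by ring
      _ ≤ q * (q / (w : ℝ) ^ 25) / 4 := by gcongr
      _ = _ := by field_simp
  have h5 : q / (w : ℝ) ^ 26 * s ≤ q / (w : ℝ) ^ 16 * s := by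
    have := hP.uu (C := 1) (by norm_num) (a := 16) (b := 26) (by norm_num)
    rw [one_mul] at this; gcongr
  have h6 : (q : ℝ) ^ 2 / (32 * (w : ℝ) ^ 6) * s ^ 2 / (72 * (q : ℝ) ^ 2) = w * z / 2304 := by
    rw [hz]; field_simp; ring
  have h7 : 10 ^ 12 * z ≤ w * z := mul_le_mul_of_nonneg_right hP.W hz0.le
  rw [h6] at hy
  norm_num at h
  linarith

theorem regime1 {w : ℕ} (hP : Par (Fintype.card F) w) (dir : V → Option F) (Main Extra : Finset V)
    (ω : V → F) (hEx : (Extra.card : ℝ) ≤ Fintype.card F / (w : ℝ) ^ 26)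
    (hμ : (((Main ∪ Extra).filter fun v => dir v = none).card : ℝ) ≤ (w : ℝ) ^ 60)
    (N : ℝ) (hN : Fintype.card F / 3000 ≤ N)
    (G1 : ∀ l, N - Fintype.card F / (w : ℝ) ^ 26 ≤ (cln dir (Main ∪ Extra) ω l).card ∧
      (cln dir (Main ∪ Extra) ω l).card ≤ N + (w : ℝ) ^ 60 + Fintype.card F / (w : ℝ) ^ 26)
    (G2 : ∀ S : Fin (Fintype.card F / w ^ 9) × Bool → Option F × F,
      CovOK dir 8 (Fintype.card F / (w : ℝ) ^ 7) (600 * Fintype.card F * (w : ℝ) ^ 7) Main (dbl S) ω)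
    (G3 : ∀ S : Fin (Fintype.card F / w ^ 18) × Bool → Option F × F,
      ((Main.filter fun v => Ln dir ω v ∈ Fl S).card : ℝ) < Fintype.card F / (w : ℝ) ^ 16)
    (B : Finset (Option F × F))
    (hcov : ∀ p, (∀ v ∈ Main ∪ Extra, ¬ On p (Ln dir ω v)) → ∃ l ∈ B, On p l)
    (hdisj : ∀ v ∈ Main ∪ Extra, Ln dir ω v ∉ B)
    (hB : (B.card : ℝ) ≤ Fintype.card F + Fintype.card F / (w : ℝ) ^ 26)
    (hu : (Fintype.card F : ℝ) ^ 2 / (w : ℝ) ^ 3 ≤ (unc B).card) : False := by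
  set q := Fintype.card F with hq
  have hW := hP.W0
  have hQ := hP.Q0
  set t := q / (w : ℝ) ^ 26 with ht
  have ht0 : 0 < t := hP.upos 26
  have hμt : (w : ℝ) ^ 60 ≤ t := by
    have := hP.pu (C := 1) (by norm_num) (a := 60) (b := 26) (by norm_num); rwa [one_mul] at this
  have htq : 10 ^ 6 * t ≤ q := hP.uq (by norm_num) (by norm_num)
  have hμ0 : (0:ℝ) < (w : ℝ) ^ 60 := by positivity
  set R0 := rem dir (Main ∪ Extra) univ ω with hR0
  set T := univ.filter fun p => 2 ≤ mult B p with hT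
  have hR0c := card_R0_ge dir (Main ∪ Extra) ω _ (N - t) (by linarith) hμ fun l => (G1 l).1
  have hNq : N - t ≤ q := by
    refine (G1 (none, 0)).1.trans ?_
    have : (cln dir (Main ∪ Extra) ω (none, 0)).card ≤ cnt univ ((none, 0) : Option F × F) :=
      card_le_card fun p hp => by
        simp only [cln, mem_filter, mem_univ, true_and] at hp ⊢; exact hp.1
    rw [cnt_univ] at this; exact_mod_cast this
  have hsum : ((R0.filter (· ∈ T)).card : ℝ) + R0.card ≤ B.card * (N + (w : ℝ) ^ 60 + t) := by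
    have h1 : (R0.filter (· ∈ T)).card + R0.card ≤ ∑ p ∈ R0, mult B p := by
      rw [Finset.card_filter, Finset.card_eq_sum_ones, ← Finset.sum_add_distrib]
      refine Finset.sum_le_sum fun p hp => ?_
      split_ifs with h
      · exact (mem_filter.1 h).2
      · obtain ⟨l, hl, h2⟩ := hcov p (mem_filter.1 hp).2
        exact card_pos.2 ⟨l, mem_filter.2 ⟨hl, h2⟩⟩
    rw [sum_mult] at h1
    have h2 : ((R0.filter (· ∈ T)).card : ℝ) + R0.card ≤ ∑ l ∈ B, (cnt R0 l : ℝ) := by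
      exact_mod_cast h1
    refine h2.trans ?_
    rw [← nsmul_eq_mul]
    refine Finset.sum_le_card_nsmul _ _ _ fun l _ => le_trans ?_ (G1 l).2
    exact_mod_cast cnt_R0_le dir _ ω l
  have hTR : ((R0.filter (· ∈ T)).card : ℝ) ≤ 6 * q * t := by
    have h1 : B.card * (N + (w : ℝ) ^ 60 + t) ≤ (q + t) * (N + (w : ℝ) ^ 60 + t) := by
      gcongr; linarith
    have h2 : (w : ℝ) ^ 60 * (N - t) ≤ t * q := by gcongr; linarith
    have h3 : t * (N + (w : ℝ) ^ 60 + t) ≤ t * (2 * q) := by gcongr; linarith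
    have h4 : q * ((w : ℝ) ^ 60) ≤ q * t := by gcongr
    nlinarith
  have hb : q - 12000 * t ≤ B.card := by
    by_contra hc
    push Not at hc
    have h0 : (0:ℝ) ≤ (R0.filter (· ∈ T)).card := by positivity
    have h1 : B.card * (N + (w : ℝ) ^ 60 + t) ≤ (q - 12000 * t) * (N + (w : ℝ) ^ 60 + t) := by
      gcongr; linarith
    have h2 : (w : ℝ) ^ 60 * (N - t) ≤ t * q := by gcongr; linarith
    have h3 : t * (q / 3000) < t * (N + (w : ℝ) ^ 60 + t) := by gcongr; linarith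
    have h4 : q * ((w : ℝ) ^ 60) ≤ q * t := by gcongr
    nlinarith
  have hb2 : (B.card : ℝ) ≤ 2 * q := by linarith
  have hmc := multi_card B ((q : ℝ) ^ 2 / (2 * (w : ℝ) ^ 3)) (by positivity) (by
    have h1 := mul_le_mul_of_nonneg_left (hP.uu (C := 24000) (by norm_num) (a := 3) (b := 26)
      (by norm_num)) hQ.le
    have h2 : (q : ℝ) ^ 2 / (w : ℝ) ^ 3 = 2 * ((q : ℝ) ^ 2 / (2 * (w : ℝ) ^ 3)) := by field_simp
    have h3 : q * (q / (w : ℝ) ^ 3) = 2 * ((q : ℝ) ^ 2 / (2 * (w : ℝ) ^ 3)) := by field_simp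
    have h4 := mul_le_mul_of_nonneg_left hb hQ.le
    rw [← ht] at h1
    nlinarith)
  have hτ : (q : ℝ) ^ 2 / (32 * (w : ℝ) ^ 6) ≤ T.card := by
    have h1 : (T.card : ℝ) * (2 * (B.card : ℝ) ^ 2) ≤ T.card * (2 * (2 * q) ^ 2) := by gcongr
    have h2 := hmc.trans h1
    have h3 : ((q : ℝ) ^ 2 / (2 * (w : ℝ) ^ 3)) ^ 2 =
      (q : ℝ) ^ 2 / (32 * (w : ℝ) ^ 6) * (2 * (2 * q) ^ 2) := by field_simp; ring
    rw [h3] at h2
    exact le_of_mul_le_mul_right h2 (by positivity)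
  have hs1 := hP.div_le q 9
  have hs2 := hP.le_div q 9 (by simpa using hP.pq (C := 1) (by norm_num) (a := 9) (by norm_num))
  have hs3 := hP.div_le q 18
  have hs4 := hP.le_div q 18 (by simpa using hP.pq (C := 1) (by norm_num) (a := 18) (by norm_num))
  have hu9 := hP.uq (C := 100) (by norm_num) (b := 9) (by norm_num)
  have hu18 := hP.upos 18
  obtain ⟨S, S', hSB, hY, hfl⟩ := samp1 B (card_pos.1 (by
      have : (0:ℝ) < B.card := by linarith
      exact_mod_cast this)) (q / w ^ 9) (q / w ^ 18)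
    (Nat.div_le_div_left (Nat.pow_le_pow_right (by exact_mod_cast hW) (by norm_num))
      (by exact_mod_cast pow_pos hW 9))
    (by
      have : (0:ℝ) < ((q / w ^ 18 : ℕ) : ℝ) := by linarith
      exact_mod_cast this) hb2 (by linarith) (by linarith) _ (by positivity) hτ w
    (by rw [card_lines]; linarith [hP.lines_small])
    (by
      rw [le_div_iff₀ (by positivity)]
      have h1 : (q / (w : ℝ) ^ 18) ^ 3 ≤ (2 * ((q / w ^ 18 : ℕ) : ℝ)) ^ 3 := by gcongr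
      have h2 := mul_le_mul_of_nonneg_left (hP.pu (C := 16) (by norm_num) (a := 1) (b := 54)
        (by norm_num)) (show (0:ℝ) ≤ (q : ℝ) ^ 2 by positivity)
      have h3 : (q / (w : ℝ) ^ 18) ^ 3 = (q : ℝ) ^ 2 * (q / (w : ℝ) ^ 54) := by field_simp
      nlinarith)
    (by
      have h1 : ((q : ℝ) ^ 2 / (32 * (w : ℝ) ^ 6)) ^ 2 * ((q / w ^ 9 : ℕ) : ℝ) /
        (50000 * (q : ℝ) ^ 4) = ((q / w ^ 9 : ℕ) : ℝ) / (51200000 * (w : ℝ) ^ 12) := by
        field_simp; ring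
      rw [h1, le_div_iff₀ (by positivity)]
      have h2 := hP.pu (C := 102400000) (by norm_num) (a := 13) (b := 9) (by norm_num)
      have h3 : (w : ℝ) * (51200000 * (w : ℝ) ^ 12) = 51200000 * (w : ℝ) ^ 13 := by ring
      linarith)
  obtain ⟨R, hR, hRc, hRs⟩ := G2 S
  have hcs : ∀ v ∈ Main ∪ Extra, (cnt (dbl S) (Ln dir ω v) : ℝ) ≤ ((q / w ^ 9 : ℕ) : ℝ) :=
    fun v hv => Nat.cast_le.2 (cnt_dbl_le S _ fun k e => hdisj v hv (e ▸ hSB k))
  have h1 : ∑ v ∈ R, (cnt (dbl S) (Ln dir ω v) : ℝ) ≤ q / (w : ℝ) ^ 16 * ((q / w ^ 9 : ℕ) : ℝ) +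
      8 * (q / (w : ℝ) ^ 7) * (288 * ((q / w ^ 9 : ℕ) : ℝ) ^ 2 / q) := by
    rw [← Finset.sum_filter_add_sum_filter_not R (fun v => Ln dir ω v ∈ Fl S')]
    refine add_le_add ?_ ?_
    · refine (Finset.sum_le_card_nsmul _ _ _ fun v hv =>
        hcs v (mem_union_left _ (hR (mem_filter.1 hv).1))).trans ?_
      rw [nsmul_eq_mul]
      refine mul_le_mul_of_nonneg_right (le_trans ?_ (G3 S').le) (by positivity)
      exact Nat.cast_le.2 (card_le_card (filter_subset_filter _ hR))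
    · refine (Finset.sum_le_card_nsmul _ _ (288 * ((q / w ^ 9 : ℕ) : ℝ) ^ 2 / q)
        fun v hv => ?_).trans ?_
      · refine (hfl _ (hdisj v (mem_union_left _ (hR (mem_filter.1 hv).1)))).resolve_right
          fun h => (mem_filter.1 hv).2 (mem_filter.2 ⟨mem_univ _, h⟩)
      · rw [nsmul_eq_mul]
        refine mul_le_mul_of_nonneg_right (le_trans ?_ (by exact_mod_cast hRc)) (by positivity)
        exact Nat.cast_le.2 (card_filter_le _ _)
  have h2 : ((rem dir Main (dbl S) ω).card : ℝ) ≤ 6 * q * t + t * ((q / w ^ 9 : ℕ) : ℝ) := by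
    have h3 : ((rem dir Main (dbl S) ω).card : ℝ) ≤ (rem dir Extra (rem dir Main (dbl S) ω) ω).card +
        ∑ v ∈ Extra, (cnt (rem dir Main (dbl S) ω) (Ln dir ω v) : ℝ) := by
      exact_mod_cast card_le_rem dir Extra _ ω
    refine h3.trans (add_le_add (le_trans ?_ hTR) ?_)
    · refine Nat.cast_le.2 (card_le_card fun p hp => ?_)
      simp only [rem, mem_filter] at hp
      obtain ⟨⟨h4, h5⟩, h6⟩ := hp
      refine mem_filter.2 ⟨mem_filter.2 ⟨mem_univ _, fun v hv => ?_⟩, ?_⟩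
      · rcases mem_union.1 hv with h | h
        · exact h5 v h
        · exact h6 v h
      · obtain ⟨i, j, h7, h8, h9⟩ := mem_dbl.1 h4
        exact mem_filter.2 ⟨mem_univ _, Finset.one_lt_card.2 ⟨_, mem_filter.2 ⟨hSB _, h8⟩, _,
          mem_filter.2 ⟨hSB _, h9⟩, h7⟩⟩
    · refine (Finset.sum_le_card_nsmul _ _ ((q / w ^ 9 : ℕ) : ℝ) fun v hv => ?_).trans ?_
      · exact le_trans (Nat.cast_le.2 (cnt_mono (filter_subset _ _) _)) (hcs v (mem_union_right _ hv))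
      · rw [nsmul_eq_mul]; gcongr
  exact reg1_arith hP _ _ hs2 hY (by linarith)

end Crest.Agent.H8.Ry
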