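import Crest.Agent.H8.RyReg1

set_option autoImplicit false
set_option linter.unusedSectionVars false

namespace Crest.Agent.H8.Ry
open Finset

variable {F : Type} [Field F] [Fintype F] [DecidableEq F]
variable {V : Type} [Fintype V] [DecidableEq V]

/-- the family of lines decoded from a fingerprint -/
noncomputable def Ep (K : ℕ) {σ : ℕ} (S : Fin σ → Option F × F) : Finset (Option F × F) :=
  univ.filter fun l => (fdist S l : ℝ) ≤ σ - (σ : ℝ) ^ 2 / (16 * (K + 1))

lemma unc_union_le (E J : Finset (Option F × F)) :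
    (unc E).card ≤ (unc (E ∪ J)).card + Fintype.card F * J.card := by
  induction J using Finset.induction_on with
  | empty => simp
  | insert l J hl ih =>
    rw [union_insert, card_insert_of_notMem hl, mul_add]
    have h1 := unc_insert (E ∪ J) l
    have h2 := cnt_le_card (unc (E ∪ J)) l
    omega

lemma card_le_sum_cnt (Z : Finset (F × F)) (J : Finset (Option F × F))
    (h : ∀ p ∈ Z, ∃ l ∈ J, On p l) : Z.card ≤ ∑ l ∈ J, cnt Z l := by
  rw [← sum_mult, Finset.card_eq_sum_ones]
  refine Finset.sum_le_sum fun p hp => ?_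
  obtain ⟨l, hl, h1⟩ := h p hp
  exact card_pos.2 ⟨l, mem_filter.2 ⟨hl, h1⟩⟩

theorem regime2 {w : ℕ} (hP : Par (Fintype.card F) w) (dir : V → Option F)
    (Main Extra Mg : Finset V) (ω : V → F)
    (hEx : (Extra.card : ℝ) ≤ Fintype.card F / (w : ℝ) ^ 26)
    (hMg : (Mg.card : ℝ) ≤ Fintype.card F / (w : ℝ) ^ 26)
    (hMain : (Main.card : ℝ) ≤ 4 * Fintype.card F)
    (G1 : ∀ l, (Fintype.card F : ℝ) / 4000 ≤ (cln dir (Main ∪ Extra) ω l).card)
    (G4 : ∀ K : ℕ, w ^ 200 < K → K ≤ Fintype.card F → ∀ S : Fin (K / w ^ 2) → Option F × F,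
      ((Ep K S).card : ℝ) ≤ 7 * Fintype.card F →
      ((((Main ∪ Extra) ∪ Mg).filter fun v => Ln dir ω v ∈ Ep K S).card : ℝ) < K / 100)
    (G5 : ∀ K : ℕ, (K : ℝ) ≤ 18 * (Fintype.card F / (w : ℝ) ^ 3) →
      ∀ S : Fin (K / w ^ 2) → Option F × F,
      CovOK dir 8 (Fintype.card F / (w : ℝ) ^ 1) (600 * Fintype.card F * (w : ℝ) ^ 1) Main
        (unc (Ep K S)) ω)
    (B : Finset (Option F × F))
    (hcov : ∀ p, (∀ v ∈ Main ∪ Extra, ¬ On p (Ln dir ω v)) → ∃ l ∈ B, On p l)
    (hsize : ∀ E ⊆ B, E.card ≤ Fintype.card F + (Mg.filter fun v => Ln dir ω v ∈ E).card)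
    (hu : ((unc B).card : ℝ) ≤ (Fintype.card F : ℝ) ^ 2 / (w : ℝ) ^ 3) :
    ∃ x, ∀ l, Thru x l → l ∈ B ∨ ∃ v ∈ Main ∪ Extra, Ln dir ω v = l := by
  classical
  set q := Fintype.card F with hq
  have hW := hP.W0
  have hQ := hP.Q0
  have hq0 : 0 < q := by exact_mod_cast hQ
  set u := q / (w : ℝ) ^ 3 with hudef
  have hu0 : 0 < u := hP.upos 3
  have hu1 : 100 ≤ u := by simpa using hP.pu (C := 100) (by norm_num) (a := 0) (b := 3) (by norm_num)
  have huq : 10 ^ 9 * u ≤ q := hP.uq (by norm_num) (by norm_num)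
  have ht : 2 * (q / (w : ℝ) ^ 26) ≤ u := hP.uu (by norm_num) (by norm_num)
  have ht0 := hP.upos 26
  have hsz : ∀ E ⊆ B, (E.card : ℝ) ≤ q + u / 2 := by
    intro E hE
    have h1 : E.card ≤ q + Mg.card := (hsize E hE).trans (Nat.add_le_add_left (card_filter_le _ _) _)
    have h2 : (E.card : ℝ) ≤ q + Mg.card := by exact_mod_cast h1
    linarith
  obtain ⟨E, hEB, hc1, hc3, hc4⟩ := exists_core B
  have hc2 := unc_card_ge E
  have hδ : ((unc E).card : ℝ) ≤ 3 * u * q := by
    have h1 : ((unc E).card : ℝ) + q * q ≤ 2 * (unc B).card + q * B.card := by exact_mod_cast hc1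
    have h2 := mul_le_mul_of_nonneg_left (hsz B Subset.rfl) hQ.le
    have h3 : (q : ℝ) ^ 2 / (w : ℝ) ^ 3 = u * q := by rw [hudef]; field_simp
    nlinarith
  have hEq : q - 3 * u ≤ E.card := by
    have h1 : (q : ℝ) * q ≤ (unc E).card + q * E.card := by exact_mod_cast hc2
    by_contra hc
    push Not at hc
    nlinarith
  have hr : ((B \ E).card : ℝ) ≤ 4 * u := by
    rw [card_sdiff_of_subset hEB, Nat.cast_sub (card_le_card hEB)]
    linarith [hsz B Subset.rfl]
  set κ := E.card + 1 - q with hκ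
  set s := (unc E).card / q + 1 with hs
  set K := κ + 4 * s + 10 with hK
  have hκu : (κ : ℝ) ≤ u := by
    rcases le_total (E.card + 1) q with h | h
    · rw [hκ, Nat.sub_eq_zero_of_le h]; simpa using hu0.le
    · rw [hκ, Nat.cast_sub h]; push_cast; linarith [hsz E hEB]
  have hs1 : (unc E).card ≤ s * q := by
    rw [hs, mul_comm]; exact (Nat.lt_mul_div_succ _ hq0).le
  have hs2 : s * q ≤ (unc E).card + q := by
    rw [hs, add_mul, one_mul]; exact Nat.add_le_add_right (Nat.div_mul_le_self _ _) _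
  have hsu : (s : ℝ) ≤ 4 * u := by
    have h1 : (s : ℝ) * q ≤ (unc E).card + q := by exact_mod_cast hs2
    by_contra hc
    push Not at hc
    nlinarith
  have hKu : (K : ℝ) ≤ 18 * u := by rw [hK]; push_cast; linarith
  have hκq : 4 * κ ≤ q := by
    have : (4 * κ : ℝ) ≤ q := by linarith
    exact_mod_cast this
  have hsq : 8 * s + 10 < q := by
    have : (8 * s + 10 : ℝ) < q := by linarith
    exact_mod_cast this
  have hKq : 2 * K < q := by
    have : (2 * K : ℝ) < q := by linarith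
    exact_mod_cast this
  let Large : Option F × F → Prop := fun l => q ≤ cnt (unc (E.erase l)) l + K
  have L1 : ∀ l ∈ E, Large l := by
    intro l hl
    have h1 := unc_insert (E.erase l) l
    rw [insert_erase hl] at h1
    have h2 := cnt_le_card (unc (E.erase l)) l
    have h3 := hc3 l hl
    have h4 := card_erase_add_one hl
    rcases dichot (E.erase l) κ (s + 1) (by omega) hκq (by rw [add_mul, ← hq]; omega) l with h | h
    · omega
    · change q ≤ _; omega
  have L2 : ∀ l, ¬ Large l → l ∉ E ∧ cnt (unc E) l ≤ K ∧ E.card ≤ (E.image (ptl l)).card + K := by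
    intro l hl
    have h1 : l ∉ E := fun h => hl (L1 l h)
    have h2 := img_ge E l h1
    simp only [Large, erase_eq_of_notMem h1] at hl
    rcases dichot E κ s (by omega) hκq hs1 l with h | h
    · exact ⟨h1, by omega, by omega⟩
    · omega
  have L3 : ∀ l, Large l → l ∈ E ∨ ∃ v ∈ Main ∪ Extra, Ln dir ω v = l := by
    intro l hl
    by_contra hc
    push Not at hc
    simp only [Large, erase_eq_of_notMem hc.1] at hl
    have h1 := cln_le_cnt_R0 dir (Main ∪ Extra) ω l hc.2
    have h2 : (cln dir (Main ∪ Extra) ω l ∩ unc E).card ≤ (B \ E).card := by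
      refine card_cov_le l _ (fun h => ?_) _ fun p hp => ?_
      · have := hc4 l (mem_sdiff.1 h).1 hc.1; omega
      · obtain ⟨h3, h4⟩ := mem_inter.1 hp
        obtain ⟨h5, h6⟩ := mem_filter.1 (h1 h3)
        obtain ⟨m, hm, h7⟩ := hcov p (mem_filter.1 h5).2
        exact ⟨h6, m, mem_sdiff.2 ⟨hm, fun h => mem_unc.1 h4 m h h7⟩, h7⟩
    have h3 : (cln dir (Main ∪ Extra) ω l \ unc E).card + cnt (unc E) l ≤ q := by
      rw [hq, ← cnt_univ l]
      unfold cnt
      rw [← card_union_of_disjoint]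
      · refine card_le_card fun p hp => ?_
        rcases mem_union.1 hp with h | h
        · exact mem_filter.2 ⟨mem_univ _, (mem_filter.1 (h1 (mem_sdiff.1 h).1)).2⟩
        · exact mem_filter.2 ⟨mem_univ _, (mem_filter.1 h).2⟩
      · rw [Finset.disjoint_left]
        exact fun p hp hp' => (mem_sdiff.1 hp).2 (mem_filter.1 hp').1
    have h4 := Finset.card_sdiff_add_card_inter (cln dir (Main ∪ Extra) ω l) (unc E)
    have h5 : (cln dir (Main ∪ Extra) ω l).card ≤ (B \ E).card + K := by omega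
    have h6 : ((cln dir (Main ∪ Extra) ω l).card : ℝ) ≤ (B \ E).card + K := by exact_mod_cast h5
    linarith [G1 l]
  suffices hheavy : ∃ x, K + 1 < (E.filter (Thru x)).card by
    obtain ⟨x, hx⟩ := hheavy
    refine ⟨x, fun l hl => ?_⟩
    have : Large l := by
      by_contra hc
      obtain ⟨h1, _, h3⟩ := L2 l hc
      have := img_thru E x l h1 hl
      omega
    exact (L3 l this).imp_left fun h => hEB h
  have hEne : E.Nonempty := card_pos.1 (by
    have : (0:ℝ) < E.card := by linarith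
    exact_mod_cast this)
  by_cases hKT : K ≤ w ^ 200
  · obtain ⟨l, hl⟩ := hEne
    refine exists_heavy E K l (img_le E K l (L1 l hl)) ?_
    have h1 : (K : ℝ) ≤ (w : ℝ) ^ 200 := by exact_mod_cast hKT
    have h2 : (1 : ℝ) ≤ (w : ℝ) ^ 200 := one_le_pow₀ hP.W1
    have h3 := hP.pq (C := 16) (by norm_num) (a := 400) (by norm_num)
    have h4 : (w : ℝ) ^ 400 = (w : ℝ) ^ 200 * (w : ℝ) ^ 200 := by ring
    have h5 : ((K : ℝ) + 1) * (K + 1) ≤ (2 * (w : ℝ) ^ 200) * (2 * (w : ℝ) ^ 200) := by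
      gcongr <;> linarith
    have : ((K : ℝ) + 1) * (K + 1) < E.card := by linarith
    exact_mod_cast this
  exfalso
  push Not at hKT
  have hKT' : (w : ℝ) ^ 200 < K := by exact_mod_cast hKT
  have hK0 : (0 : ℝ) < K := lt_trans (by positivity) hKT'
  have hK1 : (10 ^ 6 : ℝ) ≤ K := by
    have := hP.pw (C := 10 ^ 6) (by norm_num) (a := 0) (b := 200) (by norm_num)
    simp only [pow_zero, mul_one] at this; linarith
  have hσ1 := hP.div_le K 2
  have hσ2 := hP.le_div K 2 (le_trans (pow_le_pow_right₀ hP.W1 (by norm_num)) hKT'.le)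
  have hσ3 : ((K / w ^ 2 : ℕ) : ℝ) ≤ K := by exact_mod_cast Nat.div_le_self _ _
  have hσ4 : (4 : ℝ) ≤ K / (w : ℝ) ^ 2 := by
    rw [le_div_iff₀ (by positivity)]
    linarith [hP.pw (C := 4) (by norm_num) (a := 2) (b := 200) (by norm_num)]
  obtain ⟨S, hS⟩ := samp2 E hEne K (K / w ^ 2)
    (by
      have : (2 : ℝ) ≤ ((K / w ^ 2 : ℕ) : ℝ) := by linarith
      exact_mod_cast this)
    ((Nat.div_le_self _ _).trans (Nat.le_succ _))
    (by
      rw [Fintype.card_option, Fintype.card_prod]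
      have : q ≤ q * q := Nat.le_mul_self q
      change K + 1 ≤ q * q + 1
      omega)
    (by
      set σ := ((K / w ^ 2 : ℕ) : ℝ)
      have hσ0 : 0 < σ := by linarith
      have he : (q : ℝ) / 2 ≤ E.card := by linarith
      have h1 : (K : ℝ) * σ / E.card ≤ K * σ / (q / 2) := by gcongr
      have h2 : σ ^ 2 / (2 * E.card) ≤ K * σ / q := by
        rw [sq]; gcongr; linarith
      have h3 : σ * (K / (w : ℝ) ^ 2 / 2) / (64 * K) ≤ σ ^ 2 / (32 * (K + 1)) := by
        rw [sq σ]
        exact div_le_div₀ (by positivity) (mul_le_mul_of_nonneg_left (by linarith) hσ0.le)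
          (by positivity) (by linarith)
      have h4 : σ * (K / (w : ℝ) ^ 2 / 2) / (64 * K) = σ * (q / (w : ℝ) ^ 2) / (128 * q) := by
        field_simp; ring
      have h5 := hP.uu (C := 6912) (by norm_num) (a := 2) (b := 3) le_rfl
      have h6 : (K : ℝ) * σ / (q / 2) + K * σ / q = σ * (384 * K) / (128 * q) := by
        field_simp; ring
      have h7 : σ * (384 * K) / (128 * q) ≤ σ * (q / (w : ℝ) ^ 2) / (128 * q) := by
        gcongr; linarith
      linarith)
    w (by rw [card_lines]; linarith [hP.lines_small])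
    (by
      set σ := ((K / w ^ 2 : ℕ) : ℝ)
      have h1 : (K / (w : ℝ) ^ 2 / 2) ^ 3 / (4096 * (2 * K) ^ 2) ≤ σ ^ 3 / (4096 * (K + 1) ^ 2) := by
        gcongr <;> linarith
      refine le_trans ?_ h1
      have h2 : (K / (w : ℝ) ^ 2 / 2) ^ 3 / (4096 * (2 * K) ^ 2) = K / (131072 * (w : ℝ) ^ 6) := by
        field_simp; ring
      rw [h2, le_div_iff₀ (by positivity)]
      have h3 := hP.pw (C := 131072) (by norm_num) (a := 7) (b := 200) (by norm_num)
      have h4 : (w : ℝ) * (131072 * (w : ℝ) ^ 6) = 131072 * (w : ℝ) ^ 7 := by ring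
      linarith)
  have hEp : ∀ l, l ∈ Ep K S ↔ Large l := by
    intro l
    simp only [Ep, mem_filter, mem_univ, true_and]
    constructor
    · intro h
      by_contra hc
      exact absurd h (not_le.2 ((hS l).2 (L2 l hc).2.2))
    · exact fun h => (hS l).1 (img_le E K l h)
  have hEE : E ⊆ Ep K S := fun l hl => (hEp l).2 (L1 l hl)
  have hJ : ∀ A : Finset V, Main ∪ Extra ⊆ A →
      (Ep K S \ E).card ≤ (A.filter fun v => Ln dir ω v ∈ Ep K S).card := by
    intro A hA
    refine le_trans (card_le_card fun l hl => ?_) (card_image_le (f := Ln dir ω))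
    obtain ⟨h1, h2⟩ := mem_sdiff.1 hl
    obtain ⟨v, hv, rfl⟩ := (L3 l ((hEp l).1 h1)).resolve_left h2
    exact mem_image_of_mem _ (mem_filter.2 ⟨hA hv, h1⟩)
  have hX := G4 K hKT (by omega) S (by
    have h1 := (hJ _ Subset.rfl).trans ((card_filter_le _ _).trans (card_union_le _ _))
    rw [card_sdiff_of_subset hEE] at h1
    have h2 : (Ep K S).card ≤ E.card + (Main.card + Extra.card) := by omega
    have h3 : ((Ep K S).card : ℝ) ≤ E.card + (Main.card + Extra.card) := by exact_mod_cast h2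
    linarith [hsz E hEB])
  set X := (((Main ∪ Extra) ∪ Mg).filter fun v => Ln dir ω v ∈ Ep K S).card with hXdef
  have hJX := hJ ((Main ∪ Extra) ∪ Mg) subset_union_left
  have hκX : κ ≤ X + 1 := by
    have h1 := hsize E hEB
    have h2 : (Mg.filter fun v => Ln dir ω v ∈ E).card ≤ X := card_le_card fun v hv =>
      mem_filter.2 ⟨mem_union_right _ (mem_filter.1 hv).1, hEE (mem_filter.1 hv).2⟩
    omega
  have hU : (K : ℝ) * q / 5 ≤ (unc (Ep K S)).card := by
    have h1 := unc_union_le E (Ep K S \ E)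
    rw [union_sdiff_of_subset hEE] at h1
    have h2 : s * q ≤ (unc (Ep K S)).card + q * X + q := by
      have := Nat.mul_le_mul_left q hJX
      rw [← hXdef] at this
      rw [← hq] at h1
      omega
    have h3 : (s : ℝ) * q ≤ (unc (Ep K S)).card + q * X + q := by exact_mod_cast h2
    have h4 : (K : ℝ) ≤ X + 1 + 4 * s + 10 := by
      have : K ≤ X + 1 + 4 * s + 10 := by omega
      exact_mod_cast this
    have h5 : (K : ℝ) / 5 + X + 1 ≤ s := by linarith
    have h6 := mul_le_mul_of_nonneg_right h5 hQ.le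
    linarith
  have hflat : ∀ l, cnt (unc (Ep K S)) l ≤ K := by
    intro l
    by_cases h : l ∈ Ep K S
    · have : cnt (unc (Ep K S)) l = 0 := by
        unfold cnt; rw [card_eq_zero, filter_eq_empty_iff]
        exact fun p hp => mem_unc.1 hp l h
      omega
    · refine le_trans (cnt_mono (fun p hp => ?_) l) (L2 l fun h' => h ((hEp l).2 h')).2.1
      exact mem_unc.2 fun m hm => mem_unc.1 hp m (hEE hm)
  obtain ⟨R, hR, hRc, hRs⟩ := G5 K hKu S
  have h1 : ∑ v ∈ R, (cnt (unc (Ep K S)) (Ln dir ω v) : ℝ) ≤ 8 * (q / (w : ℝ) ^ 1) * K := by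
    refine (Finset.sum_le_card_nsmul _ _ (K : ℝ) fun v _ => Nat.cast_le.2 (hflat _)).trans ?_
    rw [nsmul_eq_mul]
    exact mul_le_mul_of_nonneg_right (by exact_mod_cast hRc) hK0.le
  have h2 : ((rem dir Main (unc (Ep K S)) ω).card : ℝ) ≤ 5 * u * K := by
    have h3 := card_le_sum_cnt (rem dir Main (unc (Ep K S)) ω) (Extra.image (Ln dir ω) ∪ B \ E)
      fun p hp => by
        obtain ⟨h4, h5⟩ := mem_filter.1 hp
        by_cases h6 : ∀ v ∈ Extra, ¬ On p (Ln dir ω v)
        · obtain ⟨m, hm, h7⟩ := hcov p fun v hv => (mem_union.1 hv).elim (h5 v) (h6 v)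
          exact ⟨m, mem_union_right _ (mem_sdiff.2 ⟨hm, fun h => mem_unc.1 h4 m (hEE h) h7⟩), h7⟩
        · push Not at h6
          obtain ⟨v, hv, h7⟩ := h6
          exact ⟨_, mem_union_left _ (mem_image_of_mem _ hv), h7⟩
    have h4 := h3.trans (Finset.sum_le_card_nsmul _ _ K fun l _ =>
      (cnt_mono (filter_subset _ _) l).trans (hflat l))
    have h5 : (Extra.image (Ln dir ω) ∪ B \ E).card ≤ Extra.card + (B \ E).card :=
      (card_union_le _ _).trans (Nat.add_le_add_right card_image_le _)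
    rw [smul_eq_mul] at h4
    have h6 := h4.trans (Nat.mul_le_mul_right K h5)
    have h7 : ((rem dir Main (unc (Ep K S)) ω).card : ℝ) ≤ (Extra.card + (B \ E).card) * K := by
      exact_mod_cast h6
    refine h7.trans (mul_le_mul_of_nonneg_right (by linarith) hK0.le)
  have h3 : u ≤ q / (w : ℝ) ^ 1 := by
    have := hP.uu (C := 1) (by norm_num) (a := 1) (b := 3) (by norm_num); linarith
  have h4 : 600 * q * (w : ℝ) ^ 1 ≤ q / (w : ℝ) ^ 1 * K := by
    have h5 := hP.pw (C := 600) (by norm_num) (a := 2) (b := 200) (by norm_num)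
    calc 600 * q * (w : ℝ) ^ 1 = q / (w : ℝ) ^ 1 * (600 * (w : ℝ) ^ 2) := by field_simp
      _ ≤ _ := mul_le_mul_of_nonneg_left (by linarith) (hP.upos 1).le
  have h5 := mul_le_mul_of_nonneg_right (hP.uq (C := 10 ^ 6) (by norm_num) (b := 1) le_rfl) hK0.le
  have h6 := mul_le_mul_of_nonneg_right h3 hK0.le
  have h7 := mul_pos (hP.upos 1) hK0
  norm_num at hRs
  norm_num at h1 h4 h5 h6 h7
  nlinarith

end Crest.Agent.H8.Ry
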