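import Crest.Agent.H8.RyCover

set_option autoImplicit false
set_option linter.unusedSectionVars false

namespace Crest.Agent.H8.Ry
open Finset

section abs
variable {ι α : Type*} [Fintype ι] [DecidableEq ι] [Fintype α] [Nonempty α] [DecidableEq α]

lemma Ex_indep (S : Finset ι) (f g : (ι → α) → ℝ)
    (hf : ∀ ω ω', (∀ i ∈ S, ω i = ω' i) → f ω = f ω')
    (hg : ∀ ω ω', (∀ i, i ∉ S → ω i = ω' i) → g ω = g ω') :
    Ex (fun ω => f ω * g ω) = Ex f * Ex g := by
  rw [Ex_piecewise S, ← Ex_mul_left]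
  refine Ex_congr fun ω => ?_
  rw [← Ex_mul_right]
  refine Ex_congr fun ω' => ?_
  rw [hf _ ω' fun i hi => Finset.piecewise_eq_of_mem _ _ _ hi,
    hg _ ω fun i hi => Finset.piecewise_eq_of_notMem _ _ _ hi]

lemma Pr_hit (I : Finset ι) (A : Finset α) :
    Pr (fun ω : ι → α => ∃ i ∈ I, ω i ∈ A) = 1 - (1 - (A.card : ℝ) / Fintype.card α) ^ I.card := by
  have h1 : Pr (fun ω : ι → α => ∀ i ∈ I, ¬ ω i ∈ A) =
      (1 - (A.card : ℝ) / Fintype.card α) ^ I.card := by
    unfold Pr
    rw [Ex_congr fun ω => ind_forall I _, Ex_prod I (fun _ a => ind (¬ a ∈ A))]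
    have : Ex (fun a => ind (¬ a ∈ A)) = 1 - (A.card : ℝ) / Fintype.card α := by
      rw [← Pr_mem, ← Pr_not]; rfl
    simp [this]
  rw [← h1, ← Pr_not]
  congr 1; ext ω; simp

lemma one_sub_pow_le_min {x : ℝ} (h0 : 0 ≤ x) (h1 : x ≤ 1) (n : ℕ) :
    1 - (1 - x) ^ n ≤ min 1 (n * x) := by
  refine le_min ?_ ?_
  · have := pow_nonneg (sub_nonneg.2 h1) n; linarith
  · have := one_add_mul_le_pow (a := -x) (by linarith) n
    rw [← sub_eq_add_neg] at this; linarith

lemma min_le_one_sub_pow {x : ℝ} (h0 : 0 ≤ x) (h1 : x ≤ 1) (n : ℕ) :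
    min 1 (n * x) / 2 ≤ 1 - (1 - x) ^ n := by
  have h2 := one_add_mul_le_pow (a := x) (by linarith) n
  have h3 : (1 - x) ^ n * (1 + x) ^ n ≤ 1 := by
    rw [← mul_pow]; exact pow_le_one₀ (by nlinarith) (by nlinarith)
  have h4 := pow_nonneg (sub_nonneg.2 h1) n
  have h5 : (1 - x) ^ n * (1 + n * x) ≤ 1 := by nlinarith
  have h6 : 0 ≤ n * x := by positivity
  rcases le_total 1 (n * x) with h | h
  · rw [min_eq_left h]; nlinarith
  · rw [min_eq_right h]; nlinarith

lemma pow_ge_quad {x : ℝ} (h0 : 0 ≤ x) (h1 : x ≤ 1) (n : ℕ) (hn : n * x ≤ 2) :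
    1 - n * x + n * (n - 1) * x ^ 2 / 4 ≤ (1 - x) ^ n := by
  induction n with
  | zero => simp
  | succ n ih =>
    have hn0 : (0:ℝ) ≤ n := by positivity
    push_cast at hn ⊢
    have h2 := mul_le_mul_of_nonneg_right (ih (by nlinarith)) (sub_nonneg.2 h1)
    rw [pow_succ (1 - x)]
    refine le_trans ?_ h2
    have h3 : 0 ≤ n * x ^ 2 * (2 - (n - 1) * x) :=
      mul_nonneg (by positivity) (by nlinarith)
    nlinarith

lemma pow_le_quad {x : ℝ} (h0 : 0 ≤ x) (h1 : x ≤ 1) (n : ℕ) :
    (1 - x) ^ n ≤ 1 - n * x + n ^ 2 * x ^ 2 / 2 := by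
  induction n with
  | zero => simp
  | succ n ih =>
    have hn0 : (0:ℝ) ≤ n := by positivity
    push_cast
    have h2 := mul_le_mul_of_nonneg_right ih (sub_nonneg.2 h1)
    rw [pow_succ (1 - x)]
    refine le_trans h2 ?_
    have h3 : 0 ≤ n ^ 2 * x ^ 3 := by positivity
    nlinarith [sq_nonneg x]

variable {β : Type*} [DecidableEq β]

/-- number of distinct values in a sample -/
def dist (g : α → β) (ω : ι → α) : ℕ := (univ.image fun i => g (ω i)).card

lemma dist_le_succ (g : α → β) {ω ω' : ι → α} (i : ι) (h : ∀ j, j ≠ i → ω j = ω' j) :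
    dist g ω' ≤ dist g ω + 1 := by
  unfold dist
  refine le_trans (card_le_card ?_) (card_insert_le (g (ω' i)) _)
  intro y hy
  obtain ⟨j, _, rfl⟩ := mem_image.1 hy
  by_cases hj : j = i
  · subst hj; exact mem_insert_self _ _
  · exact mem_insert_of_mem (mem_image.2 ⟨j, mem_univ _, by rw [h j hj]⟩)

lemma abs_le_of_succ {ω0 : Type*} (f : (ι → ω0) → ℕ) (c : ℕ) (i : ι)
    (h : ∀ ω ω', (∀ j, j ≠ i → ω j = ω' j) → f ω' ≤ f ω + c) (ω : ι → ω0) (a : ω0) :
    |(f (Function.update ω i a) : ℝ) - f ω| ≤ c := by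
  have h1 : (f (Function.update ω i a) : ℝ) ≤ f ω + c := by
    exact_mod_cast h ω _ fun j hj => (Function.update_of_ne hj _ _).symm
  have h2 : (f ω : ℝ) ≤ f (Function.update ω i a) + c := by
    exact_mod_cast h _ ω fun j hj => Function.update_of_ne hj _ _
  rw [abs_le]; constructor <;> linarith

lemma Ex_dist_le (g : α → β) (I : Finset β) (hI : ∀ a, g a ∈ I)
    (hσ : (Fintype.card ι : ℝ) ≤ 2 * I.card) (hσ1 : 1 ≤ Fintype.card ι) :
    Ex (fun ω : ι → α => (dist g ω : ℝ)) ≤
      Fintype.card ι - Fintype.card ι * (Fintype.card ι - 1) / (4 * I.card) := by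
  have hα : (0:ℝ) < Fintype.card α := by exact_mod_cast Fintype.card_pos
  have hI0 : 0 < I.card := card_pos.2 ⟨_, hI (Classical.arbitrary α)⟩
  have hI1 : (1:ℝ) ≤ I.card := by exact_mod_cast hI0
  have h1 : ∀ ω : ι → α, (dist g ω : ℝ) =
      ∑ y ∈ I, ind (∃ i ∈ (univ : Finset ι), ω i ∈ univ.filter fun a => g a = y) := by
    intro ω
    classical
    rw [← card_filter_eq_sum_ind]
    unfold dist
    congr 2
    ext y
    simp only [mem_image, mem_univ, true_and, mem_filter]
    exact ⟨fun ⟨i, hi⟩ => ⟨hi ▸ hI _, i, hi⟩, fun h => h.2⟩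
  rw [Ex_congr h1, Ex_sum]
  have h2 : ∀ y, Ex (fun ω : ι → α =>
      ind (∃ i ∈ (univ : Finset ι), ω i ∈ univ.filter fun a => g a = y)) =
      1 - (1 - ((univ.filter fun a => g a = y).card : ℝ) / Fintype.card α) ^ Fintype.card ι :=
    fun y => Pr_hit univ _
  rw [Finset.sum_congr rfl fun y _ => h2 y, Finset.sum_sub_distrib]
  obtain ⟨n, hn⟩ : ∃ n, Fintype.card ι = n + 1 := ⟨Fintype.card ι - 1, by omega⟩
  have h3 := pow_sum_div_card_le_sum_pow (s := I)
    (f := fun y => 1 - ((univ.filter fun a => g a = y).card : ℝ) / Fintype.card α)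
    (fun y _ => by
      rw [sub_nonneg, div_le_one hα]; exact_mod_cast card_le_univ _) n
  have h4 : ∑ y ∈ I, (1 - ((univ.filter fun a => g a = y).card : ℝ) / Fintype.card α) =
      I.card - 1 := by
    rw [Finset.sum_sub_distrib, ← Finset.sum_div]
    have : ∑ y ∈ I, ((univ.filter fun a => g a = y).card : ℝ) = Fintype.card α := by
      have := Finset.card_eq_sum_card_fiberwise (f := g) (s := univ) (t := I) (fun a _ => hI a)
      rw [card_univ] at this
      exact_mod_cast this.symm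
    rw [this, div_self hα.ne']; simp
  rw [h4, ← hn] at h3
  have h5 := pow_ge_quad (x := 1 / I.card) (by positivity) (by rw [div_le_one (by linarith)]; linarith)
    (Fintype.card ι) (by rw [mul_one_div, div_le_iff₀ (by linarith)]; linarith)
  have h6 : ((I.card : ℝ) - 1) ^ Fintype.card ι / (I.card : ℝ) ^ n =
      I.card * (1 - 1 / I.card) ^ Fintype.card ι := by
    rw [hn, show (1 - 1 / (I.card : ℝ)) = (I.card - 1) / I.card by field_simp, div_pow]
    field_simp; ring
  rw [h6] at h3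
  have h7 := mul_le_mul_of_nonneg_left h5 (show (0:ℝ) ≤ I.card by positivity)
  have h8 : (I.card : ℝ) * (1 - Fintype.card ι * (1 / I.card) +
      Fintype.card ι * (Fintype.card ι - 1) * (1 / I.card) ^ 2 / 4) =
      I.card - Fintype.card ι + Fintype.card ι * (Fintype.card ι - 1) / (4 * I.card) := by
    field_simp
  simp only [Finset.sum_const, nsmul_eq_mul, mul_one]
  linarith

lemma Ex_dist_ge (g : α → β) (K : ℝ) (hK0 : 0 ≤ K)
    (hK : Fintype.card α - K ≤ (univ.image g).card) :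
    Fintype.card ι - K * Fintype.card ι / Fintype.card α -
      (Fintype.card ι : ℝ) ^ 2 / (2 * Fintype.card α) ≤ Ex (fun ω : ι → α => (dist g ω : ℝ)) := by
  have hα : (0:ℝ) < Fintype.card α := by exact_mod_cast Fintype.card_pos
  have hα1 : (1:ℝ) ≤ Fintype.card α := by exact_mod_cast Fintype.card_pos
  choose! s hs using fun y (hy : y ∈ univ.image g) => mem_image.1 hy
  have h1 : ∀ ω : ι → α, ∑ y ∈ univ.image g,
      ind (∃ i ∈ (univ : Finset ι), ω i ∈ ({s y} : Finset α)) ≤ (dist g ω : ℝ) := by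
    intro ω
    classical
    rw [← card_filter_eq_sum_ind]
    unfold dist
    refine Nat.cast_le.2 (card_le_card fun y hy => ?_)
    obtain ⟨hy1, i, _, hi⟩ := mem_filter.1 hy
    exact mem_image.2 ⟨i, mem_univ _, by rw [mem_singleton.1 hi]; exact (hs y hy1).2⟩
  refine le_trans ?_ (Ex_mono h1)
  rw [Ex_sum]
  have h2 : ∀ y, Ex (fun ω : ι → α => ind (∃ i ∈ (univ : Finset ι), ω i ∈ ({s y} : Finset α))) =
      1 - (1 - 1 / (Fintype.card α : ℝ)) ^ Fintype.card ι := by
    intro y
    have := Pr_hit (ι := ι) univ ({s y} : Finset α)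
    rw [card_singleton, card_univ, Nat.cast_one] at this
    exact this
  rw [Finset.sum_congr rfl fun y _ => h2 y, Finset.sum_const, nsmul_eq_mul]
  have h3 := pow_le_quad (x := 1 / (Fintype.card α : ℝ)) (by positivity)
    (by rw [div_le_one hα]; exact hα1) (Fintype.card ι)
  have h4 := min_le_one_sub_pow (x := 1 / (Fintype.card α : ℝ)) (by positivity)
    (by rw [div_le_one hα]; exact hα1) (Fintype.card ι)
  have h5 := one_sub_pow_le_min (x := 1 / (Fintype.card α : ℝ)) (by positivity)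
    (by rw [div_le_one hα]; exact hα1) (Fintype.card ι)
  have h6 : 0 ≤ min 1 (Fintype.card ι * (1 / (Fintype.card α : ℝ))) :=
    le_min zero_le_one (by positivity)
  set u := 1 - (1 - 1 / (Fintype.card α : ℝ)) ^ Fintype.card ι with hu
  have h7 : (Fintype.card α - K) * u ≤ (univ.image g).card * u := by
    gcongr; linarith
  refine le_trans ?_ h7
  have h8 : K * u ≤ K * Fintype.card ι / Fintype.card α := by
    rw [mul_div_assoc]; gcongr
    refine h5.trans ((min_le_right _ _).trans (le_of_eq (by ring)))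
  have h9 : Fintype.card ι - (Fintype.card ι : ℝ) ^ 2 / (2 * Fintype.card α) ≤
      Fintype.card α * u := by
    have : Fintype.card ι - (Fintype.card ι : ℝ) ^ 2 / (2 * Fintype.card α) =
        Fintype.card α * (Fintype.card ι * (1 / (Fintype.card α : ℝ)) -
          (Fintype.card ι : ℝ) ^ 2 * (1 / (Fintype.card α : ℝ)) ^ 2 / 2) := by field_simp
    rw [this]; gcongr; linarith
  linarith

end abs

end Crest.Agent.H8.Ry
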