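import Crest.Agent.H8.RySamp

set_option autoImplicit false
set_option linter.unusedSectionVars false

namespace Crest.Agent.H8.Ry
open Finset

variable {F : Type} [Field F] [Fintype F] [DecidableEq F]

/-- the (projective) intersection point of `m` with `l` -/
noncomputable def ptl (l m : Option F × F) : Option (F × F) :=
  if h : l.1 ≠ m.1 then some (exists_ph h l.2 m.2).choose else none

lemma ptl_eq_some {l m : Option F × F} {p : F × F} :
    ptl l m = some p ↔ l.1 ≠ m.1 ∧ On p l ∧ On p m := by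
  unfold ptl
  split_ifs with h
  · have hs := (exists_ph h l.2 m.2).choose_spec
    constructor
    · intro e
      rw [Option.some.injEq] at e
      exact ⟨h, e ▸ hs.1, e ▸ hs.2⟩
    · rintro ⟨_, h1, h2⟩
      rw [Option.some.injEq]
      exact eq_of_ph h (hs.1.trans h1.symm) (hs.2.trans h2.symm)
  · simp [h]

lemma ptl_eq_none {l m : Option F × F} : ptl l m = none ↔ l.1 = m.1 := by
  unfold ptl
  split_ifs with h
  · simpa using h
  · simpa using h

/-- the fingerprint statistic -/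
noncomputable def fdist {σ : ℕ} (S : Fin σ → Option F × F) (l : Option F × F) : ℕ :=
  (univ.image fun i => ptl l (S i)).card

theorem samp2 (E : Finset (Option F × F)) (hE : E.Nonempty) (K σ : ℕ) (hσ2 : 2 ≤ σ)
    (hσK : σ ≤ K + 1) (hKq : K + 1 ≤ Fintype.card (Option (F × F)))
    (hout : (K : ℝ) * σ / E.card + (σ : ℝ) ^ 2 / (2 * E.card) ≤ (σ : ℝ) ^ 2 / (32 * (K + 1)))
    (L : ℝ) (hL : Fintype.card (Option F × F) * (2 * Real.exp (-L)) < 1)
    (hLσ : L ≤ (σ : ℝ) ^ 3 / (4096 * (K + 1) ^ 2)) :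
    ∃ S : Fin σ → Option F × F, ∀ l,
      ((E.image (ptl l)).card ≤ K + 1 → (fdist S l : ℝ) ≤ σ - (σ : ℝ) ^ 2 / (16 * (K + 1))) ∧
      (E.card ≤ (E.image (ptl l)).card + K → σ - (σ : ℝ) ^ 2 / (16 * (K + 1)) < fdist S l) := by
  classical
  have : Nonempty E := hE.to_subtype
  have hσ2' : (2:ℝ) ≤ σ := by exact_mod_cast hσ2
  have hσK' : (σ:ℝ) ≤ K + 1 := by exact_mod_cast hσK
  have hK1 : (0:ℝ) < K + 1 := by positivity
  set t : ℝ := (σ : ℝ) ^ 2 / (32 * (K + 1)) with ht
  have ht0 : 0 ≤ t := by positivity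
  have htσ : t ≤ 2 * σ * 1 := by
    rw [ht, div_le_iff₀ (by positivity)]; nlinarith
  have hexp : Real.exp (-(t ^ 2 / (4 * σ * 1 ^ 2))) ≤ Real.exp (-L) := by
    refine Real.exp_le_exp.2 (neg_le_neg (hLσ.trans (le_of_eq ?_)))
    rw [ht]; field_simp; ring
  have himg : ∀ l, (univ.image fun a : E => ptl l a) = E.image (ptl l) := by
    intro l; ext y; simp
  have hP : Pr (fun ω : Fin σ → E => ∃ l : Option F × F,
      Ex (fun ω : Fin σ → E => (dist (fun a : E => ptl l a) ω : ℝ)) + t ≤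
        dist (fun a : E => ptl l a) ω ∨
      (dist (fun a : E => ptl l a) ω : ℝ) ≤
        Ex (fun ω : Fin σ → E => (dist (fun a : E => ptl l a) ω : ℝ)) - t) < 1 := by
    refine lt_of_le_of_lt (Pr_exists_le' _ fun l => ?_) hL
    have hd : ∀ i ∈ (univ : Finset (Fin σ)), ∀ (ω : Fin σ → E) a,
        |(dist (fun a : E => ptl l a) (Function.update ω i a) : ℝ) -
          dist (fun a : E => ptl l a) ω| ≤ 1 := by
      intro i _ ω a
      have := abs_le_of_succ (dist (fun a : E => ptl l a)) 1 i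
        (fun ω ω' h => dist_le_succ _ i h) ω a
      simpa using this
    have hi : ∀ ω ω' : Fin σ → E, (∀ i ∈ (univ : Finset (Fin σ)), ω i = ω' i) →
        (dist (fun a : E => ptl l a) ω : ℝ) = dist (fun a : E => ptl l a) ω' := fun ω ω' h => by
      rw [show ω = ω' from funext fun i => h i (mem_univ _)]
    have hU := mcd_upper univ _ 1 t σ one_pos ht0 (by simp) (by linarith) htσ hd hi
    have hL := mcd_lower univ _ 1 t σ one_pos ht0 (by simp) (by linarith) htσ hd hi
    refine (Pr_or_le _ _).trans ?_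
    linarith
  obtain ⟨ω, hω⟩ := exists_of_Pr_lt_one hP
  push Not at hω
  refine ⟨fun i => ω i, fun l => ⟨fun h => ?_, fun h => ?_⟩⟩
  · obtain ⟨I, hI, hIc⟩ := Finset.exists_superset_card_eq h hKq
    have h1 := Ex_dist_le (ι := Fin σ) (fun a : E => ptl l a) I
      (fun a => hI (mem_image_of_mem _ a.2)) (by simp [hIc]; linarith) (by simp; omega)
    have h2 := (hω l).1
    simp only [Fintype.card_fin, hIc] at h1
    push_cast at h1
    have h3 : (σ:ℝ) ^ 2 / (8 * (K + 1)) ≤ σ * (σ - 1) / (4 * (K + 1)) := by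
      rw [div_le_div_iff₀ (by positivity) (by positivity)]
      have : 0 ≤ (σ:ℝ) * (σ - 2) * (K + 1) := by
        have : (0:ℝ) ≤ σ - 2 := by linarith
        positivity
      nlinarith
    have h4 : (σ:ℝ) ^ 2 / (8 * (K + 1)) = 4 * t := by rw [ht]; field_simp; ring
    have h5 : (σ:ℝ) ^ 2 / (16 * (K + 1)) = 2 * t := by rw [ht]; field_simp; ring
    change (dist (fun a : E => ptl l a) ω : ℝ) ≤ _
    linarith
  · have h1 := Ex_dist_ge (ι := Fin σ) (fun a : E => ptl l a) K (by positivity) (by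
      rw [himg, Fintype.card_coe]
      have : (E.card : ℝ) ≤ (E.image (ptl l)).card + K := by exact_mod_cast h
      linarith)
    have h2 := (hω l).2
    simp only [Fintype.card_fin, Fintype.card_coe] at h1
    have h5 : (σ:ℝ) ^ 2 / (16 * (K + 1)) = 2 * t := by rw [ht]; field_simp; ring
    change _ < (dist (fun a : E => ptl l a) ω : ℝ)
    linarith

/-- double points of a sample -/
def dbl {σ : ℕ} (T : Fin σ × Bool → Option F × F) : Finset (F × F) :=
  univ.filter fun p => ∃ i j, T (i, false) ≠ T (j, true) ∧ On p (T (i, false)) ∧ On p (T (j, true))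

lemma mem_dbl {σ : ℕ} {T : Fin σ × Bool → Option F × F} {p : F × F} : p ∈ dbl T ↔
    ∃ i j, T (i, false) ≠ T (j, true) ∧ On p (T (i, false)) ∧ On p (T (j, true)) := by
  simp [dbl]

lemma card_dbl_le {σ : ℕ} (T : Fin σ × Bool → Option F × F) : (dbl T).card ≤ σ ^ 2 := by
  choose f g hf using fun p (hp : p ∈ dbl T) => mem_dbl.1 hp
  by_cases h0 : dbl T = ∅
  · simp [h0]
  obtain ⟨p0, hp0⟩ := Finset.nonempty_iff_ne_empty.2 h0
  obtain ⟨i0, -⟩ := mem_dbl.1 hp0
  have : (dbl T).card ≤ (univ : Finset (Fin σ × Fin σ)).card := by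
    refine Finset.card_le_card_of_injOn
      (fun p => if h : p ∈ dbl T then (f p h, g p h) else (i0, i0)) (by simp) ?_
    intro p hp p' hp' h
    have hp1 : p ∈ dbl T := hp
    have hp2 : p' ∈ dbl T := hp'
    simp only [hp1, hp2, dif_pos, Prod.mk.injEq] at h
    obtain ⟨h1, h2, h3⟩ := hf p hp1
    obtain ⟨h4, h5, h6⟩ := hf p' hp2
    exact pt_unique h1 h2 h3 (h.1 ▸ h5) (h.2 ▸ h6)
  simpa [sq] using this

lemma cnt_dbl_le {σ : ℕ} (T : Fin σ × Bool → Option F × F) (l : Option F × F)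
    (hl : ∀ k, T k ≠ l) : cnt (dbl T) l ≤ σ := by
  have := card_cov_le l (univ.image fun i => T (i, false)) (by simpa using fun i => hl _)
    ((dbl T).filter (On · l)) (fun p hp => by
      obtain ⟨h1, h2⟩ := mem_filter.1 hp
      obtain ⟨i, j, _, h3, _⟩ := mem_dbl.1 h1
      exact ⟨h2, _, mem_image.2 ⟨i, mem_univ _, rfl⟩, h3⟩)
  exact this.trans (card_image_le.trans (by simp))

lemma dbl_new {σ : ℕ} {T T' : Fin σ × Bool → Option F × F} (k : Fin σ × Bool)
    (h : ∀ j, j ≠ k → T j = T' j) {p : F × F} (hp : p ∈ dbl T') (hp' : p ∉ dbl T) :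
    On p (T' k) ∧ ∃ i, T' (i, !k.2) ≠ T' k ∧ On p (T' (i, !k.2)) := by
  obtain ⟨i, j, h1, h2, h3⟩ := mem_dbl.1 hp
  by_cases e1 : (i, false) = k
  · subst e1; exact ⟨h2, j, h1.symm, h3⟩
  by_cases e2 : (j, true) = k
  · subst e2; exact ⟨h3, i, h1, h2⟩
  exact absurd (mem_dbl.2 ⟨i, j, by rwa [h _ e1, h _ e2], by rwa [h _ e1], by rwa [h _ e2]⟩) hp'

lemma dbl_le_add {σ : ℕ} {T T' : Fin σ × Bool → Option F × F} (k : Fin σ × Bool)
    (h : ∀ j, j ≠ k → T j = T' j) : (dbl T').card ≤ (dbl T).card + σ := by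
  have h1 := card_cov_le (T' k) ((univ.image fun i => T' (i, !k.2)).erase (T' k))
    (notMem_erase _ _) (dbl T' \ dbl T) (fun p hp => by
      obtain ⟨h2, i, h3, h4⟩ := dbl_new k h (mem_sdiff.1 hp).1 (mem_sdiff.1 hp).2
      exact ⟨h2, _, mem_erase.2 ⟨h3, mem_image.2 ⟨i, mem_univ _, rfl⟩⟩, h4⟩)
  have h2 : ((univ.image fun i => T' (i, !k.2)).erase (T' k)).card ≤ σ :=
    (card_erase_le).trans (card_image_le.trans (by simp))
  have := Finset.le_card_sdiff (dbl T) (dbl T')
  omega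

lemma cnt_dbl_le_succ {σ : ℕ} {T T' : Fin σ × Bool → Option F × F} (k : Fin σ × Bool)
    (h : ∀ j, j ≠ k → T j = T' j) (l : Option F × F) (hl : l ≠ T' k) :
    cnt (dbl T') l ≤ cnt (dbl T) l + 1 := by
  refine card_le_succ_of hl fun p hp hp' => ⟨(mem_filter.1 hp).2, ?_⟩
  exact (dbl_new k h (mem_filter.1 hp).1 fun h1 => hp' (mem_filter.2 ⟨h1, (mem_filter.1 hp).2⟩)).1

/-- multiplicity of a point -/
def mult (B : Finset (Option F × F)) (p : F × F) : ℕ := (B.filter (On p)).card

lemma Pr_two {σ : ℕ} {α : Type*} [Fintype α] [Nonempty α] [DecidableEq α] (A A' : Finset α) :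
    Pr (fun ω : Fin σ × Bool → α => (∃ i, ω (i, false) ∈ A) ∧ ∃ j, ω (j, true) ∈ A') =
      (1 - (1 - (A.card : ℝ) / Fintype.card α) ^ σ) *
        (1 - (1 - (A'.card : ℝ) / Fintype.card α) ^ σ) := by
  have h1 := Pr_hit (univ.image fun i : Fin σ => (i, false)) A
  have h2 := Pr_hit (univ.image fun i : Fin σ => (i, true)) A'
  rw [card_image_of_injective _ (fun a b h => by simpa using h)] at h1 h2
  simp only [card_univ, Fintype.card_fin] at h1 h2
  rw [← h1, ← h2]
  unfold Pr
  rw [← Ex_indep (univ.image fun i : Fin σ => (i, false))]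
  · refine Ex_congr fun ω => ?_
    rw [← ind_and]; exact ind_congr (by simp)
  · intro ω ω' h
    exact ind_congr (exists_congr fun i => and_congr_right fun hi => by rw [h i hi])
  · intro ω ω' h
    refine ind_congr (exists_congr fun i => and_congr_right fun hi => ?_)
    rw [h i]
    obtain ⟨j, _, rfl⟩ := mem_image.1 hi
    simp

lemma card_sub (B : Finset (Option F × F)) (A : Finset (Option F × F)) (hA : A ⊆ B) :
    (univ.filter fun a : B => (a : Option F × F) ∈ A).card = A.card := by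
  refine Finset.card_bij (fun a _ => (a : Option F × F)) (fun a ha => (mem_filter.1 ha).2)
    (fun a _ b _ h => Subtype.ext h) fun a ha => ⟨⟨a, hA ha⟩, by simpa using ha, rfl⟩

lemma Pr_dbl_le {σ : ℕ} (B : Finset (Option F × F)) [Nonempty B] (p : F × F) :
    Pr (fun ω : Fin σ × Bool → B => p ∈ dbl fun k => (ω k : Option F × F)) ≤
      ind (2 ≤ mult B p) * (min 1 (σ * (mult B p / B.card : ℝ))) ^ 2 := by
  have hB : (0:ℝ) < B.card := by
    have := Fintype.card_pos (α := B); rw [Fintype.card_coe] at this; exact_mod_cast this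
  by_cases h2 : 2 ≤ mult B p
  · rw [ind_of h2, one_mul]
    have h1 := Pr_two (σ := σ) (univ.filter fun a : B => (a : Option F × F) ∈ B.filter (On p))
      (univ.filter fun a : B => (a : Option F × F) ∈ B.filter (On p))
    rw [card_sub B _ (filter_subset _ _), Fintype.card_coe] at h1
    have h3 : (mult B p : ℝ) / B.card ≤ 1 := by
      rw [div_le_one hB]; exact_mod_cast card_filter_le _ _
    have h4 := one_sub_pow_le_min (x := (mult B p : ℝ) / B.card) (by positivity) h3 σ
    have h5 : 0 ≤ 1 - (1 - (mult B p : ℝ) / B.card) ^ σ := by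
      have : (1 - (mult B p : ℝ) / B.card) ^ σ ≤ 1 := pow_le_one₀ (by linarith) (by
        have : 0 ≤ (mult B p : ℝ) / B.card := by positivity
        linarith)
      linarith
    refine le_trans (Pr_mono fun ω hω => ?_) (h1.le.trans ?_)
    · obtain ⟨i, j, _, h6, h7⟩ := mem_dbl.1 hω
      exact ⟨⟨i, by simpa using h6⟩, j, by simpa using h7⟩
    · rw [sq]; exact mul_le_mul h4 h4 h5 (h5.trans h4)
  · rw [Pr_false, ind_of_not h2, zero_mul]
    intro ω hω
    obtain ⟨i, j, h5, h6, h7⟩ := mem_dbl.1 hω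
    apply h2
    exact Finset.one_lt_card.2 ⟨_, mem_filter.2 ⟨(ω (i, false)).2, h6⟩, _,
      mem_filter.2 ⟨(ω (j, true)).2, h7⟩, h5⟩

lemma Pr_dbl_ge {σ : ℕ} (B : Finset (Option F × F)) [Nonempty B] (p : F × F) :
    ind (2 ≤ mult B p) * (min 1 (σ * (mult B p / (3 * B.card) : ℝ)) / 2) ^ 2 ≤
      Pr (fun ω : Fin σ × Bool → B => p ∈ dbl fun k => (ω k : Option F × F)) := by
  have hB : (0:ℝ) < B.card := by
    have := Fintype.card_pos (α := B); rw [Fintype.card_coe] at this; exact_mod_cast this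
  by_cases h2 : 2 ≤ mult B p
  swap
  · rw [ind_of_not h2, zero_mul]; exact Pr_nonneg _
  rw [ind_of h2, one_mul]
  obtain ⟨A, hA, hAc⟩ := Finset.exists_subset_card_eq (s := B.filter (On p)) (n := mult B p / 2)
    (Nat.div_le_self _ _)
  set A' := B.filter (On p) \ A with hA'
  have hA'c : A'.card = mult B p - mult B p / 2 := by rw [hA', card_sdiff_of_subset hA, hAc]; rfl
  have hAB : A ⊆ B := hA.trans (filter_subset _ _)
  have hA'B : A' ⊆ B := sdiff_subset.trans (filter_subset _ _)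
  have h1 := Pr_two (σ := σ) (univ.filter fun a : B => (a : Option F × F) ∈ A)
    (univ.filter fun a : B => (a : Option F × F) ∈ A')
  rw [card_sub B _ hAB, card_sub B _ hA'B, Fintype.card_coe] at h1
  have key : ∀ C ⊆ B, mult B p ≤ 3 * C.card →
      min 1 (σ * (mult B p / (3 * B.card) : ℝ)) / 2 ≤ 1 - (1 - (C.card : ℝ) / B.card) ^ σ := by
    intro C hC h3
    refine le_trans ?_ (min_le_one_sub_pow (by positivity) (by
      rw [div_le_one hB]; exact_mod_cast card_le_card hC) σ)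
    have h4 : (mult B p : ℝ) ≤ 3 * C.card := by exact_mod_cast h3
    have h5 : (mult B p / (3 * B.card) : ℝ) ≤ (C.card : ℝ) / B.card := by
      rw [div_le_div_iff₀ (by positivity) hB]; nlinarith
    gcongr
  have h0 : 0 ≤ min 1 (σ * (mult B p / (3 * B.card) : ℝ)) / 2 :=
    div_nonneg (le_min zero_le_one (by positivity)) zero_le_two
  have k1 := key A hAB (by omega)
  have k2 := key A' hA'B (by omega)
  refine le_trans ?_ (le_trans h1.ge (Pr_mono ?_))
  · rw [sq]; exact mul_le_mul k1 k2 h0 (h0.trans k1)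
  · rintro ω ⟨⟨i, hi⟩, j, hj⟩
    simp only [mem_filter, mem_univ, true_and] at hi hj
    refine mem_dbl.2 ⟨i, j, fun e => ?_, (mem_filter.1 (hA hi)).2,
      (mem_filter.1 (mem_sdiff.1 hj).1).2⟩
    exact (mem_sdiff.1 hj).2 (e ▸ hi)

lemma Ex_card_filter {Ω : Type*} [Fintype Ω] (Y : Ω → Finset (F × F)) (P : F × F → Prop)
    [DecidablePred P] :
    Ex (fun ω => (((Y ω).filter P).card : ℝ)) = ∑ p ∈ univ.filter P, Pr (fun ω => p ∈ Y ω) := by
  unfold Pr
  rw [← Ex_sum]
  refine Ex_congr fun ω => ?_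
  rw [← card_filter_eq_sum_ind]
  congr 2; ext p; simp [and_comm]

theorem samp1 (B : Finset (Option F × F)) (hB : B.Nonempty) (σ σ' : ℕ) (hσ' : σ' ≤ σ)
    (hσ'0 : 0 < σ') (hBq : (B.card : ℝ) ≤ 2 * Fintype.card F) (hσq : 36 * (σ : ℝ) ≤ B.card)
    (hσq' : 36 * (σ : ℝ) ≤ Fintype.card F)
    (τ : ℝ) (hτ0 : 0 ≤ τ) (hτ : τ ≤ (univ.filter fun p => 2 ≤ mult B p).card)
    (L : ℝ) (hL : Fintype.card (Option F × F) * (2 * Real.exp (-L)) < 1)
    (hL1 : L ≤ (σ' : ℝ) ^ 3 / (2 * (Fintype.card F : ℝ) ^ 2))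
    (hL2 : L ≤ τ ^ 2 * σ / (50000 * (Fintype.card F : ℝ) ^ 4)) :
    ∃ (S : Fin σ × Bool → Option F × F) (S' : Fin σ' × Bool → Option F × F), (∀ k, S k ∈ B) ∧
      τ * (σ : ℝ) ^ 2 / (72 * (Fintype.card F : ℝ) ^ 2) ≤ (dbl S).card ∧
      ∀ l, l ∉ B → (cnt (dbl S) l : ℝ) ≤ 288 * (σ : ℝ) ^ 2 / Fintype.card F ∨
        2 * (σ' : ℝ) ^ 2 / Fintype.card F ≤ cnt (dbl S') l := by
  have : Nonempty B := hB.to_subtype
  have hq := qpos (F := F)
  have hb : (0:ℝ) < B.card := by exact_mod_cast card_pos.2 hB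
  have hs' : (0:ℝ) < σ' := by exact_mod_cast hσ'0
  have hss : (σ':ℝ) ≤ σ := by exact_mod_cast hσ'
  have hs : (0:ℝ) < σ := by linarith
  have hc1 : (1:ℝ) ≤ Fintype.card (Option F × F) := by exact_mod_cast Fintype.card_pos
  have hτq : τ ≤ (Fintype.card F : ℝ) ^ 2 := by
    refine hτ.trans ?_
    have := card_le_univ (univ.filter fun p => 2 ≤ mult B p)
    rw [Fintype.card_prod] at this
    rw [sq]; exact_mod_cast this
  -- line concentration
  have hline : ∀ (n : ℕ) (l : Option F × F), l ∉ B → ∀ i ∈ (univ : Finset (Fin n × Bool)),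
      ∀ (ω : Fin n × Bool → B) a,
      |(cnt (dbl fun k => (Function.update ω i a k : Option F × F)) l : ℝ) -
        cnt (dbl fun k => (ω k : Option F × F)) l| ≤ 1 := by
    intro n l hl i _ ω a
    have := abs_le_of_succ (fun ω : Fin n × Bool → B => cnt (dbl fun k => (ω k : Option F × F)) l)
      1 i (fun ω ω' h => cnt_dbl_le_succ i (fun j hj => by rw [h j hj]) l
        fun e => hl (e ▸ (ω' i).2)) ω a
    simpa using this
  have hall : ∀ (n : ℕ) (f : (Fin n × Bool → B) → ℝ) (ω ω' : Fin n × Bool → B),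
      (∀ i ∈ (univ : Finset (Fin n × Bool)), ω i = ω' i) → f ω = f ω' := fun n f ω ω' h => by
    rw [show ω = ω' from funext fun i => h i (mem_univ _)]
  have hcard : ∀ n : ℕ, ((univ : Finset (Fin n × Bool)).card : ℝ) ≤ 2 * n := by
    intro n; simp [mul_comm]
  -- first sample
  set t := τ * (σ : ℝ) ^ 2 / (72 * (Fintype.card F : ℝ) ^ 2) with ht
  have hE1 : 2 * t ≤ Ex (fun ω : Fin σ × Bool → B =>
      ((dbl fun k => (ω k : Option F × F)).card : ℝ)) := by
    have h1 := Ex_card_filter (fun ω : Fin σ × Bool → B => dbl fun k => (ω k : Option F × F))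
      (fun _ => True)
    simp only [filter_true] at h1
    rw [h1]
    calc 2 * t = τ * ((σ : ℝ) / (6 * Fintype.card F)) ^ 2 := by rw [ht]; field_simp; ring
      _ ≤ ∑ p, ind (2 ≤ mult B p) * ((σ : ℝ) / (6 * Fintype.card F)) ^ 2 := by
          rw [← Finset.sum_mul, ← card_filter_eq_sum_ind]; gcongr
      _ ≤ _ := by
          refine Finset.sum_le_sum fun p _ => le_trans ?_ (Pr_dbl_ge B p)
          by_cases h2 : 2 ≤ mult B p
          · rw [ind_of h2, one_mul, one_mul]
            have h3 : (2:ℝ) ≤ mult B p := by exact_mod_cast h2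
            refine pow_le_pow_left₀ (by positivity) ?_ 2
            rw [le_div_iff₀ two_pos]
            refine le_min ?_ ?_
            · rw [div_mul_eq_mul_div, div_le_one (by positivity)]; linarith
            · rw [div_mul_eq_mul_div, ← mul_div_assoc, div_le_div_iff₀ (by positivity) (by positivity)]
              have : (B.card : ℝ) * 2 ≤ 2 * Fintype.card F * mult B p := by gcongr
              nlinarith
          · rw [ind_of_not h2, zero_mul, zero_mul]
  have hP1 := mcd_lower (univ : Finset (Fin σ × Bool)) (fun ω : Fin σ × Bool → B =>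
      ((dbl fun k => (ω k : Option F × F)).card : ℝ)) σ t (2 * σ) hs (by positivity) (hcard σ)
      (by positivity) (by
        rw [ht, div_le_iff₀ (by positivity)]
        have : τ * (σ:ℝ) ^ 2 ≤ (Fintype.card F : ℝ) ^ 2 * (σ:ℝ) ^ 2 := by gcongr
        nlinarith [mul_pos (pow_pos hq 2) (pow_pos hs 2)])
      (fun i _ ω a => abs_le_of_succ (fun ω : Fin σ × Bool → B =>
        (dbl fun k => (ω k : Option F × F)).card) σ i
        (fun ω ω' h => dbl_le_add i fun j hj => by rw [h j hj]) ω a) (hall σ _)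
  have hP1' : Real.exp (-(t ^ 2 / (4 * (2 * σ) * (σ:ℝ) ^ 2))) ≤ Real.exp (-L) := by
    refine Real.exp_le_exp.2 (neg_le_neg (hL2.trans ?_))
    have : t ^ 2 / (4 * (2 * σ) * (σ:ℝ) ^ 2) = τ ^ 2 * σ / (41472 * (Fintype.card F : ℝ) ^ 4) := by
      rw [ht]; field_simp; ring
    rw [this]; gcongr; norm_num
  have hP2 : Pr (fun ω : Fin σ × Bool → B => ∃ l ∈ univ.filter (· ∉ B),
      Ex (fun ω : Fin σ × Bool → B => (cnt (dbl fun k => (ω k : Option F × F)) l : ℝ)) +
        144 * (σ : ℝ) ^ 2 / Fintype.card F ≤ cnt (dbl fun k => (ω k : Option F × F)) l) ≤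
      (Fintype.card (Option F × F) - 1) * Real.exp (-L) := by
    refine (Pr_exists_le _ _).trans ?_
    calc _ ≤ ∑ _l ∈ univ.filter (· ∉ B), Real.exp (-L) := by
          refine Finset.sum_le_sum fun l hl => ?_
          refine (mcd_upper univ _ 1 _ (2 * σ) one_pos (by positivity) (hcard σ) (by positivity)
            ?_ (hline σ l (mem_filter.1 hl).2) (hall σ _)).trans ?_
          · rw [div_le_iff₀ hq]; nlinarith
          · refine Real.exp_le_exp.2 (neg_le_neg (hL1.trans ?_))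
            have : (144 * (σ : ℝ) ^ 2 / Fintype.card F) ^ 2 / (4 * (2 * σ) * 1 ^ 2) =
              2592 * (σ:ℝ) ^ 3 / (Fintype.card F : ℝ) ^ 2 := by field_simp; ring
            rw [this, div_le_div_iff₀ (by positivity) (by positivity)]
            have : (σ':ℝ) ^ 3 ≤ (σ:ℝ) ^ 3 := by gcongr
            nlinarith [mul_pos (pow_pos hq 2) (pow_pos hs 3), pow_pos hq 2]
      _ ≤ _ := by
          rw [Finset.sum_const, nsmul_eq_mul]
          gcongr
          obtain ⟨l0, hl0⟩ := hB
          have : (univ.filter (· ∉ B)).card < (univ : Finset (Option F × F)).card :=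
            card_lt_card (filter_ssubset.2 ⟨l0, mem_univ _, by simpa using hl0⟩)
          rw [card_univ] at this
          have : ((univ.filter (· ∉ B)).card : ℝ) + 1 ≤ Fintype.card (Option F × F) := by
            exact_mod_cast this
          linarith
  have hexp := Real.exp_pos (-L)
  obtain ⟨ω, hω⟩ := exists_of_Pr_lt_one (lt_of_le_of_lt (Pr_or_le _ _)
    (lt_of_le_of_lt (add_le_add (hP1.trans hP1') hP2) (by nlinarith)))
  have hP3 : Pr (fun ω : Fin σ' × Bool → B => ∃ l ∈ univ.filter (· ∉ B),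
      (cnt (dbl fun k => (ω k : Option F × F)) l : ℝ) ≤
      Ex (fun ω : Fin σ' × Bool → B => (cnt (dbl fun k => (ω k : Option F × F)) l : ℝ)) -
        2 * (σ' : ℝ) ^ 2 / Fintype.card F) ≤ Fintype.card (Option F × F) * Real.exp (-L) := by
    refine (Pr_exists_le _ _).trans ?_
    calc _ ≤ ∑ _l ∈ univ.filter (· ∉ B), Real.exp (-L) := by
          refine Finset.sum_le_sum fun l hl => ?_
          refine (mcd_lower univ _ 1 _ (2 * σ') one_pos (by positivity) (hcard σ') (by positivity)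
            ?_ (hline σ' l (mem_filter.1 hl).2) (hall σ' _)).trans ?_
          · rw [div_le_iff₀ hq]; nlinarith
          · refine Real.exp_le_exp.2 (neg_le_neg (hL1.trans (le_of_eq ?_)))
            field_simp; ring
      _ ≤ _ := by
          rw [Finset.sum_const, nsmul_eq_mul]
          gcongr
          exact card_le_univ _
  obtain ⟨ω', hω'⟩ := exists_of_Pr_lt_one (lt_of_le_of_lt hP3 (by nlinarith))
  push Not at hω hω'
  refine ⟨fun k => ω k, fun k => ω' k, fun k => (ω k).2, by linarith [hω.1], fun l hl => ?_⟩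
  have h1 := hω.2 l (mem_filter.2 ⟨mem_univ _, hl⟩)
  have h2 := hω' l (mem_filter.2 ⟨mem_univ _, hl⟩)
  by_contra hc
  push Not at hc
  have h3 : ((σ' : ℝ) / (6 * σ)) ^ 2 *
      Ex (fun ω : Fin σ × Bool → B => (cnt (dbl fun k => (ω k : Option F × F)) l : ℝ)) ≤
      Ex (fun ω : Fin σ' × Bool → B => (cnt (dbl fun k => (ω k : Option F × F)) l : ℝ)) := by
    unfold cnt
    rw [Ex_card_filter, Ex_card_filter, Finset.mul_sum]
    refine Finset.sum_le_sum fun p _ => le_trans ?_ (Pr_dbl_ge B p)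
    refine le_trans (mul_le_mul_of_nonneg_left (Pr_dbl_le B p) (by positivity)) ?_
    rw [mul_left_comm, ← mul_pow]
    refine mul_le_mul_of_nonneg_left (pow_le_pow_left₀ (mul_nonneg (by positivity)
      (le_min zero_le_one (by positivity))) ?_ 2) (ind_nonneg _)
    rw [le_div_iff₀ two_pos]
    have h4 : (σ' : ℝ) / (6 * σ) * 2 ≤ 1 := by
      rw [div_mul_eq_mul_div, div_le_one (by positivity)]; linarith
    refine le_min ?_ ?_
    · calc _ ≤ (σ' : ℝ) / (6 * σ) * 1 * 2 := by gcongr; exact min_le_left _ _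
        _ ≤ 1 := by linarith
    · calc _ ≤ (σ' : ℝ) / (6 * σ) * (σ * (mult B p / B.card : ℝ)) * 2 := by
            gcongr; exact min_le_right _ _
        _ = _ := by field_simp; ring
  have h4 : 144 * (σ : ℝ) ^ 2 / Fintype.card F ≤
      Ex (fun ω : Fin σ × Bool → B => (cnt (dbl fun k => (ω k : Option F × F)) l : ℝ)) := by
    have : 288 * (σ : ℝ) ^ 2 / Fintype.card F = 2 * (144 * (σ : ℝ) ^ 2 / Fintype.card F) := by ring
    linarith [hc.1]
  have h5 : ((σ' : ℝ) / (6 * σ)) ^ 2 * (144 * (σ : ℝ) ^ 2 / Fintype.card F) =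
      2 * (2 * (σ' : ℝ) ^ 2 / Fintype.card F) := by field_simp; ring
  have h6 := mul_le_mul_of_nonneg_left h4 (show 0 ≤ ((σ' : ℝ) / (6 * σ)) ^ 2 by positivity)
  linarith [hc.2]

end Crest.Agent.H8.Ry
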