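import Crest.Agent.H8.SnDb

set_option autoImplicit false

namespace Crest.Agent.H8.Sn

theorem c00000 : chkT db t00000 = true := by decide +kernel

theorem c00001 : chkT db t00001 = true := by decide +kernel

theorem c00010 : chkT db t00010 = true := by decide +kernel

theorem c00011 : chkT db t00011 = true := by decide +kernel

theorem c00100 : chkT db t00100 = true := by decide +kernel

theorem c00101 : chkT db t00101 = true := by decide +kernel

theorem c00110 : chkT db t00110 = true := by decide +kernel

theorem c00111 : chkT db t00111 = true := by decide +kernel

theorem v00 : Valid db t00 :=
  (valid_node (valid_node (valid_node (valid_of_chkT c00000) (valid_of_chkT c00001)) (valid_node (valid_of_chkT c00010) (valid_of_chkT c00011))) (valid_node (valid_node (valid_of_chkT c00100) (valid_of_chkT c00101)) (valid_node (valid_of_chkT c00110) (valid_of_chkT c00111))))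

end Crest.Agent.H8.Sn
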