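import Crest.Agent.H8.SnDb

set_option autoImplicit false

namespace Crest.Agent.H8.Sn

theorem c01000 : chkT db t01000 = true := by decide +kernel

theorem c01001 : chkT db t01001 = true := by decide +kernel

theorem c01010 : chkT db t01010 = true := by decide +kernel

theorem c01011 : chkT db t01011 = true := by decide +kernel

theorem c01100 : chkT db t01100 = true := by decide +kernel

theorem c01101 : chkT db t01101 = true := by decide +kernel

theorem c01110 : chkT db t01110 = true := by decide +kernel

theorem c01111 : chkT db t01111 = true := by decide +kernel

theorem v01 : Valid db t01 :=
  (valid_node (valid_node (valid_node (valid_of_chkT c01000) (valid_of_chkT c01001)) (valid_node (valid_of_chkT c01010) (valid_of_chkT c01011))) (valid_node (valid_node (valid_of_chkT c01100) (valid_of_chkT c01101)) (valid_node (valid_of_chkT c01110) (valid_of_chkT c01111))))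

end Crest.Agent.H8.Sn
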