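import Crest.Agent.H8.SnDb

set_option autoImplicit false

namespace Crest.Agent.H8.Sn

theorem c10000 : chkT db t10000 = true := by decide +kernel

theorem c10001 : chkT db t10001 = true := by decide +kernel

theorem c10010 : chkT db t10010 = true := by decide +kernel

theorem c10011 : chkT db t10011 = true := by decide +kernel

theorem c10100 : chkT db t10100 = true := by decide +kernel

theorem c10101 : chkT db t10101 = true := by decide +kernel

theorem c10110 : chkT db t10110 = true := by decide +kernel

theorem c10111 : chkT db t10111 = true := by decide +kernel

theorem v10 : Valid db t10 :=
  (valid_node (valid_node (valid_node (valid_of_chkT c10000) (valid_of_chkT c10001)) (valid_node (valid_of_chkT c10010) (valid_of_chkT c10011))) (valid_node (valid_node (valid_of_chkT c10100) (valid_of_chkT c10101)) (valid_node (valid_of_chkT c10110) (valid_of_chkT c10111))))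

end Crest.Agent.H8.Sn
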