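import Crest.Agent.H8.SnDb

set_option autoImplicit false

namespace Crest.Agent.H8.Sn

theorem c11000 : chkT db t11000 = true := by decide +kernel

theorem c11001 : chkT db t11001 = true := by decide +kernel

theorem c11010 : chkT db t11010 = true := by decide +kernel

theorem c11011 : chkT db t11011 = true := by decide +kernel

theorem c11100 : chkT db t11100 = true := by decide +kernel

theorem c11101 : chkT db t11101 = true := by decide +kernel

theorem c11110 : chkT db t11110 = true := by decide +kernel

theorem c11111 : chkT db t11111 = true := by decide +kernel

theorem v11 : Valid db t11 :=
  (valid_node (valid_node (valid_node (valid_of_chkT c11000) (valid_of_chkT c11001)) (valid_node (valid_of_chkT c11010) (valid_of_chkT c11011))) (valid_node (valid_node (valid_of_chkT c11100) (valid_of_chkT c11101)) (valid_node (valid_of_chkT c11110) (valid_of_chkT c11111))))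

end Crest.Agent.H8.Sn
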