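import Crest.Agent.H8.SnD00
import Crest.Agent.H8.SnD01
import Crest.Agent.H8.SnD10
import Crest.Agent.H8.SnD11

set_option autoImplicit false

namespace Crest.Agent.H8.Sn

def db : T := .node (.node t00 t01) (.node t10 t11)

end Crest.Agent.H8.Sn
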