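import Crest.Prelude.Def_PolyominoGame

set_option autoImplicit false

namespace Crest.Agent.H8.Sn
open Crest.CombinatoricsR.PolyominoGame

abbrev Cell := ℤ × ℤ

/-- Maker (to move) can force a copy within `d` more claims. -/
def Win : ℕ → Set Cell → Set Cell → Prop
  | 0, M, _ => ContainsCopy M
  | d + 1, M, B => ∃ m, m ∉ M ∧ m ∉ B ∧ ∀ b, b ∉ insert m M → b ∉ B → Win d (insert m M) (insert b B)

theorem copy_mono {X Y : Set Cell} (h : X ⊆ Y) (hX : ContainsCopy X) : ContainsCopy Y := by
  obtain ⟨t, e1, e2, h1, h2, h3⟩ := hX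
  refine ⟨t, e1, e2, h1, h2, ?_⟩
  rcases h3 with h3 | h3
  · exact Or.inl fun p hp => h (h3 p hp)
  · exact Or.inr fun p hp => h (h3 p hp)

theorem exists_free {M B : Set Cell} (hM : M.Finite) (hB : B.Finite) : ∃ m, m ∉ M ∧ m ∉ B := by
  obtain ⟨m, hm⟩ := (hM.union hB).exists_notMem
  exact ⟨m, fun h => hm (Or.inl h), fun h => hm (Or.inr h)⟩

theorem win_succ : ∀ (d : ℕ) (M B : Set Cell), M.Finite → B.Finite → Win d M B → Win (d + 1) M B
  | 0, M, B, hM, hB, h => by
    obtain ⟨m, h1, h2⟩ := exists_free hM hB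
    exact ⟨m, h1, h2, fun b _ _ => copy_mono (Set.subset_insert _ _) h⟩
  | d + 1, M, B, hM, hB, h => by
    obtain ⟨m, h1, h2, h3⟩ := h
    exact ⟨m, h1, h2, fun b hb hb' =>
      win_succ d _ _ (hM.insert m) (hB.insert b) (h3 b hb hb')⟩

theorem win_mono {d e : ℕ} (hde : d ≤ e) {M B : Set Cell} (hM : M.Finite) (hB : B.Finite)
    (h : Win d M B) : Win e M B := by
  induction hde with
  | refl => exact h
  | step _ ih => exact win_succ _ _ _ hM hB ih

/-- A symmetry of the game. -/
def Good (e : Cell ≃ Cell) : Prop := ∀ X : Set Cell, ContainsCopy (e ⁻¹' X) → ContainsCopy X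

theorem pre_insert (e : Cell ≃ Cell) (m : Cell) (M : Set Cell) :
    e ⁻¹' (insert (e m) M) = insert m (e ⁻¹' M) := by
  ext p; simp

theorem win_map {e : Cell ≃ Cell} (he : Good e) :
    ∀ (d : ℕ) (M B : Set Cell), Win d (e ⁻¹' M) (e ⁻¹' B) → Win d M B
  | 0, M, _, h => he M h
  | d + 1, M, B, h => by
    obtain ⟨m, h1, h2, h3⟩ := h
    refine ⟨e m, h1, h2, fun b hb hb' => win_map he d _ _ ?_⟩
    obtain ⟨b, rfl⟩ := e.surjective b
    rw [pre_insert, pre_insert]
    refine h3 b ?_ hb'
    rw [← pre_insert]; exact hb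

/-- A situation: whenever Maker owns `C` and Breaker has nothing in `N`, Maker wins in `d`. -/
def Sit (C N : Set Cell) (d : ℕ) : Prop :=
  ∀ M B : Set Cell, M.Finite → B.Finite → C ⊆ M → (∀ p ∈ N, p ∉ B) → Win d M B

theorem sit_map {e : Cell ≃ Cell} (he : Good e) {C N C' N' : Set Cell} {d : ℕ}
    (hC : ∀ p ∈ C, e p ∈ C') (hN : ∀ p ∈ N, e p ∈ N') (h : Sit C N d) : Sit C' N' d := by
  intro M B hM hB h1 h2
  refine win_map he d M B (h _ _ (hM.preimage e.injective.injOn) (hB.preimage e.injective.injOn)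
    (fun p hp => h1 (hC p hp)) (fun p hp => h2 _ (hN p hp)))

theorem sit_mono {C N : Set Cell} {d e : ℕ} (hde : d ≤ e) (h : Sit C N d) : Sit C N e :=
  fun M B hM hB h1 h2 => win_mono hde hM hB (h M B hM hB h1 h2)

theorem sit_step {C N : Set Cell} {d : ℕ} {m : Cell} (hm : m ∈ N)
    (h : ∀ b, ∃ C' N', Sit C' N' d ∧ C' ⊆ insert m C ∧ N' ⊆ N ∧ b ∉ N') : Sit C N (d + 1) := by
  intro M B hM hB h1 h2
  have key : ∃ m', m' ∉ M ∧ m' ∉ B ∧ m ∈ insert m' M := by
    by_cases hmM : m ∈ M
    · obtain ⟨m', h3, h4⟩ := exists_free hM hB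
      exact ⟨m', h3, h4, Or.inr hmM⟩
    · exact ⟨m, hmM, h2 m hm, Or.inl rfl⟩
  obtain ⟨m', h3, h4, h5⟩ := key
  refine ⟨m', h3, h4, fun b _ _ => ?_⟩
  obtain ⟨C', N', hs, hC, hN, hb⟩ := h b
  refine hs _ _ (hM.insert _) (hB.insert _) (fun p hp => ?_) (fun p hp hq => ?_)
  · rcases hC hp with rfl | hp
    · exact h5
    · exact Or.inr (h1 hp)
  · rcases hq with rfl | hq
    · exact hb hp
    · exact h2 p (hN hp) hq

/-! ### the three kinds of symmetries -/

def eTr (u v : ℤ) : Cell ≃ Cell where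
  toFun p := (p.1 + u, p.2 + v)
  invFun p := (p.1 - u, p.2 - v)
  left_inv p := by simp
  right_inv p := by simp

def eFx : Cell ≃ Cell where
  toFun p := (31 - p.1, p.2)
  invFun p := (31 - p.1, p.2)
  left_inv p := by simp
  right_inv p := by simp

def eFy : Cell ≃ Cell where
  toFun p := (p.1, 31 - p.2)
  invFun p := (p.1, 31 - p.2)
  left_inv p := by simp
  right_inv p := by simp

def eSw : Cell ≃ Cell := Equiv.prodComm ℤ ℤ

theorem good_tr (u v : ℤ) : Good (eTr u v) := by
  rintro X ⟨t, e1, e2, h1, h2, h3⟩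
  refine ⟨(t.1 + u, t.2 + v), e1, e2, h1, h2, ?_⟩
  rcases h3 with h3 | h3
  · refine Or.inl fun p hp => ?_
    have := h3 p hp
    simp only [eTr, Set.mem_preimage, Equiv.coe_fn_mk] at this
    convert this using 2 <;> ring
  · refine Or.inr fun p hp => ?_
    have := h3 p hp
    simp only [eTr, Set.mem_preimage, Equiv.coe_fn_mk] at this
    convert this using 2 <;> ring

theorem good_fx : Good eFx := by
  rintro X ⟨t, e1, e2, h1, h2, h3⟩
  refine ⟨(31 - t.1, t.2), -e1, e2, by omega, h2, ?_⟩
  rcases h3 with h3 | h3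
  · refine Or.inl fun p hp => ?_
    have := h3 p hp
    simp only [eFx, Set.mem_preimage, Equiv.coe_fn_mk] at this
    convert this using 2; ring
  · refine Or.inr fun p hp => ?_
    have := h3 p hp
    simp only [eFx, Set.mem_preimage, Equiv.coe_fn_mk] at this
    convert this using 2; ring

theorem good_fy : Good eFy := by
  rintro X ⟨t, e1, e2, h1, h2, h3⟩
  refine ⟨(t.1, 31 - t.2), e1, -e2, h1, by omega, ?_⟩
  rcases h3 with h3 | h3
  · refine Or.inl fun p hp => ?_
    have := h3 p hp
    simp only [eFy, Set.mem_preimage, Equiv.coe_fn_mk] at this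
    convert this using 2; ring
  · refine Or.inr fun p hp => ?_
    have := h3 p hp
    simp only [eFy, Set.mem_preimage, Equiv.coe_fn_mk] at this
    convert this using 2; ring

theorem good_sw : Good eSw := by
  rintro X ⟨t, e1, e2, h1, h2, h3⟩
  refine ⟨(t.2, t.1), e2, e1, h2, h1, ?_⟩
  rcases h3 with h3 | h3
  · exact Or.inr fun p hp => h3 p hp
  · exact Or.inl fun p hp => h3 p hp

/-! ### from `Win` to a policy -/

open Classical in
noncomputable def mv (d : ℕ) (M B : Set Cell) : Cell :=
  if h : Win (d + 1) M B then Classical.choose h else (0, 0)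

theorem mv_spec {d : ℕ} {M B : Set Cell} (h : Win (d + 1) M B) :
    mv d M B ∉ M ∧ mv d M B ∉ B ∧
      ∀ b, b ∉ insert (mv d M B) M → b ∉ B → Win d (insert (mv d M B) M) (insert b B) := by
  have : mv d M B = Classical.choose h := by simp [mv, h]
  rw [this]; exact Classical.choose_spec h

noncomputable def stp (s : ℕ × Set Cell × Set Cell) (b : Cell) : ℕ × Set Cell × Set Cell :=
  (s.1 - 1, insert (mv s.1 s.2.1 s.2.2) s.2.1, insert b s.2.2)

noncomputable def st (l : List Cell) : ℕ × Set Cell × Set Cell := l.foldl stp (20, ∅, ∅)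

noncomputable def pol (l : List Cell) : Cell := mv (st l).1 (st l).2.1 (st l).2.2

theorem final (h : Win 21 ∅ ∅) :
    ∃ σ : List (ℤ × ℤ) → ℤ × ℤ, ∀ b : ℕ → ℤ × ℤ,
      (∀ k : ℕ, k < 20 →
        (∀ j : ℕ, j ≤ k → b k ≠ makerClaim σ b j) ∧
        (∀ j : ℕ, j < k → b k ≠ b j)) →
      (∀ k : ℕ, k ≤ 20 →
        (∀ j : ℕ, j < k → makerClaim σ b k ≠ makerClaim σ b j) ∧
        (∀ j : ℕ, j < k → makerClaim σ b k ≠ b j)) ∧
      ContainsCopy {c | ∃ j : ℕ, j ≤ 20 ∧ c = makerClaim σ b j} := by
  refine ⟨pol, fun b hb => ?_⟩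
  have hst : ∀ k, st ((List.range (k + 1)).map b) = stp (st ((List.range k).map b)) (b k) := by
    intro k; simp [st, List.range_succ, List.foldl_append]
  have hshape : ∀ k, st ((List.range k).map b) =
      (20 - k, {c | ∃ j, j < k ∧ c = makerClaim pol b j}, {c | ∃ j, j < k ∧ c = b j}) := by
    intro k
    induction k with
    | zero => simp [st]
    | succ k ih =>
      rw [hst]
      have hm : makerClaim pol b k = mv (st ((List.range k).map b)).1
          (st ((List.range k).map b)).2.1 (st ((List.range k).map b)).2.2 := rfl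
      unfold stp
      rw [← hm, ih]
      refine Prod.ext (by simp; omega) (Prod.ext ?_ ?_)
      · ext c
        simp only [Set.mem_insert_iff, Set.mem_setOf_eq]
        constructor
        · rintro (rfl | ⟨j, hj, rfl⟩)
          · exact ⟨k, by omega, rfl⟩
          · exact ⟨j, by omega, rfl⟩
        · rintro ⟨j, hj, rfl⟩
          by_cases hjk : j = k
          · left; rw [hjk]
          · right; exact ⟨j, by omega, rfl⟩
      · ext c
        simp only [Set.mem_insert_iff, Set.mem_setOf_eq]
        constructor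
        · rintro (rfl | ⟨j, hj, rfl⟩)
          · exact ⟨k, by omega, rfl⟩
          · exact ⟨j, by omega, rfl⟩
        · rintro ⟨j, hj, rfl⟩
          by_cases hjk : j = k
          · left; rw [hjk]
          · right; exact ⟨j, by omega, rfl⟩
  set MM : ℕ → Set Cell := fun k => {c | ∃ j, j < k ∧ c = makerClaim pol b j} with hMM
  set BB : ℕ → Set Cell := fun k => {c | ∃ j, j < k ∧ c = b j} with hBB
  have hcl : ∀ k, makerClaim pol b k = mv (20 - k) (MM k) (BB k) := by
    intro k
    show pol _ = _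
    unfold pol; rw [hshape k]
  have hM : ∀ k, MM (k + 1) = insert (makerClaim pol b k) (MM k) := by
    intro k
    have h1 := hst k
    rw [hshape, hshape] at h1
    have := congrArg (fun s => s.2.1) h1
    simp only [stp] at this
    rw [hcl]; exact this
  have hB : ∀ k, BB (k + 1) = insert (b k) (BB k) := by
    intro k
    have h1 := hst k
    rw [hshape, hshape] at h1
    exact congrArg (fun s => s.2.2) h1
  have hw : ∀ k, k ≤ 20 → Win (20 - k + 1) (MM k) (BB k) := by
    intro k
    induction k with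
    | zero =>
      intro _
      have e1 : MM 0 = ∅ := by ext c; simp [hMM]
      have e2 : BB 0 = ∅ := by ext c; simp [hBB]
      rw [e1, e2]; exact h
    | succ k ih =>
      intro hk
      have h1 := mv_spec (ih (by omega))
      rw [← hcl, ← hM] at h1
      have h2 := h1.2.2 (b k) (by
        rintro ⟨j, hj, hj'⟩
        exact (hb k (by omega)).1 j (by omega) hj') (by
        rintro ⟨j, hj, hj'⟩
        exact (hb k (by omega)).2 j hj hj')
      rw [← hB] at h2
      have e : 20 - k = 20 - (k + 1) + 1 := by omega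
      rw [← e]; exact h2
  refine ⟨fun k hk => ?_, ?_⟩
  · have h1 := mv_spec (hw k hk)
    rw [← hcl] at h1
    exact ⟨fun j hj e => h1.1 ⟨j, hj, e⟩, fun j hj e => h1.2.1 ⟨j, hj, e⟩⟩
  · have h1 := mv_spec (hw 20 le_rfl)
    rw [← hcl, ← hM] at h1
    have fM : ∀ k, (MM k).Finite := by
      intro k
      induction k with
      | zero => have e1 : MM 0 = ∅ := by ext c; simp [hMM]
                rw [e1]; exact Set.finite_empty
      | succ k ih => rw [hM]; exact ih.insert _
    have fB : ∀ k, (BB k).Finite := by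
      intro k
      induction k with
      | zero => have e1 : BB 0 = ∅ := by ext c; simp [hBB]
                rw [e1]; exact Set.finite_empty
      | succ k ih => rw [hB]; exact ih.insert _
    obtain ⟨z, hz1, hz2⟩ := exists_free (fM 21) (fB 20)
    have h2 := h1.2.2 z hz1 hz2
    refine copy_mono ?_ h2
    rintro c ⟨j, hj, rfl⟩
    exact ⟨j, by omega, rfl⟩

end Crest.Agent.H8.Sn
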