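import Crest.Agent.H8.SnC00
import Crest.Agent.H8.SnC01
import Crest.Agent.H8.SnC10
import Crest.Agent.H8.SnC11

set_option autoImplicit false

namespace Crest.Agent.H8.Sn

theorem vdb : Valid db db := valid_node (valid_node v00 v01) (valid_node v10 v11)

theorem win21 : Win 21 ∅ ∅ :=
  win_of_root vdb 14189 (by decide +kernel) (by decide +kernel)

end Crest.Agent.H8.Sn
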