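import Mathlib
import Crest.Prelude.Def_SymmetricAlgebra
import Crest.Agent.H4.FDHom

/-! Row 186: the trivial extension `T(L) = L ⋉ D L` and the functor `N ↦ T(L) ⊗ N`. -/

set_option autoImplicit false
set_option linter.unusedVariables false

namespace Crest.Agent.H8.TL
open Crest.Agent.H4.FD

variable (k L : Type) [Field k] [Ring L] [Algebra k L]

/-- the trivial extension algebra -/
def TA : Type := L × Module.Dual k L

variable {k L}

instance : AddCommGroup (TA k L) := inferInstanceAs (AddCommGroup (L × Module.Dual k L))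
instance : Module k (TA k L) := inferInstanceAs (Module k (L × Module.Dual k L))

instance : Mul (TA k L) :=
  ⟨fun x y => (x.1 * y.1, y.2 ∘ₗ LinearMap.mulRight k x.1 + x.2 ∘ₗ LinearMap.mulLeft k y.1)⟩
instance : One (TA k L) := ⟨((1 : L), (0 : Module.Dual k L))⟩

def TA.mk (a : L) (φ : Module.Dual k L) : TA k L := (a, φ)

@[simp] lemma mk_fst (a : L) (φ : Module.Dual k L) : (TA.mk a φ).1 = a := rfl
@[simp] lemma mk_snd (a : L) (φ : Module.Dual k L) : (TA.mk a φ).2 = φ := rfl
@[simp] lemma mul_fst (x y : TA k L) : (x * y).1 = x.1 * y.1 := rfl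
@[simp] lemma mul_snd (x y : TA k L) (c : L) : (x * y).2 c = y.2 (c * x.1) + x.2 (y.1 * c) := rfl
@[simp] lemma one_fst : (1 : TA k L).1 = 1 := rfl
@[simp] lemma one_snd : (1 : TA k L).2 = 0 := rfl
@[simp] lemma add_fst (x y : TA k L) : (x + y).1 = x.1 + y.1 := rfl
@[simp] lemma add_snd (x y : TA k L) : (x + y).2 = x.2 + y.2 := rfl
@[simp] lemma zero_fst : (0 : TA k L).1 = 0 := rfl
@[simp] lemma zero_snd : (0 : TA k L).2 = 0 := rfl
@[simp] lemma smul_fst (t : k) (x : TA k L) : (t • x).1 = t • x.1 := rfl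
@[simp] lemma smul_snd (t : k) (x : TA k L) : (t • x).2 = t • x.2 := rfl

lemma TA.ext' {x y : TA k L} (h1 : x.1 = y.1) (h2 : ∀ c, x.2 c = y.2 c) : x = y :=
  Prod.ext h1 (LinearMap.ext h2)

instance : Ring (TA k L) :=
  { (inferInstance : AddCommGroup (TA k L)), (inferInstance : Mul (TA k L)),
    (inferInstance : One (TA k L)) with
    left_distrib := fun x y z => TA.ext' (by simp [mul_add]) (fun c => by
      simp [add_mul]; abel)
    right_distrib := fun x y z => TA.ext' (by simp [add_mul]) (fun c => by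
      simp [mul_add]; abel)
    zero_mul := fun x => TA.ext' (by simp) (fun c => by simp)
    mul_zero := fun x => TA.ext' (by simp) (fun c => by simp)
    mul_assoc := fun x y z => TA.ext' (by simp [mul_assoc]) (fun c => by
      simp [mul_assoc, add_assoc])
    one_mul := fun x => TA.ext' (by simp) (fun c => by simp)
    mul_one := fun x => TA.ext' (by simp) (fun c => by simp) }

instance : Algebra k (TA k L) :=
  Algebra.ofModule (fun t x y => TA.ext' (by simp) (fun c => by simp [mul_add]))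
    (fun t x y => TA.ext' (by simp) (fun c => by simp [mul_add]))

instance [FiniteDimensional k L] : FiniteDimensional k (TA k L) :=
  inferInstanceAs (FiniteDimensional k (L × Module.Dual k L))

/-- the projection `T(L) → L` -/
def fstA : TA k L →ₐ[k] L where
  toFun x := x.1
  map_one' := rfl
  map_mul' _ _ := rfl
  map_zero' := rfl
  map_add' _ _ := rfl
  commutes' t := by
    rw [Algebra.algebraMap_eq_smul_one, Algebra.algebraMap_eq_smul_one]; rfl

@[simp] lemma fstA_apply (x : TA k L) : fstA x = x.1 := rfl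

lemma fstA_surj : Function.Surjective (fstA : TA k L → L) := fun a => ⟨TA.mk a 0, rfl⟩

theorem symm [FiniteDimensional k L] : Crest.AlgebraR.IsSymmetricAlgebra k (TA k L) := by
  let b : TA k L →ₗ[k] Module.Dual k (TA k L) :=
    LinearMap.mk₂ k (fun x y : TA k L => y.2 x.1 + x.2 y.1)
      (fun x x' y => by simp; abel) (fun t x y => by simp [mul_add])
      (fun x y y' => by simp; abel) (fun t x y => by simp [mul_add])
  have hb : ∀ x y, b x y = y.2 x.1 + x.2 y.1 := fun _ _ => rfl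
  have inj : Function.Injective b := by
    rw [injective_iff_map_eq_zero]
    intro x hx
    refine TA.ext' ?_ fun c => ?_
    · refine (Module.forall_dual_apply_eq_zero_iff k x.1).1 fun ψ => ?_
      have := hb x (TA.mk 0 ψ)
      rw [hx] at this
      simpa using this.symm
    · have := hb x (TA.mk c 0)
      rw [hx] at this
      simpa using this.symm
  have surj : Function.Surjective b :=
    (LinearMap.injective_iff_surjective_of_finrank_eq_finrank
      (Subspace.dual_finrank_eq).symm).1 inj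
  refine ⟨LinearEquiv.ofBijective b ⟨inj, surj⟩, fun a x c y => ?_⟩
  simp only [LinearEquiv.ofBijective_apply, hb, mul_fst, mul_snd, mul_assoc]
  abel

section F
variable {N N' N'' : Type} [AddCommGroup N] [Module L N] [AddCommGroup N'] [Module L N']
  [AddCommGroup N''] [Module L N'']

/-- right multiplication on `N^* = Hom(N, L)` -/
def rm (f : N →ₗ[L] L) (a : L) : N →ₗ[L] L := LinearMap.toSpanSingleton L L a ∘ₗ f

@[simp] lemma rm_apply (f : N →ₗ[L] L) (a : L) (n : N) : rm f a n = f n * a := rfl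

variable (k) in
def rmk (a : L) : (N →ₗ[L] L) →ₗ[k] (N →ₗ[L] L) where
  toFun f := rm f a
  map_add' f g := by ext n; simp [add_mul]
  map_smul' t f := by ext n; simp

variable (k) in
def rmk' (f : N →ₗ[L] L) : L →ₗ[k] (N →ₗ[L] L) where
  toFun a := rm f a
  map_add' a b := by ext n; simp [mul_add]
  map_smul' t a := by ext n; simp

variable (k) in
def evk (n : N) : (N →ₗ[L] L) →ₗ[k] L where
  toFun f := f n
  map_add' f g := rfl
  map_smul' t f := rfl

variable (k) in
def pre (g : N →ₗ[L] N') : (N' →ₗ[L] L) →ₗ[k] (N →ₗ[L] L) where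
  toFun f := f ∘ₗ g
  map_add' f f' := rfl
  map_smul' t f := rfl

lemma rm_rm (f : N →ₗ[L] L) (a b : L) : rm (rm f a) b = rm f (a * b) := by
  ext n; simp [mul_assoc]
lemma rm_one (f : N →ₗ[L] L) : rm f 1 = f := by ext n; simp
lemma rm_add (f : N →ₗ[L] L) (a b : L) : rm f (a + b) = rm f a + rm f b := by
  ext n; simp [mul_add]
lemma rm_zero (f : N →ₗ[L] L) : rm f 0 = 0 := by ext n; simp
lemma rm_comp (f : N' →ₗ[L] L) (a : L) (g : N →ₗ[L] N') : rm f a ∘ₗ g = rm (f ∘ₗ g) a := rfl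

variable (k L N) in
/-- `D(N^*)` -/
def DD : Type := Module.Dual k (N →ₗ[L] L)

instance : AddCommGroup (DD k L N) := inferInstanceAs (AddCommGroup (Module.Dual k (N →ₗ[L] L)))

def DD.d (ψ : DD k L N) : Module.Dual k (N →ₗ[L] L) := ψ
def DD.mk (ψ : Module.Dual k (N →ₗ[L] L)) : DD k L N := ψ

@[simp] lemma d_mk (ψ : Module.Dual k (N →ₗ[L] L)) : (DD.mk ψ).d = ψ := rfl
@[simp] lemma d_add (ψ χ : DD k L N) : (ψ + χ).d = ψ.d + χ.d := rfl
@[simp] lemma d_zero : (0 : DD k L N).d = 0 := rfl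
lemma DD.ext' {ψ χ : DD k L N} (h : ∀ f, ψ.d f = χ.d f) : ψ = χ := LinearMap.ext h

instance : SMul L (DD k L N) := ⟨fun a ψ => DD.mk (ψ.d ∘ₗ rmk k a)⟩

@[simp] lemma d_smul (a : L) (ψ : DD k L N) (f : N →ₗ[L] L) : (a • ψ).d f = ψ.d (rm f a) := rfl

instance : Module L (DD k L N) where
  one_smul ψ := DD.ext' fun f => by simp [rm_one]
  mul_smul a b ψ := DD.ext' fun f => by simp [rm_rm]
  smul_zero a := DD.ext' fun f => by simp
  smul_add a ψ χ := DD.ext' fun f => by simp
  add_smul a b ψ := DD.ext' fun f => by simp [rm_add]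
  zero_smul ψ := DD.ext' fun f => by simp [rm_zero]

lemma d_sum {ι : Type} (s : Finset ι) (ψ : ι → DD k L N) (f : N →ₗ[L] L) :
    (∑ j ∈ s, ψ j).d f = ∑ j ∈ s, (ψ j).d f := by
  classical
  induction s using Finset.induction_on with
  | empty => simp
  | insert a s ha ih => simp [Finset.sum_insert ha, ih]

variable (k L N) in
/-- `T(L) ⊗ N = N ⊕ D(N^*)` -/
def F : Type := N × DD k L N

instance : AddCommGroup (F k L N) := inferInstanceAs (AddCommGroup (N × DD k L N))

def F.mk (n : N) (ψ : DD k L N) : F k L N := (n, ψ)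

@[simp] lemma Fmk_fst (n : N) (ψ : DD k L N) : (F.mk n ψ).1 = n := rfl
@[simp] lemma Fmk_snd (n : N) (ψ : DD k L N) : (F.mk n ψ).2 = ψ := rfl
@[simp] lemma Fadd_fst (x y : F k L N) : (x + y).1 = x.1 + y.1 := rfl
@[simp] lemma Fadd_snd (x y : F k L N) : (x + y).2 = x.2 + y.2 := rfl
@[simp] lemma Fzero_fst : (0 : F k L N).1 = 0 := rfl
@[simp] lemma Fzero_snd : (0 : F k L N).2 = 0 := rfl

lemma F.ext' {x y : F k L N} (h1 : x.1 = y.1) (h2 : ∀ f, x.2.d f = y.2.d f) : x = y :=
  Prod.ext h1 (DD.ext' h2)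

instance : SMul (TA k L) (F k L N) :=
  ⟨fun a x => F.mk (a.1 • x.1) (a.1 • x.2 + DD.mk (a.2 ∘ₗ evk k x.1))⟩

@[simp] lemma Fsmul_fst (a : TA k L) (x : F k L N) : (a • x).1 = a.1 • x.1 := rfl
@[simp] lemma Fsmul_snd (a : TA k L) (x : F k L N) (f : N →ₗ[L] L) :
    (a • x).2.d f = x.2.d (rm f a.1) + a.2 (f x.1) := rfl

instance : Module (TA k L) (F k L N) where
  one_smul x := F.ext' (by simp) fun f => by simp [rm_one]
  mul_smul a b x := F.ext' (by simp [mul_smul]) fun f => by simp [rm_rm, add_assoc]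
  smul_zero a := F.ext' (by simp) fun f => by simp
  smul_add a x y := F.ext' (by simp) fun f => by simp; abel
  add_smul a b x := F.ext' (by simp [add_smul]) fun f => by simp [rm_add]; abel
  zero_smul x := F.ext' (by simp) fun f => by simp [rm_zero]

lemma Fsum_fst {ι : Type} (s : Finset ι) (x : ι → F k L N) :
    (∑ j ∈ s, x j).1 = ∑ j ∈ s, (x j).1 := Prod.fst_sum
lemma Fsum_snd {ι : Type} (s : Finset ι) (x : ι → F k L N) :
    (∑ j ∈ s, x j).2 = ∑ j ∈ s, (x j).2 := Prod.snd_sum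

/-- the `T(L)`-linear map given by an `L`-linear map `N → N' ⊕ D(N'^*)` -/
def lift (g : N →ₗ[L] N') (g' : N →ₗ[L] DD k L N') : F k L N →ₗ[TA k L] F k L N' where
  toFun x := F.mk (g x.1) (g' x.1 + DD.mk (x.2.d ∘ₗ pre k g))
  map_add' x y := F.ext' (by simp) fun f => by simp; abel
  map_smul' a x := F.ext' (by simp) fun f => by
    simp only [Fmk_snd, d_add, d_mk, LinearMap.add_apply, LinearMap.comp_apply, RingHom.id_apply,
      Fsmul_snd, Fsmul_fst, map_smul, d_smul, Fmk_fst]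
    change _ + (x.2.d (rm (f ∘ₗ g) a.1) + a.2 (f (g x.1))) =
      _ + x.2.d (rm (f ∘ₗ g) a.1) + a.2 (f (g x.1))
    abel

@[simp] lemma lift_fst (g : N →ₗ[L] N') (g' : N →ₗ[L] DD k L N') (x : F k L N) :
    (lift g g' x).1 = g x.1 := rfl
@[simp] lemma lift_snd (g : N →ₗ[L] N') (g' : N →ₗ[L] DD k L N') (x : F k L N)
    (f : N' →ₗ[L] L) : (lift g g' x).2.d f = (g' x.1).d f + x.2.d (f ∘ₗ g) := rfl

variable (k) in
/-- the functor on maps -/
def Fm (g : N →ₗ[L] N') : F k L N →ₗ[TA k L] F k L N' := lift g 0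

@[simp] lemma Fm_fst (g : N →ₗ[L] N') (x : F k L N) : (Fm k g x).1 = g x.1 := rfl
@[simp] lemma Fm_snd (g : N →ₗ[L] N') (x : F k L N) (f : N' →ₗ[L] L) :
    (Fm k g x).2.d f = x.2.d (f ∘ₗ g) := by simp [Fm]

lemma Fm_surj (p : N →ₗ[L] N') (hp : Function.Surjective p) : Function.Surjective (Fm k p) := by
  intro y
  obtain ⟨n, hn⟩ := hp y.1
  have : Function.Injective (pre k p) := fun f f' h => LinearMap.ext fun z => by
    obtain ⟨m, rfl⟩ := hp z
    exact LinearMap.congr_fun h m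
  obtain ⟨ψ, hψ⟩ := LinearMap.dualMap_surjective_of_injective this y.2.d
  exact ⟨F.mk n (DD.mk ψ), F.ext' hn fun f => by
    rw [Fm_snd, ← hψ]; rfl⟩

lemma Fm_se (i : N →ₗ[L] N') (p : N' →ₗ[L] N'') (hi : Function.Injective i)
    (hex : Function.Exact i p) (hp : Function.Surjective p)
    (tot : ∀ f : N →ₗ[L] L, ∃ g : N' →ₗ[L] L, g ∘ₗ i = f) : SE (Fm k i) (Fm k p) := by
  refine ⟨?_, fun y => ⟨fun hy => ?_, ?_⟩, Fm_surj p hp⟩
  · rw [injective_iff_map_eq_zero]
    intro x hx
    refine F.ext' (hi ?_) fun f => ?_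
    · simpa using congrArg Prod.fst hx
    · obtain ⟨g, rfl⟩ := tot f
      rw [← Fm_snd, hx]; simp
  · obtain ⟨n, hn⟩ := (hex y.1).1 (congrArg Prod.fst hy)
    have : y.2.d ∈ LinearMap.range (pre k i : (N' →ₗ[L] L) →ₗ[k] _).dualMap := by
      rw [LinearMap.range_dualMap_eq_dualAnnihilator_ker, Submodule.mem_dualAnnihilator]
      intro f hf
      have hf' : LinearMap.ker p ≤ LinearMap.ker f := fun z hz => by
        obtain ⟨m, rfl⟩ := (hex z).1 hz
        exact LinearMap.congr_fun hf m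
      have e : f = ((LinearMap.ker p).liftQ f hf' ∘ₗ
          (p.quotKerEquivOfSurjective hp).symm.toLinearMap) ∘ₗ p := by
        ext z
        simp
      rw [e, ← Fm_snd, hy]; simp
    obtain ⟨ψ, hψ⟩ := this
    exact ⟨F.mk n (DD.mk ψ), F.ext' hn fun f => by rw [Fm_snd, ← hψ]; rfl⟩
  · rintro ⟨x, rfl⟩
    refine F.ext' (hex.apply_apply_eq_zero _) fun f => ?_
    have : (f ∘ₗ p) ∘ₗ i = 0 := by
      ext z; simp [hex.apply_apply_eq_zero]
    rw [Fm_snd, Fm_snd, this]; simp

/-- a finite dual basis -/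
lemma exists_db [Module.Finite L N] [Module.Projective L N] :
    ∃ (n : ℕ) (x : Fin n → N) (f : Fin n → N →ₗ[L] L), ∀ z, ∑ j, f j z • x j = z := by
  obtain ⟨n, s, g, -, -, h⟩ := Module.Finite.exists_comp_eq_id_of_projective L N
  refine ⟨n, fun j => s (Pi.single j 1), fun j => LinearMap.proj j ∘ₗ g, fun z => ?_⟩
  have : s (g z) = z := LinearMap.congr_fun h z
  conv_rhs => rw [← this, ← Finset.univ_sum_single (g z), map_sum]
  refine Finset.sum_congr rfl fun j _ => ?_
  rw [← map_smul, ← Pi.single_smul, smul_eq_mul, mul_one]; rfl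

/-- the coordinate `F N → T(L)` of `f : N → L` -/
def toA (f : N →ₗ[L] L) : F k L N →ₗ[TA k L] TA k L where
  toFun x := TA.mk (f x.1) (x.2.d ∘ₗ rmk' k f)
  map_add' x y := TA.ext' (by simp) fun c => by simp
  map_smul' a x := TA.ext' (by simp) fun c => by
    simp only [mk_snd, LinearMap.comp_apply, Fsmul_snd, RingHom.id_apply, smul_eq_mul, mul_snd,
      mk_fst]
    change x.2.d (rm (rm f c) a.1) + a.2 (rm f c x.1) = x.2.d (rm f (c * a.1)) + _
    rw [rm_rm]; rfl

lemma db_F {n : ℕ} {x : Fin n → N} {f : Fin n → N →ₗ[L] L} (h : ∀ z, ∑ j, f j z • x j = z)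
    (z : F k L N) : ∑ j, toA (f j) z • F.mk (x j) (0 : DD k L N) = z := by
  refine F.ext' ?_ fun g => ?_
  · rw [Fsum_fst]; exact h z.1
  · rw [Fsum_snd, d_sum]
    have : g = ∑ j, rm (f j) (g (x j)) := by
      ext w
      conv_lhs => rw [← h w]
      simp [map_sum]
    conv_rhs => rw [this, map_sum]
    refine Finset.sum_congr rfl fun j _ => ?_
    rw [Fsmul_snd]
    simp only [Fmk_snd, d_zero, LinearMap.zero_apply, zero_add, Fmk_fst]
    rfl

lemma F_proj [Module.Finite L N] [Module.Projective L N] :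
    Module.Finite (TA k L) (F k L N) ∧ Module.Projective (TA k L) (F k L N) := by
  obtain ⟨n, x, f, h⟩ := exists_db (L := L) (N := N)
  let s : (Fin n → TA k L) →ₗ[TA k L] F k L N :=
    Fintype.linearCombination (TA k L) fun j => F.mk (x j) (0 : DD k L N)
  let i : F k L N →ₗ[TA k L] (Fin n → TA k L) := LinearMap.pi fun j => toA (f j)
  have hs : s ∘ₗ i = LinearMap.id := LinearMap.ext fun z => by
    simp only [s, i, LinearMap.comp_apply, Fintype.linearCombination_apply, LinearMap.pi_apply]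
    exact db_F h z
  exact ⟨Module.Finite.of_surjective s (LinearMap.surjective_of_comp_eq_id i s hs),
    Module.Projective.of_split i s hs⟩

/-- maps out of `F N` are determined on `N` -/
lemma F_hom_ext {W : Type} [AddCommGroup W] [Module (TA k L) W] [Module.Finite L N]
    [Module.Projective L N] (p : N →ₗ[L] N') (hp : Function.Surjective p)
    (u v : F k L N' →ₗ[TA k L] W) (h : ∀ z, u (F.mk z 0) = v (F.mk z 0)) : u = v := by
  obtain ⟨n, x, f, hx⟩ := exists_db (L := L) (N := N)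
  ext y
  obtain ⟨z, rfl⟩ := Fm_surj (k := k) p hp y
  rw [← db_F hx z]
  simp only [map_sum, map_smul]
  refine Finset.sum_congr rfl fun j _ => ?_
  have : Fm k p (F.mk (x j) 0) = F.mk (p (x j)) 0 := F.ext' rfl fun g => by simp
  rw [this, h]

lemma smul_mk0 (a : L) (z : N) :
    F.mk (a • z) (0 : DD k L N) = (TA.mk a 0 : TA k L) • F.mk z (0 : DD k L N) :=
  F.ext' rfl fun g => by simp

lemma add_mk0 (z w : N) :
    F.mk (z + w) (0 : DD k L N) = F.mk z (0 : DD k L N) + F.mk w (0 : DD k L N) :=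
  F.ext' rfl fun g => by simp

def res₁ (u : F k L N →ₗ[TA k L] F k L N') : N →ₗ[L] N' where
  toFun z := (u (F.mk z 0)).1
  map_add' z w := by rw [add_mk0, map_add]; rfl
  map_smul' a z := by rw [smul_mk0, map_smul]; rfl

def res₂ (u : F k L N →ₗ[TA k L] F k L N') : N →ₗ[L] DD k L N' where
  toFun z := (u (F.mk z 0)).2
  map_add' z w := by rw [add_mk0, map_add]; rfl
  map_smul' a z := by
    rw [smul_mk0, map_smul]
    exact DD.ext' fun g => by simp

lemma not_proj [Module.Finite L N] [Module.Projective L N] (p : N →ₗ[L] N')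
    (hp : Function.Surjective p) (h : Module.Projective (TA k L) (F k L N')) :
    Module.Projective L N' := by
  obtain ⟨s, hs⟩ := Module.projective_lifting_property (Fm k p) LinearMap.id (Fm_surj p hp)
  refine Module.Projective.of_split (res₁ s) p (LinearMap.ext fun z => ?_)
  exact congrArg Prod.fst (LinearMap.congr_fun hs (F.mk z 0))

/-- `f ⊗ x : Z → P`, `z ↦ f z • x` -/
def tp {Z : Type} [AddCommGroup Z] [Module L Z] (f : Z →ₗ[L] L) (x : N) : Z →ₗ[L] N :=
  LinearMap.toSpanSingleton L N x ∘ₗ f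

@[simp] lemma tp_apply {Z : Type} [AddCommGroup Z] [Module L Z] (f : Z →ₗ[L] L) (x : N) (z : Z) :
    tp f x z = f z • x := rfl

/-- the extension property for maps to `D(Z^*)` -/
lemma ext_DD {Z P₀ P₁ P₂ : Type} [AddCommGroup Z] [Module L Z] [AddCommGroup P₀] [Module L P₀]
    [AddCommGroup P₁] [Module L P₁] [AddCommGroup P₂] [Module L P₂] [Module.Finite L P₁]
    [Module.Projective L P₁] [Module.Finite L P₂] [Module.Projective L P₂] [Module.Finite L P₀]
    [Module.Projective L P₀] (d₁ : P₁ →ₗ[L] P₀) (d₂ : P₂ →ₗ[L] P₁)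
    (neg : ∀ h : Z →ₗ[L] P₁, d₁ ∘ₗ h = 0 → ∃ h' : Z →ₗ[L] P₂, d₂ ∘ₗ h' = h)
    (G : P₁ →ₗ[L] DD k L Z) (hG : G ∘ₗ d₂ = 0) : ∃ G₀ : P₀ →ₗ[L] DD k L Z, G₀ ∘ₗ d₁ = G := by
  obtain ⟨n₀, x₀, f₀, h₀⟩ := exists_db (L := L) (N := P₀)
  obtain ⟨n₁, x₁, f₁, h₁⟩ := exists_db (L := L) (N := P₁)
  obtain ⟨n₂, x₂, f₂, h₂⟩ := exists_db (L := L) (N := P₂)
  -- work with `V = (Fin n → Z^*)` as a `k`-model of `Hom(Z, L^n)`
  let T : (Fin n₁ → Z →ₗ[L] L) →ₗ[k] (Fin n₀ → Z →ₗ[L] L) :=
    LinearMap.pi fun l => ∑ j, rmk k (f₀ l (d₁ (x₁ j))) ∘ₗ LinearMap.proj j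
  have hT : ∀ v l z, T v l z = f₀ l (d₁ (∑ j, v j z • x₁ j)) := fun v l z => by
    simp [T, map_sum, rmk, LinearMap.sum_apply]
  let lam : Module.Dual k (Fin n₁ → Z →ₗ[L] L) := ∑ j, (G (x₁ j)).d ∘ₗ LinearMap.proj j
  have hlam : ∀ v, lam v = ∑ j, (G (x₁ j)).d (v j) := fun v => by simp [lam]
  have key : ∀ (g : Z →ₗ[L] L) (y : P₁), lam (fun j => rm g (f₁ j y)) = (G y).d g := by
    intro g y
    conv_rhs => rw [← h₁ y, map_sum, d_sum]
    rw [hlam]
    simp
  have key' : ∀ v, lam v = lam (fun j => f₁ j ∘ₗ ∑ l, tp (v l) (x₁ l)) := by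
    intro v
    have : (fun j => f₁ j ∘ₗ ∑ l, tp (v l) (x₁ l)) = ∑ l, fun j => rm (v l) (f₁ j (x₁ l)) := by
      funext j
      ext z
      simp [LinearMap.sum_apply, map_sum]
    rw [this, map_sum, hlam]
    exact Finset.sum_congr rfl fun l _ => (key _ _).symm
  have mem : lam ∈ LinearMap.range T.dualMap := by
    rw [LinearMap.range_dualMap_eq_dualAnnihilator_ker, Submodule.mem_dualAnnihilator]
    intro v hv
    obtain ⟨h', hh⟩ := neg (∑ l, tp (v l) (x₁ l)) (by
      ext z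
      have : ∀ l, f₀ l (d₁ (∑ j, v j z • x₁ j)) = 0 := fun l => by
        rw [← hT, LinearMap.mem_ker.1 hv]; rfl
      simp only [LinearMap.comp_apply, LinearMap.sum_apply, tp_apply, LinearMap.zero_apply]
      rw [← h₀ (d₁ _)]
      simp only [this, zero_smul, Finset.sum_const_zero])
    rw [key', ← hh]
    have : (fun j => f₁ j ∘ₗ d₂ ∘ₗ h') = ∑ l, fun j => rm (f₂ l ∘ₗ h') (f₁ j (d₂ (x₂ l))) := by
      funext j
      ext z
      simp only [LinearMap.comp_apply, Finset.sum_apply, LinearMap.sum_apply, rm_apply]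
      conv_lhs => rw [← h₂ (h' z)]
      simp [map_sum]
    rw [this, map_sum]
    refine Finset.sum_eq_zero fun l _ => ?_
    rw [key, ← LinearMap.comp_apply G d₂, hG]; rfl
  obtain ⟨mu, hmu⟩ := mem
  let G₀ : P₀ →ₗ[L] DD k L Z :=
    { toFun := fun y => DD.mk (mu ∘ₗ LinearMap.pi fun l => rmk k (f₀ l y))
      map_add' := fun y y' => DD.ext' fun g => by
        change mu (fun l => rm g (f₀ l (y + y'))) = mu (fun l => rm g (f₀ l y)) +
          mu (fun l => rm g (f₀ l y'))
        rw [← map_add]; congr 1; funext l; simp [rm_add]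
      map_smul' := fun a y => DD.ext' fun g => by
        change mu (fun l => rm g (f₀ l (a • y))) = mu (fun l => rm (rm g a) (f₀ l y))
        congr 1; funext l; simp [rm_rm] }
  refine ⟨G₀, LinearMap.ext fun y => DD.ext' fun g => ?_⟩
  change mu (fun l => rm g (f₀ l (d₁ y))) = _
  rw [← key, ← hmu, LinearMap.dualMap_apply]
  congr 1
  funext l
  ext z
  rw [hT]
  conv_lhs => rw [← h₁ y]
  simp [map_sum, Finset.mul_sum, mul_assoc]

end F

/-- The `T(L)` step. -/
theorem main [FiniteDimensional k L] (Z P : ℕ → Type) [∀ a, AddCommGroup (Z a)]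
    [∀ a, Module L (Z a)] [∀ a, AddCommGroup (P a)] [∀ a, Module L (P a)]
    [∀ a, Module.Finite L (P a)] [∀ a, Module.Projective L (P a)]
    (i : ∀ a, Z (a + 1) →ₗ[L] P a) (p : ∀ a, P a →ₗ[L] Z a)
    (hi : ∀ a, Function.Injective (i a)) (hex : ∀ a, Function.Exact (i a) (p a))
    (hp : ∀ a, Function.Surjective (p a))
    (tot : ∀ a (f : Z (a + 1) →ₗ[L] L), ∃ g : P a →ₗ[L] L, g ∘ₗ i a = f)
    (pos : ∀ a (f : Z (a + 1) →ₗ[L] Z 0), ∃ g : P a →ₗ[L] Z 0, g ∘ₗ i a = f)
    (neg : ∀ a (f : Z 0 →ₗ[L] Z (a + 2)), ∃ g : Z 0 →ₗ[L] P (a + 2), p (a + 2) ∘ₗ g = f)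
    (np : ¬ Module.Projective L (Z 0)) :
    Module.Finite (TA k L) (F k L (Z 0)) ∧ ¬ Module.Projective (TA k L) (F k L (Z 0)) ∧
      ∀ n : ℕ, 0 < n → Subsingleton (CategoryTheory.Abelian.Ext
        (ModuleCat.of (TA k L) (F k L (Z 0))) (ModuleCat.of (TA k L) (F k L (Z 0))) n) := by
  have pr := fun a => F_proj (k := k) (L := L) (N := P a)
  have se := fun a => Fm_se (k := k) (i a) (p a) (hi a) (hex a) (hp a) (tot a)
  have vP : ∀ a n, Van (TA k L) (F k L (Z 0)) (F k L (P a)) (n + 1) := fun a n => by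
    have := (pr a).2
    exact (acyc_of_projective (A := TA k L)).2 n
  have hext : ∀ a (u : F k L (Z (a + 1)) →ₗ[TA k L] F k L (Z 0)),
      ∃ v : F k L (P a) →ₗ[TA k L] F k L (Z 0), v ∘ₗ Fm k (i a) = u := by
    intro a u
    obtain ⟨g, hg⟩ := pos a (res₁ u)
    obtain ⟨g', hg'⟩ := ext_DD (k := k) (Z := Z 0) (i a ∘ₗ p (a + 1)) (i (a + 1) ∘ₗ p (a + 2))
      (fun h hh => by
        have h0 : ∀ z, h z ∈ LinearMap.range (i (a + 1)) := fun z =>
          (hex (a + 1) _).1 (hi a (by rw [map_zero]; exact LinearMap.congr_fun hh z))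
        obtain ⟨h', hh'⟩ := neg a ((LinearEquiv.ofInjective _ (hi (a + 1))).symm.toLinearMap ∘ₗ
          h.codRestrict _ h0)
        refine ⟨h', LinearMap.ext fun z => ?_⟩
        have := LinearMap.congr_fun hh' z
        simp only [LinearMap.comp_apply] at this ⊢
        rw [this]
        exact LinearEquiv.ofInjective_symm_apply _ _)
      (res₂ u ∘ₗ p (a + 1)) (LinearMap.ext fun z => by
        simp [(hex (a + 1)).apply_apply_eq_zero])
    refine ⟨lift g g', F_hom_ext (p (a + 1)) (hp _) _ _ fun z => F.ext' ?_ fun f => ?_⟩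
    · exact LinearMap.congr_fun hg z
    · obtain ⟨y, rfl⟩ := hp _ z
      have := LinearMap.congr_fun hg' y
      simp only [LinearMap.comp_apply] at this
      simp only [LinearMap.comp_apply, lift_snd, Fm_fst, Fmk_fst, Fm_snd, Fmk_snd, d_zero,
        LinearMap.zero_apply, add_zero, this]
      rfl
  have van : ∀ n a, Van (TA k L) (F k L (Z 0)) (F k L (Z a)) (n + 1) := by
    intro n
    induction n with
    | zero => exact fun a => (se a).van_one (vP a 0) (hext a)
    | succ n ih => exact fun a => (se a).van₃ (ih (a + 1)) (vP a (n + 1))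
  refine ⟨?_, fun h => np (not_proj (p 0) (hp 0) h), fun n hn => ?_⟩
  · have := (pr 0).1
    exact Module.Finite.of_surjective _ (se 0).surj
  · obtain ⟨m, rfl⟩ := Nat.exists_eq_succ_of_ne_zero hn.ne'
    exact ⟨fun e e' => (van m 0 e).trans (van m 0 e').symm⟩

section Pi
variable {B : Type} [Ring B] [Algebra k B] (π : L →ₐ[k] B)

lemma pi_surj (h : Function.Surjective π) : Function.Surjective (π.comp (fstA (k := k) (L := L))) :=
  h.comp fstA_surj

lemma pow_fst (n : ℕ) (x : TA k L) (hx : x ∈ RingHom.ker (π.comp (fstA (k := k) (L := L))) ^ n) :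
    x.1 ∈ RingHom.ker π ^ n := by
  induction n generalizing x with
  | zero => rw [Submodule.pow_zero, Ideal.one_eq_top]; trivial
  | succ n ih =>
    rw [Submodule.pow_succ] at hx ⊢
    refine Submodule.smul_induction_on (p := fun x : TA k L => x.1 ∈ RingHom.ker π ^ n * RingHom.ker π)
      hx (fun r hr s hs => ?_) (fun a b ha hb => add_mem ha hb)
    exact Ideal.mul_mem_mul (ih r hr) hs

/-- the kernel stays nilpotent -/
lemma pi_nilp (n : ℕ) (h : RingHom.ker π ^ n = ⊥) :
    RingHom.ker (π.comp (fstA (k := k) (L := L))) ^ (n + n) = ⊥ := by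
  rw [Ideal.IsTwoSided.pow_add, eq_bot_iff, Ideal.mul_le]
  intro r hr s hs
  have h1 : r.1 = 0 := by simpa [h] using pow_fst π n r hr
  have h2 : s.1 = 0 := by simpa [h] using pow_fst π n s hs
  exact TA.ext' (by simp [h1]) fun c => by simp [h1, h2]

/-- a nonzero product of three elements of `ker π` gives one of four elements in `T(L)` -/
lemma four_of_three (a b c : L) (ha : π a = 0) (hb : π b = 0) (hc : π c = 0)
    (h : a * b * c ≠ 0) : ∃ x y z w : TA k L, π.comp fstA x = 0 ∧ π.comp fstA y = 0 ∧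
      π.comp fstA z = 0 ∧ π.comp fstA w = 0 ∧ x * y * z * w ≠ 0 := by
  obtain ⟨φ, hφ⟩ : ∃ φ : Module.Dual k L, φ (a * b * c) ≠ 0 := by
    by_contra hh
    push Not at hh
    exact h ((Module.forall_dual_apply_eq_zero_iff k _).1 hh)
  refine ⟨TA.mk a 0, TA.mk b 0, TA.mk c 0, TA.mk 0 φ, ha, hb, hc, by simp, fun h0 => hφ ?_⟩
  have := congrArg (fun x : TA k L => x.2 1) h0
  simpa using this

lemma pow_four_ne {R : Type} [Ring R] (I : Ideal R) (x y z w : R) (hx : x ∈ I) (hy : y ∈ I)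
    (hz : z ∈ I) (hw : w ∈ I) (h : x * y * z * w ≠ 0) : I ^ 4 ≠ ⊥ := by
  intro h0
  have : x * y * z * w ∈ I ^ 4 := by
    rw [Submodule.pow_succ, Submodule.pow_succ, Submodule.pow_succ, Submodule.pow_one]
    exact Ideal.mul_mem_mul (Ideal.mul_mem_mul (Ideal.mul_mem_mul hx hy) hz) hw
  rw [h0] at this
  exact h this

lemma pi_four (a b c : L) (ha : π a = 0) (hb : π b = 0) (hc : π c = 0) (h : a * b * c ≠ 0) :
    RingHom.ker (π.comp (fstA (k := k) (L := L))) ^ 4 ≠ ⊥ := by
  obtain ⟨x, y, z, w, hx, hy, hz, hw, h0⟩ := four_of_three π a b c ha hb hc h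
  exact pow_four_ne _ x y z w hx hy hz hw h0

end Pi

end Crest.Agent.H8.TL
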