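import Crest.Agent.H8.TkOm
import Crest.Agent.Lead.TkB

/-! Row 186: the homotopy between the two gluing maps. -/

set_option autoImplicit false
set_option linter.unusedVariables false
set_option linter.unusedSectionVars false

noncomputable section
namespace Crest.Agent.H8.TkHo
open Crest.Agent.H6.Tk Crest.Agent.H8.TkOm Crest.Agent.Lead.Tk Finsupp MulOpposite TrivSqZeroExt

section
variable {R : Type} [Ring R] {P : Cx R} {V W : Type} [AddCommGroup V] [Module R V] [Module Rᵐᵒᵖ V]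
  [SMulCommClass R Rᵐᵒᵖ V] [AddCommGroup W] [Module R W] [Module Rᵐᵒᵖ W] [SMulCommClass R Rᵐᵒᵖ W]

lemma bd_prod {n : ℤ} {Φ : Ch P P (V × W)} (h1 : Bd P P V n (push (LinearMap.fst R V W) Φ))
    (h2 : Bd P P W n (push (LinearMap.snd R V W) Φ)) : Bd P P (V × W) n Φ := by
  have := bd_add (bd_push (θ := LinearMap.inl R V W) (fun a x => by ext <;> simp) h1)
    (bd_push (θ := LinearMap.inr R V W) (fun a x => by ext <;> simp) h2)
  convert this
  refine ch_ext fun i j => ?_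
  rw [LinearMap.add_apply, Finsupp.add_apply, push_ent, push_ent, push_ent, push_ent]
  ext <;> simp

/-- monomial cochains -/
def mon (u : P.I → P.I) (a : P.I → V) : Ch P P V := linearCombination R fun i => single (u i) (a i)

lemma mon_single (u : P.I → P.I) (a : P.I → V) (i : P.I) : mon u a (single i 1) = single (u i) (a i) := by
  simp [mon]

lemma isC_mon {u : P.I → P.I} {a : P.I → V} {n : ℤ} (h1 : ∀ i, P.deg (u i) ≠ P.deg i + n → a i = 0)
    (h2 : ∀ i, P.ε i • a i = a i) (h3 : ∀ i, op (P.ε (u i)) • a i = a i) : IsC P P V n (mon u a) := by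
  classical
  intro i j
  rw [mon_single, single_apply]
  split_ifs with h
  · subst h; exact ⟨h1 i, h2 i, h3 i⟩
  · simp

lemma push_mon (θ : V →ₗ[R] W) (u : P.I → P.I) (a : P.I → V) :
    push θ (mon u a) = mon u fun i => θ (a i) := by
  classical
  refine ch_ext fun i j => ?_
  rw [push_ent, mon_single, mon_single, single_apply, single_apply]
  split_ifs <;> simp

lemma mon_add (u : P.I → P.I) (a b : P.I → V) : mon u a + mon u b = mon u fun i => a i + b i :=
  ch_ext fun i j => by simp [mon_single]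
end

section
variable {k : Type} [Field k] {E : Type} [Ring E] [Algebra k E] {P : Cx E}

lemma toK_single (Φ : Ch P P (Om k E)) (i j : P.I) (c : E) :
    toK Φ (single i c) j = Om.toL (Φ (single i 1) j) c := by
  rw [← toK_smul]; simp

lemma toK_mon (u : P.I → P.I) (a : P.I → Om k E) (i : P.I) (c : E) :
    toK (mon u a) (single i c) = single (u i) (Om.toL (a i) c) := by
  classical
  ext j
  rw [toK_single, mon_single, single_apply, single_apply]
  split_ifs <;> simp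

lemma ext_toK {Φ Φ' : Ch P P (Om k E)} (h : ∀ i c, toK Φ (single i c) = toK Φ' (single i c)) :
    Φ = Φ' := ch_ext fun i j => Om.ext' fun c => by rw [← toK_single, ← toK_single, h]

lemma d_single (i : P.I) (c : E) : P.d (single i c) = c • P.d (single i 1) := by
  rw [← map_smul]; simp
end

variable {k : Type} [Field k] {B : Type} [Ring B] [Algebra k B] {m : ℕ} {X : BD k B m} (Y : PD X)

lemma wt_l (w : ℕ) (i : X.Qp.I) : Y.wt (Y.e (.inl (w, i))) = w := by simp [PD.wt]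
lemma wt_r (w : ℕ) (i : X.Qm.I) : Y.wt (Y.e (.inr (w, i))) = -1 - w := by simp [PD.wt]

lemma eps_inl (i : Y.P.I) : ∃ b : B, b * b = b ∧ Y.P.ε i = inl b := by
  obtain ⟨(⟨w, i⟩ | ⟨w, i⟩), rfl⟩ := Y.e.surjective i
  · exact ⟨_, X.Qp.idem i, Y.ε_l w i⟩
  · exact ⟨_, X.Qm.idem i, Y.ε_r w i⟩

lemma two_E [CharP k 2] : (2 : DualNumber B) = 0 := by
  rw [← map_ofNat (algebraMap k (DualNumber B)) 2, CharTwo.two_eq_zero, map_zero]

/-- the twist as a cochain -/
def tw (q : k) : Ch Y.P Y.P (Om k (DualNumber B)) :=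
  mon id fun i => (q ^ (-Y.wt i) • Y.P.ε i) • Om.ofL (σL q⁻¹)

lemma tw_single (q : k) (i : Y.P.I) (x : DualNumber B) :
    toK (tw Y q) (single i x) = single i (σ q⁻¹ (x * (q ^ (-Y.wt i) • Y.P.ε i))) := toK_mon _ _ _ _

/-- homogeneous elements -/
def NN (q : k) (w : ℤ) : AddSubmonoid (Y.P.I →₀ DualNumber B) where
  carrier := {y | ∀ x : DualNumber B, toK (tw Y q) (x • y) = (q ^ (-w) • σ q⁻¹ x) • y}
  add_mem' := fun {a b} ha hb x => by rw [smul_add, map_add, ha, hb, smul_add]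
  zero_mem' := fun x => by simp

lemma inl_mem (q : k) {w : ℤ} {j : Y.P.I} {b c : B} (hw : Y.wt j = w) (he : Y.P.ε j = inl c)
    (hb : b * c = b) : single j (inl b) ∈ NN Y q w := fun x => by
  rw [smul_single, smul_eq_mul, tw_single, smul_single, hw, he]
  congr 1
  ext <;> simp [σ, mul_assoc, hb, smul_smul, mul_comm]

lemma inr_mem {q : k} (hq : q ≠ 0) {w : ℤ} {j : Y.P.I} {b c : B} (hw : Y.wt j = w - 1)
    (he : Y.P.ε j = inl c) (hb : b * c = b) : single j (inr b) ∈ NN Y q w := fun x => by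
  rw [smul_single, smul_eq_mul, tw_single, smul_single, hw, he]
  congr 1
  have : q⁻¹ * q ^ (-(w - 1)) = q ^ (-w) := by
    rw [show -(w - 1) = 1 + -w by ring, zpow_add₀ hq, zpow_one, inv_mul_cancel_left₀ hq]
  ext
  · simp [σ]
  · simp only [σ, snd_add, snd_inl, snd_inr, zero_add, DualNumber.snd_mul, fst_mul, fst_inr, mul_zero,
      zero_mul, fst_smul, fst_inl, snd_smul, smul_zero, add_zero, smul_eq_mul, mul_smul_comm,
      smul_smul, this, fst_add, smul_mul_assoc, mul_assoc, hb]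

lemma d_mem_NN {q : k} (hq : q ≠ 0) (i : Y.P.I) : Y.P.d (single i 1) ∈ NN Y q (Y.wt i) := by
  obtain ⟨(⟨(_ | w), i⟩ | ⟨w, i⟩), rfl⟩ := Y.e.surjective i
  · rw [Y.d_l0]
    refine add_mem (sum_mem fun j _ => ?_) (sum_mem fun j _ => ?_)
    · exact inl_mem Y q (by rw [wt_l, wt_l]) (Y.ε_l _ _) (X.Qp.d_isM i j).2.2
    · exact inr_mem Y hq (by rw [wt_l, wt_r]; simp) (Y.ε_r _ _) (X.φ_cy.1 i j).2.2
  · rw [Y.d_l]
    refine add_mem (sum_mem fun j _ => ?_) ?_
    · exact inl_mem Y q (by rw [wt_l, wt_l]) (Y.ε_l _ _) (X.Qp.d_isM i j).2.2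
    · exact inr_mem Y hq (by rw [wt_l, wt_l]; simp) (Y.ε_l _ _) (X.Qp.idem i)
  · rw [Y.d_r]
    refine add_mem (sum_mem fun j _ => ?_) ?_
    · exact inl_mem Y q (by rw [wt_r, wt_r]) (Y.ε_r _ _) (X.Qm.d_isM i j).2.2
    · exact inr_mem Y hq (by rw [wt_r, wt_r]; push_cast; ring) (Y.ε_r _ _) (X.Qm.idem i)

lemma cy_tw [CharP k 2] {q : k} (hq : q ≠ 0) : Cy Y.P Y.P (Om k (DualNumber B)) 0 (tw Y q) := by
  refine ⟨isC_mon (fun i h => absurd (add_zero _).symm h) (fun i => ?_) fun i => ?_,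
    ext_toK fun i x => ?_⟩
  · rw [smul_smul, mul_smul_comm, Y.P.idem]
  · obtain ⟨b, hb, he⟩ := eps_inl Y i
    refine Om.ext' fun x => ?_
    change σ q⁻¹ (x * (_ • Y.P.ε i)) * Y.P.ε i = σ q⁻¹ (x * (_ • Y.P.ε i))
    rw [he]
    ext <;> simp [σ, mul_assoc, hb]
  · obtain ⟨b, hb, he⟩ := eps_inl Y i
    have h1 : σ q⁻¹ (x * (q ^ (-Y.wt i) • Y.P.ε i)) = (q ^ (-Y.wt i) • σ q⁻¹ x) * Y.P.ε i := by
      rw [he]
      ext <;> simp [σ, smul_smul, mul_comm]
    have h2 : Y.P.ε i • Y.P.d (single i 1) = Y.P.d (single i 1) := by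
      ext j : 1; exact (Y.P.d_isM i j).2.1
    rw [toK_δ, tw_single, d_single i x, d_mem_NN Y hq i x, d_single i (σ _ _), h1, mul_smul, h2,
      two_V (R := DualNumber B) (two_E (k := k))]
    ext j : 1
    simp [toK_apply]

/-- the index one weight up -/
def up (i : Y.P.I) : Y.P.I := Y.e (Sum.map (fun x => (x.1 + 1, x.2)) (fun x => (x.1 - 1, x.2)) (Y.e.symm i))

lemma up_l (w : ℕ) (i : X.Qp.I) : up Y (Y.e (.inl (w, i))) = Y.e (.inl (w + 1, i)) := by simp [up]
lemma up_r (w : ℕ) (i : X.Qm.I) : up Y (Y.e (.inr (w, i))) = Y.e (.inr (w - 1, i)) := by simp [up]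

/-- division by `z` -/
def dz (c : k) (b : B) : DualNumber B →ₗ[k] DualNumber B where
  toFun x := inl (c • (x.snd * b))
  map_add' x y := by simp [add_mul]
  map_smul' a x := by ext <;> simp [smul_comm a c]

lemma bLin_dz (c : k) (b : B) : BLin k B (dz c b) := fun a x => by
  ext <;> simp [dz, mul_assoc]

/-- the homotopy -/
def ho (q : k) : Ch Y.P Y.P (Om k (DualNumber B)) :=
  mon (up Y) fun i => Om.ofL (LinearMap.mulLeft k (inl X.f : DualNumber B) ∘ₗ
    dz (1 + q ^ (-(Y.wt i + 1))) (Y.P.ε i).fst)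

lemma ho_single (q : k) (i : Y.P.I) (x : DualNumber B) :
    toK (ho Y q) (single i x) =
      single (up Y i) (inl ((1 + q ^ (-(Y.wt i + 1))) • (X.f * (x.snd * (Y.P.ε i).fst)))) := by
  rw [ho, toK_mon]
  congr 1
  ext <;> simp [dz]

lemma isC_ho [CharP k 2] (q : k) : IsC Y.P Y.P (Om k (DualNumber B)) (0 - 1) (ho Y q) := by
  refine isC_mon (fun i h => ?_) (fun i => Om.ext' fun x => ?_) fun i => Om.ext' fun x => ?_
  · obtain ⟨(⟨w, i⟩ | ⟨(_ | w), i⟩), rfl⟩ := Y.e.surjective i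
    · exact absurd (by rw [up_l, Y.deg_l, Y.deg_l]; push_cast; ring) h
    · refine Om.ext' fun x => ?_
      ext <;> simp [dz, wt_r, CharTwo.add_self_eq_zero]
    · exact absurd (by rw [up_r, Y.deg_r, Y.deg_r]; push_cast; ring) h
  · obtain ⟨b, hb, he⟩ := eps_inl Y i
    rw [he]
    ext <;> simp [dz, mul_assoc, hb]
  · have : Y.P.ε (up Y i) = Y.P.ε i := by
      obtain ⟨(⟨w, i⟩ | ⟨w, i⟩), rfl⟩ := Y.e.surjective i
      · rw [up_l, Y.ε_l, Y.ε_l]
      · rw [up_r, Y.ε_r, Y.ε_r]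
    obtain ⟨b, hb, he⟩ := eps_inl Y i
    rw [this, he]
    ext <;> simp [dz, mul_assoc, hb]

lemma ho_sum (q : k) {J : Type} (v : J →₀ B) (u : J → Y.P.I) (c : J → B) (b : B) (w : ℤ)
    (hw : ∀ j, Y.wt (u j) = w) (he : ∀ j, Y.P.ε (u j) = inl (c j)) (h1 : ∀ j, v j * c j = v j)
    (h2 : ∀ j, b * v j = v j) (x : DualNumber B) :
    toK (ho Y q) (x • v.sum fun j a => single (u j) (inl a)) =
      (inl ((1 + q ^ (-(w + 1))) • (X.f * (x.snd * b))) : DualNumber B) •
        v.sum fun j a => single (up Y (u j)) (inl a : DualNumber B) := by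
  simp only [Finsupp.sum, Finset.smul_sum, map_sum]
  refine Finset.sum_congr rfl fun j _ => ?_
  rw [smul_single, smul_eq_mul, ho_single, smul_single, hw, he]
  congr 1
  ext <;> simp [mul_assoc, h1, h2]

lemma fin_eq {q : k} (hq : q ≠ 0) (w : ℤ) (x : DualNumber B) (f b : B) (hb : b * b = b) :
    (inl ((1 + q ^ (-w)) • (f * (x.fst * b))) : DualNumber B) +
      inl ((1 + q ^ (-(w + 1))) • (f * (x.snd * b))) * inr b =
    inl f * (x * inl b) + inl f * σ q⁻¹ (x * (q ^ (-w) • inl b)) := by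
  have : q ^ (-(w + 1)) = q⁻¹ * q ^ (-w) := by
    rw [show -(w + 1) = -1 + -w by ring, zpow_add₀ hq, zpow_neg_one]
  rw [this]
  ext <;> simp [σ, add_smul, mul_assoc, hb, smul_smul, add_mul]

lemma δ_ho [CharP k 2] {q : k} (hq : q ≠ 0) (i : Y.P.I) (x : DualNumber B) :
    toK (δ Y.P Y.P _ (ho Y q)) (single i x) = single i (inl X.f * (x * Y.P.ε i) +
      inl X.f * σ q⁻¹ (x * (q ^ (-Y.wt i) • Y.P.ε i))) := by
  have two := two_V (R := DualNumber B) (V := Y.P.I →₀ DualNumber B) (two_E (k := k))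
  have o2 : (1 : k) + 1 = 0 := CharTwo.add_self_eq_zero 1
  rw [toK_δ, ho_single, d_single i x, d_single (up Y i)]
  obtain ⟨(⟨(_ | w), i⟩ | ⟨(_ | w), i⟩), rfl⟩ := Y.e.surjective i
  · have z : toK (ho Y q) (x • (X.φ (single i 1)).sum fun j b =>
        single (Y.e (.inr (0, j))) (inr b : DualNumber B)) = 0 := by
      simp only [Finsupp.sum, Finset.smul_sum, map_sum]
      refine Finset.sum_eq_zero fun j _ => ?_
      rw [smul_single, ho_single, wt_r]
      simp [o2]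
    rw [up_l, Y.d_l0, Y.d_l, smul_add, map_add, z, add_zero, ho_sum Y q _ _ X.Qp.ε (X.Qp.ε i) _
      (wt_l Y 0) (Y.ε_l 0) (fun j => (X.Qp.d_isM i j).2.2) (fun j => (X.Qp.d_isM i j).2.1)]
    simp only [up_l, wt_l, Y.ε_l, fst_inl]
    rw [smul_add, ← add_assoc, two, zero_add, smul_single, ← fin_eq hq _ x _ _ (X.Qp.idem i)]
    simp [o2]
  · rw [up_l, Y.d_l, Y.d_l, smul_add, map_add, ho_sum Y q _ _ X.Qp.ε (X.Qp.ε i) _
      (wt_l Y _) (Y.ε_l _) (fun j => (X.Qp.d_isM i j).2.2) (fun j => (X.Qp.d_isM i j).2.1),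
      smul_single, ho_single]
    simp only [up_l, wt_l, Y.ε_l, fst_inl]
    rw [smul_add, add_add_add_comm, two, zero_add, smul_single, ← fin_eq hq _ x _ _ (X.Qp.idem i),
      ← single_add]
    simp [mul_assoc, X.Qp.idem]
  · rw [Y.d_r, smul_add, map_add, ho_sum Y q _ _ X.Qm.ε (X.Qm.ε i) _
      (wt_r Y _) (Y.ε_r _) (fun j => (X.Qm.d_isM i j).2.2) (fun j => (X.Qm.d_isM i j).2.1),
      smul_single, ho_single]
    simp only [up_r, wt_r, Y.ε_r, fst_inl]
    rw [← fin_eq hq _ x _ _ (X.Qm.idem i)]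
    simp [o2, mul_assoc, X.Qm.idem]
  · rw [up_r, Nat.add_sub_cancel, Y.d_r, Y.d_r, smul_add, map_add, ho_sum Y q _ _ X.Qm.ε (X.Qm.ε i) _
      (wt_r Y _) (Y.ε_r _) (fun j => (X.Qm.d_isM i j).2.2) (fun j => (X.Qm.d_isM i j).2.1),
      smul_single, ho_single]
    simp only [up_r, wt_r, Y.ε_r, fst_inl, Nat.add_sub_cancel]
    rw [smul_add, add_add_add_comm, two, zero_add, smul_single, ← fin_eq hq _ x _ _ (X.Qm.idem i),
      ← single_add, show -(-1 - ((w + 1 + 1 : ℕ) : ℤ) + 1) = -(-1 - ((w + 1 : ℕ) : ℤ)) by push_cast; ring]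
    simp [mul_assoc, X.Qm.idem]

theorem hoStmt : HoStmt := by
  classical
  intro k _ _ q hq B _ _ m X h Y hr
  have := X.fd
  have : FiniteDimensional k (DualNumber B) := inferInstanceAs (FiniteDimensional k (B × B))
  have e : g1 Y h + g2 Y h q = mon id fun i => Y.P.ε i • κ1 X h + (q ^ (-Y.wt i) • Y.P.ε i) • κ2 X h q :=
    mon_add id _ _
  rw [e]
  refine bd_prod ?_ (bd_prod ?_ ?_)
  · obtain ⟨Ψ, h1, h2⟩ := lift_push (θ := (KK k B).val) (KK k B).val_op (isC_ho Y q) fun i j => by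
      rw [ho, mon_single, single_apply]
      split_ifs
      · exact ⟨(KK k B).mk' _ (h _ (bLin_dz _ _)), rfl⟩
      · exact ⟨0, map_zero _⟩
    refine ⟨Ψ, h1, ?_⟩
    rw [← sub_eq_zero]
    refine push_inj (KK k B).val_inj ?_
    rw [push, LinearMap.comp_sub, sub_eq_zero]
    change push _ _ = push _ _
    rw [← δ_push (KK k B).val_op, h2, push_mon, push_mon]
    refine ext_toK fun i x => ?_
    rw [δ_ho Y hq, toK_mon]
    rfl
  · refine omStmt k _ Y.P Y.P (.inl hr) 0 _ ?_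
    convert cy_tw Y (one_ne_zero (α := k))
    rw [push_mon, push_mon, tw]
    congr 1
    funext i
    refine Om.ext' fun x => ?_
    ext <;> simp [κ1, κ2, σL, σ]
  · refine omStmt k _ Y.P Y.P (.inl hr) 0 _ ?_
    convert cy_tw Y hq
    rw [push_mon, push_mon, tw]
    congr 1
    funext i
    simp [κ1, κ2]

end Crest.Agent.H8.TkHo
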