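import Crest.Agent.H8.TkSym
import Crest.Agent.H6.TkD

/-! Row 186: `End_k E` is acyclic. -/

set_option autoImplicit false
set_option linter.unusedVariables false

noncomputable section
namespace Crest.Agent.H8.TkOm
open Crest.Agent.H6.Tk Crest.Agent.H8.TkSym Finsupp MulOpposite

variable {k : Type} [Field k] {E : Type} [Ring E] [Algebra k E]

/-- evaluation at `1` -/
def ev1 {J : Type} (y : J →₀ Om k E) : J →₀ E := y.mapRange (fun φ => Om.toL φ 1) (by simp)

@[simp] lemma ev1_apply {J : Type} (y : J →₀ Om k E) (j : J) : ev1 y j = Om.toL (y j) 1 := rfl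

lemma ev1_add {J : Type} (y y' : J →₀ Om k E) : ev1 (y + y') = ev1 y + ev1 y' := by
  ext j; simp

lemma ev1_tens {J L : Type} (g : (J →₀ E) →ₗ[E] (L →₀ E)) (y : J →₀ Om k E) :
    ev1 (tens (Om k E) g y) = g (ev1 y) := by
  induction y using Finsupp.induction_linear with
  | zero =>
    have : ev1 (0 : J →₀ Om k E) = 0 := by ext j; simp
    rw [this, map_zero, map_zero]; ext j; simp
  | add y y' h h' => rw [map_add, ev1_add, ev1_add, map_add, h, h']
  | single i v =>
    have : ev1 (single i v) = Om.toL v 1 • single i (1 : E) := by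
      rw [ev1, mapRange_single]; simp
    rw [this, map_smul]
    ext j
    simp

variable {P P' : Cx E}

/-- the `k`-linear map of a cochain -/
def toK (Φ : Ch P P' (Om k E)) : (P.I →₀ E) →ₗ[k] (P'.I →₀ E) where
  toFun x := ev1 (Φ x)
  map_add' x y := by rw [map_add, ev1_add]
  map_smul' c x := by
    ext j
    rw [← algebraMap_smul E c x, map_smul]
    simp [Algebra.algebraMap_eq_smul_one]

lemma toK_apply (Φ : Ch P P' (Om k E)) (x : P.I →₀ E) (j : P'.I) :
    toK Φ x j = Om.toL (Φ x j) 1 := rfl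

lemma toK_smul (Φ : Ch P P' (Om k E)) (e : E) (x : P.I →₀ E) (j : P'.I) :
    toK Φ (e • x) j = Om.toL (Φ x j) e := by simp [toK_apply]

lemma toK_δ (Φ : Ch P P' (Om k E)) (x : P.I →₀ E) :
    toK (δ P P' (Om k E) Φ) x = toK Φ (P.d x) + P'.d (toK Φ x) := by
  change ev1 (Φ (P.d x) + tens (Om k E) P'.d (Φ x)) = _
  rw [ev1_add, ev1_tens]; rfl

lemma isC_gen' {V : Type} [AddCommGroup V] [Module E V] [Module Eᵐᵒᵖ V] [SMulCommClass E Eᵐᵒᵖ V]
    {n : ℤ} {Φ : Ch P P' V} (h : IsC P P' V n Φ) (i : P.I) : Φ (single i 1) = Φ (gen P i) := by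
  have : gen P i = P.ε i • single i 1 := by simp [gen]
  rw [this, map_smul]
  ext j
  exact ((h i j).2.1).symm

lemma ext_gen {Φ Φ' : Ch P P' (Om k E)} (h : ∀ i, Φ (single i 1) = Φ (gen P i))
    (h' : ∀ i, Φ' (single i 1) = Φ' (gen P i))
    (e : ∀ m, ∀ x ∈ Pn P m, toK Φ x = toK Φ' x) : Φ = Φ' := by
  refine Finsupp.lhom_ext' fun i => LinearMap.ext_ring ?_
  simp only [LinearMap.comp_apply, lsingle_apply]
  rw [h, h']
  ext j r
  rw [← toK_smul, ← toK_smul, e _ _ (Submodule.smul_mem _ r (gen_mem P i))]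

lemma combK {M : Type} [AddCommGroup M] [Module k M] {m : ℤ} {x : P.I →₀ E} (hx : x ∈ Pn P m)
    (S : Submodule k M) (g : (P.I →₀ E) →ₗ[k] M)
    (h : ∀ i (e : E), P.deg i = m → g (e • gen P i) ∈ S) : g x ∈ S := by
  rw [← x.sum_single, map_finsuppSum]
  refine Submodule.sum_mem _ fun i hi => ?_
  have hd : P.deg i = m := by
    by_contra hh
    exact (mem_support_iff.1 hi) ((hx i).1 hh)
  have : single i (x i) = x i • gen P i := by simp [gen, (hx i).2]
  change g (single i (x i)) ∈ S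
  rw [this]
  exact h i _ hd

lemma toK_mem {n : ℤ} {Φ : Ch P P' (Om k E)} (h : IsC P P' (Om k E) n Φ) {m t : ℤ} (ht : m + n = t)
    {x : P.I →₀ E} (hx : x ∈ Pn P m) : toK Φ x ∈ Pn P' t :=
  combK hx ((Pn P' t).restrictScalars k) _ fun i e hi j => by
    rw [toK_smul, ← isC_gen' h]
    refine ⟨fun hj => by rw [(h i j).1 (by rw [hi, ht]; exact hj)]; simp, ?_⟩
    conv_rhs => rw [← (h i j).2.2]
    simp

/-- a graded family of `k`-linear maps is a cochain -/
lemma exists_ofK (n : ℤ) (S : ℤ → (P.I →₀ E) →ₗ[k] (P'.I →₀ E))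
    (hS : ∀ m, ∀ x ∈ Pn P m, S m x ∈ Pn P' (m + n)) :
    ∃ Ψ, IsC P P' (Om k E) n Ψ ∧ ∀ m, ∀ x ∈ Pn P m, toK Ψ x = S m x := by
  classical
  let c : P.I → P'.I → Om k E := fun i j => Om.ofL (lapply j ∘ₗ S (P.deg i) ∘ₗ
    (LinearMap.toSpanSingleton E _ (gen P i)).restrictScalars k)
  have hc : ∀ i j e, Om.toL (c i j) e = S (P.deg i) (e • gen P i) j := fun _ _ _ => rfl
  have hm := fun i (e : E) => hS _ _ (Submodule.smul_mem _ e (gen_mem P i))
  let y : P.I → P'.I →₀ Om k E := fun i => onFinset (P'.fin (P.deg i + n)).toFinset (c i) fun j hj => by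
    by_contra hh
    refine hj (Om.ext' fun e => ?_)
    rw [hc, (hm i e j).1 (by simpa using hh)]; simp
  have hy : ∀ i j, y i j = c i j := fun _ _ => rfl
  refine ⟨linearCombination E y, fun i j => ?_, fun m x hx => ?_⟩
  · simp only [linearCombination_single, one_smul, hy]
    refine ⟨fun hj => Om.ext' fun e => ?_, Om.ext' fun e => ?_, Om.ext' fun e => ?_⟩
    · rw [hc, (hm i e j).1 hj]; simp
    · rw [Om.smul_apply, hc, hc, mul_smul, eps_gen]
    · rw [Om.op_apply, hc]; exact (hm i e j).2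
  · rw [← sub_eq_zero, ← LinearMap.sub_apply, ← Submodule.mem_bot k]
    refine combK hx _ _ fun i e hi => ?_
    rw [Submodule.mem_bot, LinearMap.sub_apply, sub_eq_zero]
    ext j
    rw [toK_smul, gen, linearCombination_single, Finsupp.smul_apply, hy, Om.smul_apply, hc, mul_smul,
      eps_gen, hi]
    rfl

/-- an exact complex of vector spaces is contractible -/
lemma contr (h2 : (2 : E) = 0) (h : Row P E) :
    ∃ s : ℤ → (P.I →₀ E) →ₗ[k] (P.I →₀ E), (∀ t x, s t x ∈ Pn P (t - 1)) ∧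
      ∀ t, ∀ x ∈ Pn P t, P.d (s t x) + s (t + 1) (P.d x) = x := by
  have two : ∀ x : P.I →₀ E, x + x = 0 := fun x => by rw [← two_smul E, h2, zero_smul]
  have : ∀ t, ∃ g : (P.I →₀ E) →ₗ[k] (P.I →₀ E), (∀ x, g x ∈ Pn P (t - 1)) ∧
      ∀ z ∈ Pn P t, P.d z = 0 → P.d (g z) = z := by
    intro t
    let Z : Submodule k (P.I →₀ E) := (Pn P t ⊓ LinearMap.ker P.d).restrictScalars k
    let W : Submodule k (P.I →₀ E) := (Pn P (t - 1)).restrictScalars k
    let p : W →ₗ[k] Z := (P.d.restrictScalars k ∘ₗ W.subtype).codRestrict Z fun x =>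
      ⟨d_mem (by ring) x.2, dd x.1⟩
    have : Module.Free k Z := Module.Free.of_divisionRing k Z
    obtain ⟨σ, hσ⟩ := Module.projective_lifting_property p LinearMap.id fun z => by
      obtain ⟨y, y1, y2⟩ := row_ex h (m := t - 1) (by ring) z.2.1 z.2.2
      exact ⟨⟨y, y1⟩, Subtype.ext y2⟩
    obtain ⟨g, hg⟩ := LinearMap.exists_extend (K := k) (V := P.I →₀ E) (V' := W) (p := Z) σ
    refine ⟨W.subtype ∘ₗ g, fun x => (g x).2, fun z hz h0 => ?_⟩
    have e1 := LinearMap.congr_fun hg ⟨z, hz, h0⟩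
    have e2 := congrArg Subtype.val (LinearMap.congr_fun hσ ⟨z, hz, h0⟩)
    change g z = _ at e1
    change P.d (g z).1 = z
    rw [e1]
    exact e2
  choose g g1 g2 using this
  refine ⟨fun t => g t ∘ₗ (LinearMap.id + g (t + 1) ∘ₗ P.d.restrictScalars k), fun t x => g1 _ _,
    fun t x hx => ?_⟩
  have hd := g2 (t + 1) _ (d_mem rfl hx) (dd x)
  simp only [LinearMap.comp_apply, LinearMap.add_apply, LinearMap.id_apply,
    LinearMap.restrictScalars_apply, dd, map_zero, add_zero]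
  rw [g2 t _ (add_mem hx (by simpa using g1 (t + 1) (P.d x))) (by rw [map_add, hd, two]),
    add_assoc, two, add_zero]

theorem omStmt : OmStmt := by
  intro k _ _ E _ _ _ P P' h n Φ hΦ
  have h2 : (2 : E) = 0 := by
    rw [← map_ofNat (algebraMap k E) 2, CharTwo.two_eq_zero, map_zero]
  have two : ∀ x : P'.I →₀ E, x + x = 0 := fun x => by rw [← two_smul E, h2, zero_smul]
  have cy : ∀ x, toK Φ (P.d x) = P'.d (toK Φ x) := fun x => by
    have := toK_δ Φ x
    rw [hΦ.2] at this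
    have h0 : toK (0 : Ch P P' (Om k E)) x = 0 := by ext j; simp [toK_apply]
    rw [← add_zero (toK Φ _), ← two (P'.d (toK Φ x)), ← add_assoc, ← this, h0, zero_add]
  have fin : ∀ S : ℤ → (P.I →₀ E) →ₗ[k] (P'.I →₀ E),
      (∀ m, ∀ x ∈ Pn P m, S m x ∈ Pn P' (m + (n - 1))) →
      (∀ m, ∀ x ∈ Pn P m, S (m + 1) (P.d x) + P'.d (S m x) = toK Φ x) → Bd P P' (Om k E) n Φ := by
    intro S h1 h3
    obtain ⟨Ψ, p1, p2⟩ := exists_ofK (n - 1) S h1
    refine ⟨Ψ, p1, ext_gen (fun i => ?_) (isC_gen' hΦ.1) fun m x hx => ?_⟩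
    · simp only [δ, LinearMap.add_apply, LinearMap.comp_apply]
      rw [isC_gen d_isC, isC_gen' p1]
    · rw [toK_δ, p2 _ _ (d_mem rfl hx), p2 _ _ hx, h3 m x hx]
  rcases h with h | h
  · obtain ⟨s, s1, s2⟩ := contr (k := k) h2 h
    refine fin (fun m => toK Φ ∘ₗ s m) (fun m x hx => toK_mem hΦ.1 (by ring) (s1 m x))
      fun m x hx => ?_
    simp only [LinearMap.comp_apply]
    rw [← cy, ← map_add, add_comm, s2 m x hx]
  · obtain ⟨s, s1, s2⟩ := contr (k := k) h2 h
    refine fin (fun m => s (m + n) ∘ₗ toK Φ)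
      (fun m x hx => by rw [← add_sub_assoc]; exact s1 _ _) fun m x hx => ?_
    simp only [LinearMap.comp_apply]
    rw [cy, add_comm, show m + 1 + n = m + n + 1 by ring, s2 _ _ (toK_mem hΦ.1 rfl hx)]

end Crest.Agent.H8.TkOm
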