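import Crest.Agent.H8.TLam
import Crest.Agent.H6.TkI

/-! Row 186: from the core complex to the symmetric algebra. -/

set_option autoImplicit false
set_option linter.unusedVariables false

noncomputable section
namespace Crest.Agent.H8.TkSym
open Crest.Agent.H6.Tk Finsupp MulOpposite

lemma zseq {α : Type} (Inv : ℤ → α → Prop) (R : ℤ → α → α → Prop)
    (up : ∀ m a, Inv m a → ∃ b, Inv (m + 1) b ∧ R m a b)
    (dn : ∀ m b, Inv (m + 1) b → ∃ a, Inv m a ∧ R m a b) (m0 : ℤ) (a0 : α) (h0 : Inv m0 a0) :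
    ∃ s : ℤ → α, s m0 = a0 ∧ ∀ m, Inv m (s m) ∧ R m (s m) (s (m + 1)) := by
  have : Nonempty α := ⟨a0⟩
  choose! U hU using up
  choose! D hD using dn
  let u : ℕ → α := fun j => Nat.rec a0 (fun j a => U (m0 + j) a) j
  let v : ℕ → α := fun j => Nat.rec a0 (fun j b => D (m0 - (j + 1 : ℕ)) b) j
  have hu : ∀ j : ℕ, Inv (m0 + j) (u j) := by
    intro j
    induction j with
    | zero => rw [Nat.cast_zero, add_zero]; exact h0
    | succ j ih => simpa [add_assoc] using (hU _ _ ih).1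
  have hv : ∀ j : ℕ, Inv (m0 - j) (v j) := by
    intro j
    induction j with
    | zero => rw [Nat.cast_zero, sub_zero]; exact h0
    | succ j ih =>
      exact (hD (m0 - (j + 1 : ℕ)) (v j) (by convert ih using 1; push_cast; ring)).1
  let s : ℤ → α := fun m => if m0 ≤ m then u (m - m0).toNat else v (m0 - m).toNat
  have su : ∀ j : ℕ, s (m0 + j) = u j := fun j => by simp [s]
  have sv : ∀ j : ℕ, s (m0 - j) = v j := fun j => by
    rcases j with _ | j
    · simp [s]; rfl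
    · have : ¬ m0 ≤ m0 - (j + 1 : ℕ) := by push_cast; omega
      simp only [s, if_neg this]
      congr 1; simp
  refine ⟨s, by simp [s]; rfl, fun m => ?_⟩
  rcases le_or_gt m0 m with h | h
  · obtain ⟨j, rfl⟩ : ∃ j : ℕ, m = m0 + j := ⟨(m - m0).toNat, by omega⟩
    have : m0 + j + 1 = m0 + (j + 1 : ℕ) := by push_cast; ring
    rw [this, su, su]
    exact ⟨hu j, (hU _ _ (hu j)).2⟩
  · obtain ⟨j, rfl⟩ : ∃ j : ℕ, m = m0 - (j + 1 : ℕ) := ⟨(m0 - m - 1).toNat, by omega⟩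
    have : m0 - (j + 1 : ℕ) + 1 = m0 - j := by push_cast; ring
    have h1 := hD (m0 - (j + 1 : ℕ)) (v j) (by rw [this]; exact hv j)
    rw [this, sv, sv]
    exact h1

variable {R : Type} [Ring R] (P : Cx R)

/-- the term of degree `n` -/
def Pn (n : ℤ) : Submodule R (P.I →₀ R) where
  carrier := {x | ∀ i, (P.deg i ≠ n → x i = 0) ∧ x i * P.ε i = x i}
  add_mem' := fun {x y} hx hy i => ⟨fun h => by simp [(hx i).1 h, (hy i).1 h], by
    simp [add_mul, (hx i).2, (hy i).2]⟩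
  zero_mem' := fun i => by simp
  smul_mem' := fun r x hx i => ⟨fun h => by simp [(hx i).1 h], by simp [mul_assoc, (hx i).2]⟩

/-- the generator -/
def gen (i : P.I) : P.I →₀ R := single i (P.ε i)

lemma gen_mem (i : P.I) : gen P i ∈ Pn P (P.deg i) := fun j => by
  classical
  by_cases h : i = j
  · subst h; simp [gen, P.idem]
  · simp [gen, single_apply, h]

lemma eps_gen (i : P.I) : P.ε i • gen P i = gen P i := by simp [gen, P.idem]

variable {P}

lemma comb {M : Type} [AddCommGroup M] [Module R M] {m : ℤ} {x : P.I →₀ R} (hx : x ∈ Pn P m)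
    (y : P.I → M) (g : (P.I →₀ R) →ₗ[R] M) (h : ∀ i, P.deg i = m → y i = g (gen P i)) :
    linearCombination R y x = g x := by
  conv_rhs => rw [← x.sum_single, map_finsuppSum]
  rw [linearCombination_apply]
  refine Finsupp.sum_congr fun i hi => ?_
  have hd : P.deg i = m := by
    by_contra hh
    exact (mem_support_iff.1 hi) ((hx i).1 hh)
  rw [h i hd, ← map_smul]
  congr 1
  simp [gen, (hx i).2]

lemma comb_mem {M : Type} [AddCommGroup M] [Module R M] {m : ℤ} {x : P.I →₀ R} (hx : x ∈ Pn P m)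
    (y : P.I → M) (S : Submodule R M) (h : ∀ i, P.deg i = m → y i ∈ S) :
    linearCombination R y x ∈ S := by
  rw [linearCombination_apply]
  refine Submodule.sum_mem _ fun i hi => S.smul_mem _ (h i ?_)
  by_contra hh
  exact (mem_support_iff.1 hi) ((hx i).1 hh)

section
variable {P' : Cx R} {n : ℤ} {Φ : Ch P P' R}

lemma isC_gen (h : IsC P P' R n Φ) (i : P.I) : Φ (single i 1) = Φ (gen P i) := by
  have : gen P i = P.ε i • single i 1 := by simp [gen]
  rw [this, map_smul]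
  ext j
  exact ((h i j).2.1).symm

lemma isC_mem (h : IsC P P' R n Φ) {m t : ℤ} (ht : m + n = t) {x : P.I →₀ R} (hx : x ∈ Pn P m) :
    Φ x ∈ Pn P' t := by
  rw [← comb hx (fun i => Φ (gen P i)) Φ fun _ _ => rfl]
  refine comb_mem hx _ _ fun i hi j => ?_
  rw [← isC_gen h]
  exact ⟨fun hj => (h i j).1 (by rw [hi, ht]; exact hj), (h i j).2.2⟩

lemma isC_of (s : P.I → (P.I →₀ R) →ₗ[R] (P'.I →₀ R))
    (hs : ∀ i, s i (gen P i) ∈ Pn P' (P.deg i + n)) :
    IsC P P' R n (linearCombination R fun i => s i (gen P i)) := fun i j => by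
  simp only [linearCombination_single, one_smul]
  refine ⟨(hs i j).1, ?_, (hs i j).2⟩
  rw [← Finsupp.smul_apply, ← map_smul, eps_gen]
end

lemma d_isC : IsC P P R 1 P.d := P.d_isM

lemma d_mem {m t : ℤ} (ht : m + 1 = t) {x : P.I →₀ R} (hx : x ∈ Pn P m) : P.d x ∈ Pn P t :=
  isC_mem d_isC ht hx

lemma dd (x : P.I →₀ R) : P.d (P.d x) = 0 := LinearMap.congr_fun P.dd x

open Classical in
variable (P) in
/-- the projection to degree `m` -/
def pr (m : ℤ) : (P.I →₀ R) →ₗ[R] (P.I →₀ R) :=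
  linearCombination R fun i => if P.deg i = m then gen P i else 0

lemma pr_mem (m : ℤ) (x : P.I →₀ R) : pr P m x ∈ Pn P m := by
  rw [pr, linearCombination_apply]
  refine Submodule.sum_mem _ fun i _ => Submodule.smul_mem _ _ ?_
  split_ifs with h
  · exact h ▸ gen_mem P i
  · exact zero_mem _

lemma pr_self {m : ℤ} {x : P.I →₀ R} (hx : x ∈ Pn P m) : pr P m x = x :=
  comb hx _ LinearMap.id fun i hi => by simp [hi]

lemma pr_ne {m t : ℤ} (h : m ≠ t) {x : P.I →₀ R} (hx : x ∈ Pn P m) : pr P t x = 0 :=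
  comb hx _ 0 fun i hi => by simp [hi, h]

lemma pr_one (m : ℤ) (i : P.I) : pr P m (single i 1) = pr P m (gen P i) := by
  by_cases h : P.deg i = m
  · rw [pr_self (x := gen P i) (h ▸ gen_mem P i)]; simp [pr, h]
  · rw [pr_ne h (gen_mem P i)]; simp [pr, h]

instance (m : ℤ) : Module.Projective R (Pn P m) :=
  Module.Projective.of_split (Pn P m).subtype ((pr P m).codRestrict _ (pr_mem m))
    (LinearMap.ext fun x => Subtype.ext (pr_self x.2))

instance (m : ℤ) : Module.Finite R (Pn P m) := by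
  rw [Module.Finite.iff_fg, Submodule.fg_def]
  refine ⟨gen P '' {i | P.deg i = m}, (P.fin m).image _, le_antisymm ?_ fun x hx => ?_⟩
  · rw [Submodule.span_le]
    rintro _ ⟨i, hi, rfl⟩
    exact (show P.deg i = m from hi) ▸ gen_mem P i
  · have := comb hx (gen P) LinearMap.id fun _ _ => rfl
    rw [LinearMap.id_apply] at this
    rw [← this]
    exact comb_mem hx _ _ fun i hi => Submodule.subset_span ⟨i, hi, rfl⟩

/-- the point -/
def pt0 : (pt R).I := ()

lemma δ_row (v : Ch (pt R) P R) (x : (pt R).I →₀ R) : δ (pt R) P R v x = P.d (v x) := by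
  have : (pt R).d = 0 := rfl
  rw [δ, tens_self, this]; simp

lemma δ_col (w : Ch P (pt R) R) (x : P.I →₀ R) : δ P (pt R) R w x = w (P.d x) := by
  have : (pt R).d = 0 := rfl
  rw [δ, tens_self, this]; simp

lemma pt_deg (i : (pt R).I) : (pt R).deg i = 0 := rfl
lemma pt_eps (i : (pt R).I) : (pt R).ε i = 1 := rfl

lemma row_ex (h : Row P R) {m t : ℤ} (ht : m + 1 = t) {x : P.I →₀ R} (hx : x ∈ Pn P t)
    (h0 : P.d x = 0) : ∃ y ∈ Pn P m, P.d y = x := by
  obtain ⟨Ψ, h1, h2⟩ := h t (linearCombination R fun _ => x) ⟨fun i j => by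
    simp only [linearCombination_single, one_smul, pt_deg, pt_eps, zero_add]
    exact ⟨(hx j).1, trivial, (hx j).2⟩, by
    refine Finsupp.lhom_ext fun i r => ?_
    simp [δ_row, h0]⟩
  refine ⟨Ψ (single pt0 1), fun j => ⟨fun hj => (h1 pt0 j).1 (by rw [pt_deg]; omega),
    (h1 pt0 j).2.2⟩, ?_⟩
  have := LinearMap.congr_fun h2 (single pt0 1)
  simpa [δ_row] using this

lemma col_ex (h : Col P R) {m : ℤ} (g : (P.I →₀ R) →ₗ[R] R)
    (h0 : ∀ x ∈ Pn P (m - 1), g (P.d x) = 0) :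
    ∃ g' : (P.I →₀ R) →ₗ[R] R, ∀ x ∈ Pn P m, g' (P.d x) = g x := by
  obtain ⟨Ψ, h1, h2⟩ := h (-m) (lsingle pt0 ∘ₗ g ∘ₗ pr P m) ⟨fun i j => by
    obtain rfl : j = pt0 := rfl
    simp only [LinearMap.comp_apply, lsingle_apply, single_eq_same, pr_one, pt_deg, pt_eps]
    refine ⟨fun hj => ?_, ?_, by simp⟩
    · rw [pr_ne (by omega) (gen_mem P i), map_zero]
    · rw [← map_smul, ← map_smul, eps_gen], by
    refine Finsupp.lhom_ext' fun i => LinearMap.ext_ring ?_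
    simp only [δ_col, LinearMap.comp_apply, lsingle_apply, LinearMap.zero_apply]
    rw [isC_gen d_isC]
    by_cases hi : P.deg i + 1 = m
    · rw [pr_self (d_mem hi (gen_mem P i)), h0 _ (by rw [← hi]; simpa using gen_mem P i)]; simp
    · rw [pr_ne hi (d_mem rfl (gen_mem P i))]; simp⟩
  refine ⟨lapply pt0 ∘ₗ Ψ, fun x hx => ?_⟩
  have := congrArg (fun v : (pt R).I →₀ R => v pt0) (LinearMap.congr_fun h2 x)
  simpa [δ_col, pr_self hx] using this

lemma lift_ex (h : Row P R) {m t : ℤ} (g : Ch P P R)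
    (hg : ∀ x ∈ Pn P m, ∃ y ∈ Pn P t, P.d y = g x) :
    ∃ g' : Ch P P R, ∀ x ∈ Pn P m, g' x ∈ Pn P t ∧ P.d (g' x) = g x := by
  have : ∀ i, ∃ y, P.deg i = m → y ∈ Pn P t ∧ P.d y = g (gen P i) := fun i => by
    by_cases hi : P.deg i = m
    · obtain ⟨y, h1, h2⟩ := hg _ (hi ▸ gen_mem P i)
      exact ⟨y, fun _ => ⟨h1, h2⟩⟩
    · exact ⟨0, fun hh => (hi hh).elim⟩
  choose y hy using this
  refine ⟨linearCombination R y, fun x hx => ⟨comb_mem hx _ _ fun i hi => (hy i hi).1, ?_⟩⟩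
  rw [apply_linearCombination]
  exact comb hx _ _ fun i hi => (hy i hi).2

lemma ext_ex (h : Col P R) {m t : ℤ} (g : Ch P P R) (hg : ∀ x ∈ Pn P m, g x ∈ Pn P t)
    (h0 : ∀ x ∈ Pn P (m - 1), g (P.d x) = 0) :
    ∃ g' : Ch P P R, (∀ x, g' x ∈ Pn P t) ∧ ∀ x ∈ Pn P m, g' (P.d x) = g x := by
  classical
  choose c hc using fun j => col_ex h (m := m) (lapply j ∘ₗ g) fun x hx => by simp [h0 x hx]
  refine ⟨pr P t ∘ₗ ∑ j ∈ (P.fin t).toFinset, lsingle j ∘ₗ c j, fun x => pr_mem _ _, fun x hx => ?_⟩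
  rw [LinearMap.comp_apply, ← pr_self (hg x hx)]
  congr 1
  ext j
  simp only [LinearMap.sum_apply, LinearMap.comp_apply, lsingle_apply, hc _ x hx, lapply_apply,
    finsetSum_apply, single_apply, Finset.sum_ite_eq', Set.Finite.mem_toFinset, Set.mem_ofPred_eq]
  split_ifs with hj
  · rfl
  · exact ((hg x hx j).1 hj).symm

/-- solve `δ Ψ = Φ` from a seed -/
lemma solve (h2 : (2 : R) = 0) (hr : Row P R) (hc : Col P R) {n : ℤ} {Φ : Ch P P R}
    (hΦ : Cy P P R (n + 1) Φ) (m0 : ℤ) (ψ : Ch P P R) (hψ : ∀ x ∈ Pn P m0, ψ x ∈ Pn P (m0 + n))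
    (hψ' : ∀ x ∈ Pn P (m0 - 1), P.d (ψ (P.d x)) = P.d (Φ x)) :
    ∃ Ψ, IsC P P R n Ψ ∧ δ P P R Ψ = Φ ∧ ∀ x ∈ Pn P m0, Ψ x = ψ x := by
  have two : ∀ x : P.I →₀ R, x + x = 0 := fun x => by rw [← two_smul R, h2, zero_smul]
  have cy : ∀ x, Φ (P.d x) + P.d (Φ x) = 0 := fun x => by
    simpa [δ, tens_self] using LinearMap.congr_fun hΦ.2 x
  have cy' : ∀ x, Φ (P.d x) = P.d (Φ x) := fun x => by
    rw [← add_zero (Φ _), ← two (P.d (Φ x)), ← add_assoc, cy, zero_add]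
  obtain ⟨s, s0, hs⟩ := zseq
    (fun m (ψ : Ch P P R) => (∀ x ∈ Pn P m, ψ x ∈ Pn P (m + n)) ∧
      ∀ x ∈ Pn P (m - 1), P.d (ψ (P.d x)) = P.d (Φ x))
    (fun m ψ ψ' => ∀ x ∈ Pn P m, ψ' (P.d x) + P.d (ψ x) = Φ x)
    (fun m a ha => by
      obtain ⟨b, b1, b2⟩ := ext_ex hc (m := m) (t := m + 1 + n) (Φ + P.d ∘ₗ a)
        (fun x hx => add_mem (isC_mem hΦ.1 (by ring) hx) (d_mem (by ring) (ha.1 x hx)))
        (fun x hx => by simp [ha.2 x hx, cy])
      refine ⟨b, ⟨fun x _ => b1 x, fun x hx => ?_⟩, fun x hx => ?_⟩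
      · rw [b2 x (by simpa using hx)]; simp [dd]
      · rw [b2 x hx]; simp [add_assoc, two])
    (fun m b hb => by
      obtain ⟨a, ha⟩ := lift_ex hr (m := m) (t := m + n) (Φ + b ∘ₗ P.d) fun x hx =>
        row_ex hr (t := m + 1 + n) (by ring)
          (add_mem (isC_mem hΦ.1 (by ring) hx) (hb.1 _ (d_mem rfl hx)))
          (by simp [hb.2 x (by simpa using hx), two])
      refine ⟨a, ⟨fun x hx => (ha x hx).1, fun x hx => ?_⟩, fun x hx => ?_⟩
      · rw [(ha _ (d_mem (by ring) hx)).2]; simp [dd, cy']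
      · rw [(ha x hx).2]
        simp only [LinearMap.add_apply, LinearMap.comp_apply]
        rw [add_comm (Φ x), ← add_assoc, two, zero_add])
    m0 ψ ⟨hψ, hψ'⟩
  have hC := isC_of (n := n) (fun i => s (P.deg i)) fun i => (hs _).1.1 _ (gen_mem P i)
  have hv : ∀ m, ∀ x ∈ Pn P m, (linearCombination R fun i => s (P.deg i) (gen P i)) x = s m x :=
    fun m x hx => comb hx _ _ fun i hi => by rw [hi]
  refine ⟨_, hC, ?_, fun x hx => by rw [hv m0 x hx, s0]⟩
  refine Finsupp.lhom_ext' fun i => LinearMap.ext_ring ?_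
  simp only [δ, tens_self, LinearMap.comp_apply, lsingle_apply, LinearMap.add_apply]
  rw [isC_gen d_isC, isC_gen hC, isC_gen hΦ.1, hv _ _ (gen_mem P i),
    hv _ _ (d_mem rfl (gen_mem P i))]
  exact (hs _).2 _ (gen_mem P i)

variable (P) in
/-- the syzygy `d (P m)` -/
def Zn (m : ℤ) : Submodule R (P.I →₀ R) := (Pn P m).map P.d

variable (P) in
def pz (m : ℤ) : (P.I →₀ R) →ₗ[R] Zn P m :=
  (P.d ∘ₗ pr P m).codRestrict _ fun x => ⟨_, pr_mem m x, rfl⟩

lemma pz_val {m : ℤ} {x : P.I →₀ R} (hx : x ∈ Pn P m) : (pz P m x).1 = P.d x := by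
  simp [pz, pr_self hx]

lemma pz_d {m : ℤ} {x : P.I →₀ R} (hx : x ∈ Pn P (m - 1)) : pz P m (P.d x) = 0 :=
  Subtype.ext (by rw [pz_val (d_mem (by ring) hx), dd]; rfl)

/-- stable maps vanish -/
lemma stable (h2 : (2 : R) = 0) (hr : Row P R) (hc : Col P R) {m t : ℤ} (hv : Van P P R (t - m))
    (f : Zn P m →ₗ[R] Zn P t) :
    ∃ Ψ : Ch P P R, (∀ x ∈ Pn P (m + 1), Ψ x ∈ Pn P t) ∧ ∀ z : Zn P m, P.d (Ψ z.1) = (f z).1 := by
  obtain ⟨ψ, hψ⟩ := lift_ex hr (m := m) (t := t) ((Zn P t).subtype ∘ₗ f ∘ₗ pz P m)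
    fun x hx => (f (pz P m x)).2
  obtain ⟨Φ, h1, h3, h4⟩ := solve h2 hr hc (n := t - m) (Φ := 0) ⟨fun i j => by simp, by simp [δ]⟩ m ψ
    (fun x hx => by simpa using (hψ x hx).1)
    (fun x hx => by rw [(hψ _ (d_mem (by ring) hx)).2]; simp [pz_d hx])
  obtain ⟨Ψ, k1, k2⟩ := hv Φ ⟨h1, h3⟩
  refine ⟨Ψ, fun x hx => isC_mem k1 (by ring) hx, ?_⟩
  rintro ⟨_, x, hx, rfl⟩
  have e : (⟨P.d x, x, hx, rfl⟩ : Zn P m) = pz P m x := Subtype.ext (pz_val hx).symm
  have := congrArg P.d (LinearMap.congr_fun k2 x)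
  rw [h4 x hx, (hψ x hx).2] at this
  rw [e, pz_val hx]
  simpa [δ, tens_self, dd] using this

lemma one_gen (i : P.I) : P.one (single i 1) = gen P i := by simp [Cx.one, gen]

lemma one_eq : P.one = linearCombination R fun i => LinearMap.id (R := R) (gen P i) :=
  Finsupp.lhom_ext' fun i => LinearMap.ext_ring (by simp [one_gen])

lemma one_isC : IsC P P R 0 P.one := by
  rw [one_eq]
  exact isC_of (fun _ => LinearMap.id) fun i => by simpa using gen_mem P i

lemma one_self {m : ℤ} {x : P.I →₀ R} (hx : x ∈ Pn P m) : P.one x = x := by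
  rw [one_eq]; exact comb hx _ LinearMap.id fun _ _ => rfl

lemma not_proj (h2 : (2 : R) = 0) (hr : Row P R) (hc : Col P R) (hne : ¬ Bd P P R 0 P.one) :
    ¬ Module.Projective R (Zn P 0) := by
  intro hp
  have two : ∀ x : P.I →₀ R, x + x = 0 := fun x => by rw [← two_smul R, h2, zero_smul]
  obtain ⟨s, hs⟩ := Module.projective_lifting_property (pz P 0 ∘ₗ (Pn P 0).subtype) LinearMap.id
    (by rintro ⟨_, x, hx, rfl⟩; exact ⟨⟨x, hx⟩, Subtype.ext (pz_val hx)⟩)
  obtain ⟨g, g1, g2⟩ := ext_ex hc (m := 0) (t := 0) ((Pn P 0).subtype ∘ₗ s ∘ₗ pz P 0)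
    (fun x _ => (s _).2) (fun x hx => by simp [pz_d hx])
  obtain ⟨Ψ, h1, h3, -⟩ := solve h2 hr hc (n := -1) (Φ := P.one) ⟨by simpa using one_isC, by
      refine Finsupp.lhom_ext' fun i => LinearMap.ext_ring ?_
      simp only [δ, tens_self, LinearMap.comp_apply, lsingle_apply, LinearMap.add_apply]
      rw [one_gen, isC_gen d_isC, one_self (d_mem rfl (gen_mem P i)), two]; rfl⟩ 1 g
    (fun x _ => by simpa using g1 x) (fun x hx => by
      have hx' : x ∈ Pn P 0 := by simpa using hx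
      rw [g2 x hx', one_self hx', ← pz_val hx']
      have := congrArg Subtype.val (LinearMap.congr_fun hs (pz P 0 x))
      rw [LinearMap.id_apply] at this
      rw [← this]
      exact (pz_val (s _).2).symm)
  exact hne ⟨Ψ, by simpa using h1, h3⟩

lemma mk_pow {k L B : Type} [Field k] [Ring L] [Algebra k L] [Ring B] [Algebra k B]
    (π : L →ₐ[k] B) (n : ℕ) (x : L) (hx : x ∈ RingHom.ker π ^ n) :
    TL.TA.mk x 0 ∈ RingHom.ker (π.comp (TL.fstA (k := k) (L := L))) ^ n := by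
  induction n generalizing x with
  | zero => rw [Submodule.pow_zero, Ideal.one_eq_top]; trivial
  | succ n ih =>
    rw [Submodule.pow_succ] at hx ⊢
    refine Submodule.smul_induction_on (p := fun x : L => TL.TA.mk x 0 ∈
      RingHom.ker (π.comp (TL.fstA (k := k) (L := L))) ^ n * RingHom.ker (π.comp TL.fstA))
      hx (fun r hr s hs => ?_) (fun a b ha hb => ?_)
    · have : (TL.TA.mk (r • s) 0 : TL.TA k L) = TL.TA.mk r 0 * TL.TA.mk s 0 :=
        TL.TA.ext' rfl fun c => by simp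
      rw [this]
      exact Ideal.mul_mem_mul (ih r hr) hs
    · have : (TL.TA.mk (a + b) 0 : TL.TA k L) = TL.TA.mk a 0 + TL.TA.mk b 0 :=
        TL.TA.ext' rfl fun c => by simp
      rw [this]
      exact add_mem ha hb

theorem symStmt : SymStmt := by
  intro k _ _ ⟨L, _, _, P, fd, ⟨π, hπ, ⟨N, hN⟩, h4⟩, hr, hc, hv, hne⟩
  have h2 : (2 : L) = 0 := by
    rw [← map_ofNat (algebraMap k L) 2, CharTwo.two_eq_zero, map_zero]
  have le : ∀ a : ℕ, Zn P (-((a + 1 : ℕ) : ℤ)) ≤ Pn P (-(a : ℤ)) := by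
    rintro a _ ⟨x, hx, rfl⟩
    exact d_mem (by push_cast; ring) hx
  obtain ⟨m1, m2, m3⟩ := TL.main (k := k) (L := L) (fun a => Zn P (-(a : ℤ))) (fun a => Pn P (-(a : ℤ)))
    (fun a => Submodule.inclusion (le a)) (fun a => pz P _ ∘ₗ (Pn P _).subtype)
    (fun a => Submodule.inclusion_injective _)
    (fun a x => ⟨fun hx => by
        obtain ⟨y, y1, y2⟩ := row_ex hr (m := -((a + 1 : ℕ) : ℤ)) (by push_cast; ring) x.2
          ((pz_val x.2).symm.trans (congrArg Subtype.val hx))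
        exact ⟨⟨_, y, y1, rfl⟩, Subtype.ext y2⟩, by
      rintro ⟨⟨_, y, hy, rfl⟩, rfl⟩
      exact pz_d (m := -(a : ℤ)) (x := y)
        (by rw [show -(a : ℤ) - 1 = -((a + 1 : ℕ) : ℤ) by push_cast; ring]; exact hy)⟩)
    (fun a => by rintro ⟨_, x, hx, rfl⟩; exact ⟨⟨x, hx⟩, Subtype.ext (pz_val hx)⟩)
    (fun a f => by
      obtain ⟨g, hg⟩ := col_ex hc (m := -((a + 1 : ℕ) : ℤ)) (f ∘ₗ pz P _) fun x hx => by
        rw [LinearMap.comp_apply, pz_d hx, map_zero]
      refine ⟨g ∘ₗ (Pn P _).subtype, LinearMap.ext ?_⟩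
      rintro ⟨_, x, hx, rfl⟩
      have e : (⟨P.d x, x, hx, rfl⟩ : Zn P _) = pz P _ x := Subtype.ext (pz_val hx).symm
      exact (hg x hx).trans (congrArg f e.symm))
    (fun a f => by
      obtain ⟨Ψ, p1, p2⟩ := stable h2 hr hc (hv _ (by omega) (by omega)) f
      refine ⟨pz P _ ∘ₗ Ψ ∘ₗ (Pn P _).subtype, LinearMap.ext fun z => Subtype.ext ?_⟩
      rw [← p2]
      exact pz_val (p1 z.1
        (by rw [show -((a + 1 : ℕ) : ℤ) + 1 = -(a : ℤ) by push_cast; ring]; exact le a z.2)))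
    (fun a f => by
      obtain ⟨Ψ, p1, p2⟩ := stable h2 hr hc (hv _ (by omega) (by omega)) f
      have hz : ∀ z : Zn P (-((0 : ℕ) : ℤ)), Ψ z.1 ∈ Pn P (-((a + 2 : ℕ) : ℤ)) := by
        rintro ⟨_, x, hx, rfl⟩
        exact p1 _ (d_mem rfl hx)
      refine ⟨(Ψ ∘ₗ (Zn P _).subtype).codRestrict _ hz, LinearMap.ext fun z => Subtype.ext ?_⟩
      rw [← p2]
      exact pz_val (hz z))
    (by rw [Nat.cast_zero, neg_zero]; exact not_proj h2 hr hc hne)
  refine ⟨TL.TA k L, inferInstance, inferInstance, inferInstance,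
    ⟨π.comp TL.fstA, TL.pi_surj π hπ, ⟨N + N, TL.pi_nilp π N hN⟩, fun h0 => h4 ?_⟩, TL.symm,
    ModuleCat.of _ (TL.F k L (Zn P (-((0 : ℕ) : ℤ)))), m1, m2, m3⟩
  rw [eq_bot_iff]
  intro x hx
  have := mk_pow π 4 x hx
  rw [h0] at this
  exact congrArg Prod.fst this

end Crest.Agent.H8.TkSym
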